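import Vale.Agent.P253.R2.H451.KP
import Vale.Agent.P253.R2.H156.Glob

/-!
P253 M8: KP' in the form used by M10.
-/

open scoped Manifold ContDiff Topology Bundle
open Set Metric Complex Filter Bundle IsManifold

noncomputable section

namespace Vale.Agent.P253.R2.H451

open Mfd

variable {E : Type*} [NormedAddCommGroup E] [NormedSpace ℂ E] [FiniteDimensional ℂ E]
  {M : Type*} [MetricSpace M] [ChartedSpace E M]
  [IsManifold 𝓘(ℂ, E) 1 M] [IsManifold 𝓘(ℝ, E) ∞ M]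
  [RiemannianBundle (fun x : M => TangentSpace 𝓘(ℝ, E) x)]
  [IsContMDiffRiemannianBundle 𝓘(ℝ, E) ∞ E (fun x : M => TangentSpace 𝓘(ℝ, E) x)]
  [IsRiemannianManifold 𝓘(ℝ, E) M]

theorem kp_prop [CompleteSpace M] (hK : IsKahler E M)
    (hnn : ∀ x : M, NonnegBisectionalAt E x) : H156.KP E M :=
  fun _ _ _ _ _ _ hG h1 h2 hr hU hUr hc0 hc1 hin _ hesc =>
    kp hK hnn hG h1 h2 hr hU hUr hc0 hc1 hin hesc

end Vale.Agent.P253.R2.H451

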