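import Vale.Agent.P253.R2.H451.Disc

/-!
P253 M8: the punctured limit disc has finite area.
-/

open Set Filter Complex Metric MeasureTheory
open scoped Topology ContDiff InnerProductSpace ComplexConjugate ENNReal

noncomputable section

namespace Vale.Agent.P253.R2.H451

open Vale.Agent.P253.R2.H66 Vale.Agent.P253.R2.H380

/-- the closed square -/
def sq (a : ℝ) : Set ℂ := {z : ℂ | |z.re| ≤ a ∧ |z.im| ≤ a}

theorem sq_subset {r : ℝ} : sq (r / 2) ⊆ closedBall (0 : ℂ) r := by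
  intro z hz
  rw [mem_closedBall_zero_iff]
  refine (Complex.norm_le_abs_re_add_abs_im z).trans ?_
  linarith [hz.1, hz.2]

theorem sq_isCompact (r : ℝ) : IsCompact (sq (r / 2)) := by
  refine (isCompact_closedBall (0 : ℂ) r).of_isClosed_subset ?_ sq_subset
  exact (isClosed_le (continuous_abs.comp Complex.continuous_re) continuous_const).inter
    (isClosed_le (continuous_abs.comp Complex.continuous_im) continuous_const)

/-- Fatou -/
theorem fatou_aux {Q : Set ℂ} (hQm : MeasurableSet Q) {q : ℝ → ℂ → ℝ}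
    (hqcs : ∀ s ∈ Ioc (0 : ℝ) 1, ContinuousOn (q s) Q) {C : ℝ}
    (hbound : ∀ s ∈ Ioc (0 : ℝ) 1, ∫⁻ z in Q, ENNReal.ofReal (q s z) ≤ ENNReal.ofReal C)
    (hlim : ∀ z ∈ Q \ {0}, Tendsto (fun s : ℝ => q s z) (𝓝[>] 0) (𝓝 (q 0 z))) :
    ∫⁻ z in Q \ {0}, ENNReal.ofReal (q 0 z) ≤ ENNReal.ofReal C := by
  set sn : ℕ → ℝ := fun n => 1 / ((n : ℝ) + 1) with hsn
  have hsn1 : ∀ n, sn n ∈ Ioc (0 : ℝ) 1 := by
    intro n
    refine ⟨by positivity, ?_⟩
    rw [hsn, div_le_one (by positivity)]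
    have : (0 : ℝ) ≤ n := Nat.cast_nonneg n
    linarith
  have hsn0 : Tendsto sn atTop (𝓝[>] 0) :=
    tendsto_nhdsWithin_iff.2 ⟨tendsto_one_div_add_atTop_nhds_zero_nat,
      Eventually.of_forall fun n => (hsn1 n).1⟩
  have hQ'm : MeasurableSet (Q \ {0}) := hQm.diff (measurableSet_singleton _)
  calc ∫⁻ z in Q \ {0}, ENNReal.ofReal (q 0 z)
      = ∫⁻ z in Q \ {0}, liminf (fun n => ENNReal.ofReal (q (sn n) z)) atTop := by
        refine setLIntegral_congr_fun hQ'm fun z hz => ?_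
        exact ((ENNReal.continuous_ofReal.tendsto _).comp ((hlim z hz).comp hsn0)).liminf_eq.symm
    _ ≤ liminf (fun n => ∫⁻ z in Q \ {0}, ENNReal.ofReal (q (sn n) z)) atTop := by
        refine lintegral_liminf_le' fun n => ?_
        exact ((hqcs _ (hsn1 n)).mono sdiff_subset).aemeasurable hQ'm |>.ennreal_ofReal
    _ ≤ ENNReal.ofReal C := by
        refine liminf_le_of_le (by isBoundedDefault) fun b hb => ?_
        obtain ⟨n, hn⟩ := hb.exists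
        exact hn.trans ((lintegral_mono_set sdiff_subset).trans (hbound _ (hsn1 n)))

variable {E : Type*} [NormedAddCommGroup E] [NormedSpace ℂ E] [FiniteDimensional ℂ E]
  {V : Type*} [NormedAddCommGroup V] [InnerProductSpace ℂ V] [FiniteDimensional ℂ V]
  {S : Set E} {g : E → E → E → ℝ} (A : V ≃L[ℂ] E)

/-- the velocity of the discs -/
def vel (c0 c1 : ℂ → E) (s : ℝ) (z : ℂ) : E := deriv c0 z + (s : ℂ) • deriv c1 z

/-- the area density of the discs -/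
def dens (A : V ≃L[ℂ] E) (g : E → E → E → ℝ) (c0 c1 : ℂ → E) (s : ℝ) (z : ℂ) : ℝ :=
  kform A g (fam c0 c1 s z) (vel c0 c1 s z) (I • vel c0 c1 s z)

theorem fderiv_fam {c0 c1 : ℂ → E} {U : Set ℂ} (hU : IsOpen U)
    (hc0 : DifferentiableOn ℂ c0 U) (hc1 : DifferentiableOn ℂ c1 U) (s : ℝ) {z : ℂ} (hz : z ∈ U)
    (u : ℂ) : fderiv ℝ (fam c0 c1 s) z u = u • vel c0 c1 s z := by
  have hderiv : deriv (fam c0 c1 s) z = vel c0 c1 s z := by
    have d0 := (hc0.differentiableAt (hU.mem_nhds hz)).hasDerivAt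
    have d1 := (hc1.differentiableAt (hU.mem_nhds hz)).hasDerivAt
    exact (d0.add (d1.const_smul (s : ℂ))).deriv
  have := fderiv_comp_hol (H := fun x : E => x)
    (fam_analyticAt hU hc0 hc1 s hz).differentiableAt differentiableAt_id u
  rw [fderiv_fun_id, ContinuousLinearMap.id_apply] at this
  rw [← hderiv]
  exact this

theorem dens_eq (h : KMetric S g) {c0 c1 : ℂ → E} {s : ℝ} {z : ℂ} (hz : fam c0 c1 s z ∈ S) :
    dens A g c0 c1 s z = g (fam c0 c1 s z) (vel c0 c1 s z) (vel c0 c1 s z) := by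
  rw [dens, kform_apply A h hz, h.herm _ hz]

theorem dens_nonneg (h : KMetric S g) {c0 c1 : ℂ → E} {s : ℝ} {z : ℂ}
    (hz : fam c0 c1 s z ∈ S) : 0 ≤ dens A g c0 c1 s z := by
  rw [dens_eq A h hz]; exact h.nonneg hz _

theorem dens_continuousOn (h : KMetric S g) {c0 c1 : ℂ → E} {U : Set ℂ} (hU : IsOpen U)
    (hc0 : DifferentiableOn ℂ c0 U) (hc1 : DifferentiableOn ℂ c1 U) :
    ContinuousOn (fun p : ℝ × ℂ => dens A g c0 c1 p.1 p.2)
      {p : ℝ × ℂ | p.2 ∈ U ∧ fam c0 c1 p.1 p.2 ∈ S} := by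
  have f1 : ContinuousOn (fun p : ℝ × ℂ => fam c0 c1 p.1 p.2)
      {p : ℝ × ℂ | p.2 ∈ U ∧ fam c0 c1 p.1 p.2 ∈ S} :=
    (fam_continuousOn hU hc0 hc1).mono fun p hp => ⟨mem_univ _, hp.1⟩
  have f2 : ContinuousOn (fun p : ℝ × ℂ => kform A g (fam c0 c1 p.1 p.2))
      {p : ℝ × ℂ | p.2 ∈ U ∧ fam c0 c1 p.1 p.2 ∈ S} :=
    (kform_contDiffOn A h).continuousOn.comp f1 fun p hp => hp.2
  have f3 : ContinuousOn (fun p : ℝ × ℂ => vel c0 c1 p.1 p.2)
      {p : ℝ × ℂ | p.2 ∈ U ∧ fam c0 c1 p.1 p.2 ∈ S} := by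
    have g0 : ContinuousOn (deriv c0) U := (hc0.deriv hU).continuousOn
    have g1 : ContinuousOn (deriv c1) U := (hc1.deriv hU).continuousOn
    have m : MapsTo (Prod.snd : ℝ × ℂ → ℂ) {p : ℝ × ℂ | p.2 ∈ U ∧ fam c0 c1 p.1 p.2 ∈ S} U :=
      fun p hp => hp.1
    exact (g0.comp continuousOn_snd m).add
      (((Complex.continuous_ofReal.comp continuous_fst).continuousOn).smul
        (g1.comp continuousOn_snd m))
  exact (f2.clm_apply f3).clm_apply (f3.const_smul I)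

theorem dens_bound {c0 c1 : ℂ → E} {U : Set ℂ} {r : ℝ} (h : KMetric S g) (hS : IsOpen S)
    (hU : IsOpen U) (hr : 0 < r)
    (hUr : closedBall (0 : ℂ) r ⊆ U) (hc0 : DifferentiableOn ℂ c0 U)
    (hc1 : DifferentiableOn ℂ c1 U)
    (hmem : ∀ s ∈ Icc (0 : ℝ) 1, ∀ z ∈ closedBall (0 : ℂ) r, (s, z) ≠ (0, 0) →
      fam c0 c1 s z ∈ S) :
    ∃ C, ∀ s ∈ Ioc (0 : ℝ) 1, |∫ z in sq (r / 2), dens A g c0 c1 s z| ≤ C := by
  have ha0 : 0 < r / 2 := by positivity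
  obtain ⟨C, hC⟩ := area_bound (G := S) hS
    ((kform_contDiffOn A h).of_le (by norm_num))
    (fun x hx v w => kform_anti A h hx v w) (fun x hx u v w => kform_closed A h hS hx u v w)
    ha0 (F := fam c0 c1) (W := univ ×ˢ U) (isOpen_univ.prod hU) (fam_contDiffOn hU hc0 hc1)
    (fun s _ z h1 h2 => ⟨mem_univ _, hUr (sq_subset ⟨h1, h2⟩)⟩)
    (fun s hs z h1 h2 => hmem s ⟨hs.1.le, hs.2⟩ z (sq_subset ⟨h1, h2⟩)
      fun h0 => hs.1.ne' (Prod.ext_iff.1 h0).1)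
    (fun z h1 h2 h3 => hmem 0 ⟨le_rfl, zero_le_one⟩ z (sq_subset ⟨h1, h2⟩) fun h0 => by
      have hz0 : z = 0 := (Prod.ext_iff.1 h0).2
      rw [hz0] at h3
      simp at h3
      linarith)
  refine ⟨C, fun s hs => le_trans (le_of_eq ?_) (hC s hs)⟩
  congr 1
  refine setIntegral_congr_fun (sq_isCompact r).isClosed.measurableSet fun z hz => ?_
  have hzU := hUr (sq_subset hz)
  simp only [dens]
  rw [fderiv_fam hU hc0 hc1 s hzU, fderiv_fam hU hc0 hc1 s hzU, one_smul]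

attribute [local irreducible] kform fam vel

theorem dens_cont_slice {c0 c1 : ℂ → E} {U : Set ℂ} {r : ℝ} (h : KMetric S g)
    (hU : IsOpen U)
    (hUr : closedBall (0 : ℂ) r ⊆ U) (hc0 : DifferentiableOn ℂ c0 U)
    (hc1 : DifferentiableOn ℂ c1 U)
    (hmem : ∀ s ∈ Icc (0 : ℝ) 1, ∀ z ∈ closedBall (0 : ℂ) r, (s, z) ≠ (0, 0) →
      fam c0 c1 s z ∈ S) {s : ℝ} (hs : s ∈ Ioc (0 : ℝ) 1) :
    ContinuousOn (dens A g c0 c1 s) (sq (r / 2)) := by
  have hf : ContinuousOn (fun z : ℂ => (s, z)) (sq (r / 2)) :=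
    (Continuous.prodMk continuous_const continuous_id).continuousOn
  have hmaps : MapsTo (fun z : ℂ => (s, z)) (sq (r / 2))
      {p : ℝ × ℂ | p.2 ∈ U ∧ fam c0 c1 p.1 p.2 ∈ S} := fun z hz =>
    ⟨hUr (sq_subset hz),
      hmem s ⟨hs.1.le, hs.2⟩ z (sq_subset hz) fun h0 => hs.1.ne' (Prod.ext_iff.1 h0).1⟩
  have h1 := (dens_continuousOn A h hU hc0 hc1).comp hf hmaps
  have h2 : (fun p : ℝ × ℂ => dens A g c0 c1 p.1 p.2) ∘ (fun z : ℂ => (s, z)) =
    fun z => dens A g c0 c1 s z := rfl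
  rw [h2] at h1
  exact h1

theorem dens_tendsto {c0 c1 : ℂ → E} {U : Set ℂ} {r : ℝ} (h : KMetric S g)
    (hU : IsOpen U)
    (hUr : closedBall (0 : ℂ) r ⊆ U) (hc0 : DifferentiableOn ℂ c0 U)
    (hc1 : DifferentiableOn ℂ c1 U)
    (hmem : ∀ s ∈ Icc (0 : ℝ) 1, ∀ z ∈ closedBall (0 : ℂ) r, (s, z) ≠ (0, 0) →
      fam c0 c1 s z ∈ S) {z : ℂ} (hz : z ∈ closedBall (0 : ℂ) r) (hz0 : z ≠ 0) :
    Tendsto (fun s : ℝ => dens A g c0 c1 s z) (𝓝[>] 0) (𝓝 (dens A g c0 c1 0 z)) := by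
  have hm0 : fam c0 c1 0 z ∈ S := hmem 0 ⟨le_rfl, zero_le_one⟩ z hz
    fun h0 => hz0 (Prod.ext_iff.1 h0).2
  have hc := (dens_continuousOn A h hU hc0 hc1) (0, z) ⟨hUr hz, hm0⟩
  have ht : Tendsto (fun s : ℝ => (s, z)) (𝓝[>] 0)
      (𝓝[{p : ℝ × ℂ | p.2 ∈ U ∧ fam c0 c1 p.1 p.2 ∈ S}] (0, z)) := by
    refine tendsto_nhdsWithin_iff.2 ⟨?_, ?_⟩
    · have : Continuous fun s : ℝ => (s, z) := by fun_prop
      exact (this.tendsto 0).mono_left nhdsWithin_le_nhds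
    · filter_upwards [Ioc_mem_nhdsGT (zero_lt_one)] with s hs
      exact ⟨hUr hz, hmem _ ⟨hs.1.le, hs.2⟩ z hz fun h0 => hs.1.ne' (Prod.ext_iff.1 h0).1⟩
  have h1 := Tendsto.comp hc ht
  have h2 : (fun p : ℝ × ℂ => dens A g c0 c1 p.1 p.2) ∘ (fun s : ℝ => (s, z)) =
    fun s => dens A g c0 c1 s z := rfl
  rw [h2] at h1
  exact h1

include A in
/-- the punctured limit disc has finite area -/
theorem exists_area {c0 c1 : ℂ → E} {U : Set ℂ} {r : ℝ} (h : KMetric S g) (hS : IsOpen S)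
    (hU : IsOpen U) (hr : 0 < r)
    (hUr : closedBall (0 : ℂ) r ⊆ U) (hc0 : DifferentiableOn ℂ c0 U)
    (hc1 : DifferentiableOn ℂ c1 U)
    (hmem : ∀ s ∈ Icc (0 : ℝ) 1, ∀ z ∈ closedBall (0 : ℂ) r, (s, z) ≠ (0, 0) →
      fam c0 c1 s z ∈ S) :
    ∫⁻ z in ball (0 : ℂ) (r / 2) \ {0},
      ENNReal.ofReal (g (c0 z) (deriv c0 z) (deriv c0 z)) ≠ ⊤ := by
  have hQm : MeasurableSet (sq (r / 2)) := (sq_isCompact r).isClosed.measurableSet
  obtain ⟨C, hC⟩ := dens_bound A h hS hU hr hUr hc0 hc1 hmem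
  have hbound : ∀ s ∈ Ioc (0 : ℝ) 1, ∫⁻ z in sq (r / 2), ENNReal.ofReal (dens A g c0 c1 s z) ≤
      ENNReal.ofReal C := by
    intro s hs
    have hms : ∀ z ∈ sq (r / 2), fam c0 c1 s z ∈ S := fun z hz =>
      hmem s ⟨hs.1.le, hs.2⟩ z (sq_subset hz) fun h0 => hs.1.ne' (Prod.ext_iff.1 h0).1
    rw [← ofReal_integral_eq_lintegral_ofReal]
    · exact ENNReal.ofReal_le_ofReal ((le_abs_self _).trans (hC s hs))
    · exact (dens_cont_slice A h hU hUr hc0 hc1 hmem hs).integrableOn_compact (sq_isCompact r)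
    · filter_upwards [ae_restrict_mem hQm] with z hz
      exact dens_nonneg A h (hms z hz)
  have hfatou := fatou_aux hQm (fun s hs => dens_cont_slice A h hU hUr hc0 hc1 hmem hs) hbound
    (fun z hz => dens_tendsto A h hU hUr hc0 hc1 hmem (sq_subset hz.1) hz.2)
  refine ne_top_of_le_ne_top ENNReal.ofReal_ne_top (le_trans ?_ hfatou)
  have hsub : ball (0 : ℂ) (r / 2) \ {0} ⊆ sq (r / 2) \ {0} := by
    rintro z ⟨hz, hz0⟩
    rw [mem_ball_zero_iff] at hz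
    exact ⟨⟨(Complex.abs_re_le_norm z).trans hz.le, (Complex.abs_im_le_norm z).trans hz.le⟩, hz0⟩
  refine le_trans (le_of_eq ?_) (lintegral_mono_set hsub)
  refine setLIntegral_congr_fun (isOpen_ball.measurableSet.diff (measurableSet_singleton _))
    fun z hz => ?_
  have hzQ := hsub hz
  have hm0 : fam c0 c1 0 z ∈ S := hmem 0 ⟨le_rfl, zero_le_one⟩ z (sq_subset hzQ.1)
    fun h0 => hzQ.2 (Prod.ext_iff.1 h0).2
  rw [dens_eq A h hm0, fam_zero]
  simp [vel]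

end Vale.Agent.P253.R2.H451
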