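import Vale.Agent.P253.R2.H451.Comp
import Mathlib.Analysis.Calculus.FDeriv.Star
import Vale.Agent.P253.R2.H66.Hoer1

/-!
P253 M8 (c): the inequality for the inverse metric `G = k⁻¹` from the curvature inequality for `k`.
-/

open Set Filter Complex
open scoped Topology ContDiff InnerProductSpace ComplexConjugate

noncomputable section

namespace Vale.Agent.P253.R2.H451

variable {V : Type*} [NormedAddCommGroup V] [InnerProductSpace ℂ V] [CompleteSpace V]

open Vale.Agent.P253.R2.H66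

theorem dz_dzb_eq_lap {k : ℂ → V →L[ℂ] V} {z : ℂ} (hk : ContDiffAt ℝ 2 k z) :
    dz (dzb k) z = (1 / 4 : ℂ) • lap k z := by
  have h1 : DifferentiableAt ℝ (fderiv ℝ k) z :=
    (hk.fderiv_right (m := 1) (by norm_num)).differentiableAt (by norm_num)
  have hx : DifferentiableAt ℝ (fun y => fderiv ℝ k y 1) z :=
    h1.clm_apply (differentiableAt_const _)
  have hy : DifferentiableAt ℝ (fun y => fderiv ℝ k y I) z :=
    h1.clm_apply (differentiableAt_const _)
  have h2 : ∀ u, fderiv ℝ (dzb k) z u = (1 / 2 : ℂ) •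
      (fderiv ℝ (fun y => fderiv ℝ k y 1) z u + I • fderiv ℝ (fun y => fderiv ℝ k y I) z u) := by
    intro u
    have : dzb k = fun y => (1 / 2 : ℂ) • (fderiv ℝ k y 1 + I • fderiv ℝ k y I) := rfl
    have h3 := ((hx.hasFDerivAt.add (hy.hasFDerivAt.const_smul I)).const_smul (1 / 2 : ℂ)).fderiv
    have h4 : fderiv ℝ (fun y => (1 / 2 : ℂ) • (fderiv ℝ k y 1 + I • fderiv ℝ k y I)) z = _ := h3
    rw [this, h4]
    rfl
  have hsnd : ∀ u v, fderiv ℝ (fun y => fderiv ℝ k y u) z v = fderiv ℝ (fderiv ℝ k) z v u := by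
    intro u v
    rw [fderiv_clm_apply h1 (differentiableAt_const _)]
    simp
  have hsym : fderiv ℝ (fun y => fderiv ℝ k y I) z 1 = fderiv ℝ (fun y => fderiv ℝ k y 1) z I := by
    rw [hsnd, hsnd]
    have := (hk.isSymmSndFDerivAt (by simp)).eq (1 : ℂ) I
    exact this
  rw [dz, h2, h2, hsym, lap]
  have e1 : ∀ a b c : V →L[ℂ] V, (1 / 2 : ℂ) • ((1 / 2 : ℂ) • (a + I • b) -
      I • (1 / 2 : ℂ) • (b + I • c)) = (1 / 4 : ℂ) • (a - (I * I) • c) := by
    intro a b c; module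
  rw [e1, I_mul_I, neg_one_smul, sub_neg_eq_add]

omit [CompleteSpace V] in
/-- algebra behind the inequality -/
theorem quad_aux {B : V → V → ℝ} (hadd : ∀ a b c, B a (b + c) = B a b + B a c)
    (hsymm : ∀ a b, B a b = B b a) (hI : ∀ a b, B (I • a) (I • b) = B a b)
    (hsm : ∀ (r : ℝ) a b, B a (r • b) = r * B a b)
    (hpos : ∀ a, 0 ≤ B a a) {X Y c : V} {L : ℝ}
    (hL : L ≤ 4 * B ((1 / 2 : ℂ) • (X - I • Y)) ((1 / 2 : ℂ) • (X - I • Y))) :
    0 ≤ (2 * B X X + 2 * B Y Y - L) / 4 - B c (X + I • Y) + B c c := by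
  have hadd' : ∀ a b c, B (a + b) c = B a c + B b c := fun a b c => by
    rw [hsymm, hadd, hsymm c a, hsymm c b]
  have hsm' : ∀ (r : ℝ) a b, B (r • a) b = r * B a b := fun r a b => by
    rw [hsymm, hsm, hsymm]
  have hc : ∀ v : V, (1 / 2 : ℂ) • v = (1 / 2 : ℝ) • v := fun v => by
    rw [← Complex.coe_smul (1 / 2 : ℝ) v]; norm_num
  rw [hc] at hL
  have hneg : X - I • Y = X + (-1 : ℝ) • (I • Y) := by rw [neg_one_smul, sub_eq_add_neg]
  have h1 := hpos ((1 / 2 : ℝ) • (X + I • Y) + (-1 : ℝ) • c)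
  rw [hneg] at hL
  simp only [hadd, hadd', hsm, hsm', hI] at hL h1 ⊢
  rw [hsymm (I • Y) X] at hL h1
  rw [hsymm X c, hsymm (I • Y) c] at h1
  nlinarith [hL, h1]

theorem inverse_selfAdjoint {a : V →L[ℂ] V} (ha : IsSelfAdjoint a) :
    IsSelfAdjoint (Ring.inverse a) := by
  rw [isSelfAdjoint_iff, ← Ring.inverse_star, ha.star_eq]

theorem fderiv_selfAdjoint {k : ℂ → V →L[ℂ] V} {z : ℂ} (hk : DifferentiableAt ℝ k z)
    (hsa : ∀ᶠ y in 𝓝 z, IsSelfAdjoint (k y)) (u : ℂ) : IsSelfAdjoint (fderiv ℝ k z u) := by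
  have h1 : (fun y => star (k y)) =ᶠ[𝓝 z] k := hsa.mono fun y hy => hy.star_eq
  have h2 := hk.hasFDerivAt.star
  have h3 := (h2.congr_of_eventuallyEq h1.symm).unique hk.hasFDerivAt
  rw [isSelfAdjoint_iff]
  conv_rhs => rw [← h3]
  simp

theorem inner_selfAdjoint {a : V →L[ℂ] V} (ha : IsSelfAdjoint a) (v w : V) :
    ⟪a v, w⟫_ℂ = ⟪v, a w⟫_ℂ := by
  conv_lhs => rw [← ContinuousLinearMap.adjoint_inner_right]
  rw [← ContinuousLinearMap.star_eq_adjoint, ha.star_eq]

theorem block_ineq {k : ℂ → V →L[ℂ] V} {z : ℂ} (hk : ContDiffAt ℝ 2 k z) (hu : IsUnit (k z))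
    (hsa : ∀ᶠ y in 𝓝 z, IsSelfAdjoint (k y)) (hpos : ∀ v, 0 ≤ (⟪v, k z v⟫_ℂ).re)
    (hcurv : ∀ a, (⟪a, lap k z a⟫_ℂ).re ≤
      4 * (⟪dz k z a, Ring.inverse (k z) (dz k z a)⟫_ℂ).re) (b c : V) :
    0 ≤ (⟪b, lap (fun y => Ring.inverse (k y)) z b⟫_ℂ).re / 4 +
      2 * (⟪c, dzb (fun y => Ring.inverse (k y)) z b⟫_ℂ).re +
      (⟪c, Ring.inverse (k z) c⟫_ℂ).re := by
  set g := Ring.inverse (k z) with hg
  have hd : DifferentiableAt ℝ k z := hk.differentiableAt (by norm_num)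
  have hsz : IsSelfAdjoint (k z) := hsa.self_of_nhds
  have hgs : IsSelfAdjoint g := inverse_selfAdjoint hsz
  have hkg : ∀ v, k z (g v) = v := fun v => by
    have := Ring.mul_inverse_cancel _ hu
    rw [← mul_apply_eq_comp, this]; simp
  have hgpos : ∀ v, 0 ≤ (⟪v, g v⟫_ℂ).re := fun v => by
    have := hpos (g v)
    rw [hkg] at this
    rwa [← inner_selfAdjoint hgs]
  obtain ⟨hG, hG'⟩ := hasFDerivAt_inv hd hu
  set x := fderiv ℝ k z 1 with hx
  set y := fderiv ℝ k z I with hy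
  have hxs : IsSelfAdjoint x := fderiv_selfAdjoint hd hsa 1
  have hys : IsSelfAdjoint y := fderiv_selfAdjoint hd hsa I
  have hlap : lap (fun y => Ring.inverse (k y)) z =
      2 • (g * x * g * x * g) + 2 • (g * y * g * y * g) - g * lap k z * g := by
    rw [lap, inv_second hk hu, inv_second hk hu, lap]
    simp only [mul_add, add_mul]
    abel
  have hdzb : dzb (fun y => Ring.inverse (k y)) z =
      (1 / 2 : ℂ) • (-(g * x * g) + I • (-(g * y * g))) := by
    rw [dzb, hG', hG']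
  -- the form
  set B : V → V → ℝ := fun a b => (⟪a, g b⟫_ℂ).re with hB
  have key := quad_aux (B := B) (X := x (g b)) (Y := y (g b)) (c := c)
    (L := (⟪g b, lap k z (g b)⟫_ℂ).re) ?_ ?_ ?_ ?_ ?_ ?_
  · refine key.trans_eq ?_
    have f1 : (⟪b, lap (fun y => Ring.inverse (k y)) z b⟫_ℂ).re =
        2 * B (x (g b)) (x (g b)) + 2 * B (y (g b)) (y (g b)) -
          (⟪g b, lap k z (g b)⟫_ℂ).re := by
      rw [hlap]
      have g1 : ∀ a : V →L[ℂ] V, IsSelfAdjoint a → ⟪b, (g * a * g * a * g) b⟫_ℂ =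
          ⟪a (g b), g (a (g b))⟫_ℂ := fun a ha => by
        simp only [mul_apply_eq_comp]
        rw [← inner_selfAdjoint hgs, inner_selfAdjoint ha]
      have g2 : ⟪b, (g * lap k z * g) b⟫_ℂ = ⟪g b, lap k z (g b)⟫_ℂ := by
        simp only [mul_apply_eq_comp]
        rw [← inner_selfAdjoint hgs]
      simp only [sub_apply, add_apply, two_smul, inner_sub_right, inner_add_right, g1 x hxs,
        g1 y hys, g2, Complex.sub_re, Complex.add_re, hB]
      ring
    have f2 : 2 * (⟪c, dzb (fun y => Ring.inverse (k y)) z b⟫_ℂ).re =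
        - B c (x (g b) + I • y (g b)) := by
      rw [hdzb]
      simp only [hB, smul_apply, add_apply, neg_apply,
        mul_apply_eq_comp, map_add, map_smul, inner_smul_right, inner_add_right,
        inner_neg_right]
      simp [Complex.mul_re]
      ring
    rw [f1, f2]; ring
  · intro a b c
    simp only [hB, map_add, inner_add_right, Complex.add_re]
  · intro a b
    simp only [hB]
    rw [← inner_selfAdjoint hgs, ← inner_conj_symm, Complex.conj_re]
  · intro a b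
    simp only [hB, map_smul, inner_smul_left, inner_smul_right]
    rw [← mul_assoc]; simp
  · intro r a b
    simp only [hB]
    rw [← Complex.coe_smul, map_smul, inner_smul_right, Complex.re_ofReal_mul]
  · intro a; exact hgpos a
  · exact hcurv (g b)

theorem curvGE_inv {k : ℂ → V →L[ℂ] V} {z : ℂ} (hk : ContDiffAt ℝ 2 k z) (hu : IsUnit (k z))
    (hsa : ∀ᶠ y in 𝓝 z, IsSelfAdjoint (k y)) (hpos : ∀ v, 0 ≤ (⟪v, k z v⟫_ℂ).re)
    (hcurv : ∀ a, (⟪a, lap k z a⟫_ℂ).re ≤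
      4 * (⟪dz k z a, Ring.inverse (k z) (dz k z a)⟫_ℂ).re) :
    CurvGE (fun y => Ring.inverse (k y)) (fun _ => 0) z := by
  intro b c
  have h1 := block_ineq hk hu hsa hpos hcurv b c
  rw [dz_dzb_eq_lap (contDiffAt_inv hk hu), zero_mul]
  have h2 : (⟪b, ((1 / 4 : ℂ) • lap (fun y => Ring.inverse (k y)) z) b⟫_ℂ).re =
      (⟪b, lap (fun y => Ring.inverse (k y)) z b⟫_ℂ).re / 4 := by
    rw [smul_apply, inner_smul_right]
    simp [Complex.mul_re]
    ring
  rw [h2]
  exact h1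

end Vale.Agent.P253.R2.H451
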