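import Vale.Agent.P253.R2.H451.Gen4

/-!
P253: hulls and criteria with hypotheses outside a compact set.
-/

open scoped Manifold ContDiff Topology Bundle
open Set Metric Filter Bundle IsManifold Complex Asymptotics

set_option maxSynthPendingDepth 3
set_option linter.unusedSectionVars false
set_option linter.unusedVariables false

noncomputable section

namespace Vale.Agent.P253.R2.H451

open Vale.Agent.P253.Mfd Vale.Agent.P253.Mfd.LocalKahler Vale.Agent.P253.R2.H618
  Vale.Agent.P253.R2.H922 Vale.Agent.P253.R2.H380.Stein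

variable {E : Type*} [NormedAddCommGroup E] [NormedSpace ℂ E] [FiniteDimensional ℂ E]
  {M : Type*} [MetricSpace M] [ChartedSpace E M]
  [IsManifold 𝓘(ℂ, E) 1 M] [IsManifold 𝓘(ℝ, E) ∞ M]
  [RiemannianBundle (fun x : M => TangentSpace 𝓘(ℝ, E) x)]

/-- the squared norm of a holomorphic map is plurisubharmonic -/
theorem contPsh_normsq {n : ℕ} {F : M → EuclideanSpace ℂ (Fin n)} (hF : IsHolMap E F)
    [IsContMDiffRiemannianBundle 𝓘(ℝ, E) ∞ E (fun x : M => TangentSpace 𝓘(ℝ, E) x)]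
    [IsRiemannianManifold 𝓘(ℝ, E) M] (hK : IsKahler E M) :
    ContPsh E (fun x => ‖F x‖ ^ 2) :=
  SubS.contPsh (subS_of_fourGe hK (hF.continuous.norm.pow 2) fun x _ => ⟨0, le_rfl,
    fourGe_normsq_chart hF fun e he hx Y => by rw [zero_mul]; positivity⟩)

variable [IsContMDiffRiemannianBundle 𝓘(ℝ, E) ∞ E (fun x : M => TangentSpace 𝓘(ℝ, E) x)]
  [IsRiemannianManifold 𝓘(ℝ, E) M]

/-- `i∂∂̄|F|² ≥ c ω` where `|dF(v)|² ≥ c |v|²` -/
theorem weakLevi_normsq_on {n : ℕ} {F : M → EuclideanSpace ℂ (Fin n)} (hF : IsHolMap E F)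
    {c : M → ℝ} {S : Set M} (hc : ∀ x ∈ S, DiffGe E F x (c x)) :
    WeakLevi E (fun x => ‖F x‖ ^ 2) c S :=
  weakLevi_of_fourGe (hF.continuous.norm.pow 2) fun x hx => fourGe_normsq_chart hF
    fun e he hxe Y => chart_of_realDiff hF (hc x hx) he hxe Y

/-- changing a function on a compact set, curvature form -/
theorem fix_compact' (hK : IsKahler E M) [CompleteSpace M] [ConnectedSpace M]
    [NoncompactSpace M] (hnn : ∀ x : M, NonnegBisectionalAt E x) {A : Set M} (hA : IsCompact A)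
    (hpos : (∀ x : M, PosBisectionalAt E x) ∨ A = ∅) {ψ c : M → ℝ} (hψp : ContPsh E ψ)
    (hc : Continuous c) {S : Set M} (hS : IsOpen S) (hψ : WeakLevi E ψ c (S \ A)) :
    ∃ u : M → ℝ, ContPsh E u ∧ (∀ x, 0 ≤ u x) ∧ WeakLevi E (fun x => ψ x + u x) c S := by
  rcases hpos with hpos | rfl
  · obtain ⟨b, hb, hb'⟩ := exists_busemann hK hnn
    exact fix_compact hK hb (fun y => hb' y (hpos y)) hψp hc hS hA hψ
  · rw [diff_empty] at hψ
    exact ⟨fun _ => 0, SubS.contPsh (subS_const _ _), fun x => le_rfl, hψ.add_const 0⟩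

/-- **The hull theorem**, general form. -/
theorem hull_outside (hK : IsKahler E M) [CompleteSpace M] [ConnectedSpace M]
    [NoncompactSpace M] (hnn : ∀ x : M, NonnegBisectionalAt E x) {A : Set M} (hA : IsCompact A)
    (hpos : (∀ x : M, PosBisectionalAt E x) ∨ A = ∅) {ψ φ χ : M → ℝ} (hψp : ContPsh E ψ)
    (hψ0 : ∀ x, 0 ≤ ψ x) (hφ : ContPsh E φ) (hχ : ContPsh E χ)
    (hψ : WeakLevi E ψ (fun x => Real.exp (-φ x)) ({x | 0 < χ x} \ A)) {K : Set M}
    (hKc : IsCompact K) (p : M) :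
    ∃ C : ℝ, ∀ x ∈ pshHull E K, dist p x ^ 2 * χ x ≤ C := by
  have hφc := hφ.1
  obtain ⟨u, hu, hu0, h⟩ := fix_compact' hK hnn hA hpos hψp
    (by fun_prop : Continuous fun x => Real.exp (-φ x)) (isOpen_lt continuous_const hχ.1) hψ
  exact hull_gen hK hnn (SubS.contPsh ((hψp.subS univ).add (hu.subS univ)))
    (fun x => add_nonneg (hψ0 x) (hu0 x)) hφ hχ h hKc p

/-- **Third criterion**, outside a compact set. -/
theorem stein_majorant (hK : IsKahler E M) [CompleteSpace M] [ConnectedSpace M]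
    [NoncompactSpace M] (hnn : ∀ x : M, NonnegBisectionalAt E x) (p : M) {A : Set M}
    (hA : IsCompact A) (hpos : (∀ x : M, PosBisectionalAt E x) ∨ A = ∅) {ψ φ : M → ℝ}
    {lam : ℝ → ℝ} (hlc : Continuous lam) (hl0 : ∀ t, 0 ≤ t → 0 < lam t)
    (hla : AntitoneOn lam (Ici 0)) (hψp : ContPsh E ψ) (hψ0 : ∀ x, 0 ≤ ψ x) (hφ : ContPsh E φ)
    (hψ : WeakLevi E ψ (fun x => Real.exp (-φ x) * lam (dist p x)) Aᶜ)
    (hgrow : Tendsto (fun r : ℝ => ∫ s in (0:ℝ)..r, s * lam s) atTop atTop) :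
    HasSpshExhaustion E M := by
  have hprop : ProperSpace M := properSpace_riemannian E M
  have hφc := hφ.1
  rw [compl_eq_univ_diff] at hψ
  obtain ⟨u, hu, hu0, h⟩ := fix_compact' hK hnn hA hpos hψp
    (by fun_prop : Continuous fun x => Real.exp (-φ x) * lam (dist p x)) isOpen_univ hψ
  exact exhaustion_of_majorant hK hnn p hlc hl0 hla hφ
    (fun x => add_nonneg (hψ0 x) (hu0 x)) h hgrow

/-- strictly plurisubharmonic functions are plurisubharmonic -/
theorem contPsh_of_strict (hK : IsKahler E M) {v : M → ℝ} (hv : Continuous v)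
    (hstr : ∀ y : M, ∃ e ∈ maximalAtlas 𝓘(ℂ, E) 1 M, y ∈ e.source ∧
      ∃ (n : ℕ) (L : E ≃L[ℂ] EuclideanSpace ℂ (Fin n)) (ε : ℝ), 0 < ε ∧
        ∀ (f : ℂ → M) (c : ℂ) (r : ℝ), 0 < r → ContinuousOn f (closedBall c r) →
          MDifferentiableOn 𝓘(ℂ, ℂ) 𝓘(ℂ, E) f (ball c r) →
          (∀ z ∈ closedBall c r, f z ∈ e.source) →
          v (f c) - ε * ‖L (e (f c))‖ ^ 2 ≤
            Real.circleAverage (fun z => v (f z) - ε * ‖L (e (f z))‖ ^ 2) c r) :
    ContPsh E v := by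
  refine contPsh_of_tangent hv fun y => ?_
  obtain ⟨e, he, hye, n, L, ε, hε, hsub⟩ := hstr y
  obtain ⟨S, hSo, hyS, m₀, hm₀, hP⟩ := local_strict hK hv he hye L hε hsub
  refine ⟨S, hSo, hyS, v, rfl, fun x _ => le_rfl, ?_⟩
  have h1 : WeakLevi E (fun x => m₀ * v x + 0) (fun _ => 1) S :=
    weakLevi_of_subOn (by fun_prop) (hP m₀ le_rfl 0)
  have h2 : SubS E (fun x => m₀ * v x + 0) S := by
    refine ⟨by fun_prop, fun f a r hr hf hf' hm => ?_⟩
    have hvc : Continuous fun x => m₀ * v x + 0 := by fun_prop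
    refine submean_of_local (u := fun z => m₀ * v (f z) + 0) hr (hvc.comp_continuousOn hf)
      fun z₀ hz₀ => ?_
    have hz₀S := hm z₀ (ball_subset_closedBall hz₀)
    have hfc : ContinuousAt f z₀ := hf.continuousAt (closedBall_mem_nhds_of_mem hz₀)
    set T : Set M := S ∩ (chartAt E (f z₀)).source with hT
    have hTo : IsOpen T := hSo.inter (chartAt E (f z₀)).open_source
    have hyT : f z₀ ∈ T := ⟨hz₀S, mem_chart_source E _⟩
    have h1' : ∀ᶠ z in 𝓝 z₀, f z ∈ T ∧ z ∈ ball a r :=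
      (hfc.eventually (hTo.mem_nhds hyT)).and (isOpen_ball.mem_nhds hz₀)
    obtain ⟨ρ₀, hρ₀, hball⟩ := Metric.eventually_nhds_iff_ball.1 h1'
    have h2 : ∀ᶠ ρ in 𝓝[>] (0:ℝ), ρ < ρ₀ ∧ 0 < ρ :=
      ((eventually_lt_nhds hρ₀).filter_mono nhdsWithin_le_nhds).and self_mem_nhdsWithin
    filter_upwards [h2] with ρ hρ
    have hsubs : ∀ z ∈ closedBall z₀ ρ, f z ∈ T ∧ z ∈ ball a r := fun z hz =>
      hball z (lt_of_le_of_lt hz hρ.1)
    have hcb : closedBall z₀ ρ ⊆ closedBall a r := fun z hz =>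
      ball_subset_closedBall (hsubs z hz).2
    set e' := chartAt E (f z₀) with he'
    have k1 := h1.2 e' (chart_mem_maximalAtlas _) (e'.target ∩ e'.symm ⁻¹' S) (fun _ => 0)
      (e'.symm.continuousOn.isOpen_inter_preimage e'.open_target hSo) inter_subset_left
      (fun z hz => hz.2) contDiffOn_const (fun z hz w => by
        have hG : 0 ≤ chartMetric e' z w w := real_inner_self_nonneg
        have h3 : levi2 (fun _ : E => (0:ℝ)) z w = 0 := by
          unfold levi2
          have e1 : fderiv ℝ (fun _ : E => (0:ℝ)) = fun _ => 0 := by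
            funext z; simp
          rw [e1]
          simp
        rw [h3]; positivity) f z₀ ρ hρ.2 (hf.mono hcb)
      (hf'.mono fun z hz => (hsubs z (ball_subset_closedBall hz)).2) (fun z hz => by
        have h3 := (hsubs z hz).1
        refine ⟨h3.2, e'.map_source h3.2, ?_⟩
        show e'.symm (e' (f z)) ∈ S
        rw [e'.left_inv h3.2]
        exact h3.1)
    simpa using k1
  have h3 : SubS E (fun x => m₀⁻¹ * (m₀ * v x + 0)) S := h2.const_mul (inv_pos.2 hm₀).le
  have e1 : (fun x => m₀⁻¹ * (m₀ * v x + 0)) = v := by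
    funext x
    field_simp
    ring
  rwa [e1] at h3

/-- on a Stein manifold the hulls of compact sets are bounded -/
theorem isBounded_hull (hK : IsKahler E M) (h : HasSpshExhaustion E M) {K : Set M}
    (hKc : IsCompact K) : Bornology.IsBounded (pshHull E K) := by
  obtain ⟨v, hv, hcpt, hstr⟩ := h
  obtain ⟨t, ht⟩ := (hKc.image hv).bddAbove
  refine (hcpt t).isBounded.subset fun x hx => ?_
  exact hx v (contPsh_of_strict hK hv hstr) t fun y hy => ht (mem_image_of_mem _ hy)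

end Vale.Agent.P253.R2.H451
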