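import Vale.Agent.P253.R2.H451.BusDefs
import Vale.Agent.P253.R2.H451.Gen5
import Vale.Agent.P253.R2.H618.Bus

/-!
P253: the Levi form of the distance function under a lower bound for the bisectional curvature.
-/

open scoped Manifold ContDiff Topology Bundle
open Set Metric Filter Bundle IsManifold Complex Asymptotics

set_option maxSynthPendingDepth 3
set_option linter.unusedSectionVars false
set_option linter.unusedVariables false

noncomputable section

namespace Vale.Agent.P253.R2.H451

open Vale.Agent.P253.Mfd Vale.Agent.P253.Mfd.LocalKahler Vale.Agent.P253.R2.H618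
  Vale.Agent.P253.R2.H922 Vale.Agent.P253.R2.H380.Stein

variable {E : Type*} [NormedAddCommGroup E] [NormedSpace ℂ E] [FiniteDimensional ℂ E]
  {M : Type*} [MetricSpace M] [ChartedSpace E M]
  [IsManifold 𝓘(ℂ, E) 1 M] [IsManifold 𝓘(ℝ, E) ∞ M]
  [RiemannianBundle (fun x : M => TangentSpace 𝓘(ℝ, E) x)]
  [IsContMDiffRiemannianBundle 𝓘(ℝ, E) ∞ E (fun x : M => TangentSpace 𝓘(ℝ, E) x)]
  [IsRiemannianManifold 𝓘(ℝ, E) M]

/-- the curvature lower bound in a chart -/
theorem Rc_ge_chartG (hK : IsKahler E M) {e : OpenPartialHomeomorph M E}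
    (he : e ∈ maximalAtlas 𝓘(ℂ, E) 1 M) {x : M} (hx : x ∈ e.source) {k : ℝ}
    (hk : BisectionalGe E x k) (X a : E) :
    k / 2 * chartG e (e x) X X * chartG e (e x) a a ≤ Rc (chartG e) (e x) X a := by
  have he' := mem_maximalAtlas_real he
  obtain ⟨Γ, hΓ, hb⟩ := hk e he hx
  have hz := e.map_source hx
  have h1 := hb a X
  rw [sectNum_eq he' hz hΓ, sectNum_eq he' hz hΓ, (localKahler_chartG hK he).secG_add hz,
    ← chartG_apply, ← chartG_apply] at h1
  have h2 : k / 2 * chartG e (e x) X X * chartG e (e x) a a =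
      k * chartG e (e x) a a * chartG e (e x) X X / 2 := by ring
  rw [h2]
  linarith

theorem BisectionalGe.mono {x : M} {k k' : ℝ} (h : BisectionalGe E x k) (hk : k' ≤ k) :
    BisectionalGe E x k' := by
  intro e he hx
  obtain ⟨Γ, hΓ, hb⟩ := h e he hx
  refine ⟨Γ, hΓ, fun u v => le_trans ?_ (hb u v)⟩
  have h1 : 0 ≤ chartMetric e (e x) u u := real_inner_self_nonneg
  have h2 : 0 ≤ chartMetric e (e x) v v := real_inner_self_nonneg
  gcongr

/-- integrals of nonincreasing functions over shifted intervals -/
theorem integral_shift_le {k : ℝ → ℝ} (hk : IsDecay k) {a b t : ℝ} (ha : 0 ≤ a) (hab : a ≤ b)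
    (ht : 0 ≤ t) : ∫ s in b..(b + t), k s ≤ ∫ s in a..(a + t), k s := by
  obtain ⟨hkc, hk0, hka⟩ := hk
  have e1 : ∀ c : ℝ, ∫ s in c..(c + t), k s = ∫ s in (0:ℝ)..t, k (c + s) := by
    intro c
    rw [intervalIntegral.integral_comp_add_left, add_zero]
  rw [e1 a, e1 b]
  refine intervalIntegral.integral_mono_on ht
    ((by fun_prop : Continuous fun s => k (b + s)).intervalIntegrable _ _)
    ((by fun_prop : Continuous fun s => k (a + s)).intervalIntegrable _ _) fun s hs => ?_
  have hs0 : 0 ≤ s := hs.1
  exact hka (show (0:ℝ) ≤ a + s by linarith) (show (0:ℝ) ≤ b + s by linarith) (by linarith)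

/-- one approximate version of the estimate -/
theorem levi_curv_aux (hK : IsKahler E M) [ProperSpace M]
    (hnn : ∀ x : M, NonnegBisectionalAt E x) (p : M) {k : ℝ → ℝ} (hk : IsDecay k)
    (hcurv : ∀ x : M, BisectionalGe E x (k (dist p x))) {x q : M} {T : ℝ}
    (hT : 0 ≤ T) (hTq : T < dist x q) : ∃ δ > 0, ∀ s₀ : ℝ, 0 < s₀ → s₀ ≤ δ →
    LeviBound (E := E) q x (2 / (dist x q - T) -
      ∫ s in (dist p x + 2 * s₀)..(dist p x + 2 * s₀ + T), k s) := by
  obtain ⟨δ, hδ, hleb⟩ := lebesgue_number_lemma_of_metric (s := closedBall x T)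
    (c := fun y : M => (chartAt E y).source) (isCompact_closedBall _ _)
    (fun y => (chartAt E y).open_source)
    (fun y _ => mem_iUnion.2 ⟨y, mem_chart_source E y⟩)
  refine ⟨δ / 4, by positivity, fun s₀ hs0 hs1 => ?_⟩
  have hkc := hk.1
  have hint : ∀ a b : ℝ, IntervalIntegrable k MeasureTheory.volume a b := fun a b =>
    hkc.intervalIntegrable a b
  have hmain : ∀ n : ℕ, ∀ y : M, ∀ t : ℝ, 0 ≤ t → dist y x + t ≤ T → t ≤ n * s₀ →
      t < dist y q → LeviBound (E := E) q y (2 / (dist y q - t) -
        ∫ s in (dist p y + 2 * s₀)..(dist p y + 2 * s₀ + t), k s) := by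
    intro n
    induction n with
    | zero =>
      intro y t ht0 ht1 ht2 ht3
      have ht : t = 0 := le_antisymm (by simpa using ht2) ht0
      subst ht
      have h1 := levi_bound hK hnn (x := y) (q := q) (dist_pos.1 ht3)
      simpa using h1
    | succ n ih =>
      intro y t ht0 ht1 ht2 ht3
      rcases ht0.eq_or_lt with h0 | h0
      · subst h0
        have h1 := levi_bound hK hnn (x := y) (q := q) (dist_pos.1 ht3)
        simpa using h1
      set s := min t s₀ with hs
      have hsp : 0 < s := lt_min h0 hs0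
      have hst : s ≤ t := min_le_left _ _
      have hss : s ≤ s₀ := min_le_right _ _
      obtain ⟨y', hy1, hy2⟩ := exists_mid (approxMid_of_riemannian E M) y q s hsp.le
        (hst.trans ht3.le)
      have hyy' : y ≠ y' := dist_pos.1 (by rw [hy1]; exact hsp)
      have htri : dist y' x ≤ dist y x + s := by
        have := dist_triangle y' y x
        rw [dist_comm y' y, hy1] at this
        linarith
      have hrest : t - s ≤ n * s₀ := by
        rcases le_total t s₀ with h | h
        · rw [hs, min_eq_left h, sub_self]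
          positivity
        · rw [hs, min_eq_right h]
          push_cast at ht2
          linarith
      have hA := ih y' (t - s) (by linarith) (by linarith) hrest (by rw [hy2]; linarith)
      have hyR : y ∈ closedBall x T := by
        rw [mem_closedBall]; linarith
      obtain ⟨i, hi⟩ := hleb y hyR
      have hR' : closedBall y (2 * s₀) ⊆ (chartAt E i).source :=
        (closedBall_subset_ball (by linarith)).trans hi
      have hpy : 0 ≤ dist p y := dist_nonneg
      have hka : 0 < k (dist p y + 2 * s₀) := hk.2.1 _ (by positivity)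
      have h1 := levi_step hK (chart_mem_maximalAtlas i) hR' (by rw [hy1]; linarith) hyy'
        (by positivity : (0:ℝ) ≤ k (dist p y + 2 * s₀) / 2)
        (fun w hw X a => Rc_ge_chartG hK (chart_mem_maximalAtlas i) (hR' hw)
          ((hcurv w).mono (by
            rw [mem_closedBall] at hw
            have h2 := dist_triangle p y w
            rw [dist_comm y w] at h2
            exact hk.2.2 (show (0:ℝ) ≤ dist p w from dist_nonneg)
              (show (0:ℝ) ≤ dist p y + 2 * s₀ by positivity) (by linarith))) X a)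
        (by rw [hy1, hy2]; ring) hA (φ₁ := 1) zero_le_one
      refine h1.mono ?_
      rw [hy1, hy2, min_self]
      have e1 : dist y q - s - (t - s) = dist y q - t := by ring
      rw [e1]
      -- comparison of the integrals
      have hsplit : ∫ r in (dist p y + 2 * s₀)..(dist p y + 2 * s₀ + t), k r =
          (∫ r in (dist p y + 2 * s₀)..(dist p y + 2 * s₀ + s), k r) +
            ∫ r in (dist p y + 2 * s₀ + s)..(dist p y + 2 * s₀ + t), k r :=
        (intervalIntegral.integral_add_adjacent_intervals (hint _ _) (hint _ _)).symm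
      have hfirst : ∫ r in (dist p y + 2 * s₀)..(dist p y + 2 * s₀ + s), k r ≤
          s * k (dist p y + 2 * s₀) := by
        have h3 : ∫ r in (dist p y + 2 * s₀)..(dist p y + 2 * s₀ + s), k r ≤
            ∫ r in (dist p y + 2 * s₀)..(dist p y + 2 * s₀ + s), k (dist p y + 2 * s₀) := by
          refine intervalIntegral.integral_mono_on (by linarith) (hint _ _)
            intervalIntegrable_const fun r hr => ?_
          have h4 := hr.1
          exact hk.2.2 (show (0:ℝ) ≤ dist p y + 2 * s₀ by positivity)
            (show (0:ℝ) ≤ r from (by positivity : (0:ℝ) ≤ dist p y + 2 * s₀).trans h4) h4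
        rw [intervalIntegral.integral_const, smul_eq_mul] at h3
        linarith
      have hsecond : ∫ r in (dist p y + 2 * s₀ + s)..(dist p y + 2 * s₀ + t), k r ≤
          ∫ r in (dist p y' + 2 * s₀)..(dist p y' + 2 * s₀ + (t - s)), k r := by
        have h3 : dist p y' ≤ dist p y + s := by
          have := dist_triangle p y y'
          rwa [hy1] at this
        have h4 := integral_shift_le hk (a := dist p y' + 2 * s₀)
          (b := dist p y + 2 * s₀ + s) (t := t - s) (by positivity) (by linarith) (by linarith)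
        have e2 : dist p y + 2 * s₀ + s + (t - s) = dist p y + 2 * s₀ + t := by ring
        rwa [e2] at h4
      rw [hsplit]
      have e3 : 2 * ((1:ℝ) - 1) ^ 2 / s = 0 := by norm_num
      have e4 : 2 * (1:ℝ) ^ 2 * (k (dist p y + 2 * s₀) / 2) * s = s * k (dist p y + 2 * s₀) := by
        ring
      rw [e3, e4]
      linarith
  obtain ⟨n, hn⟩ := exists_nat_gt (T / s₀)
  refine hmain n x T hT (by simp) ?_ hTq
  rw [div_lt_iff₀ hs0] at hn
  exact hn.le

/-- the bound is a closed condition -/
theorem leviBound_of_forall {q x : M} {A : ℝ}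
    (h : ∀ ε > 0, LeviBound (E := E) q x (A + ε)) : LeviBound (E := E) q x A := by
  intro e he hx Y a ha η hη
  have hN : 0 ≤ chartG e (e x) Y Y := by
    by_cases h0 : Y = 0
    · simp [h0]
    · exact (chartG_pos (mem_maximalAtlas_real he) (e.map_source hx) Y h0).le
  set N := chartG e (e x) Y Y with hNdef
  have hε : 0 < η / (2 * (N + 1)) := by positivity
  filter_upwards [h _ hε e he hx Y a ha (η / 2) (half_pos hη)] with r hr
  refine hr.trans ?_
  have h1 : η / (2 * (N + 1)) * N ≤ η / 2 := by
    rw [div_mul_eq_mul_div, div_le_div_iff₀ (by positivity) (by norm_num)]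
    nlinarith
  have h2 : 0 ≤ r ^ 2 := sq_nonneg r
  have h3 : (A + η / (2 * (N + 1))) * N + η / 2 ≤ A * N + η := by linarith
  have h4 := mul_le_mul_of_nonneg_left h3 h2
  linarith

/-- **The Levi form of the distance function.** If the bisectional curvature is at least
`k(d(p, x))`, then `i∂∂̄ d(·, q) ≤ (1 / (2 (d(x, q) - T)) - (1/4) ∫_{d(p, x)}^{d(p, x) + T} k) ω` at
`x` for `T < d(x, q)`. -/
theorem levi_curv (hK : IsKahler E M) [ProperSpace M]
    (hnn : ∀ x : M, NonnegBisectionalAt E x) (p : M) {k : ℝ → ℝ} (hk : IsDecay k)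
    (hcurv : ∀ x : M, BisectionalGe E x (k (dist p x))) {x q : M} {T : ℝ}
    (hT : 0 ≤ T) (hTq : T < dist x q) :
    LeviBound (E := E) q x (2 / (dist x q - T) - ∫ s in (dist p x)..(dist p x + T), k s) := by
  obtain ⟨δ, hδ, h⟩ := levi_curv_aux hK hnn p hk hcurv hT hTq
  refine leviBound_of_forall fun ε hε => ?_
  have hkc := hk.1
  have hint : ∀ a b : ℝ, IntervalIntegrable k MeasureTheory.volume a b := fun a b =>
    hkc.intervalIntegrable a b
  have hcI : Continuous fun t : ℝ => ∫ s in (0:ℝ)..t, k s :=
    intervalIntegral.continuous_primitive hint 0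
  have hF : Continuous fun s₀ : ℝ =>
      ∫ s in (dist p x + 2 * s₀)..(dist p x + 2 * s₀ + T), k s := by
    have e1 : (fun s₀ : ℝ => ∫ s in (dist p x + 2 * s₀)..(dist p x + 2 * s₀ + T), k s) =
        fun s₀ => (∫ s in (0:ℝ)..(dist p x + 2 * s₀ + T), k s) -
          ∫ s in (0:ℝ)..(dist p x + 2 * s₀), k s := by
      funext s₀
      exact (intervalIntegral.integral_interval_sub_left (hint _ _) (hint _ _)).symm
    rw [e1]
    exact (hcI.comp (by fun_prop : Continuous fun s₀ : ℝ => dist p x + 2 * s₀ + T)).sub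
      (hcI.comp (by fun_prop : Continuous fun s₀ : ℝ => dist p x + 2 * s₀))
  have h1 : ∀ᶠ s₀ in 𝓝 (0:ℝ), (∫ s in (dist p x)..(dist p x + T), k s) - ε <
      ∫ s in (dist p x + 2 * s₀)..(dist p x + 2 * s₀ + T), k s := by
    refine hF.continuousAt.eventually (lt_mem_nhds ?_)
    simp only [mul_zero, add_zero]
    linarith
  obtain ⟨s₀, hs1, hs2, hs3⟩ := (((h1.filter_mono nhdsWithin_le_nhds).and
    (((eventually_lt_nhds hδ).filter_mono nhdsWithin_le_nhds).and
      (self_mem_nhdsWithin : Ioi (0:ℝ) ∈ 𝓝[>] (0:ℝ))))).exists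
  refine (h s₀ hs3 hs2.le).mono ?_
  linarith

/-- lower bounds for four point sums -/
theorem fourGe_of_leviBound {q x : M} {A : ℝ} (h : LeviBound (E := E) q x A) (C : ℝ) :
    FourGe (E := E) (fun y => C - dist y q) x (-A / 4) := by
  intro e he hx Y a ha η hη
  have hH : Harm e x Y a := by
    refine ⟨ha.1, ha.2.congr (Eventually.of_forall fun r k => ?_)⟩
    simp only [one_smul]
  filter_upwards [h e he hx Y a hH η hη] with r hr
  rw [Finset.sum_sub_distrib]
  simp only [Finset.sum_const, Finset.card_univ, Fintype.card_fin, nsmul_eq_mul]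
  push_cast
  linarith

end Vale.Agent.P253.R2.H451
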