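import Vale.Agent.P253.R2.H451.Bus1

/-!
P253: the Busemann function: elementary properties.
-/

open scoped Topology

set_option linter.unusedSectionVars false
open Set Metric Filter

noncomputable section

namespace Vale.Agent.P253.R2.H451

open Vale.Agent.P253.R2.H618

variable {M : Type*} [MetricSpace M] [ProperSpace M]

theorem busf_le (p x q : M) : dist p q - dist x q ≤ dist p x := by
  have := dist_triangle p x q
  linarith

theorem neg_le_busf (p x q : M) : -dist p x ≤ dist p q - dist x q := by
  have := dist_triangle x p q
  rw [dist_comm x p] at this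
  linarith

theorem busf_bdd (p x : M) (F : Filter M) :
    F.IsBoundedUnder (· ≤ ·) (fun q => dist p q - dist x q) :=
  isBoundedUnder_of ⟨dist p x, fun q => busf_le p x q⟩

theorem busf_bdd' (p x : M) (F : Filter M) :
    F.IsBoundedUnder (· ≥ ·) (fun q => dist p q - dist x q) :=
  isBoundedUnder_of ⟨-dist p x, fun q => neg_le_busf p x q⟩

/-- limits along ultrafilters are at most the Busemann function -/
theorem bus_le {p : M} {U : Ultrafilter M} (hU : (U : Filter M) ≤ cocompact M) {b : M → ℝ}
    (hb : ∀ x, Tendsto (fun q => dist p q - dist x q) U (𝓝 (b x))) (x : M) :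
    b x ≤ busemann p x := by
  refine le_of_forall_gt fun a ha => ?_
  have h1 : ∀ᶠ q in cocompact M, dist p q - dist x q < a :=
    eventually_lt_of_limsup_lt ha (busf_bdd p x _)
  obtain ⟨a', ha1, ha2⟩ := exists_between ha
  have h2 : ∀ᶠ q in cocompact M, dist p q - dist x q < a' :=
    eventually_lt_of_limsup_lt ha1 (busf_bdd p x _)
  exact (le_of_tendsto (hb x) ((h2.filter_mono hU).mono fun q hq => hq.le)).trans_lt ha2

variable [NoncompactSpace M]

/-- the Busemann function at a point is a limit along an ultrafilter -/
theorem exists_bus_eq (p x : M) : ∃ (U : Ultrafilter M) (b : M → ℝ),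
    (U : Filter M) ≤ cocompact M ∧
    (∀ x, Tendsto (fun q => dist p q - dist x q) U (𝓝 (b x))) ∧ b x = busemann p x := by
  have hc : MapClusterPt (busemann p x) (cocompact M) (fun q => dist p q - dist x q) := by
    rw [mapClusterPt_iff_frequently]
    intro s hs
    obtain ⟨ε, hε, hsub⟩ := Metric.mem_nhds_iff.1 hs
    have h1 : ∃ᶠ q in cocompact M, busemann p x - ε < dist p q - dist x q :=
      frequently_lt_of_lt_limsup ((busf_bdd' p x _).isCoboundedUnder_le)
        (by show busemann p x - ε < busemann p x; linarith)
    have h2 : ∀ᶠ q in cocompact M, dist p q - dist x q < busemann p x + ε :=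
      eventually_lt_of_limsup_lt (by show busemann p x < busemann p x + ε; linarith)
        (busf_bdd p x _)
    refine (h1.and_eventually h2).mono fun q hq => hsub ?_
    rw [mem_ball, Real.dist_eq, abs_lt]
    constructor <;> linarith [hq.1, hq.2]
  obtain ⟨U, hU, hUx⟩ := mapClusterPt_iff_ultrafilter.1 hc
  obtain ⟨b, hb⟩ := exists_bus p U
  exact ⟨U, b, hU, hb, tendsto_nhds_unique (hb x) hUx⟩

theorem busemann_sub_le (p x y : M) : busemann p x - busemann p y ≤ dist x y := by
  obtain ⟨U, b, hU, hb, hx⟩ := exists_bus_eq p x
  have h1 := bus_le hU hb y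
  have h2 := (abs_le.1 (bus_lipschitz hb x y)).2
  linarith

theorem continuous_busemann (p : M) : Continuous (busemann p) := by
  have : LipschitzWith 1 (busemann p) := LipschitzWith.of_dist_le_mul fun x y => by
    rw [Real.dist_eq, NNReal.coe_one, one_mul, abs_le]
    have h1 := busemann_sub_le p x y
    have h2 := busemann_sub_le p y x
    rw [dist_comm y x] at h2
    constructor <;> linarith
  exact this.continuous

theorem neg_dist_le_busemann (p x : M) : -dist p x ≤ busemann p x := by
  obtain ⟨U, b, hU, hb, hx⟩ := exists_bus_eq p x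
  rw [← hx]
  exact ge_of_tendsto (hb x) (Eventually.of_forall fun q => neg_le_busf p x q)

end Vale.Agent.P253.R2.H451
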