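import Vale.Agent.P253.R2.H451.Bus2

/-!
P253: the Levi form of the Busemann function.
-/

open scoped Manifold ContDiff Topology Bundle
open Set Metric Filter Bundle IsManifold Complex Asymptotics

set_option maxSynthPendingDepth 3
set_option linter.unusedSectionVars false
set_option linter.unusedVariables false

noncomputable section

namespace Vale.Agent.P253.R2.H451

open Vale.Agent.P253.Mfd Vale.Agent.P253.Mfd.LocalKahler Vale.Agent.P253.R2.H618
  Vale.Agent.P253.R2.H922 Vale.Agent.P253.R2.H380.Stein

section tail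

variable {k : ℝ → ℝ}

theorem tail_eq (hk : IsDecay k) (hi : MeasureTheory.IntegrableOn k (Ioi 0)) (r : ℝ) :
    ∫ s in Ioi r, k s = (∫ s in Ioi (0:ℝ), k s) - ∫ s in (0:ℝ)..r, k s := by
  have h1 := intervalIntegral.integral_interval_add_Ioi' (f := k) (a := r) (b := 0)
    (hk.1.intervalIntegrable _ _) hi
  rw [intervalIntegral.integral_symm] at h1
  linarith

theorem tail_sub (hk : IsDecay k) (hi : MeasureTheory.IntegrableOn k (Ioi 0)) (a b : ℝ) :
    ∫ s in a..b, k s = (∫ s in Ioi a, k s) - ∫ s in Ioi b, k s := by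
  rw [tail_eq hk hi a, tail_eq hk hi b]
  have h1 := intervalIntegral.integral_interval_sub_left
    (hk.1.intervalIntegrable 0 b) (hk.1.intervalIntegrable 0 a) (μ := MeasureTheory.volume)
  linarith

theorem tail_decay (hk : IsDecay k) (hi : MeasureTheory.IntegrableOn k (Ioi 0)) :
    IsDecay (fun r => ∫ s in Ioi r, k s) := by
  have hint : ∀ a b : ℝ, IntervalIntegrable k MeasureTheory.volume a b := fun a b =>
    hk.1.intervalIntegrable a b
  have hnn : ∀ r : ℝ, 0 ≤ r → 0 ≤ ∫ s in Ioi r, k s := fun r hr =>
    MeasureTheory.setIntegral_nonneg measurableSet_Ioi fun s hs =>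
      (hk.2.1 s (hr.trans (le_of_lt hs))).le
  refine ⟨?_, fun t ht => ?_, fun a ha b hb hab => ?_⟩
  · have e1 : (fun r => ∫ s in Ioi r, k s) =
        fun r => (∫ s in Ioi (0:ℝ), k s) - ∫ s in (0:ℝ)..r, k s := by
      funext r; exact tail_eq hk hi r
    rw [e1]
    exact continuous_const.sub (intervalIntegral.continuous_primitive hint 0)
  · have h1 := tail_sub hk hi t (t + 1)
    have h2 : 0 < ∫ s in t..(t + 1), k s :=
      intervalIntegral.intervalIntegral_pos_of_pos_on (hint _ _)
        (fun s hs => hk.2.1 s (ht.trans hs.1.le)) (by linarith)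
    have h3 := hnn (t + 1) (by linarith)
    show 0 < ∫ s in Ioi t, k s
    linarith
  · have h1 := tail_sub hk hi a b
    have h2 : 0 ≤ ∫ s in a..b, k s :=
      intervalIntegral.integral_nonneg hab fun s hs =>
        (hk.2.1 s ((show (0:ℝ) ≤ a from ha).trans hs.1)).le
    show ∫ s in Ioi b, k s ≤ ∫ s in Ioi a, k s
    linarith

theorem tail_tendsto (hk : IsDecay k) (hi : MeasureTheory.IntegrableOn k (Ioi 0)) :
    Tendsto (fun r : ℝ => ∫ s in Ioi r, k s) atTop (𝓝 0) := by
  have h1 := MeasureTheory.intervalIntegral_tendsto_integral_Ioi (0:ℝ) hi tendsto_id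
  have h2 := (tendsto_const_nhds (x := ∫ s in Ioi (0:ℝ), k s)).sub h1
  rw [sub_self] at h2
  refine h2.congr fun r => ?_
  exact (tail_eq hk hi r).symm

end tail

variable {E : Type*} [NormedAddCommGroup E] [NormedSpace ℂ E] [FiniteDimensional ℂ E]
  {M : Type*} [MetricSpace M] [ChartedSpace E M]
  [IsManifold 𝓘(ℂ, E) 1 M] [IsManifold 𝓘(ℝ, E) ∞ M]
  [RiemannianBundle (fun x : M => TangentSpace 𝓘(ℝ, E) x)]

variable [IsContMDiffRiemannianBundle 𝓘(ℝ, E) ∞ E (fun x : M => TangentSpace 𝓘(ℝ, E) x)]
  [IsRiemannianManifold 𝓘(ℝ, E) M]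

/-- **The Levi form of the Busemann function.** If the bisectional curvature is at least
`k(d(p, x))`, then `i∂∂̄b ≥ ((1/4) ∫_{d(p, x)}^∞ k) ω`. -/
theorem weakLevi_busemann (hK : IsKahler E M) [ProperSpace M] [NoncompactSpace M]
    (hnn : ∀ x : M, NonnegBisectionalAt E x) (p : M) {k : ℝ → ℝ} (hk : IsDecay k)
    (hi : MeasureTheory.IntegrableOn k (Ioi 0))
    (hcurv : ∀ x : M, BisectionalGe E x (k (dist p x))) :
    WeakLevi E (busemann p) (fun x => (∫ s in Ioi (dist p x), k s) / 4) univ := by
  obtain ⟨hKc', hK0, hKa⟩ := tail_decay hk hi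
  set Q : ℝ → ℝ := fun r => ∫ s in Ioi r, k s with hQ
  refine ⟨continuous_busemann p, fun e he W N hW hWt _ hN hl' f a r hr hf hf' hm => ?_⟩
  obtain ⟨U, b, hU, hb, hba⟩ := exists_bus_eq p (f a)
  have hbc := bus_continuous hb
  set D := f '' closedBall a r with hD
  have hKc : IsCompact D := (isCompact_closedBall a r).image_of_continuousOn hf
  have hef : ContinuousOn (fun z => e (f z)) (closedBall a r) :=
    e.continuousOn.comp hf (fun z hz => (hm z hz).1)
  have hNc : ContinuousOn (fun z => N (e (f z))) (closedBall a r) :=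
    hN.continuousOn.comp hef fun z hz => (hm z hz).2
  have hsph : sphere a r ⊆ closedBall a r := sphere_subset_closedBall
  obtain ⟨B₀, hB₀⟩ := (isCompact_closedBall a r).exists_bound_of_continuousOn hNc
  set B := max B₀ 1 with hB
  have hB0 : 0 < B := by positivity
  obtain ⟨S₀, hS₀⟩ := (hKc.image (continuous_const.dist continuous_id :
    Continuous fun y => dist p y)).bddAbove
  set S := max S₀ 0 with hS
  have hS0 : 0 ≤ S := le_max_right _ _
  have hdS : ∀ x ∈ D, dist p x ≤ S := fun x hx =>
    (hS₀ (mem_image_of_mem _ hx)).trans (le_max_left _ _)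
  set m := Q S with hm'
  have hm0 : 0 < m := hK0 S hS0
  have hmc : ∀ x ∈ D, m ≤ Q (dist p x) := fun x hx =>
    hKa (show (0:ℝ) ≤ dist p x from dist_nonneg) hS0 (hdS x hx)
  have key : b (f a) - N (e (f a)) ≤
      Real.circleAverage (fun z => b (f z) - N (e (f z))) a r := by
    refine submean_of_approx (u := fun z => b (f z) - N (e (f z))) hr
      ((hbc.comp_continuousOn hf).sub hNc) fun ε hε => ?_
    set θ := min (1 / 2) (ε / (2 * B)) with hθ
    have hθ0 : 0 < θ := lt_min (by norm_num) (by positivity)
    have hθ1 : θ ≤ 1 / 2 := min_le_left _ _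
    have hθ2 : θ * B ≤ ε / 2 := by
      have h1 : θ ≤ ε / (2 * B) := min_le_right _ _
      rw [le_div_iff₀ (by positivity)] at h1
      linarith
    have hθm : 0 < θ * m := by positivity
    obtain ⟨T, hT1, hT2⟩ := (((tail_tendsto hk hi).eventually
      (gt_mem_nhds (show 0 < θ * m / 2 by positivity))).and (eventually_ge_atTop 0)).exists
    obtain ⟨q, hq1, hq2⟩ := ((bus_uniform hb hKc (half_pos hε)).and
      (far_of_cocompact hU hKc (T + 4 / (θ * m)))).exists
    have hdc : Continuous fun y : M => dist p q - dist y q := by fun_prop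
    refine ⟨fun z => dist p q - dist (f z) q + -((1 - θ) * N (e (f z))),
      (hdc.comp_continuousOn hf).add (continuousOn_const.mul hNc).neg, fun z hz => ?_, ?_⟩
    · have h1 := hq1 (f z) (mem_image_of_mem f hz)
      have h2 : |N (e (f z))| ≤ B := (hB₀ z hz).trans (le_max_left _ _)
      have h3 : |θ * N (e (f z))| ≤ ε / 2 := by
        rw [abs_mul, abs_of_pos hθ0]
        exact (mul_le_mul_of_nonneg_left h2 hθ0.le).trans hθ2
      have e1 : dist p q - dist (f z) q + -((1 - θ) * N (e (f z))) -
          (b (f z) - N (e (f z))) = (dist p q - dist (f z) q - b (f z)) + θ * N (e (f z)) := by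
        ring
      rw [e1]
      exact (abs_add_le _ _).trans (by linarith)
    · refine submean_four_add (s := fun y => dist p q - dist y q) he hW hWt
        (q := fun z => -((1 - θ) * N z)) (contDiffOn_const.mul hN).neg
        (c₀ := fun x => (1 - θ) * (Q (dist p x) / 4)) hr hf hf' hm
        (hdc.comp_continuousOn hf) (fun z hz => ?_) fun z hz v => ?_
      · set x := f z with hx
        have hxD : x ∈ D := mem_image_of_mem f (ball_subset_closedBall hz)
        have hpx : 0 ≤ dist p x := dist_nonneg
        have hqx := hq2 x hxD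
        have hinv : 0 < 4 / (θ * m) := by positivity
        have h1 := levi_curv hK hnn p hk hcurv (x := x) (q := q) hT2 (by linarith)
        refine (fourGe_of_leviBound h1 _).mono hK ?_
        have h4 : 2 / (dist x q - T) ≤ θ * m / 2 := by
          have h5 : 4 / (θ * m) ≤ dist x q - T := by linarith
          rw [div_le_iff₀ (hinv.trans_le h5)]
          rw [div_le_iff₀ (by positivity)] at h5
          linarith
        have h6 : θ * m ≤ θ * Q (dist p x) := mul_le_mul_of_nonneg_left (hmc x hxD) hθ0.le
        have h7 : ∫ s in (dist p x)..(dist p x + T), k s = Q (dist p x) - Q (dist p x + T) :=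
          tail_sub hk hi _ _
        have h8 : Q (dist p x + T) ≤ Q T :=
          hKa hT2 (show (0:ℝ) ≤ dist p x + T by positivity) (by linarith)
        have h9 : Q T < θ * m / 2 := hT1
        rw [h7]
        linarith
      · have h1 := hl' (e (f z)) (hm z (ball_subset_closedBall hz)).2 v
        rw [e.left_inv (hm z (ball_subset_closedBall hz)).1, ← chartG_apply] at h1
        rw [levi2_neg, levi2_const_mul N _ _ (by linarith : (1 - θ) ≠ 0)]
        have h2 := mul_le_mul_of_nonneg_left h1 (by linarith : (0:ℝ) ≤ 1 - θ)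
        linarith
  rw [hba] at key
  refine key.trans (Real.circleAverage_mono ?_ ?_ fun z hz => ?_)
  · exact (((hbc.comp_continuousOn hf).sub hNc).mono hsph).circleIntegrable hr.le
  · exact ((((continuous_busemann p).comp_continuousOn hf).sub hNc).mono
      hsph).circleIntegrable hr.le
  · have := bus_le hU hb (f z)
    linarith

end Vale.Agent.P253.R2.H451
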