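import Vale.Agent.P253.R2.H451.Bus3

/-!
P253: plurisubharmonic majorants and the hull estimate for functions with `i∂∂̄ψ ≥ λ(d(p, x)) ω`.
-/

open scoped Manifold ContDiff Topology Bundle
open Set Metric Filter Bundle IsManifold Complex Asymptotics

set_option maxSynthPendingDepth 3
set_option linter.unusedSectionVars false
set_option linter.unusedVariables false

noncomputable section

namespace Vale.Agent.P253.R2.H451

open Vale.Agent.P253.Mfd Vale.Agent.P253.Mfd.LocalKahler Vale.Agent.P253.R2.H618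
  Vale.Agent.P253.R2.H922 Vale.Agent.P253.R2.H380.Stein

variable {E : Type*} [NormedAddCommGroup E] [NormedSpace ℂ E] [FiniteDimensional ℂ E]
  {M : Type*} [MetricSpace M] [ChartedSpace E M]
  [IsManifold 𝓘(ℂ, E) 1 M] [IsManifold 𝓘(ℝ, E) ∞ M]
  [RiemannianBundle (fun x : M => TangentSpace 𝓘(ℝ, E) x)]
  [IsContMDiffRiemannianBundle 𝓘(ℝ, E) ∞ E (fun x : M => TangentSpace 𝓘(ℝ, E) x)]
  [IsRiemannianManifold 𝓘(ℝ, E) M]

/-- the general majorant -/
theorem exists_majorant_conv (hK : IsKahler E M) [ProperSpace M]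
    (hnn : ∀ x : M, NonnegBisectionalAt E x) {ψ c μ P N ρ : M → ℝ} (hψ : WeakLevi E ψ c univ)
    (hc : Continuous c) (hμ : Continuous μ) (hμ0 : ∀ x, 0 < μ x)
    (hP : Continuous P) (hN : Continuous N)
    (hρ : Continuous ρ) (hρ0 : ∀ x, 0 < ρ x) (hP0 : ∀ x, 0 ≤ P x)
    (h1 : ∀ x y, dist x y ≤ ρ x → P y ≤ c x - μ x)
    (h2 : ∀ x y, ρ x / 2 ≤ dist x y → dist x y ≤ ρ x → N y - P y * dist x y ^ 2 ≤ N x) :
    ∃ v : M → ℝ, ContPsh E v ∧ ∀ x, ψ x + N x ≤ v x := by
  have hsc : Continuous (sc P N ρ) := continuous_sc hP hN hρ hρ0 h2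
  have hcont : Continuous fun x => ψ x + sc P N ρ x := hψ.1.add hsc
  have hzero : ∀ x, FourGe (E := E) (fun _ : M => (0:ℝ)) x 0 := by
    intro x e he hx Y a ha η hη
    filter_upwards with r
    simp only [Finset.sum_const_zero, mul_zero, zero_mul, zero_add, zero_sub]
    have : 0 ≤ r ^ 2 * η := by positivity
    linarith
  have hs4 : ∀ x, FourGe (E := E) (sc P N ρ) x (-(c x - μ x)) := by
    intro x
    have h4 := fourGe_sc hK hnn (ψ := fun _ => (0:ℝ)) (c := fun _ => 0)
      (μ := fun x => -(c x - μ x)) hzero hP hN hρ hρ0 hP0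
      (fun x y hxy => by have := h1 x y hxy; linarith) h2 x
    simpa only [zero_add] using h4
  refine ⟨fun x => ψ x + sc P N ρ x, contPsh_of_tangent hcont fun x₀ => ?_, fun x => ?_⟩
  · set μ₀ := c x₀ - μ x₀ / 2 with hμ₀
    set S : Set M := {x | c x - μ x < μ₀} with hS
    have hSo : IsOpen S := isOpen_lt (hc.sub hμ) continuous_const
    have hx₀S : x₀ ∈ S := by
      show c x₀ - μ x₀ < μ₀
      have := hμ0 x₀
      rw [hμ₀]; linarith
    have hμ₀0 : 0 ≤ μ₀ := by
      have e1 := h1 x₀ x₀ (by rw [dist_self]; exact (hρ0 x₀).le)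
      have e2 := hP0 x₀
      have e3 := hμ0 x₀
      rw [hμ₀]; linarith
    obtain ⟨T, hTo, hxT, -, hsub⟩ := subS_of_weakLevi hK
      (hψ.mono (subset_univ S) fun x _ => le_rfl) hSo hsc hμ₀0
      (fun x hx => (hs4 x).mono hK (by
        have : c x - μ x < μ₀ := hx
        linarith)) hx₀S hc.continuousAt (by
        have := hμ0 x₀
        rw [hμ₀]; linarith)
    exact ⟨T, hTo, hxT, fun x => ψ x + sc P N ρ x, rfl, fun x _ => le_rfl, hsub⟩
  · have := N_le_sc (P := P) (N := N) (ρ := ρ) hP hN hρ0 x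
    linarith

/-- **Plurisubharmonic majorants.** -/
theorem exists_majorant_decay (hK : IsKahler E M) [ProperSpace M]
    (hnn : ∀ x : M, NonnegBisectionalAt E x) (p : M) {ψ : M → ℝ}
    {lam : ℝ → ℝ} (hlc : Continuous lam) (hl0 : ∀ t, 0 ≤ t → 0 < lam t)
    (hla : AntitoneOn lam (Ici 0))
    (hψ : WeakLevi E ψ (fun x => lam (dist p x)) univ) :
    ∃ v : M → ℝ, ContPsh E v ∧ ∀ x, ψ x + 1 / 320 * ∫ s in (0:ℝ)..dist p x, s * lam s ≤ v x := by
  have hint : ∀ a b : ℝ, IntervalIntegrable (fun s => s * lam s) MeasureTheory.volume a b :=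
    fun a b => (by fun_prop : Continuous fun s => s * lam s).intervalIntegrable a b
  have hcI : Continuous fun t : ℝ => ∫ s in (0:ℝ)..t, s * lam s :=
    intervalIntegral.continuous_primitive hint 0
  have hnonneg : ∀ a b : ℝ, 0 ≤ a → a ≤ b → 0 ≤ ∫ s in a..b, s * lam s := by
    intro a b ha hab
    refine intervalIntegral.integral_nonneg hab fun s hs => ?_
    exact mul_nonneg (ha.trans hs.1) (hl0 s (ha.trans hs.1)).le
  suffices hE : ∃ v : M → ℝ, ContPsh E v ∧
      ∀ x, ψ x + 1 / 320 * ∫ s in (0:ℝ)..(4 + 4 * dist p x), s * lam s ≤ v x by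
    obtain ⟨v, hv, hle⟩ := hE
    refine ⟨v, hv, fun x => le_trans ?_ (hle x)⟩
    have hpx : 0 ≤ dist p x := dist_nonneg
    have h4 : ∫ s in (0:ℝ)..(4 + 4 * dist p x), s * lam s =
        (∫ s in (0:ℝ)..(dist p x), s * lam s) +
          ∫ s in (dist p x)..(4 + 4 * dist p x), s * lam s :=
      (intervalIntegral.integral_add_adjacent_intervals (hint _ _) (hint _ _)).symm
    have h5 := hnonneg (dist p x) (4 + 4 * dist p x) (by positivity) (by linarith)
    rw [h4]
    linarith
  refine exists_majorant_conv hK hnn (c := fun x => lam (dist p x))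
    (μ := fun x => lam (dist p x) / 2) (P := fun y => lam (2 + 2 * dist p y) / 2)
    (N := fun y => 1 / 320 * ∫ s in (0:ℝ)..(4 + 4 * dist p y), s * lam s)
    (ρ := fun x => (1 + dist p x) / 4) hψ (by fun_prop)
    (by fun_prop) (fun x => half_pos (hl0 _ dist_nonneg)) (by fun_prop)
    (continuous_const.mul (hcI.comp (by fun_prop : Continuous fun y => 4 + 4 * dist p y)))
    (by fun_prop) (fun x => by positivity)
    (fun x => (half_pos (hl0 _ (by positivity))).le) ?_ ?_
  · intro x y hxy
    have hpx : 0 ≤ dist p x := dist_nonneg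
    have hpy : 0 ≤ dist p y := dist_nonneg
    have h1 : dist p x ≤ dist p y + dist x y := by
      have := dist_triangle p y x
      rwa [dist_comm y x] at this
    have h2 : lam (2 + 2 * dist p y) ≤ lam (dist p x) :=
      hla hpx (show (0:ℝ) ≤ 2 + 2 * dist p y by positivity) (by linarith)
    linarith
  · intro x y h1 h2
    have hpx : 0 ≤ dist p x := dist_nonneg
    have hpy : 0 ≤ dist p y := dist_nonneg
    have hd : 0 ≤ dist x y := dist_nonneg
    have hP0 : 0 < lam (2 + 2 * dist p y) := hl0 _ (by positivity)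
    rcases le_total (dist p y) (dist p x) with h3 | h3
    · have h4 : ∫ s in (0:ℝ)..(4 + 4 * dist p x), s * lam s =
          (∫ s in (0:ℝ)..(4 + 4 * dist p y), s * lam s) +
            ∫ s in (4 + 4 * dist p y)..(4 + 4 * dist p x), s * lam s :=
        (intervalIntegral.integral_add_adjacent_intervals (hint _ _) (hint _ _)).symm
      have h5 := hnonneg (4 + 4 * dist p y) (4 + 4 * dist p x) (by positivity) (by linarith)
      have h6 : 0 ≤ lam (2 + 2 * dist p y) / 2 * dist x y ^ 2 := by positivity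
      rw [h4]
      linarith
    · have h4 : ∫ s in (0:ℝ)..(4 + 4 * dist p y), s * lam s =
          (∫ s in (0:ℝ)..(4 + 4 * dist p x), s * lam s) +
            ∫ s in (4 + 4 * dist p x)..(4 + 4 * dist p y), s * lam s :=
        (intervalIntegral.integral_add_adjacent_intervals (hint _ _) (hint _ _)).symm
      have htri : dist p y ≤ dist p x + dist x y := dist_triangle _ _ _
      set L := lam (4 + 4 * dist p x) with hL
      have hL0 : 0 < L := hl0 _ (by positivity)
      have h5 : ∫ s in (4 + 4 * dist p x)..(4 + 4 * dist p y), s * lam s ≤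
          ∫ s in (4 + 4 * dist p x)..(4 + 4 * dist p y), (4 + 4 * dist p y) * L := by
        refine intervalIntegral.integral_mono_on (by linarith) (hint _ _) (by simp) fun s hs => ?_
        have h6 : lam s ≤ L := hla (show (0:ℝ) ≤ 4 + 4 * dist p x by positivity)
          (show (0:ℝ) ≤ s from (by positivity : (0:ℝ) ≤ 4 + 4 * dist p x).trans hs.1) hs.1
        have h7 : 0 ≤ s := (by positivity : (0:ℝ) ≤ 4 + 4 * dist p x).trans hs.1
        calc s * lam s ≤ s * L := by gcongr
          _ ≤ _ := by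
            gcongr
            exact hs.2
      rw [intervalIntegral.integral_const, smul_eq_mul] at h5
      have h6 : L ≤ lam (2 + 2 * dist p y) :=
        hla (show (0:ℝ) ≤ 2 + 2 * dist p y by positivity)
          (show (0:ℝ) ≤ 4 + 4 * dist p x by positivity) (by linarith)
      have h7 : L / 2 * dist x y ^ 2 ≤ lam (2 + 2 * dist p y) / 2 * dist x y ^ 2 := by gcongr
      -- main comparison
      have h8 : (4 + 4 * dist p y - (4 + 4 * dist p x)) * ((4 + 4 * dist p y) * L) ≤
          (4 * dist x y) * ((5 * (1 + dist p x)) * L) := by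
        gcongr
        · linarith
        · linarith
      have h9 : (1 + dist p x) ≤ 8 * dist x y := by linarith
      have h10 : (4 * dist x y) * ((5 * (1 + dist p x)) * L) ≤
          (4 * dist x y) * ((5 * (8 * dist x y)) * L) := by gcongr
      have h11 : (4 * dist x y) * ((5 * (8 * dist x y)) * L) = 320 * (L / 2 * dist x y ^ 2) := by
        ring
      rw [h4]
      linarith

/-- the hull estimate -/
theorem hull_decay (hK : IsKahler E M) [ProperSpace M]
    (hnn : ∀ x : M, NonnegBisectionalAt E x) (p : M) {ψ : M → ℝ} {lam : ℝ → ℝ} (hl : IsDecay lam)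
    (hψ : WeakLevi E ψ (fun x => lam (dist p x)) univ) {K : Set M} (hKc : IsCompact K) :
    ∃ C : ℝ, ∀ x ∈ pshHull E K, ψ x + 1 / 320 * ∫ s in (0:ℝ)..dist p x, s * lam s ≤ C := by
  obtain ⟨v, hv, hle⟩ := exists_majorant_decay hK hnn p hl.1 hl.2.1 hl.2.2 hψ
  obtain ⟨C, hC⟩ := (hKc.image hv.1).bddAbove
  exact ⟨C, fun x hx => (hle x).trans (hx v hv C fun y hy => hC (mem_image_of_mem _ hy))⟩

end Vale.Agent.P253.R2.H451
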