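import Vale.Agent.P253.R2.H451.Imm3

/-!
P253: criteria for Stein manifolds of nonnegative bisectional curvature, weak form.
-/

open scoped Manifold ContDiff Topology Bundle
open Set Metric Filter Bundle IsManifold

set_option maxSynthPendingDepth 3
set_option linter.unusedSectionVars false

noncomputable section

namespace Vale.Agent.P253.R2.H451

open Vale.Agent.P253.Mfd Vale.Agent.P253.Mfd.LocalKahler Vale.Agent.P253.R2.H618
  Vale.Agent.P253.R2.H922 Vale.Agent.P253.R2.H380.Stein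

variable {E : Type*} [NormedAddCommGroup E] [NormedSpace ℂ E] [FiniteDimensional ℂ E]
  {M : Type*} [MetricSpace M] [ChartedSpace E M]
  [IsManifold 𝓘(ℂ, E) 1 M] [IsManifold 𝓘(ℝ, E) ∞ M]
  [RiemannianBundle (fun x : M => TangentSpace 𝓘(ℝ, E) x)]
  [IsContMDiffRiemannianBundle 𝓘(ℝ, E) ∞ E (fun x : M => TangentSpace 𝓘(ℝ, E) x)]
  [IsRiemannianManifold 𝓘(ℝ, E) M]

/-- **Strictly plurisubharmonic exhaustion functions on complete Kähler manifolds of nonnegative
bisectional curvature.** -/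
theorem stein_weak (hK : IsKahler E M) [CompleteSpace M] [ConnectedSpace M]
    (hnn : ∀ x : M, NonnegBisectionalAt E x) :
    (HasSpshExhaustion E M ↔ ∃ ψ : M → ℝ, WeakLeviGe E ψ ∧ ∀ x, 0 ≤ ψ x) ∧
    (∀ (p : M) (ψ : M → ℝ) (a C : ℝ), WeakLeviGe E ψ → a < 1 →
      (∀ x, -C - a * dist p x ^ 2 ≤ ψ x) → HasSpshExhaustion E M) ∧
    (∀ (n : ℕ) (F : M → EuclideanSpace ℂ (Fin n)) (φ : M → ℝ),
      MDifferentiable 𝓘(ℂ, E) 𝓘(ℂ, EuclideanSpace ℂ (Fin n)) F → ContPsh E φ →
      (∀ x (v : TangentSpace 𝓘(ℝ, E) x),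
        inner ℝ v v ≤ Real.exp (2 * φ x) * ‖realDiff E F x v‖ ^ 2) →
      HasSpshExhaustion E M) := by
  have hprop : ProperSpace M := properSpace_riemannian E M
  obtain ⟨p₀⟩ := (inferInstance : Nonempty M)
  refine ⟨⟨exists_weak_of_exhaustion hK, fun ⟨ψ, h1, h2⟩ => ?_⟩,
    fun p ψ a C h ha hlow => exhaustion_of_weak hK hnn p h ha hlow, fun n F φ hF hφ hb => ?_⟩
  · exact exhaustion_of_weak hK hnn p₀ (a := 0) (C := 0) h1 one_pos fun x => by
      have := h2 x; linarith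
  · exact exhaustion_of_weak hK hnn p₀ (a := 0) (C := 0) (weak_of_immersion hφ hF hb) one_pos
      fun x => by have := Real.exp_pos (2 * φ x + ‖F x‖ ^ 2 + 1); linarith

end Vale.Agent.P253.R2.H451
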