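import Vale.Agent.P253.R2.H451.Bus4
import Vale.Agent.P253.R2.H451.Imm4

/-!
P253: functions with `i∂∂̄u ≥ e^{-u} λ(d(p, x)) ω`, the Busemann function and strictly
plurisubharmonic exhaustion functions.
-/

open scoped Manifold ContDiff Topology Bundle
open Set Metric Filter Bundle IsManifold Complex Asymptotics

set_option maxSynthPendingDepth 3
set_option linter.unusedSectionVars false
set_option linter.unusedVariables false

noncomputable section

namespace Vale.Agent.P253.R2.H451

open Vale.Agent.P253.Mfd Vale.Agent.P253.Mfd.LocalKahler Vale.Agent.P253.R2.H618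
  Vale.Agent.P253.R2.H922 Vale.Agent.P253.R2.H380.Stein

variable {E : Type*} [NormedAddCommGroup E] [NormedSpace ℂ E] [FiniteDimensional ℂ E]
  {M : Type*} [MetricSpace M] [ChartedSpace E M]
  [IsManifold 𝓘(ℂ, E) 1 M] [IsManifold 𝓘(ℝ, E) ∞ M]
  [RiemannianBundle (fun x : M => TangentSpace 𝓘(ℝ, E) x)]

/-- the bound `i∂∂̄u ≥ c ω` passes to the exponential -/
theorem weakLevi_exp_on {u c g : M → ℝ} {S : Set M} (hS : IsOpen S) (hu : WeakLevi E u c S)
    (hc : Continuous c) (hg : Continuous g) (hg0 : ∀ x ∈ S, 0 < g x)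
    (hle : ∀ x ∈ S, g x ≤ Real.exp (u x) * c x) :
    WeakLevi E (fun x => Real.exp (u x + 1)) g S := by
  have huc := hu.1
  refine weakLevi_of_tangent (by fun_prop) fun y hy => ?_
  set t := u y + 1 with ht
  have hTo : IsOpen (S ∩ {x | g x < Real.exp t * c x}) :=
    hS.inter (isOpen_lt hg (continuous_const.mul hc))
  have hlt : g y < Real.exp t * c y := by
    have h1 := hle y hy
    have h2 := hg0 y hy
    have h3 : 0 < Real.exp (u y) * c y := h2.trans_le h1
    have h4 : 0 < c y := (mul_pos_iff_of_pos_left (Real.exp_pos _)).1 h3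
    have h5 : Real.exp (u y) < Real.exp t := Real.exp_lt_exp.2 (by rw [ht]; linarith)
    exact h1.trans_lt (mul_lt_mul_of_pos_right h5 h4)
  refine ⟨_, hTo, ⟨hy, hlt⟩, fun x => Real.exp t * u x + Real.exp t * (2 - t), ?_,
    fun x _ => ?_, ?_⟩
  · show Real.exp t * u y + Real.exp t * (2 - t) = Real.exp (u y + 1)
    rw [← ht]
    have : u y = t - 1 := by rw [ht]; ring
    rw [this]; ring
  · have h1 := exp_tangent t (u x + 1)
    show Real.exp t * u x + Real.exp t * (2 - t) ≤ Real.exp (u x + 1)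
    linarith
  · exact ((hu.const_mul (Real.exp_pos t)).add_const _).mono inter_subset_left
      fun x hx => hx.2.le

/-- plurisubharmonic majorants of continuous functions -/
theorem exists_psh_ge {v : M → ℝ} (hv : ContPsh E v) (hcpt : ∀ t : ℝ, IsCompact {x | v x ≤ t})
    {H : M → ℝ} (hH : Continuous H) : ∃ φ : M → ℝ, ContPsh E φ ∧ ∀ x, H x ≤ φ x := by
  rcases isEmpty_or_nonempty M with hM | hM
  · exact ⟨fun _ => 0, SubS.contPsh (subS_const 0 univ), fun x => (hM.false x).elim⟩
  have hk : ∀ k : ℕ, ∃ mk : ℝ, 0 ≤ mk ∧ ∀ x, v x ≤ k → H x ≤ mk := by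
    intro k
    obtain ⟨B, hB⟩ := ((hcpt k).image hH).bddAbove
    exact ⟨max B 0, le_max_right _ _, fun x hx =>
      (hB (mem_image_of_mem _ hx)).trans (le_max_left _ _)⟩
  choose mk hmk0 hmk using hk
  set Mk : ℕ → ℝ := fun k => ∑ j ∈ Finset.range (k + 1), mk j with hMk
  have hMkmono : Monotone Mk := by
    refine monotone_nat_of_le_succ fun k => ?_
    simp only [hMk]
    rw [Finset.sum_range_succ _ (k + 1)]
    linarith [hmk0 (k + 1)]
  have hMkge : ∀ k, mk k ≤ Mk k := fun k =>
    Finset.single_le_sum (fun j _ => hmk0 j) (Finset.mem_range.2 (Nat.lt_succ_self k))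
  set g : ℝ → ℝ := fun s => Mk ⌈s⌉₊ with hg
  have hgm : Monotone g := hMkmono.comp Nat.ceil_mono
  have hg0 : ∀ s, 0 ≤ g s := fun s => (hmk0 _).trans (hMkge _)
  have hint : ∀ a b : ℝ, IntervalIntegrable g MeasureTheory.volume a b := fun a b =>
    hgm.intervalIntegrable
  obtain ⟨b, hb⟩ : ∃ b : ℝ, ∀ x, b ≤ v x := by
    obtain ⟨x₁⟩ := hM
    obtain ⟨x₂, hx₂, hmin⟩ :=
      (hcpt (v x₁)).exists_isMinOn ⟨x₁, le_refl (v x₁)⟩ hv.1.continuousOn
    refine ⟨v x₂, fun x => ?_⟩
    by_cases hx : v x ≤ v x₁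
    · exact hmin hx
    · push Not at hx
      exact (show v x₂ ≤ v x₁ from hx₂).trans hx.le
  set χ : ℝ → ℝ := fun t => ∫ s in b..t, g s with hχ
  have hχc : Continuous χ := intervalIntegral.continuous_primitive hint b
  have htan : ∀ t t₀ : ℝ, χ t₀ + g t₀ * (t - t₀) ≤ χ t := by
    intro t t₀
    have h1 : χ t - χ t₀ = ∫ s in t₀..t, g s := by
      simp only [hχ]
      exact intervalIntegral.integral_interval_sub_left (hint _ _) (hint _ _)
    rcases le_total t₀ t with h | h
    · have h2 : ∫ s in t₀..t, g t₀ ≤ ∫ s in t₀..t, g s :=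
        intervalIntegral.integral_mono_on h intervalIntegrable_const (hint _ _)
          (fun s hs => hgm hs.1)
      rw [intervalIntegral.integral_const, smul_eq_mul] at h2
      linarith
    · have h2 : ∫ s in t..t₀, g s ≤ ∫ s in t..t₀, g t₀ :=
        intervalIntegral.integral_mono_on h (hint _ _) intervalIntegrable_const
          (fun s hs => hgm hs.2)
      rw [intervalIntegral.integral_const, smul_eq_mul] at h2
      rw [intervalIntegral.integral_symm] at h1
      linarith
  refine ⟨fun x => χ (v x + 1), contPsh_of_tangent (hχc.comp (hv.1.add continuous_const))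
    fun y => ?_, fun x => ?_⟩
  · refine ⟨univ, isOpen_univ, mem_univ _, fun x => g (v y + 1) * v x +
      (χ (v y + 1) - g (v y + 1) * v y), by ring, fun x _ => ?_,
      ((hv.subS univ).const_mul (hg0 _)).add (subS_const _ _)⟩
    have := htan (v x + 1) (v y + 1)
    show g (v y + 1) * v x + (χ (v y + 1) - g (v y + 1) * v y) ≤ χ (v x + 1)
    linarith
  · have h1 := htan (v x + 1) (v x)
    have h2 : 0 ≤ χ (v x) := intervalIntegral.integral_nonneg (hb x) fun s _ => hg0 s
    have h3 : H x ≤ g (v x) := (hmk ⌈v x⌉₊ x (Nat.le_ceil _)).trans (hMkge _)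
    show H x ≤ χ (v x + 1)
    linarith

variable [IsContMDiffRiemannianBundle 𝓘(ℝ, E) ∞ E (fun x : M => TangentSpace 𝓘(ℝ, E) x)]
  [IsRiemannianManifold 𝓘(ℝ, E) M]

/-- functions with `i∂∂̄u ≥ c ω`, `c > 0`, are plurisubharmonic -/
theorem contPsh_of_weakLevi (hK : IsKahler E M) {u c : M → ℝ} (hu : WeakLevi E u c univ)
    (hc : Continuous c) (hc0 : ∀ x, 0 < c x) : ContPsh E u := by
  refine contPsh_of_tangent hu.1 fun y => ?_
  have hzero : ∀ x, FourGe (E := E) (fun _ : M => (0:ℝ)) x (-0) := by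
    intro x e he hx Y a ha η hη
    filter_upwards with r
    simp only [Finset.sum_const_zero, mul_zero, zero_mul, zero_add, zero_sub, neg_zero]
    have : 0 ≤ r ^ 2 * η := by positivity
    linarith
  obtain ⟨T, hTo, hyT, -, hsub⟩ := subS_of_weakLevi hK (s := fun _ => (0:ℝ)) hu isOpen_univ
    continuous_const le_rfl (fun x _ => hzero x) (mem_univ y) hc.continuousAt (hc0 y)
  refine ⟨T, hTo, hyT, fun x => u x + 0, add_zero _, fun x _ => (add_zero _).le, hsub⟩

/-- **Third criterion**, outside a compact set. -/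
theorem stein_weight (hK : IsKahler E M) [CompleteSpace M] [ConnectedSpace M]
    [NoncompactSpace M] (hnn : ∀ x : M, NonnegBisectionalAt E x) (p : M) {A : Set M}
    (hA : IsCompact A) (hpos : PosOrEmpty E A) {u c : M → ℝ} {lam : ℝ → ℝ} (hl : IsDecay lam)
    (hup : ContPsh E u) (hc : Continuous c) (hu : WeakLevi E u c Aᶜ)
    (hle : ∀ x ∈ Aᶜ, lam (dist p x) ≤ Real.exp (u x) * c x)
    (hgrow : Tendsto (fun r : ℝ => ∫ s in (0:ℝ)..r, s * lam s) atTop atTop) :
    HasSpshExhaustion E M := by
  have hlc := hl.1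
  have h1 : WeakLevi E (fun x => Real.exp (u x + 1)) (fun x => lam (dist p x)) Aᶜ :=
    weakLevi_exp_on hA.isClosed.isOpen_compl hu hc (by fun_prop)
      (fun x _ => hl.2.1 _ dist_nonneg) hle
  refine stein_majorant hK hnn p hA hpos (φ := fun _ => 0) hl.1 hl.2.1 hl.2.2
    (contPsh_exp (SubS.contPsh ((hup.subS univ).add (subS_const 1 univ))))
    (fun x => (Real.exp_pos _).le) (SubS.contPsh (subS_const 0 univ)) ?_ hgrow
  simpa using h1

/-- **The hull theorem**, general form. -/
theorem hull_weight (hK : IsKahler E M) [CompleteSpace M] [ConnectedSpace M]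
    [NoncompactSpace M] (hnn : ∀ x : M, NonnegBisectionalAt E x) {A : Set M} (hA : IsCompact A)
    (hpos : PosOrEmpty E A) {u χ : M → ℝ} (hup : ContPsh E u) (hχ : ContPsh E χ)
    (hu : WeakLevi E u (fun x => Real.exp (-u x)) ({x | 0 < χ x} \ A)) {K : Set M}
    (hKc : IsCompact K) (p : M) :
    ∃ C : ℝ, ∀ x ∈ pshHull E K, dist p x ^ 2 * χ x ≤ C := by
  have huc := hup.1
  have hS : IsOpen ({x | 0 < χ x} \ A) := (isOpen_lt continuous_const hχ.1).sdiff hA.isClosed
  have h1 : WeakLevi E (fun x => Real.exp (u x + 1)) (fun _ => 1) ({x | 0 < χ x} \ A) :=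
    weakLevi_exp_on hS hu (by fun_prop) continuous_const (fun x _ => one_pos)
      (fun x _ => by rw [← Real.exp_add, add_neg_cancel, Real.exp_zero])
  refine hull_outside hK hnn hA hpos (φ := fun _ => 0)
    (contPsh_exp (SubS.contPsh ((hup.subS univ).add (subS_const 1 univ))))
    (fun x => (Real.exp_pos _).le) (SubS.contPsh (subS_const 0 univ)) hχ ?_ hKc p
  simpa using h1

/-- **The Busemann function.** It is plurisubharmonic with a lower bound for its Levi form. -/
theorem busemann_levi (hK : IsKahler E M) [CompleteSpace M] [ConnectedSpace M]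
    [NoncompactSpace M]
    (hnn : ∀ x : M, NonnegBisectionalAt E x) (p : M) {k : ℝ → ℝ} (hk : IsDecay k)
    (hi : MeasureTheory.IntegrableOn k (Ioi 0))
    (hcurv : ∀ x : M, BisectionalGe E x (k (dist p x))) :
    ContPsh E (busemann p) ∧ IsDecay (fun r => (∫ s in Ioi r, k s) / 4) ∧
      WeakLevi E (busemann p) (fun x => (∫ s in Ioi (dist p x), k s) / 4) univ := by
  have hprop : ProperSpace M := properSpace_riemannian E M
  obtain ⟨hQc, hQ0, hQa⟩ := tail_decay hk hi
  have hw := weakLevi_busemann hK hnn p hk hi hcurv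
  have hcc : Continuous fun x => (∫ s in Ioi (dist p x), k s) / 4 :=
    (hQc.comp (continuous_const.dist continuous_id : Continuous fun x => dist p x)).div_const 4
  have hpos : ∀ x, 0 < (∫ s in Ioi (dist p x), k s) / 4 := fun x => by
    have : 0 < ∫ s in Ioi (dist p x), k s := hQ0 _ dist_nonneg
    positivity
  refine ⟨contPsh_of_weakLevi hK hw hcc hpos, ⟨hQc.div_const 4, fun t ht => ?_,
    fun a ha b hb hab => ?_⟩, hw⟩
  · have : 0 < ∫ s in Ioi t, k s := hQ0 t ht
    show 0 < (∫ s in Ioi t, k s) / 4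
    positivity
  · have : ∫ s in Ioi b, k s ≤ ∫ s in Ioi a, k s := hQa ha hb hab
    show (∫ s in Ioi b, k s) / 4 ≤ (∫ s in Ioi a, k s) / 4
    linarith

/-- **The Busemann function and Stein manifolds.** -/
theorem stein_iff_busemann (hK : IsKahler E M) [CompleteSpace M] [ConnectedSpace M]
    [NoncompactSpace M]
    (hnn : ∀ x : M, NonnegBisectionalAt E x) (p : M) {k : ℝ → ℝ} (hk : IsDecay k)
    (hi : MeasureTheory.IntegrableOn k (Ioi 0))
    (hcurv : ∀ x : M, BisectionalGe E x (k (dist p x))) :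
    HasSpshExhaustion E M ↔ ∃ (φ : M → ℝ) (lam : ℝ → ℝ), ContPsh E φ ∧ IsDecay lam ∧
      Tendsto (fun r : ℝ => ∫ s in (0:ℝ)..r, s * lam s) atTop atTop ∧
      ∀ x, lam (dist p x) ≤
        Real.exp (busemann p x + φ x) * ∫ s in Ioi (dist p x), k s := by
  have hprop : ProperSpace M := properSpace_riemannian E M
  have hbc := continuous_busemann p
  obtain ⟨hbp, ⟨hQc, hQ0, hQa⟩, hw⟩ := busemann_levi hK hnn p hk hi hcurv
  have hdp : Continuous fun x => dist p x := continuous_const.dist continuous_id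
  have hcc : Continuous fun x => (∫ s in Ioi (dist p x), k s) / 4 := hQc.comp hdp
  have hpos : ∀ x, 0 < ∫ s in Ioi (dist p x), k s := fun x => by
    have : 0 < (∫ s in Ioi (dist p x), k s) / 4 := hQ0 _ dist_nonneg
    linarith
  have hcc' : Continuous fun x => ∫ s in Ioi (dist p x), k s :=
    (continuous_const.mul hcc).congr fun x => (by ring :
      4 * ((∫ s in Ioi (dist p x), k s) / 4) = ∫ s in Ioi (dist p x), k s)
  refine ⟨fun h => ?_, fun ⟨φ, lam, hφ, hl, hgrow, hle⟩ => ?_⟩
  · obtain ⟨v, hv, hcpt, hstr⟩ := h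
    obtain ⟨φ, hφ, hge⟩ := exists_psh_ge (contPsh_of_strict hK hv hstr) hcpt
      (H := fun x => -busemann p x - Real.log (∫ s in Ioi (dist p x), k s))
      (hbc.neg.sub (Continuous.log hcc' fun x => (hpos x).ne'))
    refine ⟨φ, fun _ => 1, hφ, ⟨continuous_const, fun _ _ => one_pos,
      fun _ _ _ _ _ => le_rfl⟩, ?_, fun x => ?_⟩
    · simp only [mul_one, integral_id]
      have h1 : Tendsto (fun r : ℝ => r ^ 2) atTop atTop := tendsto_pow_atTop two_ne_zero
      have h2 : Tendsto (fun r : ℝ => (1 / 2) * r ^ 2) atTop atTop :=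
        h1.const_mul_atTop (by norm_num)
      refine h2.congr fun r => ?_
      ring
    · have h1 := hge x
      have h3 := hpos x
      have h4 : Real.exp (-Real.log (∫ s in Ioi (dist p x), k s)) ≤
          Real.exp (busemann p x + φ x) := Real.exp_le_exp.2 (by linarith)
      rw [Real.exp_neg, Real.exp_log h3] at h4
      calc (1:ℝ) = (∫ s in Ioi (dist p x), k s)⁻¹ * ∫ s in Ioi (dist p x), k s :=
            (inv_mul_cancel₀ h3.ne').symm
        _ ≤ _ := mul_le_mul_of_nonneg_right h4 h3.le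
  · refine stein_weight hK hnn p isCompact_empty (Or.inr rfl)
      (u := fun x => busemann p x + φ x + Real.log 4) hl
      (SubS.contPsh (((hbp.subS univ).add (hφ.subS univ)).add (subS_const _ univ))) hcc
      (((hw.add_psh hφ).add_const _).mono (subset_univ _) fun x _ => le_rfl)
      (fun x _ => (hle x).trans (le_of_eq ?_)) hgrow
    rw [Real.exp_add (busemann p x + φ x) (Real.log 4), Real.exp_log (by norm_num : (0:ℝ) < 4)]
    ring

end Vale.Agent.P253.R2.H451
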