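import Vale.Agent.P253.R2.H451.Bus5

/-!
P253: the case of cubic decay of the bisectional curvature.
-/

open scoped Manifold ContDiff Topology Bundle
open Set Metric Filter Bundle IsManifold Complex Asymptotics

set_option maxSynthPendingDepth 3
set_option linter.unusedSectionVars false
set_option linter.unusedVariables false

noncomputable section

namespace Vale.Agent.P253.R2.H451

open Vale.Agent.P253.Mfd Vale.Agent.P253.Mfd.LocalKahler Vale.Agent.P253.R2.H618
  Vale.Agent.P253.R2.H922 Vale.Agent.P253.R2.H380.Stein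

section cubic

/-- the cubic bound -/
def cub (c s : ℝ) : ℝ := c / (1 + |s|) ^ 3

theorem cub_eq {c s : ℝ} (hs : 0 ≤ s) : cub c s = c / (1 + s) ^ 3 := by
  rw [cub, abs_of_nonneg hs]

theorem cub_decay {c : ℝ} (hc : 0 < c) : IsDecay (cub c) := by
  refine ⟨?_, fun t ht => ?_, fun a ha b hb hab => ?_⟩
  · refine continuous_const.div (by fun_prop) fun s => ?_
    have : 0 ≤ |s| := abs_nonneg s
    positivity
  · rw [cub_eq ht]; positivity
  · have ha' : (0:ℝ) ≤ a := ha
    have hb' : (0:ℝ) ≤ b := hb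
    rw [cub_eq ha', cub_eq hb']
    gcongr

theorem cub_deriv (c : ℝ) {s : ℝ} (hs : 0 ≤ s) :
    HasDerivAt (fun s => -(c / 2 / (1 + s) ^ 2)) (c / (1 + s) ^ 3) s := by
  have h1 : HasDerivAt (fun s : ℝ => (1 + s) ^ 2) (2 * (1 + s)) s := by
    have := ((hasDerivAt_id s).const_add 1).fun_pow 2
    simpa using this
  have h2 := ((hasDerivAt_const s (c / 2)).div h1 (by positivity)).neg
  convert! h2 using 1
  have : (1 + s) ≠ 0 := by positivity
  field_simp
  ring

theorem cub_lim (c : ℝ) : Tendsto (fun s : ℝ => -(c / 2 / (1 + s) ^ 2)) atTop (𝓝 0) := by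
  have h1 : Tendsto (fun s : ℝ => (1 + s) ^ 2) atTop atTop :=
    (tendsto_pow_atTop two_ne_zero).comp (tendsto_atTop_add_const_left _ 1 tendsto_id)
  have h2 := (h1.const_div_atTop (c / 2)).neg
  simpa using h2

theorem cub_integrable {c : ℝ} (hc : 0 < c) {r : ℝ} (hr : 0 ≤ r) :
    MeasureTheory.IntegrableOn (cub c) (Ioi r) := by
  have h1 : MeasureTheory.IntegrableOn (fun s => c / (1 + s) ^ 3) (Ioi r) :=
    MeasureTheory.integrableOn_Ioi_deriv_of_nonneg' (fun s hs => cub_deriv c (hr.trans hs))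
      (fun s hs => by
        have : 0 ≤ s := hr.trans (le_of_lt hs)
        positivity) (cub_lim c)
  exact h1.congr_fun (fun s hs => (cub_eq (hr.trans (le_of_lt hs))).symm) measurableSet_Ioi

theorem cub_tail {c : ℝ} (hc : 0 < c) {r : ℝ} (hr : 0 ≤ r) :
    ∫ s in Ioi r, cub c s = c / 2 / (1 + r) ^ 2 := by
  have h1 : ∫ s in Ioi r, cub c s = ∫ s in Ioi r, c / (1 + s) ^ 3 :=
    MeasureTheory.setIntegral_congr_fun measurableSet_Ioi fun s hs =>
      cub_eq (hr.trans (le_of_lt hs))
  have h2 := MeasureTheory.integral_Ioi_of_hasDerivAt_of_nonneg'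
    (fun s (hs : s ∈ Ici r) => cub_deriv c (hr.trans hs))
    (fun s hs => by
      have : 0 ≤ s := hr.trans (le_of_lt hs)
      positivity) (cub_lim c)
  rw [h1, h2]
  ring

theorem cub_growth {c : ℝ} (hc : 0 < c) :
    Tendsto (fun r : ℝ => ∫ s in (0:ℝ)..r, s * ∫ t in Ioi s, cub c t) atTop atTop := by
  have h1 : Tendsto (fun r : ℝ => c / 2 * (Real.log (1 + r) - 1)) atTop atTop := by
    refine Tendsto.const_mul_atTop (by positivity) ?_
    have h2 : Tendsto (fun r : ℝ => Real.log (1 + r)) atTop atTop :=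
      Real.tendsto_log_atTop.comp (tendsto_atTop_add_const_left _ 1 tendsto_id)
    exact tendsto_atTop_add_const_right _ (-1) h2
  refine tendsto_atTop_mono' _ ?_ h1
  filter_upwards [eventually_ge_atTop 0] with r hr
  have e1 : ∫ s in (0:ℝ)..r, s * ∫ t in Ioi s, cub c t =
      ∫ s in (0:ℝ)..r, c / 2 * (1 / (1 + s) - 1 / (1 + s) ^ 2) := by
    refine intervalIntegral.integral_congr fun s hs => ?_
    rw [uIcc_of_le hr] at hs
    have hs0 : 0 ≤ s := hs.1
    show s * ∫ t in Ioi s, cub c t = c / 2 * (1 / (1 + s) - 1 / (1 + s) ^ 2)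
    rw [cub_tail hc hs0]
    have : (1 + s) ≠ 0 := by positivity
    field_simp
    ring
  have hd : ∀ s ∈ uIcc 0 r, HasDerivAt (fun s : ℝ => c / 2 * (Real.log (1 + s) + 1 / (1 + s)))
      (c / 2 * (1 / (1 + s) - 1 / (1 + s) ^ 2)) s := by
    intro s hs
    rw [uIcc_of_le hr] at hs
    have hs0 : 0 ≤ s := hs.1
    have hne : (1 + s) ≠ 0 := by positivity
    have h2 : HasDerivAt (fun s : ℝ => 1 + s) 1 s := by
      simpa using (hasDerivAt_id s).const_add 1
    have h3 := h2.log hne
    have h4 := (hasDerivAt_const s (1:ℝ)).div h2 hne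
    have h5 := (h3.add h4).const_mul (c / 2)
    convert! h5 using 1
    field_simp
    ring
  have hcont : ContinuousOn (fun s : ℝ => c / 2 * (1 / (1 + s) - 1 / (1 + s) ^ 2)) (uIcc 0 r) := by
    rw [uIcc_of_le hr]
    refine continuousOn_const.mul ((continuousOn_const.div (by fun_prop) fun s hs => ?_).sub
      (continuousOn_const.div (by fun_prop) fun s hs => ?_))
    · have : 0 ≤ s := hs.1
      positivity
    · have : 0 ≤ s := hs.1
      positivity
  have h2 := intervalIntegral.integral_eq_sub_of_hasDerivAt hd hcont.intervalIntegrable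
  rw [e1, h2]
  simp only [add_zero, Real.log_one, div_one, zero_add, mul_one]
  have h3 : 0 ≤ c / 2 * (1 / (1 + r)) := by positivity
  linarith

end cubic

variable {E : Type*} [NormedAddCommGroup E] [NormedSpace ℂ E] [FiniteDimensional ℂ E]
  {M : Type*} [MetricSpace M] [ChartedSpace E M]
  [IsManifold 𝓘(ℂ, E) 1 M] [IsManifold 𝓘(ℝ, E) ∞ M]
  [RiemannianBundle (fun x : M => TangentSpace 𝓘(ℝ, E) x)]
  [IsContMDiffRiemannianBundle 𝓘(ℝ, E) ∞ E (fun x : M => TangentSpace 𝓘(ℝ, E) x)]
  [IsRiemannianManifold 𝓘(ℝ, E) M]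

/-- **The linear form of the criterion.** -/
theorem stein_iff_tendsto (hK : IsKahler E M) [CompleteSpace M] [ConnectedSpace M]
    [NoncompactSpace M]
    (hnn : ∀ x : M, NonnegBisectionalAt E x) (p : M) {k : ℝ → ℝ} (hk : IsDecay k)
    (hi : MeasureTheory.IntegrableOn k (Ioi 0))
    (hcurv : ∀ x : M, BisectionalGe E x (k (dist p x))) :
    HasSpshExhaustion E M ↔ ∃ φ : M → ℝ, ContPsh E φ ∧
      Tendsto (fun x => busemann p x + φ x +
        1 / 1280 * ∫ s in (0:ℝ)..dist p x, s * ∫ t in Ioi s, k t) (cocompact M) atTop := by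
  have hprop : ProperSpace M := properSpace_riemannian E M
  obtain ⟨hbp, hQ, hw⟩ := busemann_levi hK hnn p hk hi hcurv
  refine ⟨fun h => ?_, fun ⟨φ, hφ, hgrow⟩ => ?_⟩
  · obtain ⟨v, hv, hcpt, hstr⟩ := h
    obtain ⟨φ, hφ, hle⟩ := exists_psh_ge (contPsh_of_strict hK hv hstr) hcpt
      (H := fun x => dist p x - busemann p x)
      ((continuous_const.dist continuous_id : Continuous fun x => dist p x).sub
        (continuous_busemann p))
    refine ⟨φ, hφ, ?_⟩
    have h1 : Tendsto (fun x => dist p x) (cocompact M) atTop := by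
      simpa only [dist_comm p] using tendsto_dist_right_cocompact_atTop p
    refine tendsto_atTop_mono (fun x => ?_) h1
    have h2 := hle x
    have h3 : 0 ≤ ∫ s in (0:ℝ)..dist p x, s * ∫ t in Ioi s, k t :=
      intervalIntegral.integral_nonneg dist_nonneg fun s hs =>
        mul_nonneg hs.1 ((tail_decay hk hi).2.1 s hs.1).le
    linarith
  · refine exhaustion_of_decay_weak hK hnn p hQ.1 hQ.2.1 hQ.2.2 (hw.add_psh hφ)
      (hgrow.congr fun x => ?_)
    have e1 : ∫ s in (0:ℝ)..dist p x, s * ((∫ t in Ioi s, k t) / 4) =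
        1 / 4 * ∫ s in (0:ℝ)..dist p x, s * ∫ t in Ioi s, k t := by
      rw [← intervalIntegral.integral_const_mul]
      congr 1
      funext s
      ring
    rw [e1]
    ring

/-- **Slow decay.** -/
theorem stein_iff_of_growth (hK : IsKahler E M) [CompleteSpace M] [ConnectedSpace M]
    [NoncompactSpace M]
    (hnn : ∀ x : M, NonnegBisectionalAt E x) (p : M) {k : ℝ → ℝ} (hk : IsDecay k)
    (hi : MeasureTheory.IntegrableOn k (Ioi 0))
    (hcurv : ∀ x : M, BisectionalGe E x (k (dist p x)))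
    (hgrow : Tendsto (fun r : ℝ => ∫ s in (0:ℝ)..r, s * ∫ t in Ioi s, k t) atTop atTop) :
    HasSpshExhaustion E M ↔ ∃ φ : M → ℝ, ContPsh E φ ∧ ∀ x, -busemann p x ≤ φ x := by
  have hprop : ProperSpace M := properSpace_riemannian E M
  refine ⟨fun h => ?_, fun ⟨φ, hφ, hle⟩ => ?_⟩
  · obtain ⟨v, hv, hcpt, hstr⟩ := h
    exact exists_psh_ge (contPsh_of_strict hK hv hstr) hcpt (continuous_busemann p).neg
  · refine (stein_iff_busemann hK hnn p hk hi hcurv).2
      ⟨φ, fun r => ∫ s in Ioi r, k s, hφ, tail_decay hk hi, hgrow, fun x => ?_⟩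
    have h1 : 0 < ∫ s in Ioi (dist p x), k s := (tail_decay hk hi).2.1 _ dist_nonneg
    have h2 : 1 ≤ Real.exp (busemann p x + φ x) :=
      Real.one_le_exp (by have := hle x; linarith)
    exact le_mul_of_one_le_left h1.le h2

/-- **Cubic decay.** -/
theorem stein_iff_cubic (hK : IsKahler E M) [CompleteSpace M] [ConnectedSpace M]
    [NoncompactSpace M]
    (hnn : ∀ x : M, NonnegBisectionalAt E x) (p : M) {c : ℝ} (hc : 0 < c)
    (hcurv : ∀ x : M, BisectionalGe E x (c / (1 + dist p x) ^ 3)) :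
    HasSpshExhaustion E M ↔ ∃ φ : M → ℝ, ContPsh E φ ∧ ∀ x, -busemann p x ≤ φ x :=
  stein_iff_of_growth hK hnn p (cub_decay hc) (cub_integrable hc le_rfl)
    (fun x => by rw [cub_eq dist_nonneg]; exact hcurv x) (cub_growth hc)

end Vale.Agent.P253.R2.H451
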