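import Mathlib.Order.LiminfLimsup
import Mathlib.Topology.MetricSpace.ProperSpace
import Vale.Agent.P253.Mfd.Defs

/-! P253: lower bounds for the bisectional curvature and the Busemann function. -/

open scoped Manifold Bundle
open Set Metric Filter IsManifold Complex Vale.Agent.P253.Mfd

namespace Vale.Agent.P253.R2.H451

/-- the bisectional curvature at `x` is at least `k`:
`Rm(u, v, v, u) + Rm(u, Jv, Jv, u) ≥ k |u|² |v|²` -/
def BisectionalGe (E : Type*) [NormedAddCommGroup E] [NormedSpace ℂ E] {M : Type*} [MetricSpace M]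
    [ChartedSpace E M] [Bundle.RiemannianBundle (fun x : M => TangentSpace 𝓘(ℝ, E) x)]
    (x : M) (k : ℝ) : Prop :=
  ∀ e ∈ maximalAtlas 𝓘(ℂ, E) 1 M, x ∈ e.source →
    ∃ Γ, IsChristoffel e (e x) Γ ∧
      ∀ u v, k * chartMetric e (e x) u u * chartMetric e (e x) v v ≤
        sectNum e (e x) Γ u v + sectNum e (e x) Γ u (I • v)

/-- the Busemann function `limsup (d(p, q) - d(x, q))` as `q` tends to infinity -/
noncomputable def busemann {M : Type*} [MetricSpace M] (p x : M) : ℝ :=
  limsup (fun q => dist p q - dist x q) (cocompact M)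

end Vale.Agent.P253.R2.H451
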