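import Vale.Agent.P253.R2.H451.Inv
import Mathlib.Analysis.Complex.CauchyIntegral

/-!
P253 M8 (c): derivatives of `H ∘ φ` for `φ` holomorphic.
-/

open Set Filter Complex
open scoped Topology ContDiff

noncomputable section

namespace Vale.Agent.P253.R2.H451

variable {V : Type*} [NormedAddCommGroup V] [NormedSpace ℂ V] [CompleteSpace V]
  {W : Type*} [NormedAddCommGroup W] [NormedSpace ℝ W]

/-- the real Laplacian in the plane -/
def lap (k : ℂ → W) (z : ℂ) : W :=
  fderiv ℝ (fun y => fderiv ℝ k y 1) z 1 + fderiv ℝ (fun y => fderiv ℝ k y I) z I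

theorem fderiv_comp_hol {H : V → W} {φ : ℂ → V} {z : ℂ} (hφ : DifferentiableAt ℂ φ z)
    (hH : DifferentiableAt ℝ H (φ z)) (u : ℂ) :
    fderiv ℝ (fun y => H (φ y)) z u = fderiv ℝ H (φ z) (u • deriv φ z) := by
  have h1 : HasFDerivAt φ ((fderiv ℂ φ z).restrictScalars ℝ) z := hφ.hasFDerivAt.restrictScalars ℝ
  have h2 := (hH.hasFDerivAt.comp z h1).fderiv
  have h3 : fderiv ℝ (fun y => H (φ y)) z = _ := h2
  rw [h3]
  simp only [ContinuousLinearMap.coe_comp, Function.comp_apply,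
    ContinuousLinearMap.coe_restrictScalars']
  congr 1
  rw [← fderiv_apply_one_eq_deriv, ← ContinuousLinearMap.map_smul, smul_eq_mul, mul_one]

theorem second_comp_hol {H : V → W} {φ : ℂ → V} {z : ℂ} (hφ : AnalyticAt ℂ φ z)
    (hH : ContDiffAt ℝ 2 H (φ z)) (u : ℂ) :
    fderiv ℝ (fun y => fderiv ℝ (fun x => H (φ x)) y u) z u =
      fderiv ℝ (fun x => fderiv ℝ H x (u • deriv φ z)) (φ z) (u • deriv φ z) +
        fderiv ℝ H (φ z) ((u * u) • deriv (deriv φ) z) := by
  have hcont : ContinuousAt φ z := hφ.continuousAt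
  have hev : (fun y => fderiv ℝ (fun x => H (φ x)) y u) =ᶠ[𝓝 z]
      fun y => fderiv ℝ H (φ y) (u • deriv φ y) := by
    have h1 : ∀ᶠ y in 𝓝 z, DifferentiableAt ℝ H (φ y) :=
      hcont.eventually ((hH.eventually (by simp)).mono fun y hy => hy.differentiableAt (by norm_num))
    filter_upwards [h1, hφ.eventually_analyticAt] with y hy hy'
    exact fderiv_comp_hol hy'.differentiableAt hy u
  rw [hev.fderiv_eq]
  have hH1 : DifferentiableAt ℝ (fderiv ℝ H) (φ z) := by
    have : ContDiffAt ℝ 1 (fderiv ℝ H) (φ z) := hH.fderiv_right (by norm_num)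
    exact this.differentiableAt (by norm_num)
  have hφ1 : HasFDerivAt φ ((fderiv ℂ φ z).restrictScalars ℝ) z :=
    hφ.differentiableAt.hasFDerivAt.restrictScalars ℝ
  have hφ2 : HasFDerivAt (fun y => u • deriv φ y)
      ((u • (fderiv ℂ (deriv φ) z)).restrictScalars ℝ) z :=
    (hφ.deriv.differentiableAt.hasFDerivAt.const_smul u).restrictScalars ℝ
  have h3 : HasFDerivAt (fun y => fderiv ℝ H (φ y))
      ((fderiv ℝ (fderiv ℝ H) (φ z)).comp ((fderiv ℂ φ z).restrictScalars ℝ)) z :=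
    hH1.hasFDerivAt.comp z hφ1
  have h4 := (h3.clm_apply hφ2).fderiv
  have h5 : fderiv ℝ (fun y => fderiv ℝ H (φ y) (u • deriv φ y)) z = _ := h4
  rw [h5]
  have e1 : (fderiv ℂ φ z) u = u • deriv φ z := by
    rw [← fderiv_apply_one_eq_deriv, ← ContinuousLinearMap.map_smul, smul_eq_mul, mul_one]
  have e2 : (fderiv ℂ (deriv φ) z) u = u • deriv (deriv φ) z := by
    rw [← fderiv_apply_one_eq_deriv, ← ContinuousLinearMap.map_smul, smul_eq_mul, mul_one]
  have e3 : fderiv ℝ (fun x => fderiv ℝ H x (u • deriv φ z)) (φ z) (u • deriv φ z) =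
      (fderiv ℝ (fderiv ℝ H) (φ z) (u • deriv φ z)) (u • deriv φ z) := by
    rw [fderiv_clm_apply hH1 (differentiableAt_const _)]
    simp
  rw [e3]
  simp only [add_apply, ContinuousLinearMap.coe_comp, Function.comp_apply,
    ContinuousLinearMap.coe_restrictScalars', ContinuousLinearMap.flip_apply,
    smul_apply, e1, e2, smul_smul]
  rw [add_comm]

theorem lap_comp_hol {H : V → W} {φ : ℂ → V} {z : ℂ} (hφ : AnalyticAt ℂ φ z)
    (hH : ContDiffAt ℝ 2 H (φ z)) :
    lap (fun x => H (φ x)) z =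
      fderiv ℝ (fun x => fderiv ℝ H x (deriv φ z)) (φ z) (deriv φ z) +
      fderiv ℝ (fun x => fderiv ℝ H x (I • deriv φ z)) (φ z) (I • deriv φ z) := by
  rw [lap, second_comp_hol hφ hH, second_comp_hol hφ hH]
  simp only [one_smul, mul_one, I_mul_I, neg_smul, map_neg]
  abel

end Vale.Agent.P253.R2.H451
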