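import Vale.Agent.P253.Mfd.Defs

/-!
P253 M8, part (a): a `C^1` curve of finite length in a complete Riemannian manifold converges.
-/

open scoped Manifold ContDiff Topology Bundle ENNReal
open Bundle Set MeasureTheory Filter

noncomputable section

namespace Vale.Agent.P253.R2.H451

variable {E : Type*} [NormedAddCommGroup E] [NormedSpace ℝ E]
  {M : Type*} [MetricSpace M] [ChartedSpace E M]
  [IsManifold 𝓘(ℝ, E) 1 M]
  [RiemannianBundle (fun x : M => TangentSpace 𝓘(ℝ, E) x)]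
  [IsRiemannianManifold 𝓘(ℝ, E) M]

/-- a curve on `(0, r₀]` of finite length in a complete Riemannian manifold has a limit at `0` -/
theorem exists_tendsto_of_finite_length [CompleteSpace M] {γ : ℝ → M} {r₀ : ℝ} (hr₀ : 0 < r₀)
    (hγ : ContMDiffOn 𝓘(ℝ, ℝ) 𝓘(ℝ, E) 1 γ (Ioc 0 r₀))
    (hfin : ∫⁻ t in Ioo 0 r₀, ‖(mfderiv 𝓘(ℝ, ℝ) 𝓘(ℝ, E) γ t 1 : TangentSpace 𝓘(ℝ, E) (γ t))‖ₑ ≠ ⊤) :
    ∃ q : M, Tendsto γ (𝓝[>] 0) (𝓝 q) := by
  set f : ℝ → ℝ≥0∞ := fun t => ‖(mfderiv 𝓘(ℝ, ℝ) 𝓘(ℝ, E) γ t 1 : TangentSpace 𝓘(ℝ, E) (γ t))‖ₑ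
  have hdist : ∀ a b : ℝ, 0 < a → a ≤ b → b ≤ r₀ →
      edist (γ a) (γ b) ≤ ∫⁻ t in Ioo a b, f t := by
    intro a b ha hab hb
    rw [IsRiemannianManifold.out (I := 𝓘(ℝ, E)) (γ a) (γ b)]
    refine (Manifold.riemannianEDist_le_pathELength (γ := γ) (a := a) (b := b)
      (hγ.mono fun t ht => ⟨ha.trans_le ht.1, ht.2.trans hb⟩) rfl rfl hab).trans_eq ?_
    rw [Manifold.pathELength_eq_lintegral_mfderiv_Ioo]
  have hsmall : Tendsto (fun b : ℝ => ∫⁻ t in Ioo 0 b, f t) (𝓝[>] 0) (𝓝 0) := by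
    have h1 : ∀ b ∈ Ioo (0 : ℝ) r₀, ∫⁻ t in Ioo 0 b, f t = ∫⁻ t in Ioo 0 r₀,
        (Ioo 0 b).indicator f t := by
      intro b hb
      rw [lintegral_indicator measurableSet_Ioo, Measure.restrict_restrict measurableSet_Ioo,
        inter_eq_left.2 (Ioo_subset_Ioo_right hb.2.le)]
    have h2 := tendsto_setLIntegral_zero (μ := volume.restrict (Ioo 0 r₀)) (f := f) hfin
      (l := 𝓝[>] (0 : ℝ)) (s := fun b => Ioo 0 b) ?_
    · refine h2.congr' ?_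
      filter_upwards [Ioo_mem_nhdsGT hr₀] with b hb
      rw [Measure.restrict_restrict measurableSet_Ioo,
        inter_eq_left.2 (Ioo_subset_Ioo_right hb.2.le)]
    · have h3 : ∀ᶠ b in 𝓝[>] (0 : ℝ), (volume.restrict (Ioo 0 r₀)) (Ioo 0 b) = ENNReal.ofReal b := by
        filter_upwards [Ioo_mem_nhdsGT hr₀] with b hb
        rw [Measure.restrict_apply measurableSet_Ioo,
          inter_eq_left.2 (Ioo_subset_Ioo_right hb.2.le), Real.volume_Ioo, sub_zero]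
      refine Tendsto.congr' (h3.mono fun b hb => hb.symm) ?_
      have : Tendsto (fun b : ℝ => ENNReal.ofReal b) (𝓝 0) (𝓝 (ENNReal.ofReal 0)) :=
        ENNReal.continuous_ofReal.tendsto 0
      rw [ENNReal.ofReal_zero] at this
      exact this.mono_left nhdsWithin_le_nhds
  have hcau : Cauchy (map γ (𝓝[>] (0 : ℝ))) := by
    rw [EMetric.cauchy_iff]
    refine ⟨NeBot.ne inferInstance, fun ε hε => ?_⟩
    have h4 : ∀ᶠ b in 𝓝[>] (0 : ℝ), ∫⁻ t in Ioo 0 b, f t < ε :=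
      hsmall.eventually (gt_mem_nhds hε)
    obtain ⟨b, hb1, hb2⟩ := (h4.and (Ioo_mem_nhdsGT hr₀)).exists
    refine ⟨γ '' Ioo 0 b, image_mem_map (Ioo_mem_nhdsGT hb2.1), ?_⟩
    have key : ∀ x ∈ Ioo 0 b, ∀ y ∈ Ioo 0 b, x ≤ y → edist (γ x) (γ y) < ε := by
      intro x hx y hy hxy
      refine (hdist x y hx.1 hxy (hy.2.le.trans hb2.2.le)).trans_lt (lt_of_le_of_lt ?_ hb1)
      exact lintegral_mono_set (Ioo_subset_Ioo hx.1.le hy.2.le)
    rintro _ ⟨x, hx, rfl⟩ _ ⟨y, hy, rfl⟩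
    rcases le_total x y with h | h
    · exact key x hx y hy h
    · rw [edist_comm]; exact key y hy x hx h
  obtain ⟨q, hq⟩ := CompleteSpace.complete hcau
  exact ⟨q, hq⟩

end Vale.Agent.P253.R2.H451
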