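import Vale.Agent.P253.R2.H451.Hull9

/-!
P253: the decay of the differential of a holomorphic map along the hull of a compact set.
-/

open scoped Manifold ContDiff Topology Bundle
open Set Metric Filter Bundle IsManifold Complex Asymptotics

set_option maxSynthPendingDepth 3
set_option linter.unusedSectionVars false
set_option linter.unusedVariables false

noncomputable section

namespace Vale.Agent.P253.R2.H451

open Vale.Agent.P253.Mfd Vale.Agent.P253.Mfd.LocalKahler Vale.Agent.P253.R2.H618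
  Vale.Agent.P253.R2.H922 Vale.Agent.P253.R2.H380.Stein

section ineq

variable {E : Type*} [NormedAddCommGroup E] [NormedSpace ℂ E] [FiniteDimensional ℂ E]
  [Nontrivial E] {G : E → E →L[ℝ] E →L[ℝ] ℝ} {U : Set E} {z : E} {n : ℕ}

theorem pow_le_Sq (h : LocalKahler G U) (hz : z ∈ U) (hn : Module.finrank ℂ E = n)
    {T : E →L[ℂ] EuclideanSpace ℂ (Fin n)} {ε : ℝ} (hε : 0 < ε)
    (hT : ∀ v, ε * G z v v ≤ ‖T v‖ ^ 2) : √ε ^ n ≤ Sq (Qd n) T (G z) := by
  have hs : 0 < √ε := Real.sqrt_pos.2 hε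
  have hinj : Function.Injective (T : E →ₗ[ℂ] EuclideanSpace ℂ (Fin n)) := by
    rw [injective_iff_map_eq_zero]
    intro v hv
    by_contra hne
    have h1 := mul_pos hε (h.pos z hz v hne)
    have h2 := hT v
    have h3 : T v = 0 := hv
    rw [h3, norm_zero] at h2
    norm_num at h2
    linarith
  have hsurj : Function.Surjective (T : E →ₗ[ℂ] EuclideanSpace ℂ (Fin n)) :=
    (LinearMap.injective_iff_surjective_of_finrank_eq_finrank (by rw [hn]; simp)).1 hinj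
  choose v hv using fun i : Fin n => hsurj (EuclideanSpace.single i (1:ℂ))
  have hv' : ∀ i, T (v i) = EuclideanSpace.single i (1:ℂ) := hv
  have h1 : Qd n (fun i => T (v i)) = 1 := by
    rw [Qd]
    have e1 : (Matrix.of fun i j => T (v i) j) = (1 : Matrix (Fin n) (Fin n) ℂ) := by
      ext i j
      rw [Matrix.of_apply, hv', Matrix.one_apply]
      simp [eq_comm]
    rw [e1, Matrix.det_one]
  have h2 := norm_le_Sq (T := T) (homQ_Qd n) (h.pos z hz) v
  rw [h1, norm_one] at h2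
  have h3 : ∏ i, √(G z (v i) (v i)) ≤ (√ε)⁻¹ ^ n := by
    calc ∏ i, √(G z (v i) (v i)) ≤ ∏ _i : Fin n, (√ε)⁻¹ := by
          refine Finset.prod_le_prod (fun i _ => Real.sqrt_nonneg _) fun i _ => ?_
          have h4 := hT (v i)
          rw [hv', PiLp.norm_single, norm_one, one_pow] at h4
          rw [← Real.sqrt_inv]
          refine Real.sqrt_le_sqrt ?_
          rw [← one_div, le_div_iff₀' hε]
          exact h4
      _ = (√ε)⁻¹ ^ n := by simp
  have h4 := Sq_nonneg (T := T) (homQ_Qd n) (h.pos z hz)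
  have h5 : 1 ≤ Sq (Qd n) T (G z) * (√ε)⁻¹ ^ n := h2.trans (by gcongr)
  have h6 : √ε ^ n * (√ε)⁻¹ ^ n = 1 := by
    rw [← mul_pow, mul_inv_cancel₀ hs.ne', one_pow]
  calc √ε ^ n = √ε ^ n * 1 := (mul_one _).symm
    _ ≤ √ε ^ n * (Sq (Qd n) T (G z) * (√ε)⁻¹ ^ n) := by gcongr
    _ = Sq (Qd n) T (G z) * (√ε ^ n * (√ε)⁻¹ ^ n) := by ring
    _ = Sq (Qd n) T (G z) := by rw [h6, mul_one]

end ineq

section main

variable {E : Type*} [NormedAddCommGroup E] [NormedSpace ℂ E] [FiniteDimensional ℂ E]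
  {M : Type*} [MetricSpace M] [ChartedSpace E M]
  [IsManifold 𝓘(ℂ, E) 1 M] [IsManifold 𝓘(ℝ, E) ∞ M]
  [RiemannianBundle (fun x : M => TangentSpace 𝓘(ℝ, E) x)]
  [IsContMDiffRiemannianBundle 𝓘(ℝ, E) ∞ E (fun x : M => TangentSpace 𝓘(ℝ, E) x)]
  [IsRiemannianManifold 𝓘(ℝ, E) M]

/-- **Local criterion**, quantitative form. -/
theorem hull_quant (hK : IsKahler E M) [ProperSpace M]
    (hnn : ∀ x : M, NonnegBisectionalAt E x) {φ χ : M → ℝ} (hφ : ContPsh E φ)
    (hχ : ContPsh E χ) {H : Type*} [NormedAddCommGroup H] [InnerProductSpace ℂ H]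
    [FiniteDimensional ℂ H] {F : M → H} (hF : MDifferentiable 𝓘(ℂ, E) 𝓘(ℂ, H) F)
    (hdom : ∀ x, 0 < χ x → ∀ e ∈ maximalAtlas 𝓘(ℂ, E) 1 M, x ∈ e.source → ∀ Y,
      chartG e (e x) Y Y ≤ Real.exp (2 * φ x) * ‖dF F e (e x) Y‖ ^ 2) {K : Set M} {C₁ C ρ : ℝ}
    (h1 : ∀ y ∈ K, Real.exp (2 * φ y + ‖F y‖ ^ 2 + 1) ≤ C₁) (h2 : ∀ y ∈ K, χ y ≤ C) (hC : 0 < C)
    {x : M} (hρ : 0 ≤ ρ) (h4 : ∀ y ∈ K, ρ ≤ dist y x) (hx : x ∈ pshHull E K) :
    ρ ^ 2 * χ x ≤ C₁ * C := by
  set μ := ρ ^ 2 / C with hμ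
  have hμ0 : 0 ≤ μ := by positivity
  have hθ := contPsh_theta hK hnn hφ hχ hF hdom x hμ0
  have h5 := hx _ hθ C₁ fun y hy => by
    have e1 : μ * χ y - dist y x ^ 2 ≤ 0 := by
      have e2 : μ * χ y ≤ μ * C := mul_le_mul_of_nonneg_left (h2 y hy) hμ0
      have e3 : μ * C = ρ ^ 2 := by rw [hμ]; field_simp
      have e6 : ρ ^ 2 ≤ dist y x ^ 2 := by
        have := h4 y hy
        gcongr
      linarith
    rw [max_eq_right e1, add_zero]
    exact h1 y hy
  rw [dist_self, zero_pow two_ne_zero, sub_zero] at h5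
  have h6 := le_max_left (μ * χ x) 0
  have h7 := Real.exp_pos (2 * φ x + ‖F x‖ ^ 2 + 1)
  have h8 : μ * χ x ≤ C₁ := by linarith
  rw [hμ, div_mul_eq_mul_div, div_le_iff₀ hC] at h8
  exact h8

theorem hull_rate_n [Nontrivial E] (hK : IsKahler E M) [ProperSpace M]
    (hnn : ∀ x : M, NonnegBisectionalAt E x) {n : ℕ} (hn : Module.finrank ℂ E = n)
    {F : M → EuclideanSpace ℂ (Fin n)}
    (hF : MDifferentiable 𝓘(ℂ, E) 𝓘(ℂ, EuclideanSpace ℂ (Fin n)) F) {K : Set M}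
    (hKc : IsCompact K) (p : M) :
    ∃ C : ℝ, 0 ≤ C ∧ ∀ x ∈ pshHull E K, ∀ δ : ℝ, 0 < δ → δ ≤ 1 → δ ≤ Sn E (Qd n) F x →
      δ ^ 2 * dist p x ^ 2 ≤ C * (1 - Real.log δ) := by
  have hn0 : 0 < n := by
    rw [← hn]
    exact Module.finrank_pos
  set a : ℝ := 2 * (n * n.factorial) with ha
  have ha0 : 0 < a := by
    have := Nat.factorial_pos n
    positivity
  have hP0 : ∀ x, 0 < max (Sn E Q1 F x) 1 := fun x => one_pos.trans_le (le_max_right _ _)
  have hψ0 := contPsh_Sn hK hnn homQ_Q1 hF one_pos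
  have hχ0 := contPsh_Sn hK hnn (homQ_Qd n) hF (show (0:ℝ) < 1 / 2 by norm_num)
  have hFc : Continuous F := hF.continuous
  -- the bounds on `K`
  have hgc : Continuous fun x => 2 * (Real.log a + n * Real.log (max (Sn E Q1 F x) 1)) +
      ‖F x‖ ^ 2 + 1 := by
    have := hψ0.1
    fun_prop
  obtain ⟨C₀, hC₀⟩ := (hKc.image hgc).bddAbove
  obtain ⟨C₂, hC₂⟩ := (hKc.image hχ0.1).bddAbove
  obtain ⟨D, hD⟩ := (hKc.image (continuous_const.dist continuous_id :
    Continuous fun y => dist p y)).bddAbove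
  set B := max C₂ 0 with hB
  set D' := max D 0 with hD'
  have hB0 : 0 ≤ B := le_max_right _ _
  have hD0 : 0 ≤ D' := le_max_right _ _
  have hl2 : 0 < Real.log 2 := Real.log_pos one_lt_two
  set C₃ : ℝ := Real.exp C₀ * (B + Real.log 2 + 1) / Real.log 2 with hC₃
  have hC₃0 : 0 ≤ C₃ := by positivity
  refine ⟨2 * D' ^ 2 + 2 * C₃, by positivity, fun x hx δ hδ hδ1 hδx => ?_⟩
  have hlδ : Real.log δ ≤ 0 := Real.log_nonpos hδ.le hδ1
  have hlδ2 : Real.log (δ / 2) = Real.log δ - Real.log 2 := Real.log_div hδ.ne' two_ne_zero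
  set φ : M → ℝ := fun x => (Real.log a - Real.log δ) + n * Real.log (max (Sn E Q1 F x) 1) with hφ
  set χ : M → ℝ := fun x => Real.log (max (Sn E (Qd n) F x) (δ / 2)) + -Real.log (δ / 2) with hχ
  have hφp : ContPsh E φ := SubS.contPsh ((subS_const _ _).add
    ((hψ0.subS univ).const_mul (Nat.cast_nonneg n)))
  have hχp : ContPsh E χ := SubS.contPsh
    (((contPsh_Sn hK hnn (homQ_Qd n) hF (show (0:ℝ) < δ / 2 by positivity)).subS univ).add
      (subS_const _ _))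
  have hdom : ∀ x, 0 < χ x → ∀ e ∈ maximalAtlas 𝓘(ℂ, E) 1 M, x ∈ e.source → ∀ Y,
      chartG e (e x) Y Y ≤ Real.exp (2 * φ x) * ‖dF F e (e x) Y‖ ^ 2 := by
    intro x hx e he hxe Y
    have hx1 : δ / 2 < Sn E (Qd n) F x := by
      by_contra hcon
      push Not at hcon
      have h1 : χ x = 0 := by
        simp only [hχ]
        rw [max_eq_right hcon]
        ring
      rw [h1] at hx
      exact lt_irrefl _ hx
    have hLK := localKahler_chartG hK he
    have hz := e.map_source hxe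
    have h1 := sqrt_mul_Sq_le hLK hz hn (dF F e (e x)) Y
    rw [← Sn_eq (homQ_Qd n) hF he hxe, ← Sn_eq homQ_Q1 hF he hxe] at h1
    set P := max (Sn E Q1 F x) 1 with hP
    have hP1 : 1 ≤ P := le_max_right _ _
    have hP0 : 0 < P := one_pos.trans_le hP1
    have hG0 : 0 ≤ chartG e (e x) Y Y := G_nonneg hLK hz Y
    have h2 : √(chartG e (e x) Y Y) ≤ a / δ * P ^ n * ‖dF F e (e x) Y‖ := by
      have h3 : √(chartG e (e x) Y Y) * (δ / 2) ≤
          √(chartG e (e x) Y Y) * Sn E (Qd n) F x := by gcongr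
      have h4 : a / δ * P ^ n * ‖dF F e (e x) Y‖ =
          (n * n.factorial * P ^ n * ‖dF F e (e x) Y‖) / (δ / 2) := by
        rw [ha]; field_simp
      rw [h4, le_div_iff₀ (by positivity)]
      exact h3.trans h1
    have h3 : Real.exp (2 * φ x) = (a / δ * P ^ n) ^ 2 := by
      have e1 : φ x = Real.log (a / δ * P ^ n) := by
        rw [Real.log_mul (by positivity) (pow_pos hP0 n).ne', Real.log_pow,
          Real.log_div ha0.ne' hδ.ne']
      rw [e1, two_mul, Real.exp_add, Real.exp_log (by positivity)]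
      ring
    rw [h3, ← mul_pow]
    calc chartG e (e x) Y Y = √(chartG e (e x) Y Y) ^ 2 := (Real.sq_sqrt hG0).symm
      _ ≤ (a / δ * P ^ n * ‖dF F e (e x) Y‖) ^ 2 := by gcongr
  -- the bounds
  have h1 : ∀ y ∈ K, Real.exp (2 * φ y + ‖F y‖ ^ 2 + 1) ≤ Real.exp C₀ * (δ ^ 2)⁻¹ := by
    intro y hy
    have e1 : 2 * (Real.log a + n * Real.log (max (Sn E Q1 F y) 1)) + ‖F y‖ ^ 2 + 1 ≤ C₀ :=
      hC₀ (mem_image_of_mem _ hy)
    have e2 : (δ ^ 2)⁻¹ = Real.exp (-(2 * Real.log δ)) := by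
      rw [Real.exp_neg, two_mul, Real.exp_add, Real.exp_log hδ, sq]
    rw [e2, ← Real.exp_add, Real.exp_le_exp]
    simp only [hφ]
    linarith
  have h2 : ∀ y ∈ K, χ y ≤ B + Real.log 2 - Real.log δ := by
    intro y hy
    have e1 : Real.log (max (Sn E (Qd n) F y) (1 / 2)) ≤ C₂ := hC₂ (mem_image_of_mem _ hy)
    have e2 : Real.log (max (Sn E (Qd n) F y) (δ / 2)) ≤
        Real.log (max (Sn E (Qd n) F y) (1 / 2)) := by
      refine Real.log_le_log (lt_of_lt_of_le (by positivity) (le_max_right _ _)) ?_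
      exact max_le_max le_rfl (by linarith)
    have e3 : C₂ ≤ B := le_max_left _ _
    simp only [hχ]
    rw [hlδ2]
    linarith
  set ρ := max (dist p x - D') 0 with hρ
  have hρ0 : 0 ≤ ρ := le_max_right _ _
  have h4 : ∀ y ∈ K, ρ ≤ dist y x := by
    intro y hy
    refine max_le ?_ dist_nonneg
    have e1 := dist_triangle p y x
    have e2 : dist p y ≤ D := hD (mem_image_of_mem _ hy)
    have e3 : D ≤ D' := le_max_left _ _
    linarith
  have h5 := hull_quant hK hnn hφp hχp hF hdom h1 h2 (by linarith) hρ0 h4 hx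
  have h6 : Real.log 2 ≤ χ x := by
    have e1 : Real.log δ ≤ Real.log (max (Sn E (Qd n) F x) (δ / 2)) :=
      Real.log_le_log hδ (hδx.trans (le_max_left _ _))
    simp only [hχ]
    rw [hlδ2]
    linarith
  have h7 : ρ ^ 2 * Real.log 2 ≤ Real.exp C₀ * (δ ^ 2)⁻¹ * (B + Real.log 2 - Real.log δ) :=
    (mul_le_mul_of_nonneg_left h6 (sq_nonneg ρ)).trans h5
  have h8 : δ ^ 2 * ρ ^ 2 ≤ C₃ * (1 - Real.log δ) := by
    have e1 : δ ^ 2 * ρ ^ 2 * Real.log 2 ≤ Real.exp C₀ * (B + Real.log 2 - Real.log δ) := by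
      have e2 := mul_le_mul_of_nonneg_left h7 (sq_nonneg δ)
      have e3 : δ ^ 2 * (Real.exp C₀ * (δ ^ 2)⁻¹ * (B + Real.log 2 - Real.log δ)) =
          Real.exp C₀ * (B + Real.log 2 - Real.log δ) := by field_simp
      rw [e3] at e2
      linarith
    have e4 : B + Real.log 2 - Real.log δ ≤ (B + Real.log 2 + 1) * (1 - Real.log δ) := by
      nlinarith
    have e5 : C₃ * (1 - Real.log δ) = Real.exp C₀ * ((B + Real.log 2 + 1) * (1 - Real.log δ)) /
        Real.log 2 := by rw [hC₃]; ring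
    rw [e5, le_div_iff₀ hl2]
    exact e1.trans (by gcongr)
  have h9 : dist p x ≤ D' + ρ := by
    have := le_max_left (dist p x - D') 0
    linarith
  have h10 : dist p x ^ 2 ≤ 2 * D' ^ 2 + 2 * ρ ^ 2 := by
    calc dist p x ^ 2 ≤ (D' + ρ) ^ 2 := by gcongr
      _ ≤ _ := by nlinarith [sq_nonneg (D' - ρ)]
  have hδ2 : δ ^ 2 ≤ 1 := pow_le_one₀ hδ.le hδ1
  calc δ ^ 2 * dist p x ^ 2 ≤ δ ^ 2 * (2 * D' ^ 2 + 2 * ρ ^ 2) := by gcongr
    _ = δ ^ 2 * (2 * D' ^ 2) + 2 * (δ ^ 2 * ρ ^ 2) := by ring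
    _ ≤ 1 * (2 * D' ^ 2) + 2 * (C₃ * (1 - Real.log δ)) := by gcongr
    _ ≤ (2 * D' ^ 2 + 2 * C₃) * (1 - Real.log δ) := by nlinarith [sq_nonneg D']

/-- **The decay of the differential along a hull.** -/
theorem hull_rate (hK : IsKahler E M) [CompleteSpace M] [ConnectedSpace M]
    [NoncompactSpace M] (hnn : ∀ x : M, NonnegBisectionalAt E x) {K : Set M} (hKc : IsCompact K)
    {k : ℕ} {F : M → EuclideanSpace ℂ (Fin k)} (hF : IsHolMap E F) (p : M) :
    ∃ C : ℝ, ∀ x ∈ pshHull E K, ∀ ε : ℝ, 0 < ε → ε ≤ 1 → DiffGe E F x ε →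
      ε ^ Module.finrank ℂ E * dist p x ^ 2 ≤ C * (1 - Real.log ε) := by
  have hprop : ProperSpace M := properSpace_riemannian E M
  have hnt : Nontrivial E := nontrivial_model E M
  obtain ⟨n, hn⟩ : ∃ n, Module.finrank ℂ E = n := ⟨_, rfl⟩
  rw [hn]
  have hprop : ProperSpace (EuclideanSpace ℂ (Fin k) →L[ℂ] EuclideanSpace ℂ (Fin n)) :=
    FiniteDimensional.proper ℂ _
  obtain ⟨t, -, ht⟩ := (isCompact_closedBall
    (0 : EuclideanSpace ℂ (Fin k) →L[ℂ] EuclideanSpace ℂ (Fin n)) 1).elim_nhds_subcover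
    (fun B => ball B (1 / 2)) fun B _ => ball_mem_nhds B (by norm_num)
  have hFB : ∀ B : EuclideanSpace ℂ (Fin k) →L[ℂ] EuclideanSpace ℂ (Fin n),
      MDifferentiable 𝓘(ℂ, E) 𝓘(ℂ, EuclideanSpace ℂ (Fin n)) (fun x => ((2:ℂ) • B) (F x)) :=
    fun B x => (((2:ℂ) • B).differentiableAt.mdifferentiableAt).comp x (hF x)
  choose C hC0 hC using fun B : EuclideanSpace ℂ (Fin k) →L[ℂ] EuclideanSpace ℂ (Fin n) =>
    hull_rate_n hK hnn hn (hFB B) hKc p
  refine ⟨(∑ B ∈ t, C B) * (1 + n), fun x hx ε hε hε1 hx' => ?_⟩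
  have he : chartAt E x ∈ maximalAtlas 𝓘(ℂ, E) 1 M := chart_mem_maximalAtlas x
  have hxc : x ∈ (chartAt E x).source := mem_chart_source E x
  have hz := (chartAt E x).map_source hxc
  have hLK := localKahler_chartG hK he
  have hxd := fun Y => chart_of_realDiff hF hx' he hxc Y
  set T := dF F (chartAt E x) (chartAt E x x) with hT
  have hinj : Function.Injective T := by
    have : Function.Injective (T : E →ₗ[ℂ] EuclideanSpace ℂ (Fin k)) := by
      rw [injective_iff_map_eq_zero]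
      intro v hv
      by_contra hne
      have h1 := mul_pos hε (hLK.pos _ hz v hne)
      have h2 := hxd v
      have h3 : T v = 0 := hv
      rw [h3, norm_zero] at h2
      norm_num at h2
      linarith
    exact this
  obtain ⟨B₀, hB₀, hB₀'⟩ := exists_partial hn T hinj
  have h1 : B₀ ∈ ⋃ B ∈ t, ball B (1 / 2) := ht (by simpa using hB₀)
  obtain ⟨B, hB, hBB⟩ := mem_iUnion₂.1 h1
  have h2 : √ε ^ n ≤ Sn E (Qd n) (fun x => ((2:ℂ) • B) (F x)) x := by
    refine pow_le_Sq hLK hz hn hε fun Y => ?_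
    have h3 : dF (fun x => ((2:ℂ) • B) (F x)) (chartAt E x) (chartAt E x x) =
        ((2:ℂ) • B).comp T := by
      have h4 : HasFDerivAt (fun w => F ((chartAt E x).symm w)) T (chartAt E x x) :=
        ((differentiableOn_F hF he).differentiableAt
          ((chartAt E x).open_target.mem_nhds hz)).hasFDerivAt
      exact (((2:ℂ) • B).hasFDerivAt.comp (chartAt E x x) h4).fderiv
    rw [h3]
    refine (hxd Y).trans ?_
    have h4 : ‖T Y‖ ≤ ‖(((2:ℂ) • B).comp T) Y‖ := by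
      have e1 : (((2:ℂ) • B).comp T) Y = (2:ℂ) • B (T Y) := rfl
      rw [e1, norm_smul]
      have e2 : ‖(2:ℂ)‖ = 2 := by norm_num
      rw [e2]
      have h5 : ‖(B₀ - B) (T Y)‖ ≤ 1 / 2 * ‖T Y‖ := by
        refine ((B₀ - B).le_opNorm _).trans ?_
        have h6 : ‖B₀ - B‖ < 1 / 2 := by
          rw [← dist_eq_norm]
          exact hBB
        gcongr
      have h6 : ‖B₀ (T Y)‖ ≤ ‖(B₀ - B) (T Y)‖ + ‖B (T Y)‖ := by
        have e3 : B₀ (T Y) = (B₀ - B) (T Y) + B (T Y) := by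
          rw [sub_apply, sub_add_cancel]
        rw [e3]
        exact norm_add_le _ _
      rw [hB₀'] at h6
      linarith
    gcongr
  have hs : 0 < √ε := Real.sqrt_pos.2 hε
  have hs1 : √ε ≤ 1 := Real.sqrt_le_one.2 hε1
  have h3 := hC B x hx (√ε ^ n) (pow_pos hs n) (pow_le_one₀ hs.le hs1) h2
  have e1 : (√ε ^ n) ^ 2 = ε ^ n := by
    rw [← pow_mul, mul_comm, pow_mul, Real.sq_sqrt hε.le]
  have e2 : Real.log (√ε ^ n) = n * (Real.log ε / 2) := by
    rw [Real.log_pow, Real.log_sqrt hε.le]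
  rw [e1, e2] at h3
  have hl : Real.log ε ≤ 0 := Real.log_nonpos hε.le hε1
  have h4 : C B ≤ ∑ B ∈ t, C B := Finset.single_le_sum (f := C) (fun B _ => hC0 B) hB
  have h5 : 1 - n * (Real.log ε / 2) ≤ (1 + n) * (1 - Real.log ε) := by
    have := (Nat.cast_nonneg n : (0:ℝ) ≤ n)
    nlinarith
  have h6 : 0 ≤ 1 - n * (Real.log ε / 2) := by
    have := (Nat.cast_nonneg n : (0:ℝ) ≤ n)
    nlinarith
  calc ε ^ n * dist p x ^ 2 ≤ C B * (1 - n * (Real.log ε / 2)) := h3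
    _ ≤ (∑ B ∈ t, C B) * (1 - n * (Real.log ε / 2)) := by gcongr
    _ ≤ (∑ B ∈ t, C B) * ((1 + n) * (1 - Real.log ε)) := by
        have : 0 ≤ ∑ B ∈ t, C B := (hC0 B).trans h4
        gcongr
    _ = (∑ B ∈ t, C B) * (1 + n) * (1 - Real.log ε) := by ring

end main

end Vale.Agent.P253.R2.H451
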