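import Vale.Agent.P253.R2.H451.Bus1
import Vale.Agent.P253.R2.H451.Hull10

/-!
P253: the Levi form of powers of the norm of the differential of a holomorphic map under a lower
bound for the bisectional curvature.
-/

open scoped Manifold ContDiff Topology Bundle
open Set Metric Filter Bundle IsManifold Complex Asymptotics

set_option maxSynthPendingDepth 3
set_option linter.unusedSectionVars false
set_option linter.unusedVariables false

noncomputable section

namespace Vale.Agent.P253.R2.H451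

open Vale.Agent.P253.Mfd Vale.Agent.P253.Mfd.LocalKahler Vale.Agent.P253.R2.H618
  Vale.Agent.P253.R2.H922 Vale.Agent.P253.R2.H380.Stein

section local_

variable {E : Type*} [NormedAddCommGroup E] [NormedSpace ℂ E] [FiniteDimensional ℂ E]
  {G : E → E →L[ℝ] E →L[ℝ] ℝ} {U : Set E} {z : E}

/-- the points of a four point family converge -/
theorem tendsto_point (z Y : E) {ξ : ℝ → Fin 4 → E} (hξ : IsSmall ξ) (k : Fin 4) :
    Tendsto (fun r : ℝ => z + (r • (I ^ (k:ℕ) • Y) + ξ r k)) (𝓝[>] (0:ℝ)) (𝓝 z) := by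
  obtain ⟨hO, -⟩ := isSmall_iff.1 hξ
  have hid2 : Tendsto (fun r : ℝ => r ^ 2) (𝓝[>] (0:ℝ)) (𝓝 0) := by
    have h3 : Continuous fun r : ℝ => r ^ 2 := by fun_prop
    have := (h3.tendsto 0).mono_left (nhdsWithin_le_nhds (s := Ioi (0:ℝ)))
    simpa using this
  have h1 : Tendsto (fun r : ℝ => ξ r k) (𝓝[>] (0:ℝ)) (𝓝 0) := (hO k).trans_tendsto hid2
  have h2 : Tendsto (fun r : ℝ => r • (I ^ (k:ℕ) • Y)) (𝓝[>] (0:ℝ)) (𝓝 0) := by
    have h3 : Continuous (fun r : ℝ => r • (I ^ (k:ℕ) • Y)) := by fun_prop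
    have := (h3.tendsto 0).mono_left (nhdsWithin_le_nhds (s := Ioi (0:ℝ)))
    simpa using this
  simpa using (tendsto_const_nhds (x := z)).add (h2.add h1)

/-- four point sums of the squared norm of a normal section, with the curvature term -/
theorem four_normal' (h : LocalKahler G U) (hz : z ∈ U) (X a : E)
    {ξ : ℝ → Fin 4 → E} (hξ : IsSmall ξ) {η : ℝ} (hη : 0 < η) :
    ∀ᶠ r in 𝓝[>] (0:ℝ), ∑ k : Fin 4, G (z + (r • (I ^ (k:ℕ) • X) + ξ r k))
      (a + r • (I ^ (k:ℕ) • -chris G z X a)) (a + r • (I ^ (k:ℕ) • -chris G z X a)) ≤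
        4 * G z a a + r ^ 2 * (η - 4 * Rc G z X a) := by
  set B := -chris G z X a with hB
  have hO : IsOpen (U ×ˢ (univ : Set E)) := h.isOpen.prod isOpen_univ
  have hpO : (z, a) ∈ U ×ˢ (univ : Set E) := ⟨hz, mem_univ _⟩
  have hξ' : IsSmall (fun r k => ((ξ r k, 0) : E × E)) := by
    obtain ⟨hO, ho⟩ := isSmall_iff.1 hξ
    rw [isSmall_iff]
    refine ⟨fun k => ?_, ?_⟩
    · refine (IsBigO.of_norm_left (f' := fun r => ((ξ r k, 0) : E × E)) ?_)
      simpa [Prod.norm_def] using (hO k).norm_left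
    · have e1 : (fun r => ∑ k, ((ξ r k, 0) : E × E)) = fun r => (∑ k, ξ r k, 0) := by
        funext r
        ext <;> simp [Prod.fst_sum, Prod.snd_sum]
      rw [e1]
      refine IsLittleO.of_norm_left ?_
      simpa [Prod.norm_def] using ho.norm_left
  have h1 := (four_taylor hO (contDiffOn_qG h) hpO (X, B) hξ').def hη
  filter_upwards [h1] with r hr
  rw [Real.norm_of_nonneg (show 0 ≤ r ^ 2 by positivity), Real.norm_eq_abs] at hr
  have h2 := (abs_le.1 hr).2
  have e0 : (I : ℂ) • ((X, B) : E × E) = (I • X, I • B) := rfl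
  rw [e0, fderiv2_qG h hz X B, fderiv2_qG h hz (I • X) (I • B)] at h2
  have h3 := h.star hz X a B
  have e1 : B + chris G z X a = 0 := by rw [hB]; abel
  rw [e1, map_zero, mul_zero, zero_sub] at h3
  have e2 : G z (I • B) (I • B) = G z B B := h.herm z hz B B
  simp only [e2] at h2
  have e3 : ∀ k : Fin 4, qG G ((z, a) + (r • (I ^ (k:ℕ) • ((X, B) : E × E)) + (ξ r k, 0))) =
      G (z + (r • (I ^ (k:ℕ) • X) + ξ r k)) (a + r • (I ^ (k:ℕ) • B))
        (a + r • (I ^ (k:ℕ) • B)) := by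
    intro k
    simp [qG]
  simp only [e3] at h2
  have e4 : qG G (z, a) = G z a a := rfl
  rw [e4] at h2
  have h5 : r ^ 2 * (fderiv ℝ (fderiv ℝ G) z X X a a + 4 * fderiv ℝ G z X B a + 2 * G z B B +
      (fderiv ℝ (fderiv ℝ G) z (I • X) (I • X) a a + 4 * fderiv ℝ G z (I • X) (I • B) a
        + 2 * G z B B)) = r ^ 2 * (-(4 * Rc G z X a)) := by
    congr 1
    linarith
  linarith

/-- four point sums of the logarithm of the modulus of a holomorphic function -/
theorem four_log' {V : Set E} (hV : IsOpen V) {g : E → ℂ} (hg : DifferentiableOn ℂ g V) {z₀ : E}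
    (hz : z₀ ∈ V) (h0 : g z₀ ≠ 0) (Y : E) {ξ : ℝ → Fin 4 → E} (hξ : IsSmall ξ) {η : ℝ}
    (hη : 0 < η) : ∀ᶠ r in 𝓝[>] (0:ℝ), 4 * Real.log ‖g z₀‖ - η * r ^ 2 ≤
      ∑ k : Fin 4, Real.log ‖g (z₀ + (r • (I ^ (k:ℕ) • Y) + ξ r k))‖ := by
  set V' := V ∩ (fun z => g z / g z₀) ⁻¹' slitPlane with hV'
  have hV'o : IsOpen V' := (hg.continuousOn.div_const _).isOpen_inter_preimage hV isOpen_slitPlane
  have hz' : z₀ ∈ V' := ⟨hz, by
    simp only [mem_preimage, div_self h0]
    exact one_mem_slitPlane⟩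
  set l : E → ℂ := fun z => Complex.log (g z / g z₀) with hl
  have hld : DifferentiableOn ℂ l V' := by
    intro z hz
    have h9 : DifferentiableWithinAt ℂ (fun z => g z / g z₀) V' z := by
      simp only [div_eq_mul_inv]
      exact ((hg z hz.1).mono inter_subset_left).mul_const _
    exact h9.clog hz.2
  have h1 := isSmall_map hV'o hld hz' Y hξ
  obtain ⟨-, ho⟩ := isSmall_iff.1 h1
  have h2 := ho.def hη
  have h3 : ∀ᶠ r in 𝓝[>] (0:ℝ), ∀ k : Fin 4, z₀ + (r • (I ^ (k:ℕ) • Y) + ξ r k) ∈ V' := by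
    apply eventually_all.2
    intro k
    exact (tendsto_point z₀ Y hξ k).eventually (hV'o.mem_nhds hz')
  have hre : ∀ z ∈ V', (l z).re = Real.log ‖g z‖ - Real.log ‖g z₀‖ := by
    intro z hz
    have h4 : g z ≠ 0 := fun h5 => by
      have := hz.2
      simp only [mem_preimage, h5, zero_div] at this
      exact slitPlane_ne_zero this rfl
    rw [hl, Complex.log_re, norm_div, Real.log_div (norm_ne_zero_iff.2 h4)
      (norm_ne_zero_iff.2 h0)]
  filter_upwards [h2, h3] with r hr hr3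
  rw [Finset.sum_sub_distrib, Finset.sum_sub_distrib, ← Finset.smul_sum,
    Vale.Agent.P253.Mfd.sum_I_pow_smul, smul_zero, sub_zero] at hr
  simp only [Finset.sum_const, Finset.card_univ, Fintype.card_fin,
    nsmul_eq_mul] at hr
  rw [Real.norm_of_nonneg (show 0 ≤ r ^ 2 by positivity)] at hr
  have h4 := (Complex.abs_re_le_norm _).trans hr
  have h5 := (abs_le.1 h4).1
  rw [sub_re, re_sum] at h5
  have h6 : (((4:ℕ):ℂ) * l z₀).re = 4 * (l z₀).re := by simp
  rw [h6, hre z₀ hz', sub_self, mul_zero, sub_zero] at h5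
  have h7 : ∀ k : Fin 4, (l (z₀ + (r • (I ^ (k:ℕ) • Y) + ξ r k))).re =
      Real.log ‖g (z₀ + (r • (I ^ (k:ℕ) • Y) + ξ r k))‖ - Real.log ‖g z₀‖ :=
    fun k => hre _ (hr3 k)
  simp only [h7] at h5
  rw [Finset.sum_sub_distrib] at h5
  simp only [Finset.sum_const, Finset.card_univ, Fintype.card_fin, nsmul_eq_mul] at h5
  push_cast at h5
  linarith

variable [Nontrivial E] {H : Type*} [NormedAddCommGroup H] [NormedSpace ℂ H]
  {W : Type*} [NormedAddCommGroup W] [NormedSpace ℂ W] {m : ℕ}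

/-- four point sums of the logarithm of the norm of a multilinear expression -/
theorem four_Sq_log (h : LocalKahler G U) (hz : z ∈ U)
    {Q : (Fin m → H) → W} (hQ : HomQ Q) {T : E → E →L[ℂ] H} (hT : DifferentiableOn ℂ T U)
    (X : E) {κ : ℝ} (hκ : ∀ a, κ * G z X X * G z a a ≤ Rc G z X a)
    (hS : 0 < Sq Q (T z) (G z)) {ξ : ℝ → Fin 4 → E} (hξ : IsSmall ξ) {η : ℝ} (hη : 0 < η) :
    ∀ᶠ r in 𝓝[>] (0:ℝ), (∀ k : Fin 4, 0 < Sq Q (T (z + (r • (I ^ (k:ℕ) • X) + ξ r k)))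
        (G (z + (r • (I ^ (k:ℕ) • X) + ξ r k)))) ∧
      4 * Real.log (Sq Q (T z) (G z)) + r ^ 2 * (2 * m * κ * G z X X - η) ≤
      ∑ k : Fin 4, Real.log (Sq Q (T (z + (r • (I ^ (k:ℕ) • X) + ξ r k)))
        (G (z + (r • (I ^ (k:ℕ) • X) + ξ r k)))) := by
  have hpos : ∀ z ∈ U, ∀ v, v ≠ 0 → 0 < G z v v := h.pos
  set S := Sq Q (T z) (G z) with hSdef
  obtain ⟨a, ha, hmax⟩ := exists_max (T := T z) hQ (hpos _ hz)
  have hne : Q (fun i => T z (a i)) ≠ 0 := fun h0 => by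
    rw [h0, norm_zero] at hmax
    exact hS.ne hmax
  obtain ⟨y₀, hy₀, hy₀'⟩ := exists_dual_vector ℂ _ (norm_ne_zero_iff.2 hne)
  set B : Fin m → E := fun i => -chris G z X (a i) with hB
  -- the function on the product
  set V : Set (E × (Fin m → E)) := U ×ˢ univ with hV
  have hVo : IsOpen V := h.isOpen.prod isOpen_univ
  set g : E × (Fin m → E) → ℂ := fun p => y₀ (Q (fun i => T p.1 (p.2 i))) with hg
  have hgd : DifferentiableOn ℂ g V := by
    have h1 : DifferentiableOn ℂ (fun p : E × (Fin m → E) =>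
        (fun i => T p.1 (p.2 i) : Fin m → H)) V := by
      rw [differentiableOn_pi]
      intro i
      have h2 : DifferentiableOn ℂ (fun p : E × (Fin m → E) => T p.1) V :=
        hT.comp differentiable_fst.differentiableOn fun p hp => hp.1
      have h3 : DifferentiableOn ℂ (fun p : E × (Fin m → E) => p.2 i) V := by
        fun_prop
      exact h2.clm_apply h3
    exact y₀.differentiable.comp_differentiableOn (hQ.diff.comp_differentiableOn h1)
  have hg0 : g (z, a) = (S : ℂ) := by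
    simp only [hg]
    rw [hy₀', hmax]
    rfl
  have hg0' : g (z, a) ≠ 0 := by
    rw [hg0]
    exact_mod_cast hS.ne'
  have hξ' : IsSmall (fun r k => ((ξ r k, 0) : E × (Fin m → E))) := by
    obtain ⟨hO, ho⟩ := isSmall_iff.1 hξ
    rw [isSmall_iff]
    refine ⟨fun k => ?_, ?_⟩
    · refine (IsBigO.of_norm_left (f' := fun r => ((ξ r k, 0) : E × (Fin m → E))) ?_)
      simpa [Prod.norm_def] using (hO k).norm_left
    · have e1 : (fun r => ∑ k, ((ξ r k, 0) : E × (Fin m → E))) = fun r => (∑ k, ξ r k, 0) := by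
        funext r
        ext <;> simp [Prod.fst_sum, Prod.snd_sum]
      rw [e1]
      refine IsLittleO.of_norm_left ?_
      simpa [Prod.norm_def] using ho.norm_left
  have hm1 : (z, a) ∈ V := ⟨hz, mem_univ _⟩
  have h1 := four_log' hVo hgd hm1 hg0' (X, B) hξ' (half_pos hη)
  have h2 : ∀ i, ∀ᶠ r in 𝓝[>] (0:ℝ), ∑ k : Fin 4, G (z + (r • (I ^ (k:ℕ) • X) + ξ r k))
      (a i + r • (I ^ (k:ℕ) • B i)) (a i + r • (I ^ (k:ℕ) • B i)) ≤
        4 + r ^ 2 * (η / (m + 1) - 4 * (κ * G z X X)) := by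
    intro i
    filter_upwards [four_normal' h hz X (a i) hξ (show 0 < η / (m + 1) by positivity)] with r hr
    refine hr.trans ?_
    have h3 := hκ (a i)
    rw [ha i, mul_one] at h3
    rw [ha i, mul_one]
    have h4 : 0 ≤ r ^ 2 := sq_nonneg r
    have h5 := mul_le_mul_of_nonneg_left h3 h4
    linarith
  have h2' := eventually_all.2 h2
  have h3 : ∀ᶠ r in 𝓝[>] (0:ℝ), ∀ k : Fin 4,
      (z, a) + (r • (I ^ (k:ℕ) • (X, B)) + (ξ r k, 0)) ∈ V ∧
      g ((z, a) + (r • (I ^ (k:ℕ) • (X, B)) + (ξ r k, 0))) ≠ 0 ∧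
      ∀ i, ((z, a) + (r • (I ^ (k:ℕ) • (X, B)) + (ξ r k, 0))).2 i ≠ 0 := by
    apply eventually_all.2
    intro k
    have h5 : ∀ᶠ p in 𝓝 (z, a), p ∈ V ∧ g p ≠ 0 ∧ ∀ i, p.2 i ≠ 0 := by
      refine Filter.Eventually.and (hVo.mem_nhds hm1) (Filter.Eventually.and
        ((hgd.differentiableAt (hVo.mem_nhds hm1)).continuousAt.eventually_ne hg0')
        (eventually_all.2 fun i => ?_))
      have h6 : ContinuousAt (fun p : E × (Fin m → E) => p.2 i) (z, a) := by
        fun_prop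
      refine h6.eventually_ne ?_
      intro h0
      have := ha i
      have h7 : a i = 0 := h0
      rw [h7, map_zero] at this
      exact zero_ne_one this
    exact (tendsto_point (z, a) (X, B) hξ' k).eventually h5
  have ept : ∀ (r : ℝ) (k : Fin 4), (z, a) + (r • (I ^ (k:ℕ) • (X, B)) + (ξ r k, 0)) =
      (z + (r • (I ^ (k:ℕ) • X) + ξ r k), fun i => a i + r • (I ^ (k:ℕ) • B i)) := by
    intro r k
    ext
    · simp
    · simp
  filter_upwards [h1, h2', h3] with r hr1 hr2 hr3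
  have e1 : ‖g (z, a)‖ = S := by
    rw [hg0, Complex.norm_real, Real.norm_of_nonneg hS.le]
  rw [e1] at hr1
  simp only [ept] at hr1 hr3
  have h4 : ∀ k : Fin 4, 0 < Sq Q (T (z + (r • (I ^ (k:ℕ) • X) + ξ r k)))
        (G (z + (r • (I ^ (k:ℕ) • X) + ξ r k))) ∧
      Real.log ‖g (z + (r • (I ^ (k:ℕ) • X) + ξ r k), fun i => a i + r • (I ^ (k:ℕ) • B i))‖ -
      1 / 2 * ∑ i, (G (z + (r • (I ^ (k:ℕ) • X) + ξ r k)) (a i + r • (I ^ (k:ℕ) • B i))
        (a i + r • (I ^ (k:ℕ) • B i)) - 1) ≤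
      Real.log (Sq Q (T (z + (r • (I ^ (k:ℕ) • X) + ξ r k)))
        (G (z + (r • (I ^ (k:ℕ) • X) + ξ r k)))) := by
    intro k
    obtain ⟨hkV, hkg, hkw⟩ := hr3 k
    set ζ := z + (r • (I ^ (k:ℕ) • X) + ξ r k) with hζ
    set w : Fin m → E := fun i => a i + r • (I ^ (k:ℕ) • B i) with hw
    have hwi : ∀ i, a i + r • (I ^ (k:ℕ) • B i) = w i := fun i => rfl
    simp only [hwi]
    have hpk := hpos _ hkV.1
    have hp : ∀ i, 0 < G ζ (w i) (w i) := fun i => hpk _ (hkw i)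
    have h5 := norm_le_Sq (T := T ζ) hQ hpk w
    have h6 : ‖g (ζ, w)‖ ≤ ‖Q (fun i => T ζ (w i))‖ := by
      have := y₀.le_opNorm (Q (fun i => T ζ (w i)))
      rwa [hy₀, one_mul] at this
    have hP0 : 0 < ∏ i, √(G ζ (w i) (w i)) :=
      Finset.prod_pos fun i _ => Real.sqrt_pos.2 (hp i)
    have hgp : 0 < ‖g (ζ, w)‖ := norm_pos_iff.2 hkg
    have h7 : ‖g (ζ, w)‖ ≤ Sq Q (T ζ) (G ζ) * ∏ i, √(G ζ (w i) (w i)) := h6.trans h5
    have h8 : 0 < Sq Q (T ζ) (G ζ) := by
      by_contra hcon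
      push Not at hcon
      have := mul_nonpos_of_nonpos_of_nonneg hcon hP0.le
      linarith
    have h9 := Real.log_le_log hgp h7
    rw [Real.log_mul h8.ne' hP0.ne', Real.log_prod (fun i _ =>
      (Real.sqrt_pos.2 (hp i)).ne')] at h9
    have h10 : ∑ i, Real.log √(G ζ (w i) (w i)) ≤
        1 / 2 * ∑ i, (G ζ (w i) (w i) - 1) := by
      rw [Finset.mul_sum]
      refine Finset.sum_le_sum fun i _ => ?_
      rw [Real.log_sqrt (hp i).le]
      have := Real.log_le_sub_one_of_pos (hp i)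
      linarith
    exact ⟨h8, by linarith⟩
  refine ⟨fun k => (h4 k).1, ?_⟩
  refine le_trans ?_ (Finset.sum_le_sum fun k _ => (h4 k).2)
  rw [Finset.sum_sub_distrib, ← Finset.mul_sum, Finset.sum_comm]
  have h5 : ∑ i : Fin m, ∑ k : Fin 4, (G (z + (r • (I ^ (k:ℕ) • X) + ξ r k))
      (a i + r • (I ^ (k:ℕ) • B i)) (a i + r • (I ^ (k:ℕ) • B i)) - 1) ≤
      ∑ i : Fin m, r ^ 2 * (η / (m + 1) - 4 * (κ * G z X X)) := by
    refine Finset.sum_le_sum fun i _ => ?_
    rw [Finset.sum_sub_distrib]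
    have := hr2 i
    simp only [Finset.sum_const, Finset.card_univ, Fintype.card_fin, nsmul_eq_mul]
    push_cast
    linarith
  have h6 : ∑ i : Fin m, r ^ 2 * (η / (m + 1) - 4 * (κ * G z X X)) ≤
      r ^ 2 * (η - 4 * m * κ * G z X X) := by
    rw [Finset.sum_const, Finset.card_univ, Fintype.card_fin, nsmul_eq_mul]
    have h7 : (m : ℝ) * (r ^ 2 * (η / (m + 1) - 4 * (κ * G z X X))) =
        (m / (m + 1)) * (η * r ^ 2) - r ^ 2 * (4 * m * κ * G z X X) := by
      field_simp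
    rw [h7]
    have h8 : (m : ℝ) / (m + 1) ≤ 1 := by
      rw [div_le_one (by positivity)]
      linarith
    have h9 : 0 ≤ η * r ^ 2 := by positivity
    nlinarith
  linarith

end local_

end Vale.Agent.P253.R2.H451
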