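import Vale.Agent.P253.R2.H451.Cur1

/-!
P253: a criterion with the curvature and the norm of the differential of a holomorphic map.
-/

open scoped Manifold ContDiff Topology Bundle
open Set Metric Filter Bundle IsManifold Complex Asymptotics

set_option maxSynthPendingDepth 3
set_option linter.unusedSectionVars false
set_option linter.unusedVariables false

noncomputable section

namespace Vale.Agent.P253.R2.H451

open Vale.Agent.P253.Mfd Vale.Agent.P253.Mfd.LocalKahler Vale.Agent.P253.R2.H618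
  Vale.Agent.P253.R2.H922 Vale.Agent.P253.R2.H380.Stein

section Sn

variable {E : Type*} [NormedAddCommGroup E] [NormedSpace ℂ E] [FiniteDimensional ℂ E]
  [Nontrivial E] {M : Type*} [MetricSpace M] [ChartedSpace E M]
  [IsManifold 𝓘(ℂ, E) 1 M] [IsManifold 𝓘(ℝ, E) ∞ M]
  [RiemannianBundle (fun x : M => TangentSpace 𝓘(ℝ, E) x)]
  [IsContMDiffRiemannianBundle 𝓘(ℝ, E) ∞ E (fun x : M => TangentSpace 𝓘(ℝ, E) x)]
  {H : Type*} [NormedAddCommGroup H] [NormedSpace ℂ H] [CompleteSpace H]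
  {W : Type*} [NormedAddCommGroup W] [NormedSpace ℂ W] {m : ℕ}

theorem Sn_nonneg' (hK : IsKahler E M) {Q : (Fin m → H) → W} (hQ : HomQ Q) (F : M → H) (x : M) :
    0 ≤ Sn E Q F x :=
  Sq_nonneg hQ ((localKahler_chartG hK (chart_mem_maximalAtlas x)).pos _
    ((chartAt E x).map_source (mem_chart_source E x)))

/-- **The Levi form of powers of the norm.** -/
theorem fourGe_Sn_rpow (hK : IsKahler E M) {Q : (Fin m → H) → W} (hQ : HomQ Q) {F : M → H}
    (hF : MDifferentiable 𝓘(ℂ, E) 𝓘(ℂ, H) F) {x : M} {κ : ℝ}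
    (hκ : ∀ e ∈ maximalAtlas 𝓘(ℂ, E) 1 M, x ∈ e.source → ∀ X a,
      κ / 2 * chartG e (e x) X X * chartG e (e x) a a ≤ Rc (chartG e) (e x) X a)
    {α : ℝ} (hα : 0 < α) :
    FourGe (E := E) (fun y => Sn E Q F y ^ α) x (α * m * κ * Sn E Q F x ^ α / 4) := by
  intro e he hx Y a ha η hη
  have hLK := localKahler_chartG hK he
  have hz := e.map_source hx
  have hSq := Sn_eq hQ hF he hx
  rcases (Sn_nonneg' hK hQ F x).eq_or_lt with h0 | h0
  · filter_upwards with r
    rw [← h0, Real.zero_rpow hα.ne']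
    have h1 : 0 ≤ ∑ k, Sn E Q F (a r k) ^ α :=
      Finset.sum_nonneg fun k _ => Real.rpow_nonneg (Sn_nonneg' hK hQ F _) _
    have h2 : 0 ≤ r ^ 2 * η := by positivity
    simp only [mul_zero, zero_div, zero_mul, zero_add, zero_sub]
    linarith
  set S := Sn E Q F x with hS
  set ξ : ℝ → Fin 4 → E := fun r k => e (a r k) - e x - r • (I ^ (k:ℕ) • ((1:ℂ) • Y)) with hξ
  have hξs : IsSmall ξ := ha.2
  have hSα : 0 < S ^ α := Real.rpow_pos_of_pos h0 _
  have h1 := four_Sq_log hLK hz hQ (differentiableOn_dF hF he) Y (κ := κ / 2)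
    (fun b => hκ e he hx Y b) (by rw [← hSq]; exact h0) hξs
    (show 0 < η / (α * S ^ α) by positivity)
  filter_upwards [h1, ha.1] with r hr1 hr2
  have ept : ∀ k : Fin 4, e x + (r • (I ^ (k:ℕ) • Y) + ξ r k) = e (a r k) := by
    intro k
    simp only [hξ, one_smul]
    abel
  simp only [ept] at hr1
  have hSk : ∀ k : Fin 4, Sn E Q F (a r k) = Sq Q (dF F e (e (a r k))) (chartG e (e (a r k))) :=
    fun k => Sn_eq hQ hF he (hr2 k)
  simp only [← hSk, ← hSq] at hr1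
  obtain ⟨hp, hl⟩ := hr1
  have h2 : ∀ k : Fin 4, S ^ α * (1 + α * (Real.log (Sn E Q F (a r k)) - Real.log S)) ≤
      Sn E Q F (a r k) ^ α := by
    intro k
    rw [Real.rpow_def_of_pos h0, Real.rpow_def_of_pos (hp k)]
    have h3 : Real.exp (Real.log (Sn E Q F (a r k)) * α) = Real.exp (Real.log S * α) *
        Real.exp (α * (Real.log (Sn E Q F (a r k)) - Real.log S)) := by
      rw [← Real.exp_add]; congr 1; ring
    rw [h3]
    have h4 := Real.add_one_le_exp (α * (Real.log (Sn E Q F (a r k)) - Real.log S))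
    have h5 := Real.exp_pos (Real.log S * α)
    exact mul_le_mul_of_nonneg_left (by linarith) h5.le
  have h3 := Finset.sum_le_sum fun k (_ : k ∈ Finset.univ) => h2 k
  refine le_trans ?_ h3
  rw [← Finset.mul_sum, Finset.sum_add_distrib, ← Finset.mul_sum, Finset.sum_sub_distrib]
  simp only [Finset.sum_const, Finset.card_univ, Fintype.card_fin, nsmul_eq_mul, mul_one]
  push_cast
  have h5 := mul_le_mul_of_nonneg_left hl (mul_pos hα hSα).le
  have h6 : α * S ^ α * (4 * Real.log S + r ^ 2 * (2 * m * (κ / 2) * chartG e (e x) Y Y -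
      η / (α * S ^ α))) = 4 * (α * S ^ α * Real.log S) +
      r ^ 2 * (α * m * κ * S ^ α * chartG e (e x) Y Y - η) := by
    field_simp
  rw [h6] at h5
  linarith

end Sn

section main

variable {E : Type*} [NormedAddCommGroup E] [NormedSpace ℂ E] [FiniteDimensional ℂ E]
  {M : Type*} [MetricSpace M] [ChartedSpace E M]
  [IsManifold 𝓘(ℂ, E) 1 M] [IsManifold 𝓘(ℝ, E) ∞ M]
  [RiemannianBundle (fun x : M => TangentSpace 𝓘(ℝ, E) x)]

/-- sums -/
theorem fourGe_add' {s t : M → ℝ} {x : M} {c d : ℝ} (h1 : FourGe (E := E) s x c)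
    (h2 : FourGe (E := E) t x d) : FourGe (E := E) (fun y => s y + t y) x (c + d) := by
  intro e he hx Y a ha η hη
  filter_upwards [h1 e he hx Y a ha (η / 2) (half_pos hη),
    h2 e he hx Y a ha (η / 2) (half_pos hη)] with r hr1 hr2
  rw [Finset.sum_add_distrib]
  linarith

/-- the differential in a chart -/
theorem dF_eq_realDiff {H : Type*} [NormedAddCommGroup H] [NormedSpace ℂ H]
    [FiniteDimensional ℂ H] {F : M → H} (hF : MDifferentiable 𝓘(ℂ, E) 𝓘(ℂ, H) F) {x : M}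
    {e : OpenPartialHomeomorph M E} (he : e ∈ maximalAtlas 𝓘(ℂ, E) 1 M) (hx : x ∈ e.source)
    (Y : E) : dF F e (e x) Y = realDiff E F (e.symm (e x))
      (mfderiv 𝓘(ℝ, E) 𝓘(ℝ, E) e.symm (e x) Y) := by
  have hCH : CompleteSpace H := FiniteDimensional.complete ℂ H
  have hxt := e.map_source hx
  set τ : E → H := fun z => F (e.symm z) with hτ
  have hτd : DifferentiableOn ℂ τ e.target := differentiableOn_F hF he
  have h0 : HasFDerivAt τ ((fderiv ℂ τ (e x)).restrictScalars ℝ) (e x) :=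
    (hτd.differentiableAt (e.open_target.mem_nhds hxt)).hasFDerivAt.restrictScalars ℝ
  have h0' : dF F e (e x) Y = fderiv ℝ τ (e x) Y := by
    rw [h0.fderiv]
    rfl
  have her := mem_maximalAtlas_real he
  have h1 : MDifferentiableAt 𝓘(ℝ, E) 𝓘(ℝ, E) e.symm (e x) :=
    ((contMDiffOn_symm_of_mem_maximalAtlas her).contMDiffAt
      (e.open_target.mem_nhds hxt)).mdifferentiableAt (by simp)
  have h2 : MDifferentiableAt 𝓘(ℝ, E) 𝓘(ℝ, H) F (e.symm (e x)) := by
    have h3 := (hF (e.symm (e x))).hasMFDerivAt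
    have h4 : HasMFDerivAt 𝓘(ℝ, E) 𝓘(ℝ, H) F (e.symm (e x))
        ((mfderiv 𝓘(ℂ, E) 𝓘(ℂ, H) F (e.symm (e x)) : E →L[ℂ] H).restrictScalars ℝ :
          E →L[ℝ] H) := ⟨h3.1, h3.2.restrictScalars ℝ⟩
    exact h4.mdifferentiableAt
  have h3 : mfderiv 𝓘(ℝ, E) 𝓘(ℝ, H) τ (e x) = (mfderiv 𝓘(ℝ, E) 𝓘(ℝ, H) F (e.symm (e x))).comp
      (mfderiv 𝓘(ℝ, E) 𝓘(ℝ, E) e.symm (e x)) := mfderiv_comp (e x) h2 h1
  rw [h0', ← mfderiv_eq_fderiv, h3]
  rfl

variable [IsContMDiffRiemannianBundle 𝓘(ℝ, E) ∞ E (fun x : M => TangentSpace 𝓘(ℝ, E) x)]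

/-- the norm of a vector -/
def Qone (H : Type*) (y : Fin 1 → H) : H := y 0

theorem homQ_Qone (H : Type*) [NormedAddCommGroup H] [NormedSpace ℂ H] : HomQ (Qone H) := by
  refine ⟨?_, fun c y => by simp [Qone]⟩
  unfold Qone
  fun_prop

/-- `|dF(v)|² ≥ b |v|²` for some `v ≠ 0` implies `b ≤ |dF|²` -/
theorem le_Sn_sq [Nontrivial E] (hK : IsKahler E M) {n : ℕ} {F : M → EuclideanSpace ℂ (Fin n)}
    (hF : IsHolMap E F) {x : M} {b : ℝ}
    (h : ∃ v : TangentSpace 𝓘(ℝ, E) x, v ≠ 0 ∧ b * inner ℝ v v ≤ ‖realDiff E F x v‖ ^ 2) :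
    b ≤ Sn E (Qone (EuclideanSpace ℂ (Fin n))) F x ^ 2 := by
  have he : chartAt E x ∈ maximalAtlas 𝓘(ℂ, E) 1 M := chart_mem_maximalAtlas x
  have hx : x ∈ (chartAt E x).source := mem_chart_source E x
  set e := chartAt E x with hedef
  have hLK := localKahler_chartG hK he
  have hz := e.map_source hx
  have h' : ∃ v : TangentSpace 𝓘(ℝ, E) (e.symm (e x)),
      v ≠ 0 ∧ b * inner ℝ v v ≤ ‖realDiff E F (e.symm (e x)) v‖ ^ 2 := by
    rw [e.left_inv hx]
    exact h
  obtain ⟨v, hv, hb⟩ := h'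
  have hfd : FiniteDimensional ℝ E := FiniteDimensional.complexToReal E
  let D : E →L[ℝ] E := mfderiv 𝓘(ℝ, E) 𝓘(ℝ, E) e.symm (e x)
  have hinj : Function.Injective (D : E →ₗ[ℝ] E) := by
    rw [injective_iff_map_eq_zero]
    intro u hu
    by_contra hne
    have h4 := hLK.pos _ hz u hne
    rw [chartG_apply] at h4
    have h5 : mfderiv 𝓘(ℝ, E) 𝓘(ℝ, E) e.symm (e x) u = 0 := hu
    unfold chartMetric at h4
    rw [h5, inner_zero_left] at h4
    exact lt_irrefl _ h4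
  obtain ⟨Y, hY⟩ := LinearMap.injective_iff_surjective.1 hinj v
  have hY' : mfderiv 𝓘(ℝ, E) 𝓘(ℝ, E) e.symm (e x) Y = v := hY
  have hY0 : Y ≠ 0 := fun h0 => by
    have h3 : D Y = 0 := by rw [h0]; exact map_zero D
    exact hv (hY.symm.trans h3)
  have h1 : b * chartG e (e x) Y Y ≤ ‖dF F e (e x) Y‖ ^ 2 := by
    rw [dF_eq_realDiff hF he hx Y, hY', chartG_apply]
    unfold chartMetric
    rw [hY']
    exact hb
  have hG := hLK.pos _ hz Y hY0
  have h2 := norm_le_Sq (T := dF F e (e x)) (homQ_Qone (EuclideanSpace ℂ (Fin n)))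
    (hLK.pos _ hz) (fun _ : Fin 1 => Y)
  simp only [Finset.univ_unique, Finset.prod_singleton] at h2
  have h3 : ‖dF F e (e x) Y‖ ^ 2 ≤ Sn E (Qone (EuclideanSpace ℂ (Fin n))) F x ^ 2 *
      chartG e (e x) Y Y := by
    rw [Sn_eq (homQ_Qone _) hF he hx]
    have h4 : ‖dF F e (e x) Y‖ ≤ Sq (Qone (EuclideanSpace ℂ (Fin n))) (dF F e (e x))
        (chartG e (e x)) * √(chartG e (e x) Y Y) := h2
    calc ‖dF F e (e x) Y‖ ^ 2 ≤ (Sq (Qone (EuclideanSpace ℂ (Fin n))) (dF F e (e x))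
        (chartG e (e x)) * √(chartG e (e x) Y Y)) ^ 2 := by gcongr
      _ = _ := by rw [mul_pow, Real.sq_sqrt hG.le]
  exact le_of_mul_le_mul_right (h1.trans h3) hG

variable [IsRiemannianManifold 𝓘(ℝ, E) M]

/-- **Criterion with the curvature.** -/
theorem stein_curv (hK : IsKahler E M) [CompleteSpace M] [ConnectedSpace M]
    [NoncompactSpace M] (hnn : ∀ x : M, NonnegBisectionalAt E x) (p : M) {A : Set M}
    (hA : IsCompact A) (hpos : (∀ x : M, PosBisectionalAt E x) ∨ A = ∅) {n : ℕ}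
    {F : M → EuclideanSpace ℂ (Fin n)} (hF : IsHolMap E F) {φ : M → ℝ} (hφ : ContPsh E φ)
    {lam : ℝ → ℝ} (hl : IsDecay lam) {α : ℝ} (hα : 0 < α)
    (h : ∀ x ∉ A, ∃ a κ b : ℝ, 0 ≤ κ ∧ 0 ≤ b ∧ DiffGe E F x a ∧ BisectionalGe E x κ ∧
      (∃ v : TangentSpace 𝓘(ℝ, E) x, v ≠ 0 ∧ b * inner ℝ v v ≤ ‖realDiff E F x v‖ ^ 2) ∧
      Real.exp (-φ x) * lam (dist p x) ≤ a + κ * b ^ α)
    (hgrow : Tendsto (fun r : ℝ => ∫ s in (0:ℝ)..r, s * lam s) atTop atTop) :
    HasSpshExhaustion E M := by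
  have hnt : Nontrivial E := nontrivial_model E M
  have hQ := homQ_Qone (EuclideanSpace ℂ (Fin n))
  set S : M → ℝ := Sn E (Qone (EuclideanSpace ℂ (Fin n))) F with hS
  have hSc : Continuous S := continuous_Sn hK hQ hF
  have hS0 : ∀ x, 0 ≤ S x := fun x => Sn_nonneg' hK hQ F x
  have hScr : Continuous fun x => S x ^ (2 * α) :=
    hSc.rpow_const fun x => Or.inr (by positivity)
  have hcont : Continuous fun x => ‖F x‖ ^ 2 + 2 / α * S x ^ (2 * α) :=
    (hF.continuous.norm.pow 2).add (hScr.const_mul _)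
  have hfour : ∀ (x : M) (a κ : ℝ), DiffGe E F x a →
      (∀ e ∈ maximalAtlas 𝓘(ℂ, E) 1 M, x ∈ e.source → ∀ X a,
        κ / 2 * chartG e (e x) X X * chartG e (e x) a a ≤ Rc (chartG e) (e x) X a) →
      FourGe (E := E) (fun x => ‖F x‖ ^ 2 + 2 / α * S x ^ (2 * α)) x
        (a + κ * S x ^ (2 * α)) := by
    intro x a κ ha hk
    have h1 : FourGe (E := E) (fun x => ‖F x‖ ^ 2) x a :=
      fourGe_normsq_chart hF fun e he hx Y => chart_of_realDiff hF ha he hx Y
    have h2 := fourGe_smul (show 0 < 2 / α by positivity)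
      (fourGe_Sn_rpow hK hQ hF hk (show 0 < 2 * α by positivity))
    have h3 := fourGe_add' h1 h2
    convert h3 using 2
    rw [← hS]
    push_cast
    field_simp
    ring
  have hzero : ∀ x : M, DiffGe E F x 0 := fun x v => by rw [zero_mul]; positivity
  have hpsh : ContPsh E fun x => ‖F x‖ ^ 2 + 2 / α * S x ^ (2 * α) :=
    SubS.contPsh (subS_of_fourGe hK hcont fun x _ => ⟨0, le_rfl, by
      have h1 := hfour x 0 0 (hzero x) fun e he hx X a => by
        rw [zero_div, zero_mul, zero_mul]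
        exact Rc_nonneg_chartG hK he (e.map_source hx) (hnn _) X a
      simpa using h1⟩)
  refine stein_majorant hK hnn p hA hpos hl.1 hl.2.1 hl.2.2 hpsh
    (fun x => add_nonneg (sq_nonneg _) (mul_nonneg (by positivity)
      (Real.rpow_nonneg (hS0 x) _))) hφ (weakLevi_of_fourGe hcont fun x hx => ?_) hgrow
  obtain ⟨a, κ, b, hκ, hb, ha, hk, hv, hle⟩ := h x hx
  refine (hfour x a κ ha fun e he hx X a => Rc_ge_chartG hK he hx hk X a).mono hK
    (hle.trans ?_)
  have h1 := le_Sn_sq hK hF hv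
  have h2 : b ^ α ≤ S x ^ (2 * α) := by
    have h3 : S x ^ (2 * α) = (S x ^ 2) ^ α := by
      rw [Real.rpow_mul (hS0 x)]
      norm_num
    rw [h3]
    exact Real.rpow_le_rpow hb h1 hα.le
  have h3 := mul_le_mul_of_nonneg_left h2 hκ
  linarith

end main

end Vale.Agent.P253.R2.H451
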