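import Vale.Agent.P253.R2.H451.Form
import Vale.Agent.P253.R2.H380.AreaBound
import Vale.Agent.P253.R2.H380.MaxPrinciple

/-!
P253 M8: the analysis of a family of discs `c0 z + s c1 z`, `0 ≤ s ≤ 1`, in the domain of a
`KMetric`, punctured at `(0, 0)`: bound of the inverse metric, area bound.
-/

open Set Filter Complex Metric MeasureTheory
open scoped Topology ContDiff InnerProductSpace ComplexConjugate

noncomputable section

namespace Vale.Agent.P253.R2.H451

open Vale.Agent.P253.R2.H66 Vale.Agent.P253.R2.H380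

variable {E : Type*} [NormedAddCommGroup E] [NormedSpace ℂ E] [FiniteDimensional ℂ E]
  {V : Type*} [NormedAddCommGroup V] [InnerProductSpace ℂ V] [FiniteDimensional ℂ V]
  {S : Set E} {g : E → E → E → ℝ}

/-- norm bound of a positive operator by its quadratic form -/
theorem norm_le_of_quad {T : V →L[ℂ] V} (hT : IsSelfAdjoint T) (h0 : ∀ b, 0 ≤ (⟪b, T b⟫_ℂ).re)
    {C : ℝ} (hC : ∀ b, (⟪b, T b⟫_ℂ).re ≤ C * ‖b‖ ^ 2) (hC0 : 0 ≤ C) : ‖T‖ ≤ C := by
  refine T.opNorm_le_bound hC0 fun b => ?_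
  -- Cauchy-Schwarz for the form
  set B : V → V → ℝ := fun a b => (⟪a, T b⟫_ℂ).re with hB
  have hsymm : ∀ a b, B a b = B b a := fun a b => by
    simp only [hB]
    rw [← inner_selfAdjoint hT, ← inner_conj_symm, Complex.conj_re]
  have hadd : ∀ a b c, B a (b + c) = B a b + B a c := fun a b c => by
    simp only [hB, map_add, inner_add_right, Complex.add_re]
  have hsm : ∀ (r : ℝ) a b, B a (r • b) = r * B a b := fun r a b => by
    simp only [hB]
    rw [← Complex.coe_smul, map_smul, inner_smul_right, Complex.re_ofReal_mul]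
  have hcs : ∀ a b, B a b ^ 2 ≤ B a a * B b b := by
    intro a b
    have key : ∀ t : ℝ, 0 ≤ B b b * (t * t) + (2 * B a b) * t + B a a := by
      intro t
      have h1 := h0 (a + t • b)
      change 0 ≤ B (a + t • b) (a + t • b) at h1
      rw [hadd, hsm, hsymm _ a, hsymm _ b, hadd, hadd, hsm, hsm, hsymm b a] at h1
      linarith
    have := discrim_le_zero key
    rw [discrim] at this
    nlinarith
  have h1 := hcs (T b) b
  have h2 : B (T b) b = ‖T b‖ ^ 2 := by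
    simp only [hB]
    rw [inner_self_eq_norm_sq_to_K]
    norm_cast
  rw [h2] at h1
  have h3 : (‖T b‖ ^ 2) ^ 2 ≤ (C * ‖T b‖ ^ 2) * (C * ‖b‖ ^ 2) :=
    h1.trans (mul_le_mul (hC _) (hC _) (h0 _) (by positivity))
  by_cases hz : ‖T b‖ = 0
  · rw [hz]; positivity
  · have hpos : 0 < ‖T b‖ := lt_of_le_of_ne (norm_nonneg _) (Ne.symm hz)
    have h4 : ‖T b‖ ^ 2 ≤ (C * ‖b‖) ^ 2 := by
      have : ‖T b‖ ^ 2 * ‖T b‖ ^ 2 ≤ ‖T b‖ ^ 2 * (C * ‖b‖) ^ 2 := by nlinarith
      exact le_of_mul_le_mul_left this (by positivity)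
    exact (abs_le_of_sq_le_sq' h4 (by positivity)).2

variable (A : V ≃L[ℂ] E)

theorem inv_gop_selfAdjoint (h : KMetric S g) {x : E} (hx : x ∈ S) :
    IsSelfAdjoint (Ring.inverse (gop A g x)) :=
  inverse_selfAdjoint (gop_selfAdjoint A h hx)

theorem inv_gop_apply (h : KMetric S g) {x : E} (hx : x ∈ S) (v : V) :
    gop A g x (Ring.inverse (gop A g x) v) = v := by
  rw [← mul_apply_eq_comp, Ring.mul_inverse_cancel _ (gop_isUnit A h hx)]; simp

theorem inv_gop_apply' (h : KMetric S g) {x : E} (hx : x ∈ S) (v : V) :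
    Ring.inverse (gop A g x) (gop A g x v) = v := by
  rw [← mul_apply_eq_comp, Ring.inverse_mul_cancel _ (gop_isUnit A h hx)]; simp

theorem KMetric.nonneg (h : KMetric S g) {x : E} (hx : x ∈ S) (v : E) : 0 ≤ g x v v := by
  by_cases hv : v = 0
  · subst hv
    have := h.smul x hx 0 0 0
    simp at this
    simp [this]
  · exact (h.pos x hx v hv).le

theorem inv_gop_nonneg (h : KMetric S g) {x : E} (hx : x ∈ S) (b : V) :
    0 ≤ (⟪b, Ring.inverse (gop A g x) b⟫_ℂ).re := by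
  have h1 := re_inner_gop A h hx (Ring.inverse (gop A g x) b) (Ring.inverse (gop A g x) b)
  rw [inv_gop_apply A h hx, ] at h1
  rw [← inner_selfAdjoint (inv_gop_selfAdjoint A h hx), h1]
  exact h.nonneg hx _

theorem inv_gop_contDiffOn (h : KMetric S g) (hS : IsOpen S) :
    ContDiffOn ℝ 2 (fun x => Ring.inverse (gop A g x)) S := fun x hx =>
  (contDiffAt_inv (gop_contDiffAt A h hS hx) (gop_isUnit A h hx)).contDiffWithinAt

section disc

variable {c0 c1 : ℂ → E} {U : Set ℂ} {r : ℝ}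

/-- the family of discs -/
def fam (c0 c1 : ℂ → E) (s : ℝ) (z : ℂ) : E := c0 z + (s : ℂ) • c1 z

theorem fam_zero (c0 c1 : ℂ → E) (z : ℂ) : fam c0 c1 0 z = c0 z := by simp [fam]

theorem fam_analyticAt (hU : IsOpen U) (hc0 : DifferentiableOn ℂ c0 U)
    (hc1 : DifferentiableOn ℂ c1 U) (s : ℝ) {z : ℂ} (hz : z ∈ U) :
    AnalyticAt ℂ (fam c0 c1 s) z :=
  (hc0.analyticAt (hU.mem_nhds hz)).add ((hc1.analyticAt (hU.mem_nhds hz)).const_smul)

theorem fam_contDiffOn (hU : IsOpen U) (hc0 : DifferentiableOn ℂ c0 U)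
    (hc1 : DifferentiableOn ℂ c1 U) {n : WithTop ℕ∞} :
    ContDiffOn ℝ n (fun p : ℝ × ℂ => fam c0 c1 p.1 p.2) (univ ×ˢ U) := by
  have e0 : ContDiffOn ℝ n c0 U := fun z hz =>
    (((hc0.analyticAt (hU.mem_nhds hz)).contDiffAt (n := n)).restrict_scalars ℝ).contDiffWithinAt
  have e1 : ContDiffOn ℝ n c1 U := fun z hz =>
    (((hc1.analyticAt (hU.mem_nhds hz)).contDiffAt (n := n)).restrict_scalars ℝ).contDiffWithinAt
  have hm : MapsTo (Prod.snd : ℝ × ℂ → ℂ) (univ ×ˢ U) U := fun p hp => hp.2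
  have e2 : (fun p : ℝ × ℂ => fam c0 c1 p.1 p.2) = fun p => c0 p.2 + p.1 • c1 p.2 := by
    funext p; simp [fam]
  rw [e2]
  exact (e0.comp contDiffOn_snd hm).add (contDiffOn_fst.smul (e1.comp contDiffOn_snd hm))

theorem fam_continuousOn (hU : IsOpen U) (hc0 : DifferentiableOn ℂ c0 U)
    (hc1 : DifferentiableOn ℂ c1 U) :
    ContinuousOn (fun p : ℝ × ℂ => fam c0 c1 p.1 p.2) (univ ×ˢ U) :=
  (fam_contDiffOn (n := 0) hU hc0 hc1).continuousOn

/-- the inverse metric is bounded on the limit disc -/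
theorem exists_inv_bound (h : KMetric S g) (hS : IsOpen S) (hU : IsOpen U) (hr : 0 < r)
    (hUr : closedBall (0 : ℂ) r ⊆ U) (hc0 : DifferentiableOn ℂ c0 U)
    (hc1 : DifferentiableOn ℂ c1 U)
    (hin : ∀ s ∈ Icc (0 : ℝ) 1, ∀ z ∈ closedBall (0 : ℂ) r, (s, z) ≠ (0, 0) →
      c0 z + (s : ℂ) • c1 z ∈ S) :
    ∃ C, 0 ≤ C ∧ ∀ z ∈ closedBall (0 : ℂ) r, z ≠ 0 → ‖Ring.inverse (gop A g (c0 z))‖ ≤ C := by
  set T : E → V →L[ℂ] V := fun x => Ring.inverse (gop A g x) with hT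
  have hT2 : ContDiffOn ℝ 2 T S := inv_gop_contDiffOn A h hS
  set F := fam c0 c1 with hF
  -- boundary circles
  set K : Set (ℝ × ℂ) := Icc (0 : ℝ) 1 ×ˢ sphere (0 : ℂ) r with hK
  have hKc : IsCompact K := isCompact_Icc.prod (isCompact_sphere _ _)
  have hne : ∀ z ∈ sphere (0 : ℂ) r, z ≠ 0 := by
    intro z hz h0
    rw [h0, mem_sphere_zero_iff_norm, norm_zero] at hz
    exact hr.ne hz
  have hKS : ∀ p ∈ K, F p.1 p.2 ∈ S := by
    rintro ⟨s, z⟩ ⟨hs, hz⟩
    refine hin s hs z (sphere_subset_closedBall hz) fun h0 => hne z hz (Prod.ext_iff.1 h0).2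
  have hcont : ContinuousOn (fun p : ℝ × ℂ => T (F p.1 p.2)) K := by
    refine hT2.continuousOn.comp ((fam_continuousOn hU hc0 hc1).mono ?_) hKS
    rintro ⟨s, z⟩ ⟨hs, hz⟩
    exact ⟨mem_univ _, hUr (sphere_subset_closedBall hz)⟩
  obtain ⟨C, hC⟩ := hKc.exists_bound_of_continuousOn hcont
  set C' := max C 0 with hC'
  have hquad : ∀ s ∈ Ioc (0 : ℝ) 1, ∀ z ∈ closedBall (0 : ℂ) r, ∀ b : V,
      (⟪b, T (F s z) b⟫_ℂ).re ≤ C' * ‖b‖ ^ 2 := by
    intro s hs z hz b
    have hsI : s ∈ Icc (0 : ℝ) 1 := ⟨hs.1.le, hs.2⟩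
    have hmem : ∀ w ∈ closedBall (0 : ℂ) r, F s w ∈ S := fun w hw =>
      hin s hsI w hw fun h0 => hs.1.ne' (Prod.ext_iff.1 h0).1
    set k : ℂ → V →L[ℂ] V := fun w => T (F s w) with hk
    have hk2 : ∀ w ∈ closedBall (0 : ℂ) r, ContDiffAt ℝ 2 k w := fun w hw =>
      (hT2.contDiffAt (hS.mem_nhds (hmem w hw))).comp w
        (((fam_analyticAt hU hc0 hc1 s (hUr hw)).contDiffAt (n := 2)).restrict_scalars ℝ)
    have hf : (fun w => (⟪b, k w b⟫_ℂ).re) = fun w => ell b b (k w) := rfl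
    have hf2 : ∀ w ∈ closedBall (0 : ℂ) r, ContDiffAt ℝ 2 (fun w => (⟪b, k w b⟫_ℂ).re) w :=
      fun w hw => by
        rw [hf]
        exact (ell b b).contDiff.contDiffAt.comp w (hk2 w hw)
    refine max_principle (f := fun w => (⟪b, k w b⟫_ℂ).re) (c := 0) (r := r)
      (fun w hw => (hf2 w hw).continuousAt.continuousWithinAt)
      (fun w hw => (hf2 w (ball_subset_closedBall hw)).contDiffWithinAt) ?_ ?_ z hz
    · intro w hw
      have hw' := ball_subset_closedBall hw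
      have hcurv := curvGE_disc A h hS (fam_analyticAt hU hc0 hc1 s (hUr hw')) (hmem w hw') b 0
      have hkw := hk2 w hw'
      have e0 : dz (dzb fun y => Ring.inverse (gop A g (fam c0 c1 s y))) w =
          (1 / 4 : ℂ) • lap k w := dz_dzb_eq_lap hkw
      rw [e0] at hcurv
      simp only [zero_mul, inner_zero_left, Complex.zero_re, mul_zero, add_zero, smul_apply,
        inner_smul_right] at hcurv
      have hd1 : ∀ᶠ y in 𝓝 w, DifferentiableAt ℝ k y :=
        (hkw.eventually (by simp)).mono fun y hy => hy.differentiableAt (by norm_num)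
      have e1 : ∀ u : ℂ, fderiv ℝ (fun y => fderiv ℝ (fun w => (⟪b, k w b⟫_ℂ).re) y u) w u =
          ell b b (fderiv ℝ (fun y => fderiv ℝ k y u) w u) := by
        intro u
        have h1 : (fun y => fderiv ℝ (fun w => (⟪b, k w b⟫_ℂ).re) y u) =ᶠ[𝓝 w]
            fun y => ell b b (fderiv ℝ k y u) := by
          filter_upwards [hd1] with y hy
          exact ell_fderiv hy b b u
        rw [h1.fderiv_eq]
        refine ell_fderiv ?_ b b u
        exact ((hkw.fderiv_right (m := 1) (by norm_num)).differentiableAt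
          (by norm_num)).clm_apply (differentiableAt_const _)
      rw [e1, e1, ← map_add]
      have e2 : (⟪b, lap k w b⟫_ℂ).re = ell b b (fderiv ℝ (fun y => fderiv ℝ k y 1) w 1 +
          fderiv ℝ (fun y => fderiv ℝ k y I) w I) := rfl
      rw [← e2]
      have e3 : ((1 / 4 : ℂ) * ⟪b, lap k w b⟫_ℂ).re = (⟪b, lap k w b⟫_ℂ).re / 4 := by
        simp [Complex.mul_re]; ring
      rw [e3] at hcurv
      linarith
    · intro w hw
      have h1 : ‖k w‖ ≤ C' := (hC (s, w) ⟨hsI, hw⟩).trans (le_max_left _ _)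
      calc (⟪b, k w b⟫_ℂ).re ≤ ‖⟪b, k w b⟫_ℂ‖ := Complex.re_le_norm _
        _ ≤ ‖b‖ * ‖k w b‖ := norm_inner_le_norm _ _
        _ ≤ ‖b‖ * (C' * ‖b‖) := by gcongr; exact (k w).le_of_opNorm_le h1 b
        _ = C' * ‖b‖ ^ 2 := by ring
  refine ⟨C', le_max_right _ _, fun z hz hz0 => ?_⟩
  have hmem0 : c0 z ∈ S := by
    have := hin 0 ⟨le_rfl, zero_le_one⟩ z hz fun h0 => hz0 (Prod.ext_iff.1 h0).2
    simpa using this
  refine norm_le_of_quad (inv_gop_selfAdjoint A h hmem0) (inv_gop_nonneg A h hmem0) (fun b => ?_)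
    (le_max_right _ _)
  -- limit `s → 0`
  have hlim : Tendsto (fun s : ℝ => (⟪b, T (F s z) b⟫_ℂ).re) (𝓝[>] 0)
      (𝓝 (⟪b, T (c0 z) b⟫_ℂ).re) := by
    have h1 : ContinuousAt T (c0 z) := (hT2.contDiffAt (hS.mem_nhds hmem0)).continuousAt
    have h2 : Tendsto (fun s : ℝ => F s z) (𝓝 0) (𝓝 (c0 z)) := by
      have : Continuous fun s : ℝ => F s z := by
        simp only [hF, fam]; fun_prop
      have h3 := this.tendsto 0
      rwa [hF, fam_zero] at h3
    have h4 := ((ell b b).continuous.continuousAt.tendsto.comp (h1.tendsto.comp h2))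
    exact h4.mono_left nhdsWithin_le_nhds
  refine le_of_tendsto hlim ?_
  filter_upwards [Ioc_mem_nhdsGT (zero_lt_one)] with s hs
  exact hquad s hs z hz b

end disc

end Vale.Agent.P253.R2.H451
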