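import Vale.Agent.P253.R2.H451.Op

/-!
P253 M8: the Kähler form of a `KMetric` as a smooth closed 2-form.
-/

open Set Filter Complex
open scoped Topology ContDiff InnerProductSpace ComplexConjugate

noncomputable section

namespace Vale.Agent.P253.R2.H451

open Vale.Agent.P253.R2.H66

variable {E : Type*} [NormedAddCommGroup E] [NormedSpace ℂ E] [FiniteDimensional ℂ E]
  {V : Type*} [NormedAddCommGroup V] [InnerProductSpace ℂ V] [FiniteDimensional ℂ V]
  {S : Set E} {g : E → E → E → ℝ}

omit [FiniteDimensional ℂ E] in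
/-- the real inner product of `V` as a bilinear form -/
def reInner (V : Type*) [NormedAddCommGroup V] [InnerProductSpace ℂ V] : V →L[ℝ] V →L[ℝ] ℝ :=
  letI : InnerProductSpace ℝ V := InnerProductSpace.rclikeToReal ℂ V
  innerSL ℝ

theorem reInner_apply (v w : V) : reInner V v w = (⟪v, w⟫_ℂ).re := rfl

/-- the Kähler form `ω_x(v, w) = g_x(I v, w)` -/
def kform (A : V ≃L[ℂ] E) (g : E → E → E → ℝ) (x : E) : E →L[ℝ] E →L[ℝ] ℝ :=
  (reInner V).bilinearComp
    (((A.symm : E →L[ℂ] V).comp (I • ContinuousLinearMap.id ℂ E)).restrictScalars ℝ)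
    (((gop A g x).comp (A.symm : E →L[ℂ] V)).restrictScalars ℝ)

variable (A : V ≃L[ℂ] E)

omit [FiniteDimensional ℂ E] in
theorem kform_apply' (x v w : E) :
    kform A g x v w = (⟪A.symm (I • v), gop A g x (A.symm w)⟫_ℂ).re := rfl

omit [FiniteDimensional ℂ E] in
theorem kform_apply (h : KMetric S g) {x : E} (hx : x ∈ S) (v w : E) :
    kform A g x v w = g x (I • v) w := by
  rw [kform_apply', re_inner_gop A h hx]
  simp

omit [FiniteDimensional ℂ E] in
theorem kform_anti (h : KMetric S g) {x : E} (hx : x ∈ S) (v w : E) :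
    kform A g x v w = - kform A g x w v := by
  rw [kform_apply A h hx, kform_apply A h hx, h.I_left hx, h.symm x hx v]

theorem kform_contDiffOn (h : KMetric S g) : ContDiffOn ℝ 2 (kform A g) S := by
  haveI : FiniteDimensional ℝ E := FiniteDimensional.complexToReal E
  rw [contDiffOn_clm_apply]
  intro v
  rw [contDiffOn_clm_apply]
  intro w
  have h1 : (fun x => kform A g x v w) = fun x => ell (A.symm (I • v)) (A.symm w) (gop A g x) := rfl
  rw [h1]
  exact (ell _ _).contDiff.comp_contDiffOn (gop_contDiffOn A h)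

theorem fderiv_kform (h : KMetric S g) (hS : IsOpen S) {x : E} (hx : x ∈ S) (u v w : E) :
    fderiv ℝ (kform A g) x u v w = fderiv ℝ (fun y => g y (I • v) w) x u := by
  have hd : DifferentiableAt ℝ (kform A g) x :=
    ((kform_contDiffOn A h).contDiffAt (hS.mem_nhds hx)).differentiableAt (by norm_num)
  have h1 : fderiv ℝ (fun y => kform A g y v w) x u = fderiv ℝ (kform A g) x u v w := by
    have hd1 : DifferentiableAt ℝ (fun y => kform A g y v) x :=
      hd.clm_apply (differentiableAt_const v)
    rw [fderiv_clm_apply hd1 (differentiableAt_const w)]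
    simp only [fderiv_fun_const, Pi.zero_apply, ContinuousLinearMap.comp_zero, zero_add,
      ContinuousLinearMap.flip_apply]
    rw [fderiv_clm_apply hd (differentiableAt_const v)]
    simp
  rw [← h1]
  have h2 : (fun y => kform A g y v w) =ᶠ[𝓝 x] fun y => g y (I • v) w := by
    filter_upwards [hS.mem_nhds hx] with y hy
    exact kform_apply A h hy v w
  rw [h2.fderiv_eq]

theorem kform_closed (h : KMetric S g) (hS : IsOpen S) {x : E} (hx : x ∈ S) (u v w : E) :
    fderiv ℝ (kform A g) x u v w + fderiv ℝ (kform A g) x v w u +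
      fderiv ℝ (kform A g) x w u v = 0 := by
  rw [fderiv_kform A h hS hx, fderiv_kform A h hS hx, fderiv_kform A h hS hx]
  exact h.closed x hx u v w

end Vale.Agent.P253.R2.H451
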