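import Vale.Agent.P253.R2.H451.KMetric
import Vale.Agent.P253.R2.H384.Pull

/-!
P253 M8: `LocalKahler` with nonnegative bisectional curvature gives `KMetric`.
-/

open scoped ContDiff Topology
open Set Metric Complex Filter

set_option maxSynthPendingDepth 3

noncomputable section

namespace Vale.Agent.P253.R2.H451

open Mfd Mfd.LocalKahler Vale.Agent.P253.R2.H384

variable {V : Type*} [NormedAddCommGroup V] [NormedSpace ℂ V] [FiniteDimensional ℂ V]
  {k : V → V →L[ℝ] V →L[ℝ] ℝ} {U : Set V}

theorem fderiv_entry (h : LocalKahler k U) {x : V} (hx : x ∈ U) (u v w : V) :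
    fderiv ℝ (fun y => k y v w) x u = fderiv ℝ k x u v w := by
  have h1 := ((h.differentiableAt hx).hasFDerivAt.clm_apply (hasFDerivAt_const v x)).clm_apply
    (hasFDerivAt_const w x)
  have h2 : fderiv ℝ (fun y => k y v w) x = _ := h1.fderiv
  rw [h2]
  simp

theorem fderiv2_entry (h : LocalKahler k U) {x : V} (hx : x ∈ U) (u v w : V) :
    fderiv ℝ (fun y => fderiv ℝ (fun x => k x v w) y u) x u =
      fderiv ℝ (fderiv ℝ k) x u u v w := by
  have h0 : (fun y => fderiv ℝ (fun x => k x v w) y u) =ᶠ[𝓝 x] fun y => fderiv ℝ k y u v w := by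
    filter_upwards [h.isOpen.mem_nhds hx] with y hy
    exact fderiv_entry h hy u v w
  rw [h0.fderiv_eq]
  have h1 := (((h.differentiableAt_fderiv hx).hasFDerivAt.clm_apply
    (hasFDerivAt_const u x)).clm_apply (hasFDerivAt_const v x)).clm_apply
    (hasFDerivAt_const w x)
  have h2 : fderiv ℝ (fun y => fderiv ℝ k y u v w) x = _ := h1.fderiv
  rw [h2]
  simp

theorem kmetric_of_local (h : LocalKahler k U) (hR : ∀ z ∈ U, ∀ X a, 0 ≤ Rc k z X a) :
    KMetric U (fun x v w => k x v w) where
  smooth v w := by
    have h1 : ContDiffOn ℝ 2 k U := h.smooth.of_le two_le_infty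
    exact (h1.clm_apply contDiffOn_const).clm_apply contDiffOn_const
  symm x hx v w := h.symm x hx v w
  add x _ u v w := by simp
  smul x _ t u v := by simp
  pos x hx v hv := h.pos x hx v hv
  herm x hx v w := h.herm x hx v w
  closed x hx u v w := by
    rw [fderiv_entry h hx, fderiv_entry h hx, fderiv_entry h hx]
    have h1 := omegaL_closed h hx u v w
    rw [fderiv_omegaL h hx, fderiv_omegaL h hx, fderiv_omegaL h hx] at h1
    exact h1
  curv x hx v a := by
    refine ⟨chris k x v a, ?_, fun w => ?_⟩
    · rw [fderiv2_entry h hx, fderiv2_entry h hx]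
      have h1 := hR x hx v a
      rw [Rc] at h1
      linarith
    · rw [fderiv_entry h hx, fderiv_entry h hx, h.fderiv_add_I hx]
      ring

end Vale.Agent.P253.R2.H451
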