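import Vale.Agent.P253.R2.H451.GenDefs
import Vale.Agent.P253.R2.H451.Hull10

/-!
P253: the weak form of `i∂∂̄ψ ≥ c ω`: basic properties.
-/

open scoped Manifold ContDiff Topology Bundle
open Set Metric Filter Bundle IsManifold Complex Asymptotics

set_option maxSynthPendingDepth 3
set_option linter.unusedSectionVars false
set_option linter.unusedVariables false

noncomputable section

namespace Vale.Agent.P253.R2.H451

open Vale.Agent.P253.Mfd Vale.Agent.P253.Mfd.LocalKahler Vale.Agent.P253.R2.H618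
  Vale.Agent.P253.R2.H922 Vale.Agent.P253.R2.H380.Stein

section levi2

variable {E : Type*} [NormedAddCommGroup E] [NormedSpace ℂ E]

theorem levi2_const_mul (N : E → ℝ) (z v : E) {a : ℝ} (ha : a ≠ 0) :
    levi2 (fun z => a * N z) z v = a * levi2 N z v := by
  let hinv : Invertible a := invertibleOfNonzero ha
  have e1 : (fun z => a * N z) = a • N := rfl
  have e2 : fderiv ℝ (a • N) = a • fderiv ℝ N := by
    funext w
    exact fderiv_const_smul_of_invertible a
  have e3 : fderiv ℝ (fderiv ℝ (a • N)) z = a • fderiv ℝ (fderiv ℝ N) z := by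
    rw [e2]
    exact fderiv_const_smul_of_invertible a
  unfold levi2
  rw [e1, e3]
  simp only [smul_apply, smul_eq_mul]
  ring

end levi2

variable {E : Type*} [NormedAddCommGroup E] [NormedSpace ℂ E] [FiniteDimensional ℂ E]
  {M : Type*} [MetricSpace M] [ChartedSpace E M]
  [IsManifold 𝓘(ℂ, E) 1 M] [IsManifold 𝓘(ℝ, E) ∞ M]
  [RiemannianBundle (fun x : M => TangentSpace 𝓘(ℝ, E) x)]

theorem weakLevi_univ {ψ : M → ℝ} (h : WeakLeviGe E ψ) : WeakLevi E ψ (fun _ => 1) univ :=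
  ⟨h.1, fun e he W N hW hWt _ hN hl f a r hr hf hf' hm =>
    h.2 e he W N hW hWt hN (fun z hz v => by simpa using hl z hz v) f a r hr hf hf' hm⟩

theorem weakLeviGe_of_weakLevi {ψ : M → ℝ} (h : WeakLevi E ψ (fun _ => 1) univ) :
    WeakLeviGe E ψ :=
  ⟨h.1, fun e he W N hW hWt hN hl f a r hr hf hf' hm =>
    h.2 e he W N hW hWt (fun _ _ => mem_univ _) hN (fun z hz v => by simpa using hl z hz v)
      f a r hr hf hf' hm⟩

theorem WeakLevi.const_mul {ψ c : M → ℝ} {S : Set M} (h : WeakLevi E ψ c S) {b : ℝ} (hb : 0 < b) :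
    WeakLevi E (fun x => b * ψ x) (fun x => b * c x) S := by
  refine ⟨continuous_const.mul h.1, fun e he W N hW hWt hWS hN hl f a r hr hf hf' hm => ?_⟩
  have hb' : b⁻¹ ≠ 0 := inv_ne_zero hb.ne'
  have h1 := h.2 e he W (fun z => b⁻¹ * N z) hW hWt hWS (contDiffOn_const.mul hN)
    (fun z hz v => by
      rw [levi2_const_mul N z v hb']
      have h2 := mul_le_mul_of_nonneg_left (hl z hz v) (inv_pos.2 hb).le
      refine h2.trans (le_of_eq ?_)
      field_simp) f a r hr hf hf' hm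
  have h2 := mul_le_mul_of_nonneg_left h1 hb.le
  have e1 : (fun z => b * ψ (f z) - N (e (f z))) =
      fun z => b • (ψ (f z) - b⁻¹ * N (e (f z))) := by
    funext z
    rw [smul_eq_mul]
    field_simp
  rw [e1, Real.circleAverage_fun_smul, smul_eq_mul]
  refine le_trans (le_of_eq ?_) h2
  field_simp

theorem WeakLevi.mono {ψ c c' : M → ℝ} {S S' : Set M} (h : WeakLevi E ψ c S) (hS : S' ⊆ S)
    (hc : ∀ x ∈ S', c' x ≤ c x) : WeakLevi E ψ c' S' := by
  refine ⟨h.1, fun e he W N hW hWt hWS hN hl f a r hr hf hf' hm =>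
    h.2 e he W N hW hWt (fun z hz => hS (hWS z hz)) hN (fun z hz v => (hl z hz v).trans ?_)
      f a r hr hf hf' hm⟩
  have hG : 0 ≤ chartMetric e z v v := real_inner_self_nonneg
  have := mul_le_mul_of_nonneg_right (hc _ (hWS z hz)) hG
  linarith

variable [IsContMDiffRiemannianBundle 𝓘(ℝ, E) ∞ E (fun x : M => TangentSpace 𝓘(ℝ, E) x)]
  [IsRiemannianManifold 𝓘(ℝ, E) M]

/-- functions with lower bounds for the four point sums -/
theorem weakLevi_of_fourGe {s c : M → ℝ} (hs : Continuous s) {S : Set M}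
    (h4 : ∀ x ∈ S, FourGe (E := E) s x (c x)) : WeakLevi E s c S := by
  refine ⟨hs, fun e he W N hW hWt hWS hN hl f a r hr hf hf' hm => ?_⟩
  have h1 := submean_four_add (s := s) he hW hWt (q := fun z => -N z) hN.neg
    (c₀ := c) hr hf hf' hm (hs.comp_continuousOn hf) (fun z hz => h4 _ (by
      have h2 := hm z (ball_subset_closedBall hz)
      have h3 := hWS _ h2.2
      rwa [e.left_inv h2.1] at h3))
    (fun z hz v => by
      have h2 := hl _ (hm z (ball_subset_closedBall hz)).2 v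
      rw [← chartG_apply, e.left_inv (hm z (ball_subset_closedBall hz)).1] at h2
      rw [levi2_neg]
      linarith)
  simpa only [sub_eq_add_neg] using h1

/-- local strictness -/
theorem strict_of_weakLevi (hK : IsKahler E M) {ψ s c : M → ℝ} {S : Set M}
    (hψ : WeakLevi E ψ c S) (hS : IsOpen S) (hs : Continuous s) {μ : ℝ} (hμ0 : 0 ≤ μ)
    (hs4 : ∀ x ∈ S, FourGe (E := E) s x (-μ)) {x₀ : M} (hx₀S : x₀ ∈ S) (hc : ContinuousAt c x₀)
    (hμ : μ < c x₀) :
    ∃ e ∈ maximalAtlas 𝓘(ℂ, E) 1 M, x₀ ∈ e.source ∧ e.source ⊆ S ∧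
      ∃ (n : ℕ) (L : E ≃L[ℂ] EuclideanSpace ℂ (Fin n)) (ε : ℝ), 0 < ε ∧
        ∀ ε' : ℝ, 0 ≤ ε' → ε' ≤ ε →
        ∀ (f : ℂ → M) (a : ℂ) (r : ℝ), 0 < r → ContinuousOn f (closedBall a r) →
          MDifferentiableOn 𝓘(ℂ, ℂ) 𝓘(ℂ, E) f (ball a r) →
          (∀ z ∈ closedBall a r, f z ∈ e.source) →
          ψ (f a) + s (f a) - ε' * ‖L (e (f a))‖ ^ 2 ≤
            Real.circleAverage (fun z => ψ (f z) + s (f z) - ε' * ‖L (e (f z))‖ ^ 2) a r := by
  have he : chartAt E x₀ ∈ maximalAtlas 𝓘(ℂ, E) 1 M := chart_mem_maximalAtlas _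
  have hx₀ : x₀ ∈ (chartAt E x₀).source := mem_chart_source E _
  set e := chartAt E x₀ with hedef
  have hLK := localKahler_chartG hK he
  set z₀ := e x₀ with hz₀
  have hz₀t : z₀ ∈ e.target := e.map_source hx₀
  set B := chartG e z₀ with hB
  obtain ⟨m, hm, hlow⟩ := hLK.exists_lower (isCompact_singleton (x := z₀))
    (singleton_subset_iff.2 hz₀t)
  have hlow' : ∀ v, m * ‖v‖ ^ 2 ≤ B v v := fun v => hlow z₀ rfl v
  obtain ⟨n, L, -⟩ := H380.Stein.exists_coord E
  set C : ℝ := ‖(L : E →L[ℂ] EuclideanSpace ℂ (Fin n))‖ + 1 with hC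
  have hC0 : 0 < C := by positivity
  have hLC : ∀ w : E, ‖L w‖ ^ 2 ≤ C ^ 2 * ‖w‖ ^ 2 := by
    intro w
    have h1 := (L : E →L[ℂ] EuclideanSpace ℂ (Fin n)).le_opNorm w
    rw [← mul_pow]
    have h2 : ‖L w‖ ≤ C * ‖w‖ := by
      refine h1.trans ?_
      gcongr
      rw [hC]; linarith
    gcongr
  set c₁ := (μ + c x₀) / 2 with hc₁
  have hc₁μ : μ < c₁ := by rw [hc₁]; linarith
  have hc₁c : c₁ < c x₀ := by rw [hc₁]; linarith
  set τ := (μ + c₁) / 2 with hτ
  set d := τ - μ with hd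
  have hd0 : 0 < d := by rw [hd, hτ]; linarith
  have hd1 : c₁ - τ = d := by rw [hd, hτ]; ring
  have hc₁0 : 0 < c₁ := by linarith
  set θ := d * m / (2 * (c₁ + 1)) with hθ
  have hθ0 : 0 < θ := by positivity
  have hθ1 : c₁ * θ ≤ d * m / 2 := by
    rw [hθ, mul_div_assoc', div_le_div_iff₀ (by positivity) (by positivity)]
    have : 0 ≤ d * m := by positivity
    nlinarith
  set ε := d * m / (2 * C ^ 2) with hε
  have hε0 : 0 < ε := by positivity
  -- the neighbourhood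
  have hnb : ∀ᶠ z in 𝓝 z₀, ‖chartG e z - B‖ < θ := by
    have h1 : ContinuousAt (chartG e) z₀ :=
      (hLK.smooth.continuousOn).continuousAt (e.open_target.mem_nhds hz₀t)
    have h2 := Metric.tendsto_nhds.1 h1 θ hθ0
    filter_upwards [h2] with z hz
    rwa [dist_eq_norm] at hz
  have hsy : ContinuousAt e.symm z₀ := e.symm.continuousAt hz₀t
  have hsy0 : e.symm z₀ = x₀ := e.left_inv hx₀
  have hnb2 : ∀ᶠ z in 𝓝 z₀, e.symm z ∈ S := by
    refine hsy.eventually (hS.mem_nhds ?_)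
    rw [hsy0]; exact hx₀S
  have hnb3 : ∀ᶠ z in 𝓝 z₀, c₁ < c (e.symm z) := by
    have h1 : ContinuousAt (fun z => c (e.symm z)) z₀ := by
      refine ContinuousAt.comp (g := c) ?_ hsy
      rw [hsy0]; exact hc
    refine h1.eventually (lt_mem_nhds ?_)
    show c₁ < c (e.symm z₀)
    rw [hsy0]; exact hc₁c
  obtain ⟨W, hWsub, hWo, hzW⟩ := _root_.mem_nhds_iff.1 (inter_mem (inter_mem hnb (inter_mem hnb2
    hnb3)) (e.open_target.mem_nhds hz₀t))
  have hWt : W ⊆ e.target := fun z hz => (hWsub hz).2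
  have hWS : ∀ z ∈ W, e.symm z ∈ S := fun z hz => (hWsub hz).1.2.1
  have hcomp : ∀ z ∈ W, ∀ v, |chartG e z v v - B v v| ≤ θ * ‖v‖ ^ 2 := by
    intro z hz v
    have h1 : ‖chartG e z - B‖ < θ := (hWsub hz).1.1
    have h2 : chartG e z v v - B v v = (chartG e z - B) v v := rfl
    rw [h2, ← Real.norm_eq_abs]
    calc ‖(chartG e z - B) v v‖ ≤ ‖(chartG e z - B) v‖ * ‖v‖ := ContinuousLinearMap.le_opNorm _ _
      _ ≤ (‖chartG e z - B‖ * ‖v‖) * ‖v‖ := by
          gcongr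
          exact ContinuousLinearMap.le_opNorm _ _
      _ ≤ (θ * ‖v‖) * ‖v‖ := by gcongr
      _ = θ * ‖v‖ ^ 2 := by ring
  -- the quadratic forms
  have hBsym : ∀ v w, B v w = B w v := fun v w => hLK.symm z₀ hz₀t v w
  have hBI : ∀ v, B (I • v) (I • v) = B v v := fun v => hLK.herm z₀ hz₀t v v
  set BL : E →L[ℝ] E →L[ℝ] ℝ := ContinuousLinearMap.bilinearComp
    (innerSL ℝ (E := EuclideanSpace ℂ (Fin n)))
    ((L : E →L[ℂ] EuclideanSpace ℂ (Fin n)).restrictScalars ℝ)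
    ((L : E →L[ℂ] EuclideanSpace ℂ (Fin n)).restrictScalars ℝ) with hBL
  have hBLa : ∀ v w, BL v w = inner ℝ (L v) (L w) := fun v w => rfl
  have hBLn : ∀ v, BL v v = ‖L v‖ ^ 2 := fun v => by rw [hBLa, real_inner_self_eq_norm_sq]
  have hBLsym : ∀ v w, BL v w = BL w v := fun v w => by
    rw [hBLa, hBLa, real_inner_comm]
  have hBLI : ∀ v, BL (I • v) (I • v) = BL v v := fun v => by
    rw [hBLn, hBLn, map_smul, norm_smul, norm_I, one_mul]
  set S' : Set M := e.source ∩ e ⁻¹' W with hS'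
  have hSo : IsOpen S' := e.continuousOn.isOpen_inter_preimage e.open_source hWo
  have hxS : x₀ ∈ S' := ⟨hx₀, hzW⟩
  refine ⟨e.restr S', restr_mem_maximalAtlas _ he hSo, ?_, ?_, n, L, ε, hε0, ?_⟩
  · rw [e.restr_source' S' hSo]
    exact ⟨hx₀, hxS⟩
  · rw [e.restr_source' S' hSo]
    intro x hx
    have h1 := hWS _ hx.2.2
    rwa [e.left_inv hx.1] at h1
  intro ε' hε'0 hε'1 f a R hR hf hf' hfe
  set N₁ : E → ℝ := fun z => (τ • B) (z - z₀) (z - z₀) with hN₁
  set N₂ : E → ℝ := fun z => (ε' • BL) (z - 0) (z - 0) with hN₂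
  have hN₂a : ∀ z, N₂ z = ε' * ‖L z‖ ^ 2 := fun z => by
    simp only [hN₂, sub_zero, smul_apply, smul_eq_mul, hBLn]
  have hsm1 : ∀ v w, (τ • B) v w = (τ • B) w v := fun v w => by
    simp only [smul_apply, smul_eq_mul, hBsym v w]
  have hsm2 : ∀ v w, (ε' • BL) v w = (ε' • BL) w v := fun v w => by
    simp only [smul_apply, smul_eq_mul, hBLsym v w]
  have hC1 : ContDiff ℝ 2 N₁ := contDiff_quad (τ • B) z₀
  have hC2 : ContDiff ℝ 2 N₂ := contDiff_quad (ε' • BL) 0
  have hl1 : ∀ z v, levi2 N₁ z v = 4 * (τ * B v v) := by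
    intro z v
    unfold levi2
    rw [hN₁, fderiv2_quad _ hsm1, fderiv2_quad _ hsm1]
    simp only [smul_apply, smul_eq_mul, hBI]
    ring
  have hl2 : ∀ z v, levi2 N₂ z v = 4 * (ε' * ‖L v‖ ^ 2) := by
    intro z v
    unfold levi2
    rw [hN₂, fderiv2_quad _ hsm2, fderiv2_quad _ hsm2]
    simp only [smul_apply, smul_eq_mul, hBLI, hBLn]
    ring
  have hl3 : ∀ z v, levi2 (fun z => N₁ z - N₂ z) z v =
      4 * (τ * B v v) - 4 * (ε' * ‖L v‖ ^ 2) := by
    intro z v
    rw [← hl1 z v, ← hl2 z v]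
    have e1 : fderiv ℝ (fun z => N₁ z - N₂ z) = fun z => fderiv ℝ N₁ z - fderiv ℝ N₂ z := by
      funext z
      exact fderiv_fun_sub ((hC1.differentiable (by simp)).differentiableAt)
        ((hC2.differentiable (by simp)).differentiableAt)
    have e2 : fderiv ℝ (fderiv ℝ (fun z => N₁ z - N₂ z)) z = fderiv ℝ (fderiv ℝ N₁) z
        - fderiv ℝ (fderiv ℝ N₂) z := by
      rw [e1]
      exact fderiv_fun_sub
        (((hC1.fderiv_right (m := 1) (by norm_num)).differentiable (by simp)).differentiableAt)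
        (((hC2.fderiv_right (m := 1) (by norm_num)).differentiable (by simp)).differentiableAt)
    unfold levi2
    rw [e2]
    simp only [sub_apply]
    ring
  have hfe' : ∀ z ∈ closedBall a R, f z ∈ e.source ∧ e (f z) ∈ W := by
    intro z hz
    have := hfe z hz
    rw [e.restr_source' S' hSo] at this
    exact this.2
  have hre : ∀ x, (e.restr S') x = e x := fun x => rfl
  simp only [hre]
  have k1 := hψ.2 e he W N₁ hWo hWt hWS hC1.contDiffOn (fun z hz v => by
    rw [hl1, ← chartG_apply]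
    have h1 := (abs_le.1 (hcomp z hz v)).1
    have h2 := hlow' v
    have h3 : c₁ < c (e.symm z) := (hWsub hz).1.2.2
    have hG : 0 ≤ chartG e z v v := G_nonneg hLK (hWt hz) v
    have h4 := mul_le_mul_of_nonneg_right h3.le hG
    have h5 : c₁ * (B v v - θ * ‖v‖ ^ 2) ≤ c₁ * chartG e z v v :=
      mul_le_mul_of_nonneg_left (by linarith) hc₁0.le
    have h6 : c₁ * θ * ‖v‖ ^ 2 ≤ d * m / 2 * ‖v‖ ^ 2 :=
      mul_le_mul_of_nonneg_right hθ1 (sq_nonneg _)
    have h7 : d * (m * ‖v‖ ^ 2) ≤ d * B v v := mul_le_mul_of_nonneg_left h2 hd0.le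
    have h8 : d * B v v = c₁ * B v v - τ * B v v := by rw [← hd1]; ring
    have h9 : 0 ≤ d * (m * ‖v‖ ^ 2) := by positivity
    linarith) f a R hR hf hf' hfe'
  have k2 := submean_four_add (s := s) he hWo hWt (q := fun z => N₁ z - N₂ z)
    (hC1.sub hC2).contDiffOn (c₀ := fun _ => -μ) hR hf hf' hfe' (hs.comp_continuousOn hf)
    (fun z hz => hs4 (f z) (by
      have h2 := hfe' z (ball_subset_closedBall hz)
      have h3 := hWS _ h2.2
      rwa [e.left_inv h2.1] at h3)) (fun z hz v => by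
    rw [hl3]
    have hxW := (hfe' z (ball_subset_closedBall hz)).2
    have h1 := (abs_le.1 (hcomp (e (f z)) hxW v)).2
    have h2 := hlow' v
    have h4 : ε' * ‖L v‖ ^ 2 ≤ d * m / 2 * ‖v‖ ^ 2 := by
      have h5 := mul_le_mul_of_nonneg_left (hLC v) hε0.le
      have h6 : ε * (C ^ 2 * ‖v‖ ^ 2) = d * m / 2 * ‖v‖ ^ 2 := by
        rw [hε]; field_simp
      have h7 := mul_le_mul_of_nonneg_right hε'1 (sq_nonneg ‖L v‖)
      linarith
    have h7 : μ * chartG e (e (f z)) v v ≤ μ * (B v v + θ * ‖v‖ ^ 2) :=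
      mul_le_mul_of_nonneg_left (by linarith) hμ0
    have h8 : μ * θ ≤ c₁ * θ := by gcongr
    have h9 : μ * θ * ‖v‖ ^ 2 ≤ d * m / 2 * ‖v‖ ^ 2 :=
      mul_le_mul_of_nonneg_right (h8.trans hθ1) (sq_nonneg _)
    have h11 : d * (m * ‖v‖ ^ 2) ≤ d * B v v := mul_le_mul_of_nonneg_left h2 hd0.le
    have h12 : d * B v v = τ * B v v - μ * B v v := by rw [hd]; ring
    linarith)
  have hef : ContinuousOn (fun z => e (f z)) (closedBall a R) :=
    e.continuousOn.comp hf (fun z hz => (hfe' z hz).1)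
  have hsph : sphere a R ⊆ closedBall a R := sphere_subset_closedBall
  have i1 : CircleIntegrable (fun z => ψ (f z) - N₁ (e (f z))) a R :=
    (((hψ.1.comp_continuousOn hf).sub (hC1.continuous.comp_continuousOn hef)).mono
      hsph).circleIntegrable hR.le
  have i2 : CircleIntegrable (fun z => s (f z) + (N₁ (e (f z)) - N₂ (e (f z)))) a R :=
    (((hs.comp_continuousOn hf).add ((hC1.sub hC2).continuous.comp_continuousOn hef)).mono
      hsph).circleIntegrable hR.le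
  have k3 := add_le_add k1 k2
  rw [← Real.circleAverage_fun_add i1 i2] at k3
  have e3 : (fun z => ψ (f z) + s (f z) - ε' * ‖L (e (f z))‖ ^ 2) = fun z =>
      ψ (f z) - N₁ (e (f z)) + (s (f z) + (N₁ (e (f z)) - N₂ (e (f z)))) := by
    funext z
    rw [hN₂a]
    ring
  rw [e3]
  refine le_trans (le_of_eq ?_) k3
  rw [← hN₂a]
  ring

/-- sums with functions whose Levi form is bounded from below are plurisubharmonic -/
theorem subS_of_weakLevi (hK : IsKahler E M) {ψ s c : M → ℝ} {S : Set M}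
    (hψ : WeakLevi E ψ c S) (hS : IsOpen S) (hs : Continuous s) {μ : ℝ} (hμ0 : 0 ≤ μ)
    (hs4 : ∀ x ∈ S, FourGe (E := E) s x (-μ)) {x₀ : M} (hx₀S : x₀ ∈ S) (hc : ContinuousAt c x₀)
    (hμ : μ < c x₀) :
    ∃ T : Set M, IsOpen T ∧ x₀ ∈ T ∧ T ⊆ S ∧ SubS E (fun x => ψ x + s x) T := by
  obtain ⟨e, -, hx, hsub, n, L, ε, hε, h⟩ := strict_of_weakLevi hK hψ hS hs hμ0 hs4 hx₀S hc hμ
  refine ⟨e.source, e.open_source, hx, hsub, hψ.1.add hs, fun f a r hr hf hf' hm => ?_⟩
  simpa using h 0 le_rfl hε.le f a r hr hf hf' hm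

end Vale.Agent.P253.R2.H451
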