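import Vale.Agent.P253.R2.H451.Gen1

/-!
P253: exponentials of sums, hulls of compact sets and exhaustion functions, general form.
-/

open scoped Manifold ContDiff Topology Bundle
open Set Metric Filter Bundle IsManifold Complex Asymptotics

set_option maxSynthPendingDepth 3
set_option linter.unusedSectionVars false
set_option linter.unusedVariables false

noncomputable section

namespace Vale.Agent.P253.R2.H451

open Vale.Agent.P253.Mfd Vale.Agent.P253.Mfd.LocalKahler Vale.Agent.P253.R2.H618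
  Vale.Agent.P253.R2.H922 Vale.Agent.P253.R2.H380.Stein

variable {E : Type*} [NormedAddCommGroup E] [NormedSpace ℂ E] [FiniteDimensional ℂ E]
  {M : Type*} [MetricSpace M] [ChartedSpace E M]
  [IsManifold 𝓘(ℂ, E) 1 M] [IsManifold 𝓘(ℝ, E) ∞ M]
  [RiemannianBundle (fun x : M => TangentSpace 𝓘(ℝ, E) x)]

/-- the tangent inequality of the exponential function -/
theorem exp_tangent (t s : ℝ) : Real.exp t * (s + 1 - t) ≤ Real.exp s := by
  have h1 := Real.add_one_le_exp (s - t)
  have h2 : Real.exp s = Real.exp t * Real.exp (s - t) := by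
    rw [← Real.exp_add]; congr 1; ring
  rw [h2]
  have h3 := mul_le_mul_of_nonneg_left h1 (Real.exp_pos t).le
  linarith

/-- **Exponentials.** If `i∂∂̄ψ ≥ e^{-φ} g ω` then `i∂∂̄ e^{φ + ψ + 1} ≥ g ω`. -/
theorem weakLevi_exp {ψ φ g : M → ℝ} {S : Set M} (hφ : ContPsh E φ)
    (hψ : WeakLevi E ψ (fun x => Real.exp (-φ x) * g x) S) (hψ0 : ∀ x, 0 ≤ ψ x)
    (hg : ∀ x ∈ S, 0 ≤ g x) : WeakLevi E (fun x => Real.exp (φ x + ψ x + 1)) g S := by
  have hφc := hφ.1
  have hψc := hψ.1
  refine ⟨by fun_prop, fun e he W N hW hWt hWS hN hl f a r hr hf hf' hm => ?_⟩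
  have hef : ContinuousOn (fun z => e (f z)) (closedBall a r) :=
    e.continuousOn.comp hf (fun z hz => (hm z hz).1)
  have hNf : ContinuousOn (fun z => N (e (f z))) (closedBall a r) :=
    hN.continuousOn.comp hef (fun z hz => (hm z hz).2)
  have huc : Continuous fun x => Real.exp (φ x + ψ x + 1) := by fun_prop
  refine submean_of_local (u := fun z => Real.exp (φ (f z) + ψ (f z) + 1) - N (e (f z))) hr
    ((huc.comp_continuousOn hf).sub hNf) fun z₀ hz₀ => ?_
  set t := φ (f z₀) + ψ (f z₀) + 1 with ht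
  set T : Set M := {x | φ x < t} with hT
  have hTo : IsOpen T := isOpen_lt hφc continuous_const
  have hyT : f z₀ ∈ T := by
    have := hψ0 (f z₀)
    show φ (f z₀) < t
    rw [ht]; linarith
  have hfc : ContinuousAt f z₀ := hf.continuousAt (closedBall_mem_nhds_of_mem hz₀)
  have h1 : ∀ᶠ z in 𝓝 z₀, f z ∈ T ∧ z ∈ ball a r :=
    (hfc.eventually (hTo.mem_nhds hyT)).and (isOpen_ball.mem_nhds hz₀)
  obtain ⟨ρ₀, hρ₀, hball⟩ := Metric.eventually_nhds_iff_ball.1 h1
  have h2 : ∀ᶠ ρ in 𝓝[>] (0:ℝ), ρ < ρ₀ ∧ 0 < ρ :=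
    ((eventually_lt_nhds hρ₀).filter_mono nhdsWithin_le_nhds).and self_mem_nhdsWithin
  filter_upwards [h2] with ρ hρ
  have hsubs : ∀ z ∈ closedBall z₀ ρ, f z ∈ T ∧ z ∈ ball a r := fun z hz =>
    hball z (lt_of_le_of_lt hz hρ.1)
  have hcb : closedBall z₀ ρ ⊆ closedBall a r := fun z hz => ball_subset_closedBall (hsubs z hz).2
  have hfρ : ContinuousOn f (closedBall z₀ ρ) := hf.mono hcb
  have hfρ' : MDifferentiableOn 𝓘(ℂ, ℂ) 𝓘(ℂ, E) f (ball z₀ ρ) :=
    hf'.mono fun z hz => (hsubs z (ball_subset_closedBall hz)).2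
  -- the weak inequality of `ψ` on a smaller set
  set W' : Set E := W ∩ (e.target ∩ e.symm ⁻¹' T) with hW'
  have hW'o : IsOpen W' := hW.inter (e.symm.continuousOn.isOpen_inter_preimage e.open_target hTo)
  have h0 : (Real.exp t)⁻¹ ≠ 0 := inv_ne_zero (Real.exp_pos t).ne'
  have k1 := hψ.2 e he W' (fun z => (Real.exp t)⁻¹ * N z) hW'o (fun z hz => hWt hz.1)
    (fun z hz => hWS z hz.1) (contDiffOn_const.mul (hN.mono inter_subset_left))
    (fun z hz v => by
      rw [levi2_const_mul N z v h0]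
      have h3 := mul_le_mul_of_nonneg_left (hl z hz.1 v) (inv_pos.2 (Real.exp_pos t)).le
      refine h3.trans ?_
      have hG : 0 ≤ chartMetric e z v v := real_inner_self_nonneg
      have h4 : φ (e.symm z) < t := hz.2.2
      have h5 : (Real.exp t)⁻¹ ≤ Real.exp (-φ (e.symm z)) := by
        rw [← Real.exp_neg, Real.exp_le_exp]; linarith
      have h6 := hg _ (hWS z hz.1)
      have h7 := mul_le_mul_of_nonneg_right h5 h6
      have h8 := mul_le_mul_of_nonneg_right h7 hG
      calc (Real.exp t)⁻¹ * (4 * g (e.symm z) * chartMetric e z v v) =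
            4 * ((Real.exp t)⁻¹ * g (e.symm z) * chartMetric e z v v) := by ring
        _ ≤ 4 * (Real.exp (-φ (e.symm z)) * g (e.symm z) * chartMetric e z v v) := by linarith
        _ = _ := by ring) f z₀ ρ hρ.2 hfρ hfρ' (fun z hz => by
      have h3 := hm z (hcb hz)
      refine ⟨h3.1, h3.2, hWt h3.2, ?_⟩
      show e.symm (e (f z)) ∈ T
      rw [e.left_inv h3.1]
      exact (hsubs z hz).1)
  have k2 := hφ.2 f z₀ ρ hρ.2 hfρ hfρ'
  have hsph : sphere z₀ ρ ⊆ closedBall z₀ ρ := sphere_subset_closedBall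
  have i1 : CircleIntegrable (fun z => ψ (f z) - (Real.exp t)⁻¹ * N (e (f z))) z₀ ρ :=
    (((hψc.comp_continuousOn hf).sub (continuousOn_const.mul hNf)).mono
      (hsph.trans hcb)).circleIntegrable hρ.2.le
  have i2 : CircleIntegrable (fun z => φ (f z)) z₀ ρ :=
    ((hφc.comp_continuousOn hf).mono (hsph.trans hcb)).circleIntegrable hρ.2.le
  have i3 : CircleIntegrable (fun z => φ (f z) + (ψ (f z) - (Real.exp t)⁻¹ * N (e (f z)))) z₀ ρ :=
    i2.add i1
  have k3 := add_le_add k2 k1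
  rw [← Real.circleAverage_fun_add i2 i1] at k3
  have k4 := mul_le_mul_of_nonneg_left k3 (Real.exp_pos t).le
  have e1 : Real.circleAverage (fun z => Real.exp t •
      (φ (f z) + (ψ (f z) - (Real.exp t)⁻¹ * N (e (f z)))) + Real.exp t * (2 - t)) z₀ ρ =
      Real.exp t * Real.circleAverage (fun z => φ (f z) + (ψ (f z) -
        (Real.exp t)⁻¹ * N (e (f z)))) z₀ ρ + Real.exp t * (2 - t) := by
    rw [Real.circleAverage_fun_add i3.const_fun_smul (circleIntegrable_const _ _ _),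
      Real.circleAverage_const, Real.circleAverage_fun_smul, smul_eq_mul]
  have e2 : ∀ x w : ℝ, Real.exp t * (x + ((w : ℝ) - (Real.exp t)⁻¹ * 0)) = Real.exp t * (x + w) := by
    intro x w; ring
  have h9 : Real.exp (φ (f z₀) + ψ (f z₀) + 1) - N (e (f z₀)) =
      Real.exp t * (φ (f z₀) + (ψ (f z₀) - (Real.exp t)⁻¹ * N (e (f z₀)))) +
        Real.exp t * (2 - t) := by
    have : Real.exp t * (Real.exp t)⁻¹ = 1 := mul_inv_cancel₀ (Real.exp_pos t).ne'
    have h10 : Real.exp t * (φ (f z₀) + (ψ (f z₀) - (Real.exp t)⁻¹ * N (e (f z₀)))) =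
      Real.exp t * (φ (f z₀) + ψ (f z₀)) - (Real.exp t * (Real.exp t)⁻¹) * N (e (f z₀)) := by ring
    rw [h10, this, ← ht, one_mul]
    have h11 : Real.exp t * (φ (f z₀) + ψ (f z₀)) = Real.exp t * (t - 1) := by rw [ht]; ring
    rw [h11]; ring
  show Real.exp (φ (f z₀) + ψ (f z₀) + 1) - N (e (f z₀)) ≤ Real.circleAverage
    (fun z => Real.exp (φ (f z) + ψ (f z) + 1) - N (e (f z))) z₀ ρ
  rw [h9]
  have h12 : Real.circleAverage (fun z => Real.exp t •
      (φ (f z) + (ψ (f z) - (Real.exp t)⁻¹ * N (e (f z)))) + Real.exp t * (2 - t)) z₀ ρ ≤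
      Real.circleAverage (fun z => Real.exp (φ (f z) + ψ (f z) + 1) - N (e (f z))) z₀ ρ := by
    refine Real.circleAverage_mono ?_ ?_ fun z hz => ?_
    · exact i3.const_fun_smul.add (circleIntegrable_const _ _ _)
    · exact (((huc.comp_continuousOn hf).sub hNf).mono (hsph.trans hcb)).circleIntegrable hρ.2.le
    · have h13 := exp_tangent t (φ (f z) + ψ (f z) + 1)
      have h14 : Real.exp t * (Real.exp t)⁻¹ = 1 := mul_inv_cancel₀ (Real.exp_pos t).ne'
      have h15 : Real.exp t • (φ (f z) + (ψ (f z) - (Real.exp t)⁻¹ * N (e (f z)))) =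
          Real.exp t * (φ (f z) + ψ (f z)) - (Real.exp t * (Real.exp t)⁻¹) * N (e (f z)) := by
        rw [smul_eq_mul]; ring
      rw [h15, h14, one_mul]
      linarith
  linarith

variable [IsContMDiffRiemannianBundle 𝓘(ℝ, E) ∞ E (fun x : M => TangentSpace 𝓘(ℝ, E) x)]
  [IsRiemannianManifold 𝓘(ℝ, E) M]

/-- the squared distance has four point sums bounded from above -/
theorem fourGe_neg_dist (hK : IsKahler E M) [ProperSpace M]
    (hnn : ∀ x : M, NonnegBisectionalAt E x) (x₀ x : M) :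
    FourGe (E := E) (fun x => -dist x x₀ ^ 2) x (-1) := by
  have hzero : FourGe (E := E) (fun _ : M => (0:ℝ)) x 0 := by
    intro e he hx Y a ha η hη
    filter_upwards with r
    simp only [Finset.sum_const_zero, mul_zero, zero_mul, zero_add, zero_sub]
    have : 0 ≤ r ^ 2 * η := by positivity
    linarith
  have h := fourGe_sub hK hnn hzero (K := 0) (P := 1) (C := 0) le_rfl zero_le_one x₀
  simpa using h

/-- **The main plurisubharmonic function**, general form. -/
theorem contPsh_theta_gen (hK : IsKahler E M) [ProperSpace M]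
    (hnn : ∀ x : M, NonnegBisectionalAt E x) {ψ φ χ : M → ℝ} (hψp : ContPsh E ψ)
    (hψ0 : ∀ x, 0 ≤ ψ x) (hφ : ContPsh E φ) (hχ : ContPsh E χ)
    (hψ : WeakLevi E ψ (fun x => Real.exp (-φ x)) {x | 0 < χ x}) (x₀ : M) {μ : ℝ}
    (hμ : 0 ≤ μ) : ContPsh E (fun x => Real.exp (φ x + ψ x + 1) +
      max (μ * χ x - dist x x₀ ^ 2) 0) := by
  have hφc := hφ.1
  have hχc := hχ.1
  have hψc := hψp.1
  refine contPsh_of_tangent (by fun_prop) fun y => ?_
  set t := φ y + ψ y + 1 with ht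
  have hw : ∀ S : Set M, SubS E (fun x => Real.exp t * (φ x + (2 - t))) S := fun S =>
    ((hφ.subS S).add (subS_const _ S)).const_mul (Real.exp_pos t).le
  have htan : ∀ x, Real.exp t * (φ x + (2 - t)) + Real.exp t * ψ x ≤
      Real.exp (φ x + ψ x + 1) := by
    intro x
    have h1 := exp_tangent t (φ x + ψ x + 1)
    linarith
  rcases le_or_gt (μ * χ y - dist y x₀ ^ 2) 0 with hb | hb
  · refine ⟨univ, isOpen_univ, mem_univ _, fun x => Real.exp t * (φ x + (2 - t)) +
      Real.exp t * ψ x, ?_, fun x _ => ?_, ?_⟩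
    · rw [max_eq_right hb]
      simp only [ht]; ring
    · exact (htan x).trans (le_add_of_nonneg_right (le_max_right _ _))
    · exact (hw univ).add ((hψp.subS univ).const_mul (Real.exp_pos t).le)
  · have hyS : y ∈ {x | 0 < χ x} := by
      show 0 < χ y
      by_contra hcon
      push Not at hcon
      have h1 := mul_nonpos_of_nonneg_of_nonpos hμ hcon
      have h2 := sq_nonneg (dist y x₀)
      linarith
    have hSo : IsOpen {x | 0 < χ x} := isOpen_lt continuous_const hχc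
    have hc : Continuous fun x => Real.exp t * Real.exp (-φ x) := by fun_prop
    obtain ⟨T, hTo, hyT, hTS, hsub⟩ := subS_of_weakLevi hK (s := fun x => -dist x x₀ ^ 2)
      (hψ.const_mul (Real.exp_pos t)) hSo (by fun_prop) zero_le_one
      (fun x _ => fourGe_neg_dist hK hnn x₀ x) hyS hc.continuousAt (by
        rw [← Real.exp_add]
        apply Real.one_lt_exp_iff.2
        have := hψ0 y
        rw [ht]; linarith)
    refine ⟨T, hTo, hyT, fun x => (Real.exp t * (φ x + (2 - t)) + μ * χ x) +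
      (Real.exp t * ψ x + -dist x x₀ ^ 2), ?_, fun x _ => ?_, ?_⟩
    · rw [max_eq_left hb.le]
      simp only [ht]; ring
    · have h1 := htan x
      have h2 := le_max_left (μ * χ x - dist x x₀ ^ 2) 0
      linarith
    · exact ((hw T).add ((hχ.subS T).const_mul hμ)).add hsub

/-- **The hull theorem**, general form. -/
theorem hull_gen (hK : IsKahler E M) [CompleteSpace M] [ConnectedSpace M]
    (hnn : ∀ x : M, NonnegBisectionalAt E x) {ψ φ χ : M → ℝ} (hψp : ContPsh E ψ)
    (hψ0 : ∀ x, 0 ≤ ψ x) (hφ : ContPsh E φ) (hχ : ContPsh E χ)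
    (hψ : WeakLevi E ψ (fun x => Real.exp (-φ x)) {x | 0 < χ x}) {K : Set M}
    (hKc : IsCompact K) (p : M) :
    ∃ C : ℝ, ∀ x ∈ pshHull E K, dist p x ^ 2 * χ x ≤ C := by
  have hprop : ProperSpace M := properSpace_riemannian E M
  have hφc := hφ.1
  have hψc := hψp.1
  have hgc : Continuous fun x => Real.exp (φ x + ψ x + 1) := by fun_prop
  obtain ⟨C₁, hC₁⟩ := (hKc.image hgc).bddAbove
  obtain ⟨C₂, hC₂⟩ := (hKc.image hχ.1).bddAbove
  obtain ⟨D, hD⟩ := (hKc.image (continuous_const.dist continuous_id :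
    Continuous fun y => dist p y)).bddAbove
  have h1 : ∀ y ∈ K, Real.exp (φ y + ψ y + 1) ≤ C₁ := fun y hy => hC₁ (mem_image_of_mem _ hy)
  set C := max C₂ 0 + 1 with hC
  set D' := max D 0 with hD'
  have hC0 : 0 < C := by
    have : 0 ≤ max C₂ 0 := le_max_right _ _
    linarith
  have h2 : ∀ y ∈ K, χ y ≤ C := fun y hy => by
    have e1 : χ y ≤ C₂ := hC₂ (mem_image_of_mem _ hy)
    have e2 : C₂ ≤ max C₂ 0 := le_max_left _ _
    linarith
  have hD0 : 0 ≤ D' := le_max_right _ _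
  set C₁' := max C₁ 0 with hC₁'
  have hC₁0 : 0 ≤ C₁' := le_max_right _ _
  refine ⟨2 * D' ^ 2 * C + 2 * (C₁' * C), fun x hx => ?_⟩
  rcases le_or_gt (χ x) 0 with hχ0 | hχ0
  · have e1 : dist p x ^ 2 * χ x ≤ 0 := mul_nonpos_of_nonneg_of_nonpos (sq_nonneg _) hχ0
    have e2 : 0 ≤ 2 * D' ^ 2 * C + 2 * (C₁' * C) := by positivity
    linarith
  have hχC : χ x ≤ C := hx χ hχ C h2
  set ρ := max (dist p x - D') 0 with hρ
  have hρ0 : 0 ≤ ρ := le_max_right _ _
  set μ := ρ ^ 2 / C with hμ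
  have hμ0 : 0 ≤ μ := by positivity
  have hθ := contPsh_theta_gen hK hnn hψp hψ0 hφ hχ hψ x hμ0
  have h4 : ∀ y ∈ K, ρ ≤ dist y x := by
    intro y hy
    refine max_le ?_ dist_nonneg
    have e1 := dist_triangle p y x
    have e2 : dist p y ≤ D := hD (mem_image_of_mem _ hy)
    have e3 : D ≤ D' := le_max_left _ _
    linarith
  have h5 := hx _ hθ C₁ fun y hy => by
    have e1 : μ * χ y - dist y x ^ 2 ≤ 0 := by
      have e2 : μ * χ y ≤ μ * C := mul_le_mul_of_nonneg_left (h2 y hy) hμ0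
      have e3 : μ * C = ρ ^ 2 := by rw [hμ]; field_simp
      have e6 : ρ ^ 2 ≤ dist y x ^ 2 := by
        have := h4 y hy
        gcongr
      linarith
    rw [max_eq_right e1, add_zero]
    exact h1 y hy
  rw [dist_self, zero_pow two_ne_zero, sub_zero] at h5
  have h6 := le_max_left (μ * χ x) 0
  have h7 := Real.exp_pos (φ x + ψ x + 1)
  have h8 : μ * χ x ≤ C₁' := by
    have : C₁ ≤ C₁' := le_max_left _ _
    linarith
  rw [hμ, div_mul_eq_mul_div, div_le_iff₀ hC0] at h8
  have h9 : dist p x ≤ D' + ρ := by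
    have := le_max_left (dist p x - D') 0
    linarith
  have h10 : dist p x ^ 2 ≤ 2 * D' ^ 2 + 2 * ρ ^ 2 := by
    calc dist p x ^ 2 ≤ (D' + ρ) ^ 2 := by gcongr
      _ ≤ _ := by nlinarith [sq_nonneg (D' - ρ)]
  calc dist p x ^ 2 * χ x ≤ (2 * D' ^ 2 + 2 * ρ ^ 2) * χ x := by gcongr
    _ = 2 * D' ^ 2 * χ x + 2 * (ρ ^ 2 * χ x) := by ring
    _ ≤ 2 * D' ^ 2 * C + 2 * (C₁' * C) := by gcongr

end Vale.Agent.P253.R2.H451
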