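import Vale.Agent.P253.R2.H451.Gen2

/-!
P253: strictly plurisubharmonic exhaustion functions from functions with `i∂∂̄ψ ≥ e^{-φ} λ(d) ω`.
-/

open scoped Manifold ContDiff Topology Bundle
open Set Metric Filter Bundle IsManifold Complex Asymptotics

set_option maxSynthPendingDepth 3
set_option linter.unusedSectionVars false
set_option linter.unusedVariables false

noncomputable section

namespace Vale.Agent.P253.R2.H451

open Vale.Agent.P253.Mfd Vale.Agent.P253.Mfd.LocalKahler Vale.Agent.P253.R2.H618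
  Vale.Agent.P253.R2.H922 Vale.Agent.P253.R2.H380.Stein

variable {E : Type*} [NormedAddCommGroup E] [NormedSpace ℂ E] [FiniteDimensional ℂ E]
  {M : Type*} [MetricSpace M] [ChartedSpace E M]
  [IsManifold 𝓘(ℂ, E) 1 M] [IsManifold 𝓘(ℝ, E) ∞ M]
  [RiemannianBundle (fun x : M => TangentSpace 𝓘(ℝ, E) x)]
  [IsContMDiffRiemannianBundle 𝓘(ℝ, E) ∞ E (fun x : M => TangentSpace 𝓘(ℝ, E) x)]
  [IsRiemannianManifold 𝓘(ℝ, E) M]

/-- the general criterion, weak form -/
theorem exhaustion_of_conv_weak (hK : IsKahler E M) [ProperSpace M]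
    (hnn : ∀ x : M, NonnegBisectionalAt E x) {ψ c μ P N ρ : M → ℝ} (hψ : WeakLevi E ψ c univ)
    (hc : Continuous c) (hμ : Continuous μ) (hμ0 : ∀ x, 0 < μ x)
    (hP : Continuous P) (hN : Continuous N)
    (hρ : Continuous ρ) (hρ0 : ∀ x, 0 < ρ x) (hP0 : ∀ x, 0 ≤ P x)
    (h1 : ∀ x y, dist x y ≤ ρ x → P y ≤ c x - μ x)
    (h2 : ∀ x y, ρ x / 2 ≤ dist x y → dist x y ≤ ρ x → N y - P y * dist x y ^ 2 ≤ N x)
    (h3 : Tendsto (fun x => ψ x + N x) (cocompact M) atTop) : HasSpshExhaustion E M := by
  have hsc : Continuous (sc P N ρ) := continuous_sc hP hN hρ hρ0 h2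
  have hcont : Continuous fun x => ψ x + sc P N ρ x := hψ.1.add hsc
  have hzero : ∀ x, FourGe (E := E) (fun _ : M => (0:ℝ)) x 0 := by
    intro x e he hx Y a ha η hη
    filter_upwards with r
    simp only [Finset.sum_const_zero, mul_zero, zero_mul, zero_add, zero_sub]
    have : 0 ≤ r ^ 2 * η := by positivity
    linarith
  have hs4 : ∀ x, FourGe (E := E) (sc P N ρ) x (-(c x - μ x)) := by
    intro x
    have h4 := fourGe_sc hK hnn (ψ := fun _ => (0:ℝ)) (c := fun _ => 0)
      (μ := fun x => -(c x - μ x)) hzero hP hN hρ hρ0 hP0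
      (fun x y hxy => by have := h1 x y hxy; linarith) h2 x
    simpa only [zero_add] using h4
  refine ⟨fun x => ψ x + sc P N ρ x, hcont, isCompact_sublevel hcont ?_, fun x₀ => ?_⟩
  · refine tendsto_atTop_mono (fun x => ?_) h3
    have := N_le_sc (P := P) (N := N) (ρ := ρ) hP hN hρ0 x
    linarith
  · set μ₀ := c x₀ - μ x₀ / 2 with hμ₀
    set S : Set M := {x | c x - μ x < μ₀} with hS
    have hSo : IsOpen S := isOpen_lt (hc.sub hμ) continuous_const
    have hx₀S : x₀ ∈ S := by
      show c x₀ - μ x₀ < μ₀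
      have := hμ0 x₀
      rw [hμ₀]; linarith
    have hμ₀0 : 0 ≤ μ₀ := by
      have e1 := h1 x₀ x₀ (by rw [dist_self]; exact (hρ0 x₀).le)
      have e2 := hP0 x₀
      have e3 := hμ0 x₀
      rw [hμ₀]; linarith
    obtain ⟨e, he, hx, -, n, L, ε, hε, h⟩ := strict_of_weakLevi hK
      (hψ.mono (subset_univ S) fun x _ => le_rfl) hSo hsc hμ₀0
      (fun x hx => (hs4 x).mono hK (by
        have : c x - μ x < μ₀ := hx
        linarith)) hx₀S hc.continuousAt (by
        have := hμ0 x₀
        rw [hμ₀]; linarith)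
    exact ⟨e, he, hx, n, L, ε, hε, h ε hε.le le_rfl⟩

/-- **Second criterion**, weak form. -/
theorem exhaustion_of_decay_weak (hK : IsKahler E M) [ProperSpace M]
    (hnn : ∀ x : M, NonnegBisectionalAt E x) (p : M) {ψ : M → ℝ}
    {lam : ℝ → ℝ} (hlc : Continuous lam) (hl0 : ∀ t, 0 ≤ t → 0 < lam t)
    (hla : AntitoneOn lam (Ici 0))
    (hψ : WeakLevi E ψ (fun x => lam (dist p x)) univ)
    (hgrow : Tendsto (fun x => ψ x + 1 / 320 * ∫ s in (0:ℝ)..dist p x, s * lam s)
      (cocompact M) atTop) : HasSpshExhaustion E M := by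
  have hint : ∀ a b : ℝ, IntervalIntegrable (fun s => s * lam s) MeasureTheory.volume a b :=
    fun a b => (by fun_prop : Continuous fun s => s * lam s).intervalIntegrable a b
  have hcI : Continuous fun t : ℝ => ∫ s in (0:ℝ)..t, s * lam s :=
    intervalIntegral.continuous_primitive hint 0
  have hnonneg : ∀ a b : ℝ, 0 ≤ a → a ≤ b → 0 ≤ ∫ s in a..b, s * lam s := by
    intro a b ha hab
    refine intervalIntegral.integral_nonneg hab fun s hs => ?_
    exact mul_nonneg (ha.trans hs.1) (hl0 s (ha.trans hs.1)).le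
  refine exhaustion_of_conv_weak hK hnn (c := fun x => lam (dist p x))
    (μ := fun x => lam (dist p x) / 2) (P := fun y => lam (2 + 2 * dist p y) / 2)
    (N := fun y => 1 / 320 * ∫ s in (0:ℝ)..(4 + 4 * dist p y), s * lam s)
    (ρ := fun x => (1 + dist p x) / 4) hψ (by fun_prop)
    (by fun_prop) (fun x => half_pos (hl0 _ dist_nonneg)) (by fun_prop)
    (continuous_const.mul (hcI.comp (by fun_prop : Continuous fun y => 4 + 4 * dist p y)))
    (by fun_prop) (fun x => by positivity)
    (fun x => (half_pos (hl0 _ (by positivity))).le) ?_ ?_ ?_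
  · intro x y hxy
    have hpx : 0 ≤ dist p x := dist_nonneg
    have hpy : 0 ≤ dist p y := dist_nonneg
    have h1 : dist p x ≤ dist p y + dist x y := by
      have := dist_triangle p y x
      rwa [dist_comm y x] at this
    have h2 : lam (2 + 2 * dist p y) ≤ lam (dist p x) :=
      hla hpx (show (0:ℝ) ≤ 2 + 2 * dist p y by positivity) (by linarith)
    linarith
  · intro x y h1 h2
    have hpx : 0 ≤ dist p x := dist_nonneg
    have hpy : 0 ≤ dist p y := dist_nonneg
    have hd : 0 ≤ dist x y := dist_nonneg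
    have hP0 : 0 < lam (2 + 2 * dist p y) := hl0 _ (by positivity)
    rcases le_total (dist p y) (dist p x) with h3 | h3
    · have h4 : ∫ s in (0:ℝ)..(4 + 4 * dist p x), s * lam s =
          (∫ s in (0:ℝ)..(4 + 4 * dist p y), s * lam s) +
            ∫ s in (4 + 4 * dist p y)..(4 + 4 * dist p x), s * lam s :=
        (intervalIntegral.integral_add_adjacent_intervals (hint _ _) (hint _ _)).symm
      have h5 := hnonneg (4 + 4 * dist p y) (4 + 4 * dist p x) (by positivity) (by linarith)
      have h6 : 0 ≤ lam (2 + 2 * dist p y) / 2 * dist x y ^ 2 := by positivity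
      rw [h4]
      linarith
    · have h4 : ∫ s in (0:ℝ)..(4 + 4 * dist p y), s * lam s =
          (∫ s in (0:ℝ)..(4 + 4 * dist p x), s * lam s) +
            ∫ s in (4 + 4 * dist p x)..(4 + 4 * dist p y), s * lam s :=
        (intervalIntegral.integral_add_adjacent_intervals (hint _ _) (hint _ _)).symm
      have htri : dist p y ≤ dist p x + dist x y := dist_triangle _ _ _
      set L := lam (4 + 4 * dist p x) with hL
      have hL0 : 0 < L := hl0 _ (by positivity)
      have h5 : ∫ s in (4 + 4 * dist p x)..(4 + 4 * dist p y), s * lam s ≤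
          ∫ s in (4 + 4 * dist p x)..(4 + 4 * dist p y), (4 + 4 * dist p y) * L := by
        refine intervalIntegral.integral_mono_on (by linarith) (hint _ _) (by simp) fun s hs => ?_
        have h6 : lam s ≤ L := hla (show (0:ℝ) ≤ 4 + 4 * dist p x by positivity)
          (show (0:ℝ) ≤ s from (by positivity : (0:ℝ) ≤ 4 + 4 * dist p x).trans hs.1) hs.1
        have h7 : 0 ≤ s := (by positivity : (0:ℝ) ≤ 4 + 4 * dist p x).trans hs.1
        calc s * lam s ≤ s * L := by gcongr
          _ ≤ _ := by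
            gcongr
            exact hs.2
      rw [intervalIntegral.integral_const, smul_eq_mul] at h5
      have h6 : L ≤ lam (2 + 2 * dist p y) :=
        hla (show (0:ℝ) ≤ 2 + 2 * dist p y by positivity)
          (show (0:ℝ) ≤ 4 + 4 * dist p x by positivity) (by linarith)
      have h7 : L / 2 * dist x y ^ 2 ≤ lam (2 + 2 * dist p y) / 2 * dist x y ^ 2 := by gcongr
      -- main comparison
      have h8 : (4 + 4 * dist p y - (4 + 4 * dist p x)) * ((4 + 4 * dist p y) * L) ≤
          (4 * dist x y) * ((5 * (1 + dist p x)) * L) := by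
        gcongr
        · linarith
        · linarith
      have h9 : (1 + dist p x) ≤ 8 * dist x y := by linarith
      have h10 : (4 * dist x y) * ((5 * (1 + dist p x)) * L) ≤
          (4 * dist x y) * ((5 * (8 * dist x y)) * L) := by gcongr
      have h11 : (4 * dist x y) * ((5 * (8 * dist x y)) * L) = 320 * (L / 2 * dist x y ^ 2) := by
        ring
      rw [h4]
      linarith
  · refine tendsto_atTop_mono (fun x => ?_) hgrow
    have hpx : 0 ≤ dist p x := dist_nonneg
    have h4 : ∫ s in (0:ℝ)..(4 + 4 * dist p x), s * lam s =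
        (∫ s in (0:ℝ)..(dist p x), s * lam s) +
          ∫ s in (dist p x)..(4 + 4 * dist p x), s * lam s :=
      (intervalIntegral.integral_add_adjacent_intervals (hint _ _) (hint _ _)).symm
    have h5 := hnonneg (dist p x) (4 + 4 * dist p x) (by positivity) (by linarith)
    rw [h4]
    linarith

/-- **Third criterion.** `i∂∂̄ψ ≥ e^{-φ} λ(d(p, x)) ω` with `ψ ≥ 0` and `φ` plurisubharmonic and
`∫^∞ s λ(s) ds = ∞`. -/
theorem exhaustion_of_majorant (hK : IsKahler E M) [ProperSpace M]
    (hnn : ∀ x : M, NonnegBisectionalAt E x) (p : M) {ψ φ : M → ℝ}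
    {lam : ℝ → ℝ} (hlc : Continuous lam) (hl0 : ∀ t, 0 ≤ t → 0 < lam t)
    (hla : AntitoneOn lam (Ici 0)) (hφ : ContPsh E φ) (hψ0 : ∀ x, 0 ≤ ψ x)
    (hψ : WeakLevi E ψ (fun x => Real.exp (-φ x) * lam (dist p x)) univ)
    (hgrow : Tendsto (fun r : ℝ => ∫ s in (0:ℝ)..r, s * lam s) atTop atTop) :
    HasSpshExhaustion E M := by
  refine exhaustion_of_decay_weak hK hnn p hlc hl0 hla
    (weakLevi_exp hφ hψ hψ0 fun x _ => (hl0 _ dist_nonneg).le) ?_
  have h1 : Tendsto (fun x => dist p x) (cocompact M) atTop := by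
    simpa only [dist_comm p] using tendsto_dist_right_cocompact_atTop p
  have h2 : Tendsto (fun x => 1 / 320 * ∫ s in (0:ℝ)..dist p x, s * lam s)
      (cocompact M) atTop := (hgrow.comp h1).const_mul_atTop (by norm_num)
  refine tendsto_atTop_mono (fun x => ?_) h2
  have h3 := Real.exp_pos (φ x + ψ x + 1)
  linarith

/-- the squared norm of a holomorphic map -/
theorem weakLevi_normsq {n : ℕ} {F : M → EuclideanSpace ℂ (Fin n)} (hF : IsHolMap E F)
    {c : M → ℝ} (hc : ∀ x, DiffGe E F x (c x)) : WeakLevi E (fun x => ‖F x‖ ^ 2) c univ :=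
  weakLevi_of_fourGe (hF.continuous.norm.pow 2) fun x _ => fourGe_normsq hF hc x

end Vale.Agent.P253.R2.H451
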