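import Vale.Agent.P253.R2.H451.Imm2
import Vale.Agent.P253.R2.H618.Bus

/-!
P253: a complex manifold with a strictly plurisubharmonic exhaustion function has a nonnegative
function `ψ` with `i∂∂̄ψ ≥ ω`.
-/

open scoped Manifold ContDiff Topology Bundle
open Set Metric Filter Bundle IsManifold Complex Asymptotics

set_option maxSynthPendingDepth 3
set_option linter.unusedSectionVars false
set_option linter.unusedVariables false

noncomputable section

namespace Vale.Agent.P253.R2.H451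

open Vale.Agent.P253.Mfd Vale.Agent.P253.Mfd.LocalKahler Vale.Agent.P253.R2.H618
  Vale.Agent.P253.R2.H922 Vale.Agent.P253.R2.H380.Stein

variable {E : Type*} [NormedAddCommGroup E] [NormedSpace ℂ E] [FiniteDimensional ℂ E]
  {M : Type*} [MetricSpace M] [ChartedSpace E M]
  [IsManifold 𝓘(ℂ, E) 1 M] [IsManifold 𝓘(ℝ, E) ∞ M]
  [RiemannianBundle (fun x : M => TangentSpace 𝓘(ℝ, E) x)]
  [IsContMDiffRiemannianBundle 𝓘(ℝ, E) ∞ E (fun x : M => TangentSpace 𝓘(ℝ, E) x)]
  [IsRiemannianManifold 𝓘(ℝ, E) M]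

/-- four point sums of the squared norm of a chart -/
theorem fourGe_chart {e₀ : OpenPartialHomeomorph M E}
    (he₀ : e₀ ∈ maximalAtlas 𝓘(ℂ, E) 1 M) {n : ℕ} (L : E ≃L[ℂ] EuclideanSpace ℂ (Fin n)) {x : M}
    (hx₀ : x ∈ e₀.source) {c : ℝ} (hc : ∀ v, c * chartG e₀ (e₀ x) v v ≤ ‖L v‖ ^ 2) :
    FourGe (E := E) (fun y => ‖L (e₀ y)‖ ^ 2) x c := by
  intro e he hx Y a ha η hη
  set D := fderiv ℝ (e₀ ∘ e.symm) (e x) with hD
  have hb : HarmW e₀ x (D Y) (fun _ => 1) a := ha.change he he₀ hx hx₀ (fun _ => norm_one)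
  have hG : chartG e₀ (e₀ x) (D Y) (D Y) = chartG e (e x) Y Y := chartG_change he he₀ hx hx₀ Y Y
  set ξ : ℝ → Fin 4 → E := fun r k => e₀ (a r k) - e₀ x - r • (I ^ (k:ℕ) • ((1:ℂ) • D Y)) with hξ
  have hξs : IsSmall ξ := hb.2
  have hζs : IsSmall (fun r k => L (ξ r k)) := by
    obtain ⟨hO, ho⟩ := isSmall_iff.1 hξs
    rw [isSmall_iff]
    refine ⟨fun k => ((L : E →L[ℂ] EuclideanSpace ℂ (Fin n)).isBigO_comp _ _).trans (hO k), ?_⟩
    have h6 : (fun r => ∑ k, L (ξ r k)) = fun r => L (∑ k, ξ r k) := by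
      funext r
      rw [map_sum]
    rw [h6]
    exact ((L : E →L[ℂ] EuclideanSpace ℂ (Fin n)).isBigO_comp _ _).trans_isLittleO ho
  have h7 := (four_normsq (L (e₀ x)) (L (D Y)) hζs).def hη
  filter_upwards [h7] with r hr2
  have hr0 : 0 ≤ r ^ 2 := by positivity
  rw [Real.norm_of_nonneg hr0, Real.norm_eq_abs] at hr2
  have h8 := (abs_le.1 hr2).1
  have h9 : ∀ k : Fin 4, L (e₀ x) + (r • (I ^ (k:ℕ) • L (D Y)) + L (ξ r k)) = L (e₀ (a r k)) := by
    intro k
    have h10 : L (r • (I ^ (k:ℕ) • D Y)) = r • (I ^ (k:ℕ) • L (D Y)) := by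
      rw [← Complex.coe_smul, map_smul, map_smul, Complex.coe_smul]
    rw [← h10, ← map_add, ← map_add]
    congr 1
    simp only [hξ, one_smul]
    abel
  simp only [h9] at h8
  have h11 := hc (D Y)
  rw [hG] at h11
  have h12 := mul_le_mul_of_nonneg_left h11 hr0
  have e1 : r ^ 2 * (4 * c * chartG e (e x) Y Y - η) =
      4 * (r ^ 2 * (c * chartG e (e x) Y Y)) - r ^ 2 * η := by ring
  rw [e1]
  linarith

/-- large multiples of a strictly plurisubharmonic function -/
theorem local_strict (hK : IsKahler E M) {v : M → ℝ} (hv : Continuous v) {x₀ : M}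
    {e₀ : OpenPartialHomeomorph M E} (he₀ : e₀ ∈ maximalAtlas 𝓘(ℂ, E) 1 M) (hx₀ : x₀ ∈ e₀.source)
    {n : ℕ} (L : E ≃L[ℂ] EuclideanSpace ℂ (Fin n)) {ε : ℝ} (hε : 0 < ε)
    (hsub : ∀ (f : ℂ → M) (c : ℂ) (r : ℝ), 0 < r → ContinuousOn f (closedBall c r) →
          MDifferentiableOn 𝓘(ℂ, ℂ) 𝓘(ℂ, E) f (ball c r) →
          (∀ z ∈ closedBall c r, f z ∈ e₀.source) →
          v (f c) - ε * ‖L (e₀ (f c))‖ ^ 2 ≤
            Real.circleAverage (fun z => v (f z) - ε * ‖L (e₀ (f z))‖ ^ 2) c r) :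
    ∃ S : Set M, IsOpen S ∧ x₀ ∈ S ∧ ∃ m₀ : ℝ, 0 < m₀ ∧ ∀ m, m₀ ≤ m → ∀ b : ℝ,
      SubOn E (fun x => m * v x + b) S := by
  have hLK := localKahler_chartG hK he₀
  obtain ⟨δ, hδ, hδt⟩ := Metric.isOpen_iff.1 e₀.open_target _ (e₀.map_source hx₀)
  have hcb : closedBall (e₀ x₀) (δ / 2) ⊆ e₀.target :=
    (closedBall_subset_ball (by linarith)).trans hδt
  have hprop : ProperSpace E := FiniteDimensional.proper ℂ E
  obtain ⟨A, hA, hup⟩ := exists_upper hLK (isCompact_closedBall (e₀ x₀) (δ / 2)) hcb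
  set K : ℝ := ‖(L.symm : EuclideanSpace ℂ (Fin n) →L[ℂ] E)‖ + 1 with hKdef
  have hK0 : 0 < K := by positivity
  have hLK2 : ∀ w : E, ‖w‖ ^ 2 ≤ K ^ 2 * ‖L w‖ ^ 2 := by
    intro w
    have h1 := (L.symm : EuclideanSpace ℂ (Fin n) →L[ℂ] E).le_opNorm (L w)
    have h3 : (L.symm : EuclideanSpace ℂ (Fin n) →L[ℂ] E) (L w) = w := L.symm_apply_apply w
    rw [h3] at h1
    rw [← mul_pow]
    have h2 : ‖w‖ ≤ K * ‖L w‖ := by
      refine h1.trans ?_
      gcongr
      rw [hKdef]; linarith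
    gcongr
  set c := 1 / (A * K ^ 2) with hc
  have hc0 : 0 < c := by positivity
  set S : Set M := e₀.source ∩ e₀ ⁻¹' ball (e₀ x₀) (δ / 2) with hS
  have hSo : IsOpen S := e₀.continuousOn.isOpen_inter_preimage e₀.open_source isOpen_ball
  have hF : ∀ x ∈ S, FourGe (E := E) (fun y => ‖L (e₀ y)‖ ^ 2) x c := by
    intro x hx
    refine fourGe_chart he₀ L hx.1 fun w => ?_
    have h1 := hup (e₀ x) (ball_subset_closedBall hx.2) w
    have h2 := hLK2 w
    calc c * chartG e₀ (e₀ x) w w ≤ c * (A * (K ^ 2 * ‖L w‖ ^ 2)) := by gcongr; exact h1.trans (by gcongr)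
      _ = ‖L w‖ ^ 2 := by rw [hc]; field_simp
  refine ⟨S, hSo, ⟨hx₀, mem_ball_self (by positivity)⟩, 1 / (ε * c), by positivity,
    fun m hm b => ?_⟩
  have hm0 : 0 < m := lt_of_lt_of_le (by positivity) hm
  intro e he W N hW hWt hN hl f c' r hr hf hf' hmm hS'
  have hef : ContinuousOn (fun z => e (f z)) (closedBall c' r) :=
    e.continuousOn.comp hf (fun z hz => (hmm z hz).1)
  have hef0 : ContinuousOn (fun z => e₀ (f z)) (closedBall c' r) :=
    e₀.continuousOn.comp hf (fun z hz => (hS' z hz).1)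
  have hNf : ContinuousOn (fun z => N (e (f z))) (closedBall c' r) :=
    hN.continuousOn.comp hef (fun z hz => (hmm z hz).2)
  have hqf : ContinuousOn (fun z => ‖L (e₀ (f z))‖ ^ 2) (closedBall c' r) :=
    (L.continuous.comp_continuousOn hef0).norm.pow 2
  have hsf : ContinuousOn (fun z => m * ε * ‖L (e₀ (f z))‖ ^ 2) (closedBall c' r) :=
    continuousOn_const.mul hqf
  have k1 := hsub f c' r hr hf hf' (fun z hz => (hS' z hz).1)
  have k2 := submean_four_add (s := fun y => m * ε * ‖L (e₀ y)‖ ^ 2) he hW hWt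
    (q := fun z => -N z) hN.neg (c₀ := fun _ => m * ε * c) hr hf hf' hmm hsf
    (fun z hz => fourGe_smul (by positivity) (hF _ (hS' z (ball_subset_closedBall hz))))
    (fun z hz w => by
      have hz' := ball_subset_closedBall hz
      have h2 := hl _ (hmm z hz').2 w
      rw [← chartG_apply] at h2
      rw [levi2_neg]
      have hG : 0 ≤ chartG e (e (f z)) w w := by
        have her := mem_maximalAtlas_real he
        rcases eq_or_ne w 0 with rfl | hw
        · simp
        · exact (chartG_pos her (e.map_source (hmm z hz').1) w hw).le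
      have h4 : 1 ≤ m * ε * c := by
        rw [div_le_iff₀ (by positivity)] at hm
        linarith
      have h3 := mul_le_mul_of_nonneg_right h4 hG
      linarith)
  have hsph : sphere c' r ⊆ closedBall c' r := sphere_subset_closedBall
  have i1 : CircleIntegrable (fun z => v (f z) - ε * ‖L (e₀ (f z))‖ ^ 2) c' r :=
    (((hv.comp_continuousOn hf).sub (continuousOn_const.mul hqf)).mono hsph).circleIntegrable hr.le
  have i2 : CircleIntegrable (fun z => m * ε * ‖L (e₀ (f z))‖ ^ 2 + -N (e (f z))) c' r :=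
    ((hsf.add hNf.neg).mono hsph).circleIntegrable hr.le
  have k3 := mul_le_mul_of_nonneg_left k1 hm0.le
  have e1 : (fun z => m * v (f z) + b - N (e (f z))) = fun z =>
      m • (v (f z) - ε * ‖L (e₀ (f z))‖ ^ 2) +
        ((m * ε * ‖L (e₀ (f z))‖ ^ 2 + -N (e (f z))) + b) := by
    funext z; simp only [smul_eq_mul]; ring
  show m * v (f c') + b - N (e (f c')) ≤
    Real.circleAverage (fun z => m * v (f z) + b - N (e (f z))) c' r
  have i3 : CircleIntegrable (fun z => m • (v (f z) - ε * ‖L (e₀ (f z))‖ ^ 2)) c' r :=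
    i1.const_fun_smul
  have i4 : CircleIntegrable (fun z => (m * ε * ‖L (e₀ (f z))‖ ^ 2 + -N (e (f z))) + b) c' r :=
    i2.add (circleIntegrable_const _ _ _)
  rw [e1, Real.circleAverage_fun_add i3 i4,
    Real.circleAverage_fun_smul, Real.circleAverage_fun_add i2 (circleIntegrable_const _ _ _),
    Real.circleAverage_const]
  simp only [smul_eq_mul]
  linarith

/-- **Strictly plurisubharmonic exhaustion functions give `ψ ≥ 0` with `i∂∂̄ψ ≥ ω`.** -/
theorem exists_weak_of_exhaustion (hK : IsKahler E M) (h : HasSpshExhaustion E M) :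
    ∃ ψ : M → ℝ, WeakLeviGe E ψ ∧ ∀ x, 0 ≤ ψ x := by
  obtain ⟨v, hv, hcpt, hstr⟩ := h
  rcases isEmpty_or_nonempty M with hM | hM
  · exact ⟨fun _ => 0, ⟨continuous_const, fun e he W N hW hWt hN hl f c r hr hf hf' hm =>
      (hM.false (f c)).elim⟩, fun x => le_rfl⟩
  -- local constants
  have hloc : ∀ x : M, ∃ S : Set M, IsOpen S ∧ x ∈ S ∧ ∃ m₀ : ℝ, 0 < m₀ ∧ ∀ m, m₀ ≤ m →
      ∀ b : ℝ, SubOn E (fun x => m * v x + b) S := by
    intro x
    obtain ⟨e, he, hx, n, L, ε, hε, hsub⟩ := hstr x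
    exact local_strict hK hv he hx L hε hsub
  choose S hSo hxS m₀ hm₀ hP using hloc
  have hk : ∀ k : ℕ, ∃ mk : ℝ, 0 < mk ∧ ∀ x, v x ≤ k → ∃ y, x ∈ S y ∧ m₀ y ≤ mk := by
    intro k
    obtain ⟨t, ht⟩ := (hcpt k).elim_nhds_subcover S (fun x _ => (hSo x).mem_nhds (hxS x))
    refine ⟨∑ y ∈ t, m₀ y + 1, ?_, fun x hx => ?_⟩
    · have := Finset.sum_nonneg (fun y (_ : y ∈ t) => (hm₀ y).le)
      linarith
    · obtain ⟨y, hy, hxy⟩ := mem_iUnion₂.1 (ht.2 hx)
      refine ⟨y, hxy, ?_⟩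
      have := Finset.single_le_sum (fun y (_ : y ∈ t) => (hm₀ y).le) hy
      linarith
  choose mk hmk0 hmk using hk
  set Mk : ℕ → ℝ := fun k => ∑ j ∈ Finset.range (k + 1), mk j with hMk
  have hMkmono : Monotone Mk := by
    refine monotone_nat_of_le_succ fun k => ?_
    simp only [hMk]
    rw [Finset.sum_range_succ _ (k + 1)]
    linarith [hmk0 (k + 1)]
  have hMkge : ∀ k, mk k ≤ Mk k := fun k =>
    Finset.single_le_sum (fun j _ => (hmk0 j).le) (Finset.mem_range.2 (Nat.lt_succ_self k))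
  set g : ℝ → ℝ := fun s => Mk ⌈s⌉₊ with hg
  have hgm : Monotone g := hMkmono.comp Nat.ceil_mono
  have hg0 : ∀ s, 0 ≤ g s := fun s => (hmk0 _).le.trans (hMkge _)
  have hint : ∀ a b : ℝ, IntervalIntegrable g MeasureTheory.volume a b := fun a b =>
    hgm.intervalIntegrable
  -- lower bound
  obtain ⟨b, hb⟩ : ∃ b : ℝ, ∀ x, b ≤ v x := by
    obtain ⟨x₁⟩ := hM
    obtain ⟨x₂, hx₂, hmin⟩ := (hcpt (v x₁)).exists_isMinOn ⟨x₁, le_refl (v x₁)⟩ hv.continuousOn
    refine ⟨v x₂, fun x => ?_⟩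
    by_cases hx : v x ≤ v x₁
    · exact hmin hx
    · push Not at hx
      exact (show v x₂ ≤ v x₁ from hx₂).trans hx.le
  set χ : ℝ → ℝ := fun t => ∫ s in b..t, g s with hχ
  have hχc : Continuous χ := intervalIntegral.continuous_primitive hint b
  have htan : ∀ t t₀ : ℝ, χ t₀ + g t₀ * (t - t₀) ≤ χ t := by
    intro t t₀
    have h1 : χ t - χ t₀ = ∫ s in t₀..t, g s := by
      simp only [hχ]
      exact intervalIntegral.integral_interval_sub_left (hint _ _) (hint _ _)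
    rcases le_total t₀ t with h | h
    · have h2 : ∫ s in t₀..t, g t₀ ≤ ∫ s in t₀..t, g s :=
        intervalIntegral.integral_mono_on h intervalIntegrable_const (hint _ _)
          (fun s hs => hgm hs.1)
      rw [intervalIntegral.integral_const, smul_eq_mul] at h2
      linarith
    · have h2 : ∫ s in t..t₀, g s ≤ ∫ s in t..t₀, g t₀ :=
        intervalIntegral.integral_mono_on h (hint _ _) intervalIntegrable_const
          (fun s hs => hgm hs.2)
      rw [intervalIntegral.integral_const, smul_eq_mul] at h2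
      rw [intervalIntegral.integral_symm] at h1
      linarith
  refine ⟨fun x => χ (v x), weak_of_tangent (hχc.comp hv) fun y => ?_, fun x => ?_⟩
  · obtain ⟨y', hyS, hle⟩ := hmk ⌈v y⌉₊ y (Nat.le_ceil _)
    refine ⟨S y', hSo y', hyS, fun x => g (v y) * v x + (χ (v y) - g (v y) * v y),
      by fun_prop, by ring, fun x hx => ?_, hP y' _ (hle.trans (hMkge _)) _⟩
    have := htan (v x) (v y)
    linarith
  · exact intervalIntegral.integral_nonneg (hb x) fun s _ => hg0 s

end Vale.Agent.P253.R2.H451
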