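import Vale.Agent.P253.R2.H451.Gen3
import Vale.Agent.P253.R2.H451.Imm3

/-!
P253: changing a function on a compact set; local strictness.
-/

open scoped Manifold ContDiff Topology Bundle
open Set Metric Filter Bundle IsManifold Complex Asymptotics

set_option maxSynthPendingDepth 3
set_option linter.unusedSectionVars false
set_option linter.unusedVariables false

noncomputable section

namespace Vale.Agent.P253.R2.H451

open Vale.Agent.P253.Mfd Vale.Agent.P253.Mfd.LocalKahler Vale.Agent.P253.R2.H618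
  Vale.Agent.P253.R2.H922 Vale.Agent.P253.R2.H380.Stein

variable {E : Type*} [NormedAddCommGroup E] [NormedSpace ℂ E] [FiniteDimensional ℂ E]
  {M : Type*} [MetricSpace M] [ChartedSpace E M]
  [IsManifold 𝓘(ℂ, E) 1 M] [IsManifold 𝓘(ℝ, E) ∞ M]
  [RiemannianBundle (fun x : M => TangentSpace 𝓘(ℝ, E) x)]

/-- functions which are touched from below at every point -/
theorem weakLevi_of_tangent {ψ c : M → ℝ} {S : Set M} (hψ : Continuous ψ)
    (h : ∀ y ∈ S, ∃ T : Set M, IsOpen T ∧ y ∈ T ∧ ∃ u : M → ℝ, u y = ψ y ∧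
      (∀ x ∈ T, u x ≤ ψ x) ∧ WeakLevi E u c T) : WeakLevi E ψ c S := by
  refine ⟨hψ, fun e he W N hW hWt hWS hN hl f a r hr hf hf' hm => ?_⟩
  have hef : ContinuousOn (fun z => e (f z)) (closedBall a r) :=
    e.continuousOn.comp hf (fun z hz => (hm z hz).1)
  have hNf : ContinuousOn (fun z => N (e (f z))) (closedBall a r) :=
    hN.continuousOn.comp hef (fun z hz => (hm z hz).2)
  refine submean_of_local (u := fun z => ψ (f z) - N (e (f z))) hr
    ((hψ.comp_continuousOn hf).sub hNf) fun z₀ hz₀ => ?_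
  have hz₀' := hm z₀ (ball_subset_closedBall hz₀)
  have hyS : f z₀ ∈ S := by
    have := hWS _ hz₀'.2
    rwa [e.left_inv hz₀'.1] at this
  obtain ⟨T, hTo, hyT, u, huy, hule, hu⟩ := h (f z₀) hyS
  have hfc : ContinuousAt f z₀ := hf.continuousAt (closedBall_mem_nhds_of_mem hz₀)
  have h1 : ∀ᶠ z in 𝓝 z₀, f z ∈ T ∧ z ∈ ball a r :=
    (hfc.eventually (hTo.mem_nhds hyT)).and (isOpen_ball.mem_nhds hz₀)
  obtain ⟨ρ₀, hρ₀, hball⟩ := Metric.eventually_nhds_iff_ball.1 h1
  have h2 : ∀ᶠ ρ in 𝓝[>] (0:ℝ), ρ < ρ₀ ∧ 0 < ρ :=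
    ((eventually_lt_nhds hρ₀).filter_mono nhdsWithin_le_nhds).and self_mem_nhdsWithin
  filter_upwards [h2] with ρ hρ
  have hsubs : ∀ z ∈ closedBall z₀ ρ, f z ∈ T ∧ z ∈ ball a r := fun z hz =>
    hball z (lt_of_le_of_lt hz hρ.1)
  have hcb : closedBall z₀ ρ ⊆ closedBall a r := fun z hz => ball_subset_closedBall (hsubs z hz).2
  have hfρ : ContinuousOn f (closedBall z₀ ρ) := hf.mono hcb
  have hfρ' : MDifferentiableOn 𝓘(ℂ, ℂ) 𝓘(ℂ, E) f (ball z₀ ρ) :=
    hf'.mono fun z hz => (hsubs z (ball_subset_closedBall hz)).2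
  set W' : Set E := W ∩ (e.target ∩ e.symm ⁻¹' T) with hW'
  have hW'o : IsOpen W' := hW.inter (e.symm.continuousOn.isOpen_inter_preimage e.open_target hTo)
  have k1 := hu.2 e he W' N hW'o (fun z hz => hWt hz.1)
    (fun z hz => hz.2.2) (hN.mono inter_subset_left)
    (fun z hz v => hl z hz.1 v) f z₀ ρ hρ.2 hfρ hfρ' (fun z hz => by
      have h3 := hm z (hcb hz)
      refine ⟨h3.1, h3.2, hWt h3.2, ?_⟩
      show e.symm (e (f z)) ∈ T
      rw [e.left_inv h3.1]
      exact (hsubs z hz).1)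
  rw [huy] at k1
  refine k1.trans ?_
  have hsph : sphere z₀ ρ ⊆ closedBall z₀ ρ := sphere_subset_closedBall
  refine Real.circleAverage_mono ?_ ?_ fun z hz => ?_
  · exact (((hu.1.comp_continuousOn hf).sub hNf).mono (hsph.trans hcb)).circleIntegrable hρ.2.le
  · exact (((hψ.comp_continuousOn hf).sub hNf).mono (hsph.trans hcb)).circleIntegrable hρ.2.le
  · have hz' : z ∈ sphere z₀ ρ := by rwa [abs_of_pos hρ.2] at hz
    have := hule (f z) (hsubs z (hsph hz')).1
    linarith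

/-- sums with plurisubharmonic functions -/
theorem WeakLevi.add_psh {ψ c u : M → ℝ} {S : Set M} (h : WeakLevi E ψ c S) (hu : ContPsh E u) :
    WeakLevi E (fun x => ψ x + u x) c S := by
  refine ⟨h.1.add hu.1, fun e he W N hW hWt hWS hN hl f a r hr hf hf' hm => ?_⟩
  have hef : ContinuousOn (fun z => e (f z)) (closedBall a r) :=
    e.continuousOn.comp hf (fun z hz => (hm z hz).1)
  have hNf : ContinuousOn (fun z => N (e (f z))) (closedBall a r) :=
    hN.continuousOn.comp hef (fun z hz => (hm z hz).2)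
  have k1 := h.2 e he W N hW hWt hWS hN hl f a r hr hf hf' hm
  have k2 := hu.2 f a r hr hf hf'
  have hsph : sphere a r ⊆ closedBall a r := sphere_subset_closedBall
  have i1 : CircleIntegrable (fun z => ψ (f z) - N (e (f z))) a r :=
    (((h.1.comp_continuousOn hf).sub hNf).mono hsph).circleIntegrable hr.le
  have i2 : CircleIntegrable (fun z => u (f z)) a r :=
    ((hu.1.comp_continuousOn hf).mono hsph).circleIntegrable hr.le
  have k3 := add_le_add k1 k2
  rw [← Real.circleAverage_fun_add i1 i2] at k3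
  have e1 : (fun z => ψ (f z) + u (f z) - N (e (f z))) =
      fun z => ψ (f z) - N (e (f z)) + u (f z) := by
    funext z; ring
  rw [e1]
  linarith

theorem weakLevi_of_subOn {u : M → ℝ} {S : Set M} (hu : Continuous u) (h : SubOn E u S) :
    WeakLevi E u (fun _ => 1) S :=
  ⟨hu, fun e he W N hW hWt hWS hN hl f a r hr hf hf' hm =>
    h e he W N hW hWt hN (fun z hz v => by simpa using hl z hz v) f a r hr hf hf' hm
      fun z hz => by
        have := hWS _ (hm z hz).2
        rwa [e.left_inv (hm z hz).1] at this⟩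

theorem WeakLevi.add_const {ψ c : M → ℝ} {S : Set M} (h : WeakLevi E ψ c S) (b : ℝ) :
    WeakLevi E (fun x => ψ x + b) c S :=
  h.add_psh (SubS.contPsh (subS_const b univ))

/-- exponentials of plurisubharmonic functions -/
theorem contPsh_exp {b : M → ℝ} (hb : ContPsh E b) : ContPsh E (fun x => Real.exp (b x)) := by
  have hbc := hb.1
  refine contPsh_of_tangent (by fun_prop) fun y => ⟨univ, isOpen_univ, mem_univ _,
    fun x => Real.exp (b y) * (b x + (1 - b y)), by ring, fun x _ => ?_,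
    ((hb.subS univ).add (subS_const _ _)).const_mul (Real.exp_pos _).le⟩
  have := exp_tangent (b y) (b x)
  linarith

variable [IsContMDiffRiemannianBundle 𝓘(ℝ, E) ∞ E (fun x : M => TangentSpace 𝓘(ℝ, E) x)]
  [IsRiemannianManifold 𝓘(ℝ, E) M]

/-- large multiples of the exponential of a strictly plurisubharmonic function -/
theorem exp_strict (hK : IsKahler E M) {b : M → ℝ} (hb : Continuous b) {y : M}
    (hstr : ∃ e ∈ maximalAtlas 𝓘(ℂ, E) 1 M, y ∈ e.source ∧
      ∃ (n : ℕ) (L : E ≃L[ℂ] EuclideanSpace ℂ (Fin n)) (ε : ℝ), 0 < ε ∧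
        ∀ (f : ℂ → M) (c : ℂ) (r : ℝ), 0 < r → ContinuousOn f (closedBall c r) →
          MDifferentiableOn 𝓘(ℂ, ℂ) 𝓘(ℂ, E) f (ball c r) →
          (∀ z ∈ closedBall c r, f z ∈ e.source) →
          b (f c) - ε * ‖L (e (f c))‖ ^ 2 ≤
            Real.circleAverage (fun z => b (f z) - ε * ‖L (e (f z))‖ ^ 2) c r)
    {c : M → ℝ} (hc : Continuous c) :
    ∃ T : Set M, IsOpen T ∧ y ∈ T ∧ ∃ m₁ : ℝ, 0 < m₁ ∧ ∀ m, m₁ ≤ m →
      WeakLevi E (fun x => m * Real.exp (b x)) c T := by
  obtain ⟨e, he, hye, n, L, ε, hε, hsub⟩ := hstr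
  obtain ⟨S, hSo, hyS, m₀, hm₀, hP⟩ := local_strict hK hb he hye L hε hsub
  set c₀ := |c y| + 1 with hc₀
  have hc₀0 : 0 < c₀ := by positivity
  set T : Set M := S ∩ ({x | b y - 1 < b x} ∩ {x | c x < c₀}) with hT
  have hTo : IsOpen T := hSo.inter ((isOpen_lt continuous_const hb).inter
    (isOpen_lt hc continuous_const))
  have hyT : y ∈ T := by
    refine ⟨hyS, ?_, ?_⟩
    · show b y - 1 < b y
      linarith
    · show c y < c₀
      have := le_abs_self (c y)
      rw [hc₀]; linarith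
  refine ⟨T, hTo, hyT, c₀ * m₀ * Real.exp (1 - b y), by positivity, fun m hm => ?_⟩
  have hm0 : 0 < m := lt_of_lt_of_le (by positivity) hm
  refine weakLevi_of_tangent (by fun_prop) fun y' hy' => ⟨T, hTo, hy',
    fun x => m * (Real.exp (b y') * (b x + 1 - b y')), ?_, fun x _ => ?_, ?_⟩
  · show m * (Real.exp (b y') * (b y' + 1 - b y')) = m * Real.exp (b y')
    ring
  · exact mul_le_mul_of_nonneg_left (exp_tangent (b y') (b x)) hm0.le
  · set q := m * Real.exp (b y') / c₀ with hq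
    have hqm : m₀ ≤ q := by
      rw [hq, le_div_iff₀ hc₀0]
      have h1 : b y - 1 < b y' := hy'.2.1
      have h2 : Real.exp (1 - b y) * Real.exp (b y') ≥ 1 := by
        rw [← Real.exp_add]
        exact Real.one_le_exp (by linarith)
      calc m₀ * c₀ = c₀ * m₀ * 1 := by ring
        _ ≤ c₀ * m₀ * (Real.exp (1 - b y) * Real.exp (b y')) := by gcongr
        _ = c₀ * m₀ * Real.exp (1 - b y) * Real.exp (b y') := by ring
        _ ≤ m * Real.exp (b y') := by gcongr
    have h3 := (weakLevi_of_subOn (by fun_prop) (hP q hqm (q * (1 - b y')))).const_mul hc₀0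
    have h4 : (fun x => c₀ * (q * b x + q * (1 - b y'))) =
        fun x => m * (Real.exp (b y') * (b x + 1 - b y')) := by
      funext x
      rw [hq]; field_simp; ring
    rw [h4] at h3
    refine h3.mono (fun x hx => hx.1) fun x hx => ?_
    have : c x < c₀ := hx.2.2
    show c x ≤ c₀ * 1
    linarith

/-- **Changing a function on a compact set.** -/
theorem fix_compact (hK : IsKahler E M) {b : M → ℝ} (hb : ContPsh E b)
    (hstr : ∀ y : M, ∃ e ∈ maximalAtlas 𝓘(ℂ, E) 1 M, y ∈ e.source ∧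
      ∃ (n : ℕ) (L : E ≃L[ℂ] EuclideanSpace ℂ (Fin n)) (ε : ℝ), 0 < ε ∧
        ∀ (f : ℂ → M) (c : ℂ) (r : ℝ), 0 < r → ContinuousOn f (closedBall c r) →
          MDifferentiableOn 𝓘(ℂ, ℂ) 𝓘(ℂ, E) f (ball c r) →
          (∀ z ∈ closedBall c r, f z ∈ e.source) →
          b (f c) - ε * ‖L (e (f c))‖ ^ 2 ≤
            Real.circleAverage (fun z => b (f z) - ε * ‖L (e (f z))‖ ^ 2) c r)
    {ψ c : M → ℝ} (hψp : ContPsh E ψ) (hc : Continuous c) {S A : Set M} (hS : IsOpen S)
    (hA : IsCompact A) (hψ : WeakLevi E ψ c (S \ A)) :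
    ∃ u : M → ℝ, ContPsh E u ∧ (∀ x, 0 ≤ u x) ∧ WeakLevi E (fun x => ψ x + u x) c S := by
  choose T hTo hyT m₁ hm₁ hP using fun y : M => exp_strict hK hb.1 (hstr y) hc
  obtain ⟨t, ht⟩ := hA.elim_nhds_subcover T fun x _ => (hTo x).mem_nhds (hyT x)
  set m := ∑ y ∈ t, m₁ y with hm
  have hm0 : 0 ≤ m := Finset.sum_nonneg fun y _ => (hm₁ y).le
  have hu : ContPsh E (fun x => m * Real.exp (b x)) :=
    SubS.contPsh (((contPsh_exp hb).subS univ).const_mul hm0)
  refine ⟨fun x => m * Real.exp (b x), hu, fun x => by positivity, ?_⟩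
  refine weakLevi_of_tangent (hψp.1.add hu.1) fun y hy => ?_
  by_cases hyA : y ∈ A
  · obtain ⟨y', hy', hyy'⟩ := mem_iUnion₂.1 (ht.2 hyA)
    have h1 : m₁ y' ≤ m := Finset.single_le_sum (f := m₁) (fun y _ => (hm₁ y).le) hy'
    have h2 := (hP y' m h1).add_psh hψp
    refine ⟨T y', hTo y', hyy', fun x => m * Real.exp (b x) + ψ x, by ring, fun x _ => ?_, h2⟩
    linarith
  · exact ⟨S \ A, hS.sdiff hA.isClosed, ⟨hy, hyA⟩, fun x => ψ x + m * Real.exp (b x), rfl,
      fun x _ => le_rfl, hψ.add_psh hu⟩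

end Vale.Agent.P253.R2.H451
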