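import Vale.Agent.P253.R2.H451.HullDefs

/-! P253: the weak form of `i∂∂̄ψ ≥ c ω` on an open set. -/

open scoped Manifold Bundle
open Set Metric IsManifold Vale.Agent.P253.Mfd

namespace Vale.Agent.P253.R2.H451

/-- `i∂∂̄ψ ≥ c ω` on the set `S` in the weak sense: `ψ` is continuous, and `ψ - N` is
plurisubharmonic for every function `N` of class `C²` with `i∂∂̄N ≤ c ω` on an open subset `W` of a
holomorphic chart `e` whose points lie in `S` -/
def WeakLevi (E : Type*) [NormedAddCommGroup E] [NormedSpace ℂ E] {M : Type*} [MetricSpace M]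
    [ChartedSpace E M] [Bundle.RiemannianBundle (fun x : M => TangentSpace 𝓘(ℝ, E) x)]
    (ψ c : M → ℝ) (S : Set M) : Prop :=
  Continuous ψ ∧ ∀ e ∈ maximalAtlas 𝓘(ℂ, E) 1 M, ∀ (W : Set E) (N : E → ℝ), IsOpen W →
    W ⊆ e.target → (∀ z ∈ W, e.symm z ∈ S) → ContDiffOn ℝ 2 N W →
    (∀ z ∈ W, ∀ v : E, levi2 N z v ≤ 4 * c (e.symm z) * chartMetric e z v v) →
    ∀ (f : ℂ → M) (a : ℂ) (r : ℝ), 0 < r → ContinuousOn f (closedBall a r) →
      MDifferentiableOn 𝓘(ℂ, ℂ) 𝓘(ℂ, E) f (ball a r) →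
      (∀ z ∈ closedBall a r, f z ∈ e.source ∧ e (f z) ∈ W) →
      ψ (f a) - N (e (f a)) ≤ Real.circleAverage (fun z => ψ (f z) - N (e (f z))) a r

/-- `lam` is continuous, and positive and nonincreasing on `[0, ∞)` -/
def IsDecay (lam : ℝ → ℝ) : Prop :=
  Continuous lam ∧ (∀ t, 0 ≤ t → 0 < lam t) ∧ AntitoneOn lam (Ici 0)

/-- the curvature is positive, or the set `A` is empty -/
def PosOrEmpty (E : Type*) [NormedAddCommGroup E] [NormedSpace ℂ E] {M : Type*} [MetricSpace M]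
    [ChartedSpace E M] [Bundle.RiemannianBundle (fun x : M => TangentSpace 𝓘(ℝ, E) x)]
    (A : Set M) : Prop :=
  (∀ x : M, PosBisectionalAt E x) ∨ A = ∅

end Vale.Agent.P253.R2.H451
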