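import Vale.Agent.P253.R2.H451.Imm2

/-!
P253: norms of multilinear expressions of a linear map with respect to a metric.
-/

open scoped Topology
open Set Metric Filter

set_option maxSynthPendingDepth 3
set_option linter.unusedSectionVars false
set_option linter.unusedVariables false

noncomputable section

namespace Vale.Agent.P253.R2.H451

section lin

variable {E : Type*} [NormedAddCommGroup E] [NormedSpace ℂ E] [FiniteDimensional ℂ E]
  {H : Type*} [NormedAddCommGroup H] [NormedSpace ℂ H]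
  {W : Type*} [NormedAddCommGroup W] [NormedSpace ℂ W] {m : ℕ}

/-- differentiable and homogeneous of degree one in each variable -/
structure HomQ (Q : (Fin m → H) → W) : Prop where
  diff : Differentiable ℂ Q
  smul : ∀ (c : Fin m → ℂ) (y : Fin m → H), Q (fun i => c i • y i) = (∏ i, c i) • Q y

/-- the product of the unit spheres -/
def KS (E : Type*) [NormedAddCommGroup E] (m : ℕ) : Set (Fin m → E) := {v | ∀ i, ‖v i‖ = 1}

theorem isCompact_KS : IsCompact (KS E m) := by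
  have hprop : ProperSpace E := FiniteDimensional.proper ℂ E
  have h : KS E m = Set.pi univ (fun _ => sphere (0 : E) 1) := by
    ext v
    simp [KS, Set.mem_pi]
  rw [h]
  exact isCompact_univ_pi fun _ => isCompact_sphere _ _

theorem nonempty_KS [Nontrivial E] : (KS E m).Nonempty := by
  obtain ⟨v, hv⟩ := exists_norm_eq E zero_le_one
  exact ⟨fun _ => v, fun _ => hv⟩

/-- the quotient -/
def rat (Q : (Fin m → H) → W) (T : E →L[ℂ] H) (G : E →L[ℝ] E →L[ℝ] ℝ) (v : Fin m → E) : ℝ :=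
  ‖Q (fun i => T (v i))‖ / ∏ i, √(G (v i) (v i))

/-- the norm -/
def Sq (Q : (Fin m → H) → W) (T : E →L[ℂ] H) (G : E →L[ℝ] E →L[ℝ] ℝ) : ℝ :=
  sSup (rat Q T G '' KS E m)

variable {Q : (Fin m → H) → W} {T : E →L[ℂ] H} {G : E →L[ℝ] E →L[ℝ] ℝ}

theorem rat_nonneg (v : Fin m → E) : 0 ≤ rat Q T G v := by
  unfold rat; positivity

theorem rat_smul (hQ : HomQ Q) {c : Fin m → ℝ} (hc : ∀ i, 0 < c i) (v : Fin m → E) :
    rat Q T G (fun i => c i • v i) = rat Q T G v := by
  unfold rat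
  have h1 : (fun i => T (c i • v i)) = fun i => ((c i : ℂ)) • T (v i) := by
    funext i
    rw [← Complex.coe_smul, map_smul]
  rw [h1, hQ.smul, norm_smul, norm_prod]
  have h2 : ∀ i, √(G (c i • v i) (c i • v i)) = c i * √(G (v i) (v i)) := by
    intro i
    have e1 : G (c i • v i) (c i • v i) = c i ^ 2 * G (v i) (v i) := by
      simp only [map_smul, smul_apply, smul_eq_mul]
      ring
    rw [e1, Real.sqrt_mul (sq_nonneg _), Real.sqrt_sq (hc i).le]
  simp only [h2]
  rw [Finset.prod_mul_distrib]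
  have h3 : ∏ i, ‖(c i : ℂ)‖ = ∏ i, c i :=
    Finset.prod_congr rfl fun i _ => by
      rw [Complex.norm_real, Real.norm_of_nonneg (hc i).le]
  have h4 : 0 < ∏ i, c i := Finset.prod_pos fun i _ => hc i
  rw [h3, mul_div_mul_left _ _ h4.ne']

theorem continuousOn_rat (hQ : HomQ Q) (hG : ∀ v, v ≠ 0 → 0 < G v v) :
    ContinuousOn (rat Q T G) (KS E m) := by
  have h1 : Continuous fun v : Fin m → E => ‖Q (fun i => T (v i))‖ :=
    (hQ.diff.continuous.comp (continuous_pi fun i => T.continuous.comp (continuous_apply i))).norm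
  have h2 : Continuous fun v : Fin m → E => ∏ i, √(G (v i) (v i)) := by
    refine continuous_finsetProd _ fun i _ => ?_
    have h3 : Continuous fun v : Fin m → E => G (v i) (v i) :=
      (G.continuous.comp (continuous_apply i)).clm_apply (continuous_apply i)
    exact h3.sqrt
  refine h1.continuousOn.div h2.continuousOn fun v hv => ?_
  refine Finset.prod_ne_zero_iff.2 fun i _ => ?_
  have : v i ≠ 0 := fun h0 => by
    have := hv i
    rw [h0, norm_zero] at this
    exact zero_ne_one this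
  exact (Real.sqrt_pos.2 (hG _ this)).ne'

theorem bdd_rat (hQ : HomQ Q) (hG : ∀ v, v ≠ 0 → 0 < G v v) :
    BddAbove (rat Q T G '' KS E m) :=
  (isCompact_KS.image_of_continuousOn (continuousOn_rat hQ hG)).bddAbove

variable [Nontrivial E]

theorem Sq_nonneg (hQ : HomQ Q) (hG : ∀ v, v ≠ 0 → 0 < G v v) : 0 ≤ Sq Q T G := by
  obtain ⟨v, hv⟩ := nonempty_KS (E := E) (m := m)
  exact (rat_nonneg v).trans (le_csSup (bdd_rat hQ hG) ⟨v, hv, rfl⟩)

theorem rat_le_Sq (hQ : HomQ Q) (hG : ∀ v, v ≠ 0 → 0 < G v v) (v : Fin m → E) :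
    rat Q T G v ≤ Sq Q T G := by
  by_cases h : ∀ i, v i ≠ 0
  · have hc : ∀ i, 0 < ‖v i‖⁻¹ := fun i => inv_pos.2 (norm_pos_iff.2 (h i))
    rw [← rat_smul (T := T) (G := G) hQ hc v]
    refine le_csSup (bdd_rat hQ hG) ⟨_, fun i => ?_, rfl⟩
    show ‖‖v i‖⁻¹ • v i‖ = 1
    rw [norm_smul, norm_inv, norm_norm, inv_mul_cancel₀ (norm_ne_zero_iff.2 (h i))]
  · push Not at h
    obtain ⟨i, hi⟩ := h
    have h1 : ∏ j, √(G (v j) (v j)) = 0 :=
      Finset.prod_eq_zero (Finset.mem_univ i) (by rw [hi]; simp)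
    unfold rat
    rw [h1, div_zero]
    exact Sq_nonneg hQ hG

theorem norm_le_Sq (hQ : HomQ Q) (hG : ∀ v, v ≠ 0 → 0 < G v v) (v : Fin m → E) :
    ‖Q (fun i => T (v i))‖ ≤ Sq Q T G * ∏ i, √(G (v i) (v i)) := by
  by_cases h : ∀ i, v i ≠ 0
  · have h1 : 0 < ∏ i, √(G (v i) (v i)) :=
      Finset.prod_pos fun i _ => Real.sqrt_pos.2 (hG _ (h i))
    rw [← div_le_iff₀ h1]
    exact rat_le_Sq hQ hG v
  · push Not at h
    obtain ⟨i, hi⟩ := h
    have h1 : ∏ j, √(G (v j) (v j)) = 0 :=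
      Finset.prod_eq_zero (Finset.mem_univ i) (by rw [hi]; simp)
    have h2 : (fun j => T (v j)) = fun j => (if j = i then (0:ℂ) else 1) • T (v j) := by
      funext j
      by_cases hj : j = i
      · subst hj
        simp [hi]
      · simp [hj]
    rw [h1, h2, hQ.smul, Finset.prod_eq_zero (Finset.mem_univ i) (by simp)]
    simp

theorem exists_max (hQ : HomQ Q) (hG : ∀ v, v ≠ 0 → 0 < G v v) :
    ∃ v : Fin m → E, (∀ i, G (v i) (v i) = 1) ∧ ‖Q (fun i => T (v i))‖ = Sq Q T G := by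
  obtain ⟨v, hv, hmax⟩ := isCompact_KS.exists_sSup_image_eq (nonempty_KS (E := E) (m := m))
    (continuousOn_rat (T := T) hQ hG)
  have hv0 : ∀ i, v i ≠ 0 := fun i h0 => by
    have := hv i
    rw [h0, norm_zero] at this
    exact zero_ne_one this
  have hp : ∀ i, 0 < G (v i) (v i) := fun i => hG _ (hv0 i)
  have hc : ∀ i, 0 < (√(G (v i) (v i)))⁻¹ := fun i => inv_pos.2 (Real.sqrt_pos.2 (hp i))
  have h1 : ∀ i, G ((√(G (v i) (v i)))⁻¹ • v i) ((√(G (v i) (v i)))⁻¹ • v i) = 1 := by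
    intro i
    have e1 : G ((√(G (v i) (v i)))⁻¹ • v i) ((√(G (v i) (v i)))⁻¹ • v i) =
        (√(G (v i) (v i)))⁻¹ ^ 2 * G (v i) (v i) := by
      simp only [map_smul, smul_apply, smul_eq_mul]
      ring
    rw [e1, inv_pow, Real.sq_sqrt (hp i).le, inv_mul_cancel₀ (hp i).ne']
  refine ⟨fun i => (√(G (v i) (v i)))⁻¹ • v i, h1, ?_⟩
  have h2 := rat_smul (T := T) (G := G) hQ hc v
  rw [Sq, hmax, ← h2, rat]
  simp only [h1, Real.sqrt_one, Finset.prod_const_one, div_one]

theorem Sq_le (hQ : HomQ Q) (hG : ∀ v, v ≠ 0 → 0 < G v v) {C : ℝ}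
    (h : ∀ v : Fin m → E, ‖Q (fun i => T (v i))‖ ≤ C * ∏ i, √(G (v i) (v i))) : Sq Q T G ≤ C := by
  obtain ⟨v, hv, hmax⟩ := exists_max (T := T) hQ hG
  rw [← hmax]
  refine (h v).trans (le_of_eq ?_)
  simp only [hv, Real.sqrt_one, Finset.prod_const_one, mul_one]

/-- change of coordinates -/
theorem Sq_comp (hQ : HomQ Q) (hG : ∀ v, v ≠ 0 → 0 < G v v) {T' : E →L[ℂ] H}
    {G' : E →L[ℝ] E →L[ℝ] ℝ} (hG' : ∀ v, v ≠ 0 → 0 < G' v v) {D : E → E}
    (hD : Function.Surjective D)
    (hT : ∀ v, T' (D v) = T v) (hGD : ∀ v, G' (D v) (D v) = G v v) : Sq Q T' G' = Sq Q T G := by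
  refine le_antisymm (Sq_le hQ hG' fun v => ?_) (Sq_le hQ hG fun v => ?_)
  · choose w hw using fun i => hD (v i)
    have h1 := norm_le_Sq (T := T) hQ hG w
    have e1 : (fun i => T (w i)) = fun i => T' (v i) := by
      funext i; rw [← hT, hw]
    have e2 : ∀ i, G (w i) (w i) = G' (v i) (v i) := fun i => by rw [← hGD, hw]
    simp only [e2] at h1
    rwa [e1] at h1
  · have h1 := norm_le_Sq (T := T') hQ hG' fun i => D (v i)
    simp only [hT, hGD] at h1
    exact h1

/-- continuity -/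
theorem continuousAt_Sq (hQ : HomQ Q) (hG : ∀ v, v ≠ 0 → 0 < G v v) :
    ContinuousAt (fun p : (E →L[ℂ] H) × (E →L[ℝ] E →L[ℝ] ℝ) => Sq Q p.1 p.2) (T, G) := by
  have hprop : ProperSpace E := FiniteDimensional.proper ℂ E
  -- lower bound on the sphere
  obtain ⟨δ, hδ, hlow⟩ : ∃ δ > 0, ∀ v : E, ‖v‖ = 1 → 2 * δ ≤ G v v := by
    have hc : Continuous fun v : E => G v v := G.continuous.clm_apply continuous_id
    obtain ⟨v₀, hv₀, hmin⟩ := (isCompact_sphere (0:E) 1).exists_isMinOn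
      (by
        obtain ⟨v, hv⟩ := exists_norm_eq E zero_le_one
        exact ⟨v, by simpa using hv⟩) hc.continuousOn
    have hv₀' : ‖v₀‖ = 1 := by simpa using hv₀
    have h0 : 0 < G v₀ v₀ := hG _ (fun h0 => by
      rw [h0, norm_zero] at hv₀'
      exact zero_ne_one hv₀')
    refine ⟨G v₀ v₀ / 2, by positivity, fun v hv => ?_⟩
    have : G v₀ v₀ ≤ G v v := hmin (by simpa using hv)
    linarith
  set f : (E →L[ℂ] H) × (E →L[ℝ] E →L[ℝ] ℝ) → (Fin m → E) → ℝ := fun p v =>
    ‖Q (fun i => p.1 (v i))‖ / ∏ i, √(max (p.2 (v i) (v i)) δ) with hf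
  have hfc : Continuous (Function.uncurry f) := by
    have h1 : Continuous fun q : ((E →L[ℂ] H) × (E →L[ℝ] E →L[ℝ] ℝ)) × (Fin m → E) =>
        ‖Q (fun i => q.1.1 (q.2 i))‖ :=
      (hQ.diff.continuous.comp (continuous_pi fun i =>
        (continuous_fst.comp continuous_fst).clm_apply
          ((continuous_apply i).comp continuous_snd))).norm
    have h2 : Continuous fun q : ((E →L[ℂ] H) × (E →L[ℝ] E →L[ℝ] ℝ)) × (Fin m → E) =>
        ∏ i, √(max (q.1.2 (q.2 i) (q.2 i)) δ) := by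
      refine continuous_finsetProd _ fun i _ => ?_
      have h3 : Continuous fun q : ((E →L[ℂ] H) × (E →L[ℝ] E →L[ℝ] ℝ)) × (Fin m → E) =>
          q.1.2 (q.2 i) (q.2 i) :=
        ((continuous_snd.comp continuous_fst).clm_apply
          ((continuous_apply i).comp continuous_snd)).clm_apply
            ((continuous_apply i).comp continuous_snd)
      exact (h3.max continuous_const).sqrt
    refine h1.div h2 fun q => ?_
    refine Finset.prod_ne_zero_iff.2 fun i _ => ?_
    exact (Real.sqrt_pos.2 (lt_of_lt_of_le hδ (le_max_right _ _))).ne'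
  have h1 : Continuous fun p => sSup (f p '' KS E m) := isCompact_KS.continuous_sSup hfc
  refine h1.continuousAt.congr ?_
  have h2 : ∀ᶠ p in 𝓝 (T, G), dist p.2 G < δ :=
    (continuous_snd.continuousAt (x := (T, G))).eventually (Metric.ball_mem_nhds _ hδ)
  filter_upwards [h2] with p hp
  unfold Sq
  congr 1
  refine image_congr fun v hv => ?_
  simp only [hf, rat]
  congr 1
  refine Finset.prod_congr rfl fun i _ => ?_
  congr 1
  refine max_eq_left ?_
  have h3 := hlow (v i) (hv i)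
  have h4 : |(p.2 - G) (v i) (v i)| ≤ dist p.2 G := by
    rw [← Real.norm_eq_abs, dist_eq_norm]
    calc ‖(p.2 - G) (v i) (v i)‖ ≤ ‖(p.2 - G) (v i)‖ * ‖v i‖ := ContinuousLinearMap.le_opNorm _ _
      _ ≤ (‖p.2 - G‖ * ‖v i‖) * ‖v i‖ := by
          gcongr
          exact ContinuousLinearMap.le_opNorm _ _
      _ = ‖p.2 - G‖ := by rw [hv i]; ring
  have h5 := (abs_le.1 h4).1
  have h6 : (p.2 - G) (v i) (v i) = p.2 (v i) (v i) - G (v i) (v i) := rfl
  rw [h6] at h5
  linarith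

end lin

end Vale.Agent.P253.R2.H451
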