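import Vale.Agent.P253.R2.H451.Hull1

/-!
P253: four point sums of norms of multilinear expressions of the differential of a holomorphic map.
-/

open scoped ContDiff Topology
open Set Metric Complex Filter Asymptotics

set_option maxSynthPendingDepth 3
set_option linter.unusedSectionVars false
set_option linter.unusedVariables false

noncomputable section

namespace Vale.Agent.P253.R2.H451

open Vale.Agent.P253.Mfd Vale.Agent.P253.Mfd.LocalKahler Vale.Agent.P253.R2.H618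

variable {E : Type*} [NormedAddCommGroup E] [NormedSpace ℂ E] [FiniteDimensional ℂ E]
  {G : E → E →L[ℝ] E →L[ℝ] ℝ} {U : Set E} {z : E}

/-- the metric as a function of the point and the vector -/
def qG (G : E → E →L[ℝ] E →L[ℝ] ℝ) (p : E × E) : ℝ := G p.1 p.2 p.2

theorem hasFDerivAt_qG (h : LocalKahler G U) {p : E × E} (hp : p.1 ∈ U) :
    ∃ T : E × E →L[ℝ] ℝ, HasFDerivAt (qG G) T p ∧ ∀ u b, T (u, b) =
      fderiv ℝ G p.1 u p.2 p.2 + G p.1 b p.2 + G p.1 p.2 b := by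
  have h1 : HasFDerivAt (fun p : E × E => G p.1)
      ((fderiv ℝ G p.1).comp (ContinuousLinearMap.fst ℝ E E)) p :=
    (h.differentiableAt hp).hasFDerivAt.comp p hasFDerivAt_fst
  have h2 := h1.clm_apply (hasFDerivAt_snd (𝕜 := ℝ) (p := p))
  have h3 := h2.clm_apply (hasFDerivAt_snd (𝕜 := ℝ) (p := p))
  refine ⟨_, h3, fun u b => ?_⟩
  simp
  ring

theorem hasFDerivAt_qG1 (h : LocalKahler G U) {p : E × E} (hp : p.1 ∈ U) (u b : E) :
    ∃ T : E × E →L[ℝ] ℝ, HasFDerivAt (fun p : E × E => fderiv ℝ G p.1 u p.2 p.2 + G p.1 b p.2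
        + G p.1 p.2 b) T p ∧ T (u, b) =
      fderiv ℝ (fderiv ℝ G) p.1 u u p.2 p.2 + 4 * fderiv ℝ G p.1 u b p.2 + 2 * G p.1 b b := by
  have h1 : HasFDerivAt (fun p : E × E => G p.1)
      ((fderiv ℝ G p.1).comp (ContinuousLinearMap.fst ℝ E E)) p :=
    (h.differentiableAt hp).hasFDerivAt.comp p hasFDerivAt_fst
  have h1' : HasFDerivAt (fun p : E × E => fderiv ℝ G p.1)
      ((fderiv ℝ (fderiv ℝ G) p.1).comp (ContinuousLinearMap.fst ℝ E E)) p :=
    (h.differentiableAt_fderiv hp).hasFDerivAt.comp p hasFDerivAt_fst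
  have hs := hasFDerivAt_snd (𝕜 := ℝ) (p := p)
  have k1 := ((h1'.clm_apply (hasFDerivAt_const u p)).clm_apply hs).clm_apply hs
  have k2 := (h1.clm_apply (hasFDerivAt_const b p)).clm_apply hs
  have k3 := (h1.clm_apply hs).clm_apply (hasFDerivAt_const b p)
  refine ⟨_, (k1.add k2).add k3, ?_⟩
  have e1 := h.fderiv_symm hp u p.2 b
  simp
  rw [e1]
  ring

theorem contDiffOn_qG (h : LocalKahler G U) : ContDiffOn ℝ 2 (qG G) (U ×ˢ univ) := by
  have h1 : ContDiffOn ℝ 2 (fun p : E × E => G p.1) (U ×ˢ univ) :=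
    (h.smooth.of_le (by simpa using! (WithTop.coe_le_coe.2 le_top : ((2 : ℕ∞) : WithTop ℕ∞) ≤
      ((⊤ : ℕ∞) : WithTop ℕ∞)))).comp contDiff_fst.contDiffOn fun p hp => hp.1
  exact (h1.clm_apply contDiff_snd.contDiffOn).clm_apply contDiff_snd.contDiffOn

theorem fderiv2_qG (h : LocalKahler G U) {p : E × E} (hp : p.1 ∈ U) (u b : E) :
    fderiv ℝ (fderiv ℝ (qG G)) p (u, b) (u, b) =
      fderiv ℝ (fderiv ℝ G) p.1 u u p.2 p.2 + 4 * fderiv ℝ G p.1 u b p.2 + 2 * G p.1 b b := by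
  have hO : IsOpen (U ×ˢ (univ : Set E)) := h.isOpen.prod isOpen_univ
  have hpO : p ∈ U ×ˢ (univ : Set E) := ⟨hp, mem_univ _⟩
  have hd : DifferentiableAt ℝ (fderiv ℝ (qG G)) p :=
    (((contDiffOn_qG h).fderiv_of_isOpen hO (m := 1) (by norm_num)).contDiffAt
      (hO.mem_nhds hpO)).differentiableAt (by simp)
  have h1 : HasFDerivAt (fun y => fderiv ℝ (qG G) y (u, b))
      ((fderiv ℝ (fderiv ℝ (qG G)) p).flip (u, b)) p := by
    have := hd.hasFDerivAt.clm_apply (hasFDerivAt_const (u, b) p)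
    convert! this using 1
    ext x <;> simp
  obtain ⟨T, hT, hT'⟩ := hasFDerivAt_qG1 h hp u b
  have h2 : (fun y => fderiv ℝ (qG G) y (u, b)) =ᶠ[𝓝 p] fun p : E × E =>
      fderiv ℝ G p.1 u p.2 p.2 + G p.1 b p.2 + G p.1 p.2 b := by
    filter_upwards [hO.mem_nhds hpO] with y hy
    obtain ⟨T', h3, h4⟩ := hasFDerivAt_qG h hy.1
    rw [h3.fderiv, h4]
  have h3 := (h1.congr_of_eventuallyEq h2.symm).unique hT
  rw [← hT', ← h3]
  rfl

/-- four point sums of the squared norm of a normal section -/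
theorem four_normal (h : LocalKahler G U) (hz : z ∈ U) (X a : E) (hR : 0 ≤ Rc G z X a)
    {ξ : ℝ → Fin 4 → E} (hξ : IsSmall ξ) {η : ℝ} (hη : 0 < η) :
    ∀ᶠ r in 𝓝[>] (0:ℝ), ∑ k : Fin 4, G (z + (r • (I ^ (k:ℕ) • X) + ξ r k))
      (a + r • (I ^ (k:ℕ) • -chris G z X a)) (a + r • (I ^ (k:ℕ) • -chris G z X a)) ≤
        4 * G z a a + η * r ^ 2 := by
  set B := -chris G z X a with hB
  have hO : IsOpen (U ×ˢ (univ : Set E)) := h.isOpen.prod isOpen_univ
  have hpO : (z, a) ∈ U ×ˢ (univ : Set E) := ⟨hz, mem_univ _⟩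
  have hξ' : IsSmall (fun r k => ((ξ r k, 0) : E × E)) := by
    obtain ⟨hO, ho⟩ := isSmall_iff.1 hξ
    rw [isSmall_iff]
    refine ⟨fun k => ?_, ?_⟩
    · refine (IsBigO.of_norm_left (f' := fun r => ((ξ r k, 0) : E × E)) ?_)
      simpa [Prod.norm_def] using (hO k).norm_left
    · have e1 : (fun r => ∑ k, ((ξ r k, 0) : E × E)) = fun r => (∑ k, ξ r k, 0) := by
        funext r
        ext <;> simp [Prod.fst_sum, Prod.snd_sum]
      rw [e1]
      refine IsLittleO.of_norm_left ?_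
      simpa [Prod.norm_def] using ho.norm_left
  have h1 := (four_taylor hO (contDiffOn_qG h) hpO (X, B) hξ').def hη
  filter_upwards [h1] with r hr
  rw [Real.norm_of_nonneg (show 0 ≤ r ^ 2 by positivity), Real.norm_eq_abs] at hr
  have h2 := (abs_le.1 hr).2
  have e0 : (I : ℂ) • ((X, B) : E × E) = (I • X, I • B) := rfl
  rw [e0, fderiv2_qG h hz X B, fderiv2_qG h hz (I • X) (I • B)] at h2
  have h3 := h.star hz X a B
  have e1 : B + chris G z X a = 0 := by rw [hB]; abel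
  rw [e1, map_zero, mul_zero, zero_sub] at h3
  have e2 : G z (I • B) (I • B) = G z B B := h.herm z hz B B
  simp only [e2] at h2
  have e3 : ∀ k : Fin 4, qG G ((z, a) + (r • (I ^ (k:ℕ) • ((X, B) : E × E)) + (ξ r k, 0))) =
      G (z + (r • (I ^ (k:ℕ) • X) + ξ r k)) (a + r • (I ^ (k:ℕ) • B))
        (a + r • (I ^ (k:ℕ) • B)) := by
    intro k
    simp [qG]
  simp only [e3] at h2
  have e4 : qG G (z, a) = G z a a := rfl
  rw [e4] at h2
  have h5 : r ^ 2 * (fderiv ℝ (fderiv ℝ G) z X X a a + 4 * fderiv ℝ G z X B a + 2 * G z B B +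
      (fderiv ℝ (fderiv ℝ G) z (I • X) (I • X) a a + 4 * fderiv ℝ G z (I • X) (I • B) a
        + 2 * G z B B)) ≤ 0 := by
    refine mul_nonpos_of_nonneg_of_nonpos (by positivity) ?_
    linarith
  linarith

/-- four point sums of the logarithm of the modulus of a holomorphic function -/
theorem four_log {V : Set ℂ} (hV : IsOpen V) {g : ℂ → ℂ} (hg : DifferentiableOn ℂ g V) {z₀ : ℂ}
    (hz : z₀ ∈ V) (h0 : g z₀ ≠ 0) {η : ℝ} (hη : 0 < η) :
    ∀ᶠ r in 𝓝[>] (0:ℝ), 4 * Real.log ‖g z₀‖ - η * r ^ 2 ≤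
      ∑ k : Fin 4, Real.log ‖g (z₀ + r • (I ^ (k:ℕ)))‖ := by
  set V' := V ∩ (fun z => g z / g z₀) ⁻¹' slitPlane with hV'
  have hV'o : IsOpen V' := (hg.continuousOn.div_const _).isOpen_inter_preimage hV isOpen_slitPlane
  have hz' : z₀ ∈ V' := ⟨hz, by
    simp only [mem_preimage, div_self h0]
    exact one_mem_slitPlane⟩
  set l : ℂ → ℂ := fun z => Complex.log (g z / g z₀) with hl
  have hld : DifferentiableOn ℂ l V' := fun z hz =>
    (((hg z hz.1).mono inter_subset_left).div_const _).clog hz.2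
  have h1 := isSmall_mapW (E := ℂ) hV'o hld hz' (1:ℂ) (w := fun _ => 1)
    (fun _ => norm_one) (isSmall_zero (E := ℂ))
  obtain ⟨-, ho⟩ := isSmall_iff.1 h1
  have h2 := ho.def hη
  have h3 : ∀ᶠ r in 𝓝[>] (0:ℝ), ∀ k : Fin 4, z₀ + r • (I ^ (k:ℕ) : ℂ) ∈ V' := by
    apply eventually_all.2
    intro k
    have h2 : Tendsto (fun r : ℝ => z₀ + r • (I ^ (k:ℕ) : ℂ)) (𝓝[>] (0:ℝ)) (𝓝 z₀) := by
      have h3 : Continuous (fun r : ℝ => z₀ + r • (I ^ (k:ℕ) : ℂ)) := by fun_prop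
      have := (h3.tendsto 0).mono_left (nhdsWithin_le_nhds (s := Ioi (0:ℝ)))
      simpa using this
    exact h2.eventually (hV'o.mem_nhds hz')
  have hre : ∀ z ∈ V', (l z).re = Real.log ‖g z‖ - Real.log ‖g z₀‖ := by
    intro z hz
    have h4 : g z ≠ 0 := fun h5 => by
      have := hz.2
      simp only [mem_preimage, h5, zero_div] at this
      exact slitPlane_ne_zero this rfl
    rw [hl, Complex.log_re, norm_div, Real.log_div (norm_ne_zero_iff.2 h4)
      (norm_ne_zero_iff.2 h0)]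
  filter_upwards [h2, h3] with r hr hr3
  rw [Finset.sum_sub_distrib, Finset.sum_sub_distrib, ← Finset.smul_sum,
    Vale.Agent.P253.Mfd.sum_I_pow_smul, smul_zero, sub_zero] at hr
  simp only [smul_I_pow_one, add_zero, Finset.sum_const, Finset.card_univ, Fintype.card_fin,
    nsmul_eq_mul] at hr
  rw [Real.norm_of_nonneg (show 0 ≤ r ^ 2 by positivity)] at hr
  have h4 := (Complex.abs_re_le_norm _).trans hr
  have h5 := (abs_le.1 h4).1
  rw [sub_re, re_sum] at h5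
  have h6 : (((4:ℕ):ℂ) * l z₀).re = 4 * (l z₀).re := by simp
  rw [h6, hre z₀ hz', sub_self, mul_zero, sub_zero] at h5
  have h7 : ∀ k : Fin 4, (l (z₀ + r • (I ^ (k:ℕ)))).re =
      Real.log ‖g (z₀ + r • (I ^ (k:ℕ)))‖ - Real.log ‖g z₀‖ := fun k => hre _ (hr3 k)
  simp only [h7] at h5
  rw [Finset.sum_sub_distrib] at h5
  simp only [Finset.sum_const, Finset.card_univ, Fintype.card_fin, nsmul_eq_mul] at h5
  push_cast at h5
  linarith

end Vale.Agent.P253.R2.H451
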