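import Vale.Agent.P253.R2.H451.Hull2

/-!
P253: the logarithm of the norm of a multilinear expression of the differential of a holomorphic map
is subharmonic along discs.
-/

open scoped ContDiff Topology
open Set Metric Complex Filter Asymptotics

set_option maxSynthPendingDepth 3
set_option linter.unusedSectionVars false
set_option linter.unusedVariables false

noncomputable section

namespace Vale.Agent.P253.R2.H451

open Vale.Agent.P253.Mfd Vale.Agent.P253.Mfd.LocalKahler Vale.Agent.P253.R2.H618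

variable {E : Type*} [NormedAddCommGroup E] [NormedSpace ℂ E] [FiniteDimensional ℂ E]
  [Nontrivial E] {G : E → E →L[ℝ] E →L[ℝ] ℝ} {U : Set E}
  {H : Type*} [NormedAddCommGroup H] [NormedSpace ℂ H]
  {W : Type*} [NormedAddCommGroup W] [NormedSpace ℂ W] {m : ℕ}

theorem four_Sq (h : LocalKahler G U) (hR : ∀ z ∈ U, ∀ X a, 0 ≤ Rc G z X a)
    {Q : (Fin m → H) → W} (hQ : HomQ Q) {T : E → E →L[ℂ] H} (hT : DifferentiableOn ℂ T U)
    {V : Set ℂ} (hV : IsOpen V) {γ : ℂ → E} (hγ : DifferentiableOn ℂ γ V) (hm : MapsTo γ V U)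
    {z₀ : ℂ} (hz₀ : z₀ ∈ V) {s : ℝ} (hs : 0 < s) {η : ℝ} (hη : 0 < η) :
    ∀ᶠ r in 𝓝[>] (0:ℝ), 4 * Real.log (max (Sq Q (T (γ z₀)) (G (γ z₀))) s) - η * r ^ 2 ≤
      ∑ k : Fin 4, Real.log (max (Sq Q (T (γ (z₀ + r • (I ^ (k:ℕ)))))
        (G (γ (z₀ + r • (I ^ (k:ℕ)))))) s) := by
  have hpos : ∀ z ∈ U, ∀ v, v ≠ 0 → 0 < G z v v := h.pos
  rcases le_or_gt (Sq Q (T (γ z₀)) (G (γ z₀))) s with hle | hgt
  · filter_upwards with r
    rw [max_eq_right hle]
    have h1 : ∑ k : Fin 4, Real.log s ≤ ∑ k : Fin 4, Real.log (max (Sq Q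
        (T (γ (z₀ + r • (I ^ (k:ℕ))))) (G (γ (z₀ + r • (I ^ (k:ℕ)))))) s) :=
      Finset.sum_le_sum fun k _ => Real.log_le_log hs (le_max_right _ _)
    simp only [Finset.sum_const, Finset.card_univ, Fintype.card_fin, nsmul_eq_mul] at h1
    push_cast at h1
    have : 0 ≤ η * r ^ 2 := by positivity
    linarith
  set S := Sq Q (T (γ z₀)) (G (γ z₀)) with hS
  have hS0 : 0 < S := hs.trans hgt
  obtain ⟨a, ha, hmax⟩ := exists_max (T := T (γ z₀)) hQ (hpos _ (hm hz₀))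
  have hne : Q (fun i => T (γ z₀) (a i)) ≠ 0 := fun h0 => by
    rw [h0, norm_zero] at hmax
    exact hS0.ne hmax
  obtain ⟨y₀, hy₀, hy₀'⟩ := exists_dual_vector ℂ _ (norm_ne_zero_iff.2 hne)
  set X := fderiv ℝ γ z₀ 1 with hX
  set B : Fin m → E := fun i => -chris G (γ z₀) X (a i) with hB
  set w : ℂ → Fin m → E := fun ζ i => a i + (ζ - z₀) • B i with hw
  set g : ℂ → ℂ := fun ζ => y₀ (Q (fun i => T (γ ζ) (w ζ i))) with hg
  have hgd : DifferentiableOn ℂ g V := by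
    have h1 : DifferentiableOn ℂ (fun ζ => (fun i => T (γ ζ) (w ζ i) : Fin m → H)) V := by
      rw [differentiableOn_pi]
      intro i
      have h2 : DifferentiableOn ℂ (fun ζ => T (γ ζ)) V := hT.comp hγ hm
      have h3 : DifferentiableOn ℂ (fun ζ : ℂ => w ζ i) V := by
        simp only [hw]
        fun_prop
      exact h2.clm_apply h3
    exact y₀.differentiable.comp_differentiableOn (hQ.diff.comp_differentiableOn h1)
  have hwz : w z₀ = a := by
    funext i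
    simp [hw]
  have hg0 : g z₀ = (S : ℂ) := by
    simp only [hg, hwz]
    rw [hy₀', hmax]
    rfl
  have hg0' : g z₀ ≠ 0 := by
    rw [hg0]
    exact_mod_cast hS0.ne'
  -- the four point sums
  have h1 := four_log hV hgd hz₀ hg0' (half_pos hη)
  have hξ := isSmall_map hV hγ hz₀ (1:ℂ) (isSmall_zero (E := ℂ))
  have h2 : ∀ i, ∀ᶠ r in 𝓝[>] (0:ℝ), ∑ k : Fin 4, G (γ (z₀ + r • (I ^ (k:ℕ))))
      (w (z₀ + r • (I ^ (k:ℕ))) i) (w (z₀ + r • (I ^ (k:ℕ))) i) ≤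
        4 + η / (m + 1) * r ^ 2 := by
    intro i
    have h3 := four_normal h (hm hz₀) X (a i) (hR _ (hm hz₀) _ _) hξ
      (show 0 < η / (m + 1) by positivity)
    filter_upwards [h3] with r hr
    rw [ha i, mul_one] at hr
    refine le_trans (le_of_eq (Finset.sum_congr rfl fun k _ => ?_)) hr
    have e1 : γ z₀ + (r • (I ^ (k:ℕ) • X) + (γ (z₀ + (r • (I ^ (k:ℕ) • (1:ℂ)) + 0)) - γ z₀
        - r • (I ^ (k:ℕ) • fderiv ℝ γ z₀ 1))) = γ (z₀ + r • (I ^ (k:ℕ))) := by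
      simp only [smul_eq_mul, mul_one, add_zero]
      abel
    have e2 : a i + r • (I ^ (k:ℕ) • -chris G (γ z₀) X (a i)) =
        w (z₀ + r • (I ^ (k:ℕ))) i := by
      simp only [hw, hB, add_sub_cancel_left]
      rw [smul_assoc]
    rw [e1, e2]
  have h2' := eventually_all.2 h2
  -- the points are in the domain, and the vectors do not vanish
  have h3 : ∀ᶠ r in 𝓝[>] (0:ℝ), ∀ k : Fin 4, z₀ + r • (I ^ (k:ℕ) : ℂ) ∈ V ∧
      g (z₀ + r • (I ^ (k:ℕ) : ℂ)) ≠ 0 ∧ ∀ i, w (z₀ + r • (I ^ (k:ℕ) : ℂ)) i ≠ 0 := by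
    apply eventually_all.2
    intro k
    have h4 : Tendsto (fun r : ℝ => z₀ + r • (I ^ (k:ℕ) : ℂ)) (𝓝[>] (0:ℝ)) (𝓝 z₀) := by
      have h3 : Continuous (fun r : ℝ => z₀ + r • (I ^ (k:ℕ) : ℂ)) := by fun_prop
      have := (h3.tendsto 0).mono_left (nhdsWithin_le_nhds (s := Ioi (0:ℝ)))
      simpa using this
    have h5 : ∀ᶠ ζ in 𝓝 z₀, ζ ∈ V ∧ g ζ ≠ 0 ∧ ∀ i, w ζ i ≠ 0 := by
      refine Filter.Eventually.and (hV.mem_nhds hz₀) (Filter.Eventually.and
        ((hgd.differentiableAt (hV.mem_nhds hz₀)).continuousAt.eventually_ne hg0')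
        (eventually_all.2 fun i => ?_))
      have h6 : ContinuousAt (fun ζ => w ζ i) z₀ := by
        simp only [hw]
        fun_prop
      refine h6.eventually_ne ?_
      rw [hwz]
      intro h0
      have := ha i
      rw [h0, map_zero] at this
      exact zero_ne_one this
    exact h4.eventually h5
  filter_upwards [h1, h2', h3] with r hr1 hr2 hr3
  rw [max_eq_left hgt.le]
  have e1 : ‖g z₀‖ = S := by
    rw [hg0, Complex.norm_real, Real.norm_of_nonneg hS0.le]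
  rw [e1] at hr1
  have h4 : ∀ k : Fin 4, Real.log ‖g (z₀ + r • (I ^ (k:ℕ)))‖ -
      1 / 2 * ∑ i, (G (γ (z₀ + r • (I ^ (k:ℕ)))) (w (z₀ + r • (I ^ (k:ℕ))) i)
        (w (z₀ + r • (I ^ (k:ℕ))) i) - 1) ≤
      Real.log (max (Sq Q (T (γ (z₀ + r • (I ^ (k:ℕ))))) (G (γ (z₀ + r • (I ^ (k:ℕ)))))) s) := by
    intro k
    obtain ⟨hkV, hkg, hkw⟩ := hr3 k
    set ζ := z₀ + r • (I ^ (k:ℕ) : ℂ) with hζ
    have hpk := hpos _ (hm hkV)
    have hp : ∀ i, 0 < G (γ ζ) (w ζ i) (w ζ i) := fun i => hpk _ (hkw i)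
    have h5 := norm_le_Sq (T := T (γ ζ)) hQ hpk (w ζ)
    have h6 : ‖g ζ‖ ≤ ‖Q (fun i => T (γ ζ) (w ζ i))‖ := by
      have := y₀.le_opNorm (Q (fun i => T (γ ζ) (w ζ i)))
      rwa [hy₀, one_mul] at this
    have hP0 : 0 < ∏ i, √(G (γ ζ) (w ζ i) (w ζ i)) :=
      Finset.prod_pos fun i _ => Real.sqrt_pos.2 (hp i)
    have hgp : 0 < ‖g ζ‖ := norm_pos_iff.2 hkg
    have h7 : ‖g ζ‖ ≤ Sq Q (T (γ ζ)) (G (γ ζ)) * ∏ i, √(G (γ ζ) (w ζ i) (w ζ i)) := h6.trans h5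
    have h8 : 0 < Sq Q (T (γ ζ)) (G (γ ζ)) := by
      by_contra hcon
      push Not at hcon
      have := mul_nonpos_of_nonpos_of_nonneg hcon hP0.le
      linarith
    have h9 := Real.log_le_log hgp h7
    rw [Real.log_mul h8.ne' hP0.ne', Real.log_prod (fun i _ =>
      (Real.sqrt_pos.2 (hp i)).ne')] at h9
    have h10 : ∑ i, Real.log √(G (γ ζ) (w ζ i) (w ζ i)) ≤
        1 / 2 * ∑ i, (G (γ ζ) (w ζ i) (w ζ i) - 1) := by
      rw [Finset.mul_sum]
      refine Finset.sum_le_sum fun i _ => ?_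
      rw [Real.log_sqrt (hp i).le]
      have := Real.log_le_sub_one_of_pos (hp i)
      linarith
    have h11 := Real.log_le_log h8 (le_max_left (Sq Q (T (γ ζ)) (G (γ ζ))) s)
    linarith
  refine le_trans ?_ (Finset.sum_le_sum fun k _ => h4 k)
  rw [Finset.sum_sub_distrib, ← Finset.mul_sum, Finset.sum_comm]
  have h5 : ∑ i : Fin m, ∑ k : Fin 4, (G (γ (z₀ + r • (I ^ (k:ℕ)))) (w (z₀ + r • (I ^ (k:ℕ))) i)
        (w (z₀ + r • (I ^ (k:ℕ))) i) - 1) ≤ ∑ i : Fin m, η / (m + 1) * r ^ 2 := by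
    refine Finset.sum_le_sum fun i _ => ?_
    rw [Finset.sum_sub_distrib]
    have := hr2 i
    simp only [Finset.sum_const, Finset.card_univ, Fintype.card_fin, nsmul_eq_mul]
    push_cast
    linarith
  have h6 : ∑ i : Fin m, η / (m + 1) * r ^ 2 ≤ η * r ^ 2 := by
    rw [Finset.sum_const, Finset.card_univ, Fintype.card_fin, nsmul_eq_mul]
    have h7 : (m : ℝ) * (η / (m + 1) * r ^ 2) = (m / (m + 1)) * (η * r ^ 2) := by
      field_simp
    rw [h7]
    have h8 : (m : ℝ) / (m + 1) ≤ 1 := by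
      rw [div_le_one (by positivity)]
      linarith
    have h9 : 0 ≤ η * r ^ 2 := by positivity
    nlinarith
  linarith

theorem continuousWithinAt_Sq (h : LocalKahler G U) {Q : (Fin m → H) → W} (hQ : HomQ Q)
    {T : E → E →L[ℂ] H} (hT : DifferentiableOn ℂ T U) {γ : ℂ → E} {S : Set ℂ} {z : ℂ}
    (hγ : ContinuousWithinAt γ S z) (hz : γ z ∈ U) :
    ContinuousWithinAt (fun z => Sq Q (T (γ z)) (G (γ z))) S z := by
  have h2 : ContinuousAt T (γ z) := (hT.differentiableAt (h.isOpen.mem_nhds hz)).continuousAt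
  have h3 : ContinuousAt G (γ z) := (h.differentiableAt hz).continuousAt
  have h1 : Tendsto (fun z => (T (γ z), G (γ z))) (𝓝[S] z) (𝓝 (T (γ z), G (γ z))) :=
    (h2.tendsto.comp hγ).prodMk_nhds (h3.tendsto.comp hγ)
  have h5 : Tendsto (fun p : (E →L[ℂ] H) × (E →L[ℝ] E →L[ℝ] ℝ) => Sq Q p.1 p.2)
      (𝓝 (T (γ z), G (γ z))) (𝓝 (Sq Q (T (γ z)) (G (γ z)))) :=
    continuousAt_Sq hQ (h.pos _ hz)
  have h6 := h5.comp h1
  exact h6

/-- the sub-mean value inequality -/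
theorem submean_Sq (h : LocalKahler G U) (hR : ∀ z ∈ U, ∀ X a, 0 ≤ Rc G z X a)
    {Q : (Fin m → H) → W} (hQ : HomQ Q) {T : E → E →L[ℂ] H} (hT : DifferentiableOn ℂ T U)
    {c : ℂ} {R : ℝ} (hRpos : 0 < R) {γ : ℂ → E} (hγc : ContinuousOn γ (closedBall c R))
    (hγ : DifferentiableOn ℂ γ (ball c R)) (hm : MapsTo γ (closedBall c R) U)
    {s : ℝ} (hs : 0 < s) :
    Real.log (max (Sq Q (T (γ c)) (G (γ c))) s) ≤
      Real.circleAverage (fun z => Real.log (max (Sq Q (T (γ z)) (G (γ z))) s)) c R := by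
  have hc : ContinuousOn (fun z => Real.log (max (Sq Q (T (γ z)) (G (γ z))) s))
      (closedBall c R) := fun z hz =>
    ((continuousWithinAt_Sq h hQ hT (hγc z hz) (hm hz)).max continuousWithinAt_const).log
      (lt_of_lt_of_le hs (le_max_right _ _)).ne'
  have h4 : ∀ z₀ ∈ ball c R, ∀ η > 0, ∀ᶠ r in 𝓝[>] (0:ℝ),
      4 * Real.log (max (Sq Q (T (γ z₀)) (G (γ z₀))) s) - η * r ^ 2 ≤
      ∑ k : Fin 4, Real.log (max (Sq Q (T (γ (z₀ + r • (I ^ (k:ℕ)))))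
        (G (γ (z₀ + r • (I ^ (k:ℕ)))))) s) := fun z₀ hz₀ η hη =>
    four_Sq h hR hQ hT isOpen_ball hγ (hm.mono_left ball_subset_closedBall) hz₀ hs hη
  generalize hu : (fun z => Real.log (max (Sq Q (T (γ z)) (G (γ z))) s)) = u at hc ⊢
  have hu' : ∀ z, Real.log (max (Sq Q (T (γ z)) (G (γ z))) s) = u z := fun z => by rw [← hu]
  simp only [hu'] at h4 ⊢
  exact four_submean hRpos hc h4

end Vale.Agent.P253.R2.H451
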