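import Vale.Agent.P253.R2.H451.Hull3

/-!
P253: plurisubharmonic functions from the differential of a holomorphic map.
-/

open scoped Manifold ContDiff Topology Bundle
open Set Metric Filter Bundle IsManifold Complex Asymptotics

set_option maxSynthPendingDepth 3
set_option linter.unusedSectionVars false
set_option linter.unusedVariables false

noncomputable section

namespace Vale.Agent.P253.R2.H451

open Vale.Agent.P253.Mfd Vale.Agent.P253.Mfd.LocalKahler Vale.Agent.P253.R2.H618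
  Vale.Agent.P253.R2.H922 Vale.Agent.P253.R2.H380.Stein

section dF

variable {E : Type*} [NormedAddCommGroup E] [NormedSpace ℂ E] [FiniteDimensional ℂ E]
  {M : Type*} [MetricSpace M] [ChartedSpace E M] [IsManifold 𝓘(ℂ, E) 1 M]
  {H : Type*} [NormedAddCommGroup H] [NormedSpace ℂ H] [CompleteSpace H]

/-- the derivative of `F` in the chart `e` -/
def dF (F : M → H) (e : OpenPartialHomeomorph M E) (z : E) : E →L[ℂ] H :=
  fderiv ℂ (fun w => F (e.symm w)) z

theorem differentiableOn_F {F : M → H} (hF : MDifferentiable 𝓘(ℂ, E) 𝓘(ℂ, H) F)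
    {e : OpenPartialHomeomorph M E} (he : e ∈ maximalAtlas 𝓘(ℂ, E) 1 M) :
    DifferentiableOn ℂ (fun w => F (e.symm w)) e.target := by
  intro w hw
  have h1 : MDifferentiableAt 𝓘(ℂ, E) 𝓘(ℂ, E) e.symm w :=
    ((contMDiffOn_symm_of_mem_maximalAtlas he).contMDiffAt
      (e.open_target.mem_nhds hw)).mdifferentiableAt (by simp)
  exact (((hF _).comp w h1).differentiableAt).differentiableWithinAt

theorem differentiableOn_dF {F : M → H} (hF : MDifferentiable 𝓘(ℂ, E) 𝓘(ℂ, H) F)
    {e : OpenPartialHomeomorph M E} (he : e ∈ maximalAtlas 𝓘(ℂ, E) 1 M) :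
    DifferentiableOn ℂ (dF F e) e.target :=
  ((contDiffOn_of_differentiableOn_complex e.open_target (differentiableOn_F hF he)).fderiv_of_isOpen
    e.open_target (m := ∞) (by simp)).differentiableOn (by simp)

/-- change of charts -/
theorem dF_change {F : M → H} (hF : MDifferentiable 𝓘(ℂ, E) 𝓘(ℂ, H) F)
    {e e' : OpenPartialHomeomorph M E} (he : e ∈ maximalAtlas 𝓘(ℂ, E) 1 M)
    (he' : e' ∈ maximalAtlas 𝓘(ℂ, E) 1 M) {x : M} (hx : x ∈ e.source) (hx' : x ∈ e'.source)
    (v : E) : dF F e' (e' x) (fderiv ℝ (e' ∘ e.symm) (e x) v) = dF F e (e x) v := by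
  have hzV : e x ∈ (e.symm ≫ₕ e').source := by simp [hx, hx']
  have hd : DifferentiableAt ℂ (e' ∘ e.symm) (e x) :=
    ((transition_complex he he').contDiffAt
      ((e.symm ≫ₕ e').open_source.mem_nhds hzV)).differentiableAt (by simp)
  have h1 : (fun w => F (e.symm w)) =ᶠ[𝓝 (e x)] (fun w => F (e'.symm w)) ∘ (e' ∘ e.symm) := by
    filter_upwards [(e.symm ≫ₕ e').open_source.mem_nhds hzV] with y hy
    have : e.symm y ∈ e'.source := by simpa using hy.2
    simp [e'.left_inv this]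
  have hpt : (e' ∘ e.symm) (e x) = e' x := by simp [e.left_inv hx]
  have h2 : HasFDerivAt (fun w => F (e'.symm w)) (fderiv ℂ (fun w => F (e'.symm w)) (e' x))
      ((e' ∘ e.symm) (e x)) := by
    rw [hpt]
    exact ((differentiableOn_F hF he').differentiableAt
      (e'.open_target.mem_nhds (e'.map_source hx'))).hasFDerivAt
  have h3 : HasFDerivAt ((fun w => F (e'.symm w)) ∘ (e' ∘ e.symm))
      ((fderiv ℂ (fun w => F (e'.symm w)) (e' x)).comp (fderiv ℂ (e' ∘ e.symm) (e x))) (e x) :=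
    h2.comp (e x) hd.hasFDerivAt
  have h4 : fderiv ℂ (fun w => F (e.symm w)) (e x) =
      (fderiv ℂ (fun w => F (e'.symm w)) (e' x)).comp (fderiv ℂ (e' ∘ e.symm) (e x)) :=
    (h3.congr_of_eventuallyEq h1).fderiv
  have h5 : fderiv ℝ (e' ∘ e.symm) (e x) v = fderiv ℂ (e' ∘ e.symm) (e x) v := by
    have h6 : HasFDerivAt (e' ∘ e.symm) ((fderiv ℂ (e' ∘ e.symm) (e x)).restrictScalars ℝ) (e x) :=
      hd.hasFDerivAt.restrictScalars ℝ
    rw [h6.fderiv]
    rfl
  unfold dF
  rw [h4, h5, ContinuousLinearMap.comp_apply]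

end dF

section Sn

variable {E : Type*} [NormedAddCommGroup E] [NormedSpace ℂ E] [FiniteDimensional ℂ E]
  [Nontrivial E] {M : Type*} [MetricSpace M] [ChartedSpace E M]
  [IsManifold 𝓘(ℂ, E) 1 M] [IsManifold 𝓘(ℝ, E) ∞ M]
  [RiemannianBundle (fun x : M => TangentSpace 𝓘(ℝ, E) x)]
  [IsContMDiffRiemannianBundle 𝓘(ℝ, E) ∞ E (fun x : M => TangentSpace 𝓘(ℝ, E) x)]
  {H : Type*} [NormedAddCommGroup H] [NormedSpace ℂ H] [CompleteSpace H]
  {W : Type*} [NormedAddCommGroup W] [NormedSpace ℂ W] {m : ℕ}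

variable (E) in
/-- the norm of a multilinear expression of the differential -/
def Sn (Q : (Fin m → H) → W) (F : M → H) (x : M) : ℝ :=
  Sq Q (dF F (chartAt E x) (chartAt E x x)) (chartG (chartAt E x) (chartAt E x x))

theorem Sn_eq {Q : (Fin m → H) → W} (hQ : HomQ Q) {F : M → H}
    (hF : MDifferentiable 𝓘(ℂ, E) 𝓘(ℂ, H) F) {e : OpenPartialHomeomorph M E}
    (he : e ∈ maximalAtlas 𝓘(ℂ, E) 1 M) {x : M} (hx : x ∈ e.source) :
    Sn E Q F x = Sq Q (dF F e (e x)) (chartG e (e x)) := by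
  have hc : chartAt E x ∈ maximalAtlas 𝓘(ℂ, E) 1 M := chart_mem_maximalAtlas x
  have hxc : x ∈ (chartAt E x).source := mem_chart_source E x
  have her := mem_maximalAtlas_real he
  have hcr := mem_maximalAtlas_real hc
  have h1 : ∀ v, v ≠ 0 → 0 < chartG e (e x) v v := fun v hv =>
    chartG_pos her (e.map_source hx) v hv
  have h2 : ∀ v, v ≠ 0 → 0 < chartG (chartAt E x) (chartAt E x x) v v := fun v hv =>
    chartG_pos hcr ((chartAt E x).map_source hxc) v hv
  have h3 : ∀ v w, chartG (chartAt E x) (chartAt E x x)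
      (fderiv ℝ (chartAt E x ∘ e.symm) (e x) v) (fderiv ℝ (chartAt E x ∘ e.symm) (e x) w)
      = chartG e (e x) v w := chartG_change he hc hx hxc
  refine Sq_comp hQ h1 h2 (D := fderiv ℝ (chartAt E x ∘ e.symm) (e x)) ?_
    (fun v => dF_change hF he hc hx hxc v) (fun v => h3 v v)
  have hfd : FiniteDimensional ℝ E := FiniteDimensional.complexToReal E
  have hinj : Function.Injective (fderiv ℝ (chartAt E x ∘ e.symm) (e x) : E →ₗ[ℝ] E) := by
    rw [injective_iff_map_eq_zero]
    intro v hv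
    by_contra hne
    have h4 := h1 v hne
    rw [← h3 v v] at h4
    have h5 : fderiv ℝ (chartAt E x ∘ e.symm) (e x) v = 0 := hv
    rw [h5, map_zero] at h4
    exact lt_irrefl _ h4
  exact LinearMap.injective_iff_surjective.1 hinj

theorem continuous_Sn (hK : IsKahler E M) {Q : (Fin m → H) → W} (hQ : HomQ Q) {F : M → H}
    (hF : MDifferentiable 𝓘(ℂ, E) 𝓘(ℂ, H) F) : Continuous (Sn (M := M) E Q F) := by
  rw [continuous_iff_continuousAt]
  intro x
  have he : chartAt E x ∈ maximalAtlas 𝓘(ℂ, E) 1 M := chart_mem_maximalAtlas x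
  have hx : x ∈ (chartAt E x).source := mem_chart_source E x
  set e := chartAt E x with hedef
  have hLK := localKahler_chartG hK he
  have h1 : ContinuousAt (dF F e) (e x) :=
    ((differentiableOn_dF hF he).differentiableAt
      (e.open_target.mem_nhds (e.map_source hx))).continuousAt
  have h2 : ContinuousAt (chartG e) (e x) := (hLK.differentiableAt (e.map_source hx)).continuousAt
  have h3 : Tendsto e (𝓝 x) (𝓝 (e x)) := e.continuousAt hx
  have h4 : Tendsto (fun y => (dF F e (e y), chartG e (e y))) (𝓝 x)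
      (𝓝 (dF F e (e x), chartG e (e x))) := (h1.tendsto.comp h3).prodMk_nhds (h2.tendsto.comp h3)
  have h5 : Tendsto (fun p : (E →L[ℂ] H) × (E →L[ℝ] E →L[ℝ] ℝ) => Sq Q p.1 p.2)
      (𝓝 (dF F e (e x), chartG e (e x))) (𝓝 (Sq Q (dF F e (e x)) (chartG e (e x)))) :=
    continuousAt_Sq hQ (hLK.pos _ (e.map_source hx))
  have h6 := h5.comp h4
  have h7 : Tendsto (Sn E Q F) (𝓝 x) (𝓝 (Sq Q (dF F e (e x)) (chartG e (e x)))) := by
    refine h6.congr' ?_
    filter_upwards [e.open_source.mem_nhds hx] with y hy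
    exact (Sn_eq hQ hF he hy).symm
  rw [← Sn_eq hQ hF he hx] at h7
  exact h7

/-- **`log max (Sn, s)` is plurisubharmonic** -/
theorem contPsh_Sn (hK : IsKahler E M) (hnn : ∀ x : M, NonnegBisectionalAt E x)
    {Q : (Fin m → H) → W} (hQ : HomQ Q) {F : M → H} (hF : MDifferentiable 𝓘(ℂ, E) 𝓘(ℂ, H) F)
    {s : ℝ} (hs : 0 < s) : ContPsh E (fun x : M => Real.log (max (Sn E Q F x) s)) := by
  have hc : Continuous (fun x : M => Real.log (max (Sn E Q F x) s)) :=
    ((continuous_Sn hK hQ hF).max continuous_const).log fun x =>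
      (lt_of_lt_of_le hs (le_max_right _ _)).ne'
  refine ⟨hc, fun f c r hr hf hf' => ?_⟩
  refine four_submean (u := fun z => Real.log (max (Sn E Q F (f z)) s)) hr
    (hc.comp_continuousOn hf) fun z₀ hz₀ η hη => ?_
  have he : chartAt E (f z₀) ∈ maximalAtlas 𝓘(ℂ, E) 1 M := chart_mem_maximalAtlas _
  have hx : f z₀ ∈ (chartAt E (f z₀)).source := mem_chart_source E _
  set e := chartAt E (f z₀) with hedef
  have hLK := localKahler_chartG hK he
  set V : Set ℂ := ball c r ∩ f ⁻¹' e.source with hV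
  have hVo : IsOpen V := hf'.continuousOn.isOpen_inter_preimage isOpen_ball e.open_source
  have hz : z₀ ∈ V := ⟨hz₀, hx⟩
  have hγ : DifferentiableOn ℂ (fun z => e (f z)) V := by
    intro z hz
    have h1 : MDifferentiableAt 𝓘(ℂ, E) 𝓘(ℂ, E) e (f z) :=
      ((contMDiffOn_of_mem_maximalAtlas he).contMDiffAt
        (e.open_source.mem_nhds hz.2)).mdifferentiableAt (by simp)
    have h2 : MDifferentiableAt 𝓘(ℂ, ℂ) 𝓘(ℂ, E) f z :=
      (hf' z hz.1).mdifferentiableAt (isOpen_ball.mem_nhds hz.1)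
    exact (h1.comp z h2).differentiableAt.differentiableWithinAt
  have h1 := four_Sq hLK (fun z hz X a => Rc_nonneg_chartG hK he hz (hnn _) X a) hQ
    (differentiableOn_dF hF he) hVo hγ (fun z hz => e.map_source hz.2) hz hs hη
  have h3 : ∀ᶠ r in 𝓝[>] (0:ℝ), ∀ k : Fin 4, z₀ + r • (I ^ (k:ℕ) : ℂ) ∈ V := by
    apply eventually_all.2
    intro k
    have h2 : Tendsto (fun r : ℝ => z₀ + r • (I ^ (k:ℕ) : ℂ)) (𝓝[>] (0:ℝ)) (𝓝 z₀) := by
      have h3 : Continuous (fun r : ℝ => z₀ + r • (I ^ (k:ℕ) : ℂ)) := by fun_prop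
      have := (h3.tendsto 0).mono_left (nhdsWithin_le_nhds (s := Ioi (0:ℝ)))
      simpa using this
    exact h2.eventually (hVo.mem_nhds hz)
  filter_upwards [h1, h3] with t ht1 ht3
  rw [← Sn_eq hQ hF he hx] at ht1
  refine ht1.trans (le_of_eq (Finset.sum_congr rfl fun k _ => ?_))
  rw [← Sn_eq hQ hF he (ht3 k).2]

end Sn

end Vale.Agent.P253.R2.H451
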