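import Vale.Agent.P253.R2.H451.Hull4

/-!
P253: the smallest singular value, the largest singular value and the determinant.
-/

open scoped ContDiff Topology
open Set Metric Complex Filter Asymptotics

set_option maxSynthPendingDepth 3
set_option linter.unusedSectionVars false
set_option linter.unusedVariables false

noncomputable section

namespace Vale.Agent.P253.R2.H451

open Vale.Agent.P253.Mfd Vale.Agent.P253.Mfd.LocalKahler Vale.Agent.P253.R2.H618

section Q

/-- the identity as a function of one vector -/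
def Q1 {H : Type*} (y : Fin 1 → H) : H := y 0

theorem homQ_Q1 {H : Type*} [NormedAddCommGroup H] [NormedSpace ℂ H] :
    HomQ (Q1 : (Fin 1 → H) → H) := by
  refine ⟨?_, fun c y => ?_⟩
  · exact (ContinuousLinearMap.proj (R := ℂ) (φ := fun _ : Fin 1 => H) 0).differentiable
  · simp [Q1]

/-- the determinant -/
def Qd (n : ℕ) (y : Fin n → EuclideanSpace ℂ (Fin n)) : ℂ :=
  Matrix.det (Matrix.of fun i j => y i j)

theorem homQ_Qd (n : ℕ) : HomQ (Qd n) := by
  refine ⟨?_, fun c y => ?_⟩
  · have h : ContDiff ℂ 1 (Qd n) := by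
      have h1 : (Qd n) = fun y => ∑ σ : Equiv.Perm (Fin n),
          ((Equiv.Perm.sign σ : ℤ) : ℂ) * ∏ i, y (σ i) i := by
        funext y
        rw [Qd, Matrix.det_apply']
        rfl
      rw [h1]
      refine ContDiff.sum fun σ _ => contDiff_const.mul ?_
      refine contDiff_prod fun i _ => ?_
      exact ((EuclideanSpace.proj (𝕜 := ℂ) (ι := Fin n) i).comp
        (ContinuousLinearMap.proj (R := ℂ) (φ := fun _ : Fin n => EuclideanSpace ℂ (Fin n))
          (σ i))).contDiff
    exact h.differentiable (by simp)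
  · have h := Matrix.det_mul_column c (Matrix.of fun i j => y i j)
    rw [smul_eq_mul]
    exact h

theorem norm_Qd_le {n : ℕ} (y : Fin n → EuclideanSpace ℂ (Fin n)) :
    ‖Qd n y‖ ≤ n.factorial * ∏ i, ‖y i‖ := by
  rw [Qd, Matrix.det_apply']
  refine (norm_sum_le _ _).trans ?_
  have h1 : ∀ σ : Equiv.Perm (Fin n), ‖((Equiv.Perm.sign σ : ℤ) : ℂ) *
      ∏ i, (Matrix.of fun i j => y i j) (σ i) i‖ ≤ ∏ i, ‖y i‖ := by
    intro σ
    rw [norm_mul, norm_prod]
    have e1 : ‖((Equiv.Perm.sign σ : ℤ) : ℂ)‖ = 1 := by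
      rcases Int.units_eq_one_or (Equiv.Perm.sign σ) with h | h <;> simp [h]
    rw [e1, one_mul, ← Equiv.prod_comp σ (fun i => ‖y i‖)]
    refine Finset.prod_le_prod (fun i _ => norm_nonneg _) fun i _ => ?_
    exact PiLp.norm_apply_le (y (σ i)) i
  refine (Finset.sum_le_sum fun σ _ => h1 σ).trans (le_of_eq ?_)
  rw [Finset.sum_const, Finset.card_univ, Fintype.card_perm, Fintype.card_fin, nsmul_eq_mul]

end Q

section ineq

variable {E : Type*} [NormedAddCommGroup E] [NormedSpace ℂ E] [FiniteDimensional ℂ E]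
  [Nontrivial E] {G : E → E →L[ℝ] E →L[ℝ] ℝ} {U : Set E} {z : E} {n : ℕ}

theorem one_le_Sq (h : LocalKahler G U) (hz : z ∈ U) (hn : Module.finrank ℂ E = n)
    {T : E →L[ℂ] EuclideanSpace ℂ (Fin n)} (hT : ∀ v, G z v v ≤ ‖T v‖ ^ 2) :
    1 ≤ Sq (Qd n) T (G z) := by
  have hinj : Function.Injective (T : E →ₗ[ℂ] EuclideanSpace ℂ (Fin n)) := by
    rw [injective_iff_map_eq_zero]
    intro v hv
    by_contra hne
    have h1 := h.pos z hz v hne
    have h2 := hT v
    have h3 : T v = 0 := hv
    rw [h3, norm_zero] at h2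
    norm_num at h2
    linarith
  have hsurj : Function.Surjective (T : E →ₗ[ℂ] EuclideanSpace ℂ (Fin n)) :=
    (LinearMap.injective_iff_surjective_of_finrank_eq_finrank (by rw [hn]; simp)).1 hinj
  choose v hv using fun i : Fin n => hsurj (EuclideanSpace.single i (1:ℂ))
  have hv' : ∀ i, T (v i) = EuclideanSpace.single i (1:ℂ) := hv
  have h1 : Qd n (fun i => T (v i)) = 1 := by
    rw [Qd]
    have e1 : (Matrix.of fun i j => T (v i) j) = (1 : Matrix (Fin n) (Fin n) ℂ) := by
      ext i j
      rw [Matrix.of_apply, hv', Matrix.one_apply]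
      simp [eq_comm]
    rw [e1, Matrix.det_one]
  have h2 := norm_le_Sq (T := T) (homQ_Qd n) (h.pos z hz) v
  rw [h1, norm_one] at h2
  have h3 : ∏ i, √(G z (v i) (v i)) ≤ 1 := by
    refine Finset.prod_le_one (fun i _ => Real.sqrt_nonneg _) fun i _ => ?_
    have h4 := hT (v i)
    rw [hv', PiLp.norm_single, norm_one] at h4
    exact Real.sqrt_le_iff.2 ⟨zero_le_one, h4⟩
  have h4 := Sq_nonneg (T := T) (homQ_Qd n) (h.pos z hz)
  calc 1 ≤ Sq (Qd n) T (G z) * ∏ i, √(G z (v i) (v i)) := h2
    _ ≤ Sq (Qd n) T (G z) * 1 := by gcongr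
    _ = _ := mul_one _

theorem sqrt_smul_complex (h : LocalKahler G U) (hz : z ∈ U) (w : ℂ) (v : E) :
    √(G z (w • v) (w • v)) = ‖w‖ * √(G z v v) := by
  rw [G_smul_complex h hz, Real.sqrt_mul (sq_nonneg _), Real.sqrt_sq (norm_nonneg _)]

theorem sqrt_sum_le (h : LocalKahler G U) (hz : z ∈ U) {ι : Type*} (s : Finset ι) (f : ι → E) :
    √(G z (∑ i ∈ s, f i) (∑ i ∈ s, f i)) ≤ ∑ i ∈ s, √(G z (f i) (f i)) := by
  classical
  induction s using Finset.induction_on with
  | empty => simp
  | insert i s hi ih =>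
    rw [Finset.sum_insert hi, Finset.sum_insert hi]
    exact (G_tri h hz _ _).trans (by gcongr)

/-- the smallest singular value is bounded from below by the determinant and the largest singular
value -/
theorem sqrt_mul_Sq_le (h : LocalKahler G U) (hz : z ∈ U) (hn : Module.finrank ℂ E = n)
    (T : E →L[ℂ] EuclideanSpace ℂ (Fin n)) (v : E) :
    √(G z v v) * Sq (Qd n) T (G z) ≤ n * n.factorial * max (Sq Q1 T (G z)) 1 ^ n * ‖T v‖ := by
  classical
  have hpos := h.pos z hz
  set P := max (Sq Q1 T (G z)) 1 with hP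
  have hP1 : 1 ≤ P := le_max_right _ _
  obtain ⟨a, ha, hmax⟩ := exists_max (T := T) (homQ_Qd n) hpos
  set S := Sq (Qd n) T (G z) with hS
  rcases eq_or_ne (Qd n (fun i => T (a i))) 0 with h0 | h0
  · rw [h0, norm_zero] at hmax
    rw [← hmax, mul_zero]
    positivity
  -- the matrix whose columns are the vectors `T (a i)`
  set B : Matrix (Fin n) (Fin n) ℂ := (Matrix.of fun i j => T (a i) j).transpose with hB
  have hdet : B.det = Qd n (fun i => T (a i)) := by
    rw [hB, Matrix.det_transpose, Qd]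
  have hd0 : B.det ≠ 0 := by rw [hdet]; exact h0
  have hcr : ∀ y : EuclideanSpace ℂ (Fin n), ∑ i, B.cramer y i • T (a i) = B.det • y := by
    intro y
    have h1 := Matrix.mulVec_cramer B (y : Fin n → ℂ)
    ext j
    have h2 := congrFun h1 j
    rw [Matrix.mulVec, dotProduct] at h2
    rw [Pi.smul_apply] at h2
    simp only [PiLp.smul_apply]
    rw [← h2]
    have e1 : (∑ i, B.cramer y i • T (a i)) j = ∑ i, (B.cramer y i • T (a i)) j := by
      simp
    rw [e1]
    refine Finset.sum_congr rfl fun i _ => ?_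
    simp only [PiLp.smul_apply, smul_eq_mul]
    rw [hB]
    simp only [Matrix.transpose_apply, Matrix.of_apply]
    ring
  have hsurj : Function.Surjective (T : E →ₗ[ℂ] EuclideanSpace ℂ (Fin n)) := by
    intro y
    refine ⟨B.det⁻¹ • ∑ i, B.cramer y i • a i, ?_⟩
    rw [map_smul, map_sum]
    have e1 : ∑ i, (T : E →ₗ[ℂ] EuclideanSpace ℂ (Fin n)) (B.cramer y i • a i) =
        B.det • y := by
      rw [← hcr y]
      refine Finset.sum_congr rfl fun i _ => ?_
      rw [map_smul]
      rfl
    rw [e1, smul_smul, inv_mul_cancel₀ hd0, one_smul]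
  have hinj : Function.Injective (T : E →ₗ[ℂ] EuclideanSpace ℂ (Fin n)) :=
    (LinearMap.injective_iff_surjective_of_finrank_eq_finrank (by rw [hn]; simp)).2 hsurj
  have hv : B.det • v = ∑ i, B.cramer (T v) i • a i := by
    apply hinj
    have h1 := hcr (T v)
    show T (B.det • v) = T (∑ i, B.cramer (T v) i • a i)
    rw [map_smul, map_sum, ← h1]
    refine Finset.sum_congr rfl fun i _ => ?_
    rw [map_smul]
  have hN : ∀ j, ‖T (a j)‖ ≤ P := by
    intro j
    have h1 := norm_le_Sq (T := T) (homQ_Q1 (H := EuclideanSpace ℂ (Fin n))) hpos (fun _ => a j)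
    simp only [Finset.univ_unique, Finset.prod_singleton, ha j, Real.sqrt_one, mul_one] at h1
    exact h1.trans (le_max_left _ _)
  have hc : ∀ i, ‖B.cramer (T v) i‖ ≤ n.factorial * P ^ n * ‖T v‖ := by
    intro i
    have e1 : B.cramer (T v) i = Qd n (Function.update (fun i => T (a i)) i (T v)) := by
      rw [Matrix.cramer_apply, Qd, ← Matrix.det_transpose]
      congr 1
      ext k l
      rw [Matrix.transpose_apply, Matrix.of_apply, Matrix.updateCol_apply]
      by_cases hk : k = i
      · subst hk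
        simp
      · rw [if_neg hk, Function.update_of_ne hk]
        rfl
    rw [e1]
    refine (norm_Qd_le _).trans ?_
    have e2 : ∏ j, ‖Function.update (fun i => T (a i)) i (T v) j‖ =
        ∏ j, Function.update (fun j => ‖T (a j)‖) i ‖T v‖ j := by
      refine Finset.prod_congr rfl fun j _ => ?_
      by_cases hj : j = i
      · subst hj; simp
      · simp [Function.update_of_ne hj]
    rw [e2, Finset.prod_update_of_mem (Finset.mem_univ i)]
    have e3 : ∏ j ∈ Finset.univ \ {i}, ‖T (a j)‖ ≤ P ^ n := by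
      calc ∏ j ∈ Finset.univ \ {i}, ‖T (a j)‖ ≤ ∏ j ∈ Finset.univ \ {i}, P :=
            Finset.prod_le_prod (fun j _ => norm_nonneg _) fun j _ => hN j
        _ = P ^ (Finset.univ \ {i} : Finset (Fin n)).card := Finset.prod_const _
        _ ≤ P ^ n := by
            refine pow_le_pow_right₀ hP1 ?_
            calc (Finset.univ \ {i} : Finset (Fin n)).card ≤ (Finset.univ : Finset (Fin n)).card :=
                  Finset.card_le_card (Finset.sdiff_subset)
              _ = n := by simp
    calc (n.factorial : ℝ) * (‖T v‖ * ∏ j ∈ Finset.univ \ {i}, ‖T (a j)‖) ≤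
          n.factorial * (‖T v‖ * P ^ n) := by gcongr
      _ = n.factorial * P ^ n * ‖T v‖ := by ring
  have h1 : √(G z (B.det • v) (B.det • v)) = S * √(G z v v) := by
    rw [sqrt_smul_complex h hz, hdet, hmax]
  have h2 : √(G z (B.det • v) (B.det • v)) ≤ ∑ i : Fin n, n.factorial * P ^ n * ‖T v‖ := by
    rw [hv]
    refine (sqrt_sum_le h hz _ _).trans (Finset.sum_le_sum fun i _ => ?_)
    rw [sqrt_smul_complex h hz, ha i, Real.sqrt_one, mul_one]
    exact hc i
  rw [h1, Finset.sum_const, Finset.card_univ, Fintype.card_fin, nsmul_eq_mul] at h2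
  calc √(G z v v) * S = S * √(G z v v) := mul_comm _ _
    _ ≤ _ := h2
    _ = _ := by ring

end ineq

end Vale.Agent.P253.R2.H451
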