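import Mathlib.MeasureTheory.Integral.CircleAverage
import Vale.Agent.P253.Mfd.Defs

/-!
P253: the weak form of `i∂∂̄ψ ≥ ω` and continuous plurisubharmonic functions.
-/

open scoped Manifold ContDiff Topology Bundle
open Set Metric Filter Bundle IsManifold Complex

noncomputable section

namespace Vale.Agent.P253.R2.H451

open Vale.Agent.P253.Mfd

variable {E : Type*} [NormedAddCommGroup E] [NormedSpace ℂ E]
  {M : Type*} [MetricSpace M] [ChartedSpace E M]

variable (E) in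
/-- `φ` is continuous and plurisubharmonic: it satisfies the sub-mean value inequality along all
holomorphic discs of `M` -/
def ContPsh (φ : M → ℝ) : Prop :=
  Continuous φ ∧ ∀ (f : ℂ → M) (c : ℂ) (r : ℝ), 0 < r → ContinuousOn f (closedBall c r) →
    MDifferentiableOn 𝓘(ℂ, ℂ) 𝓘(ℂ, E) f (ball c r) →
    φ (f c) ≤ Real.circleAverage (fun z => φ (f z)) c r

variable [RiemannianBundle (fun x : M => TangentSpace 𝓘(ℝ, E) x)]

/-- four times the complex Hessian -/
def levi2 (q : E → ℝ) (z v : E) : ℝ :=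
  fderiv ℝ (fderiv ℝ q) z v v + fderiv ℝ (fderiv ℝ q) z (I • v) (I • v)

variable (E) in
/-- `i∂∂̄ψ ≥ ω` in the weak sense: `ψ` is continuous, and `ψ - N` is plurisubharmonic for every
function `N` of class `C²` with `i∂∂̄N ≤ ω` on an open subset `W` of a holomorphic chart `e` -/
def WeakLeviGe (ψ : M → ℝ) : Prop :=
  Continuous ψ ∧ ∀ e ∈ maximalAtlas 𝓘(ℂ, E) 1 M, ∀ (W : Set E) (N : E → ℝ), IsOpen W →
    W ⊆ e.target → ContDiffOn ℝ 2 N W →
    (∀ z ∈ W, ∀ v : E, levi2 N z v ≤ 4 * chartMetric e z v v) →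
    ∀ (f : ℂ → M) (c : ℂ) (r : ℝ), 0 < r → ContinuousOn f (closedBall c r) →
      MDifferentiableOn 𝓘(ℂ, ℂ) 𝓘(ℂ, E) f (ball c r) →
      (∀ z ∈ closedBall c r, f z ∈ e.source ∧ e (f z) ∈ W) →
      ψ (f c) - N (e (f c)) ≤ Real.circleAverage (fun z => ψ (f z) - N (e (f z))) c r

end Vale.Agent.P253.R2.H451
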