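import Vale.Agent.P253.R2.H618.Exh6
import Vale.Agent.P253.R2.H451.WeakDefs

/-! P253: the hull of a set with respect to the continuous plurisubharmonic functions, and the size
of the differential of a holomorphic map. -/

open scoped Manifold Bundle

namespace Vale.Agent.P253.R2.H451

variable (E : Type*) [NormedAddCommGroup E] [NormedSpace ℂ E] {M : Type*} [MetricSpace M]
  [ChartedSpace E M]

/-- the hull of `K` with respect to the continuous plurisubharmonic functions on `M` -/
def pshHull (K : Set M) : Set M :=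
  {x | ∀ u : M → ℝ, ContPsh E u → ∀ t : ℝ, (∀ y ∈ K, u y ≤ t) → u x ≤ t}

/-- the map `F` to some `ℂ^n` is holomorphic -/
def IsHolMap {n : ℕ} (F : M → EuclideanSpace ℂ (Fin n)) : Prop :=
  MDifferentiable 𝓘(ℂ, E) 𝓘(ℂ, EuclideanSpace ℂ (Fin n)) F

/-- `|dF(v)|² ≥ c |v|²` for all tangent vectors `v` at `x` -/
def DiffGe [Bundle.RiemannianBundle (fun x : M => TangentSpace 𝓘(ℝ, E) x)]
    {n : ℕ} (F : M → EuclideanSpace ℂ (Fin n)) (x : M) (c : ℝ) : Prop :=
  ∀ v : TangentSpace 𝓘(ℝ, E) x, c * inner ℝ v v ≤ ‖H618.realDiff E F x v‖ ^ 2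

end Vale.Agent.P253.R2.H451
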