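import Vale.Agent.P253.R2.H451.Hull5
import Vale.Agent.P253.R2.H451.HullDefs

/-!
P253: hulls of compact sets for the continuous plurisubharmonic functions.
-/

open scoped Manifold ContDiff Topology Bundle
open Set Metric Filter Bundle IsManifold Complex Asymptotics

set_option maxSynthPendingDepth 3
set_option linter.unusedSectionVars false
set_option linter.unusedVariables false

noncomputable section

namespace Vale.Agent.P253.R2.H451

open Vale.Agent.P253.Mfd Vale.Agent.P253.Mfd.LocalKahler Vale.Agent.P253.R2.H618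
  Vale.Agent.P253.R2.H922 Vale.Agent.P253.R2.H380.Stein

section sub

variable {E : Type*} [NormedAddCommGroup E] [NormedSpace ℂ E]
  {M : Type*} [MetricSpace M] [ChartedSpace E M]

variable (E) in
/-- continuous with the sub-mean value property on discs in `S` -/
def SubS (u : M → ℝ) (S : Set M) : Prop :=
  Continuous u ∧ ∀ (f : ℂ → M) (c : ℂ) (r : ℝ), 0 < r → ContinuousOn f (closedBall c r) →
    MDifferentiableOn 𝓘(ℂ, ℂ) 𝓘(ℂ, E) f (ball c r) → (∀ z ∈ closedBall c r, f z ∈ S) →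
    u (f c) ≤ Real.circleAverage (fun z => u (f z)) c r

theorem ContPsh.subS {u : M → ℝ} (h : ContPsh E u) (S : Set M) : SubS E u S :=
  ⟨h.1, fun f c r hr hf hf' _ => h.2 f c r hr hf hf'⟩

theorem SubS.contPsh {u : M → ℝ} (h : SubS E u univ) : ContPsh E u :=
  ⟨h.1, fun f c r hr hf hf' => h.2 f c r hr hf hf' fun _ _ => mem_univ _⟩

theorem SubS.circleIntegrable {u : M → ℝ} {S : Set M} (h : SubS E u S) {f : ℂ → M} {c : ℂ} {r : ℝ}
    (hr : 0 < r) (hf : ContinuousOn f (closedBall c r)) :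
    CircleIntegrable (fun z => u (f z)) c r :=
  ((h.1.comp_continuousOn hf).mono sphere_subset_closedBall).circleIntegrable hr.le

theorem SubS.add {u w : M → ℝ} {S : Set M} (hu : SubS E u S) (hw : SubS E w S) :
    SubS E (fun x => u x + w x) S := by
  refine ⟨hu.1.add hw.1, fun f c r hr hf hf' hS => ?_⟩
  rw [Real.circleAverage_fun_add (hu.circleIntegrable hr hf) (hw.circleIntegrable hr hf)]
  exact add_le_add (hu.2 f c r hr hf hf' hS) (hw.2 f c r hr hf hf' hS)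

theorem SubS.const_mul {u : M → ℝ} {S : Set M} (hu : SubS E u S) {a : ℝ} (ha : 0 ≤ a) :
    SubS E (fun x => a * u x) S := by
  refine ⟨continuous_const.mul hu.1, fun f c r hr hf hf' hS => ?_⟩
  have e1 : (fun z => a * u (f z)) = fun z => a • u (f z) := rfl
  rw [e1, Real.circleAverage_fun_smul, smul_eq_mul]
  exact mul_le_mul_of_nonneg_left (hu.2 f c r hr hf hf' hS) ha

theorem subS_const (a : ℝ) (S : Set M) : SubS E (fun _ : M => a) S := by
  refine ⟨continuous_const, fun f c r hr hf hf' hS => ?_⟩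
  rw [Real.circleAverage_const]

/-- functions which are touched from below at every point -/
theorem contPsh_of_tangent {ψ : M → ℝ} (hψ : Continuous ψ)
    (h : ∀ y : M, ∃ S : Set M, IsOpen S ∧ y ∈ S ∧ ∃ u : M → ℝ, u y = ψ y ∧
      (∀ x ∈ S, u x ≤ ψ x) ∧ SubS E u S) : ContPsh E ψ := by
  refine ⟨hψ, fun f c r hr hf hf' => ?_⟩
  refine submean_of_local (u := fun z => ψ (f z)) hr (hψ.comp_continuousOn hf) fun z₀ hz₀ => ?_
  obtain ⟨S, hS, hyS, u, huy, hule, hu, hsub⟩ := h (f z₀)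
  have hfc : ContinuousAt f z₀ := hf.continuousAt (closedBall_mem_nhds_of_mem hz₀)
  have h1 : ∀ᶠ z in 𝓝 z₀, f z ∈ S ∧ z ∈ ball c r :=
    (hfc.eventually (hS.mem_nhds hyS)).and (isOpen_ball.mem_nhds hz₀)
  obtain ⟨ρ₀, hρ₀, hball⟩ := Metric.eventually_nhds_iff_ball.1 h1
  have h2 : ∀ᶠ ρ in 𝓝[>] (0:ℝ), ρ < ρ₀ ∧ 0 < ρ :=
    ((eventually_lt_nhds hρ₀).filter_mono nhdsWithin_le_nhds).and self_mem_nhdsWithin
  filter_upwards [h2] with ρ hρ
  have hsubs : ∀ z ∈ closedBall z₀ ρ, f z ∈ S ∧ z ∈ ball c r := fun z hz =>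
    hball z (lt_of_le_of_lt hz hρ.1)
  have hcb : closedBall z₀ ρ ⊆ closedBall c r := fun z hz => ball_subset_closedBall (hsubs z hz).2
  have h3 := hsub f z₀ ρ hρ.2 (hf.mono hcb)
    (hf'.mono fun z hz => (hsubs z (ball_subset_closedBall hz)).2) (fun z hz => (hsubs z hz).1)
  rw [huy] at h3
  refine h3.trans ?_
  have hsph : sphere z₀ ρ ⊆ closedBall z₀ ρ := sphere_subset_closedBall
  refine Real.circleAverage_mono ?_ ?_ fun z hz => ?_
  · exact ((hu.comp_continuousOn hf).mono (hsph.trans hcb)).circleIntegrable hρ.2.le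
  · exact ((hψ.comp_continuousOn hf).mono (hsph.trans hcb)).circleIntegrable hρ.2.le
  · have hz' : z ∈ sphere z₀ ρ := by rwa [abs_of_pos hρ.2] at hz
    exact hule (f z) (hsubs z (hsph hz')).1

end sub

section main

variable {E : Type*} [NormedAddCommGroup E] [NormedSpace ℂ E] [FiniteDimensional ℂ E]
  {M : Type*} [MetricSpace M] [ChartedSpace E M]
  [IsManifold 𝓘(ℂ, E) 1 M] [IsManifold 𝓘(ℝ, E) ∞ M]
  [RiemannianBundle (fun x : M => TangentSpace 𝓘(ℝ, E) x)]

/-- the squared norm of a holomorphic map -/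
theorem fourGe_normsq_chart {H : Type*} [NormedAddCommGroup H] [InnerProductSpace ℂ H]
    [FiniteDimensional ℂ H] {F : M → H} (hF : MDifferentiable 𝓘(ℂ, E) 𝓘(ℂ, H) F) {x : M} {c : ℝ}
    (hc : ∀ e ∈ maximalAtlas 𝓘(ℂ, E) 1 M, x ∈ e.source → ∀ Y,
      c * chartG e (e x) Y Y ≤ ‖dF F e (e x) Y‖ ^ 2) :
    FourGe (E := E) (fun x => ‖F x‖ ^ 2) x c := by
  have hCE : CompleteSpace E := FiniteDimensional.complete ℂ E
  have hCH : CompleteSpace H := FiniteDimensional.complete ℂ H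
  intro e he hx Y a ha η hη
  have hxt := e.map_source hx
  -- the map in the chart
  set τ : E → H := fun z => F (e.symm z) with hτ
  have hτd : DifferentiableOn ℂ τ e.target := differentiableOn_F hF he
  set B : H := fderiv ℝ τ (e x) Y with hB
  have hs : IsSmall (fun (r : ℝ) (k : Fin 4) => τ (e x + (r • (I ^ (k:ℕ) • ((1:ℂ) • Y)) +
      (e (a r k) - e x - r • (I ^ (k:ℕ) • ((1:ℂ) • Y))))) - τ (e x) -
        r • (I ^ (k:ℕ) • ((1:ℂ) • B))) :=
    isSmall_mapW e.open_target hτd hxt Y (w := fun _ => 1) (fun _ => norm_one) ha.2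
  -- comparison of the derivatives
  have hBc : c * chartG e (e x) Y Y ≤ ‖B‖ ^ 2 := by
    have h1 : HasFDerivAt τ ((fderiv ℂ τ (e x)).restrictScalars ℝ) (e x) :=
      (hτd.differentiableAt (e.open_target.mem_nhds hxt)).hasFDerivAt.restrictScalars ℝ
    have h2 : B = dF F e (e x) Y := by
      rw [hB, h1.fderiv]
      rfl
    rw [h2]
    exact hc e he hx Y
  have h7 := (four_normsq (F x) B hs).def hη
  filter_upwards [h7, ha.1] with r hr1 hr2
  have hr0 : 0 ≤ r ^ 2 := by positivity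
  rw [Real.norm_of_nonneg hr0, Real.norm_eq_abs] at hr1
  have h8 := (abs_le.1 hr1).1
  have h9 : ∀ k : Fin 4, F x + (r • (I ^ (k:ℕ) • B) + (τ (e x + (r • (I ^ (k:ℕ) • ((1:ℂ) • Y)) +
      (e (a r k) - e x - r • (I ^ (k:ℕ) • ((1:ℂ) • Y))))) - τ (e x) -
        r • (I ^ (k:ℕ) • ((1:ℂ) • B)))) = F (a r k) := by
    intro k
    have e1 : e x + (r • (I ^ (k:ℕ) • ((1:ℂ) • Y)) +
        (e (a r k) - e x - r • (I ^ (k:ℕ) • ((1:ℂ) • Y)))) = e (a r k) := by abel
    rw [e1, one_smul]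
    simp only [hτ]
    rw [e.left_inv hx, e.left_inv (hr2 k)]
    abel
  simp only [h9] at h8
  have h10 := mul_le_mul_of_nonneg_left hBc hr0
  have e2 : r ^ 2 * (4 * c * chartG e (e x) Y Y - η) =
      4 * (r ^ 2 * (c * chartG e (e x) Y Y)) - η * r ^ 2 := by ring
  rw [e2]
  linarith

/-- the differential in the preferred chart -/
theorem chart_of_realDiff {H : Type*} [NormedAddCommGroup H] [NormedSpace ℂ H]
    [FiniteDimensional ℂ H] {F : M → H} (hF : MDifferentiable 𝓘(ℂ, E) 𝓘(ℂ, H) F) {x : M} {a : ℝ}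
    (h : ∀ v : TangentSpace 𝓘(ℝ, E) x, a * inner ℝ v v ≤ ‖realDiff E F x v‖ ^ 2)
    {e : OpenPartialHomeomorph M E} (he : e ∈ maximalAtlas 𝓘(ℂ, E) 1 M) (hx : x ∈ e.source)
    (Y : E) : a * chartG e (e x) Y Y ≤ ‖dF F e (e x) Y‖ ^ 2 := by
  have hCH : CompleteSpace H := FiniteDimensional.complete ℂ H
  have hxt := e.map_source hx
  set τ : E → H := fun z => F (e.symm z) with hτ
  have hτd : DifferentiableOn ℂ τ e.target := differentiableOn_F hF he
  have h0 : HasFDerivAt τ ((fderiv ℂ τ (e x)).restrictScalars ℝ) (e x) :=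
    (hτd.differentiableAt (e.open_target.mem_nhds hxt)).hasFDerivAt.restrictScalars ℝ
  have h0' : dF F e (e x) Y = fderiv ℝ τ (e x) Y := by
    rw [h0.fderiv]
    rfl
  have her := mem_maximalAtlas_real he
  have h1 : MDifferentiableAt 𝓘(ℝ, E) 𝓘(ℝ, E) e.symm (e x) :=
    ((contMDiffOn_symm_of_mem_maximalAtlas her).contMDiffAt
      (e.open_target.mem_nhds hxt)).mdifferentiableAt (by simp)
  have h2 : MDifferentiableAt 𝓘(ℝ, E) 𝓘(ℝ, H) F (e.symm (e x)) := by
    have h3 := (hF (e.symm (e x))).hasMFDerivAt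
    have h4 : HasMFDerivAt 𝓘(ℝ, E) 𝓘(ℝ, H) F (e.symm (e x))
        ((mfderiv 𝓘(ℂ, E) 𝓘(ℂ, H) F (e.symm (e x)) : E →L[ℂ] H).restrictScalars ℝ :
          E →L[ℝ] H) := ⟨h3.1, h3.2.restrictScalars ℝ⟩
    exact h4.mdifferentiableAt
  have h3 : mfderiv 𝓘(ℝ, E) 𝓘(ℝ, H) τ (e x) = (mfderiv 𝓘(ℝ, E) 𝓘(ℝ, H) F (e.symm (e x))).comp
      (mfderiv 𝓘(ℝ, E) 𝓘(ℝ, E) e.symm (e x)) := mfderiv_comp (e x) h2 h1
  have h4 : fderiv ℝ τ (e x) Y = realDiff E F (e.symm (e x))
      (mfderiv 𝓘(ℝ, E) 𝓘(ℝ, E) e.symm (e x) Y) := by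
    rw [← mfderiv_eq_fderiv, h3]
    rfl
  have h : ∀ v : TangentSpace 𝓘(ℝ, E) (e.symm (e x)),
      a * inner ℝ v v ≤ ‖realDiff E F (e.symm (e x)) v‖ ^ 2 := by
    rw [e.left_inv hx]
    exact h
  have h5 := h (mfderiv 𝓘(ℝ, E) 𝓘(ℝ, E) e.symm (e x) Y)
  rw [h0', h4, chartG_apply]
  exact h5

variable [IsContMDiffRiemannianBundle 𝓘(ℝ, E) ∞ E (fun x : M => TangentSpace 𝓘(ℝ, E) x)]
  [IsRiemannianManifold 𝓘(ℝ, E) M]

/-- functions with nonnegative four point sums -/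
theorem subS_of_fourGe (hK : IsKahler E M) {s : M → ℝ} (hs : Continuous s) {S : Set M}
    (h : ∀ x ∈ S, ∃ b : ℝ, 0 ≤ b ∧ FourGe (E := E) s x b) : SubS E s S :=
  ⟨hs, fun f c r hr hf hf' hS => submean_disc hK hs hr hf hf' fun z hz =>
    h _ (hS z (ball_subset_closedBall hz))⟩

/-- **The main plurisubharmonic function.** -/
theorem contPsh_theta (hK : IsKahler E M) [ProperSpace M]
    (hnn : ∀ x : M, NonnegBisectionalAt E x) {φ χ : M → ℝ} (hφ : ContPsh E φ)
    (hχ : ContPsh E χ) {H : Type*} [NormedAddCommGroup H] [InnerProductSpace ℂ H]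
    [FiniteDimensional ℂ H] {F : M → H} (hF : MDifferentiable 𝓘(ℂ, E) 𝓘(ℂ, H) F)
    (hdom : ∀ x, 0 < χ x → ∀ e ∈ maximalAtlas 𝓘(ℂ, E) 1 M, x ∈ e.source → ∀ Y,
      chartG e (e x) Y Y ≤ Real.exp (2 * φ x) * ‖dF F e (e x) Y‖ ^ 2) (x₀ : M) {μ : ℝ}
    (hμ : 0 ≤ μ) : ContPsh E (fun x => Real.exp (2 * φ x + ‖F x‖ ^ 2 + 1) +
      max (μ * χ x - dist x x₀ ^ 2) 0) := by
  have hFc : Continuous F := hF.continuous
  have hφc := hφ.1
  have hχc := hχ.1
  refine contPsh_of_tangent (by fun_prop) fun y => ?_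
  set t := 2 * φ y + ‖F y‖ ^ 2 + 1 with ht
  have htan : ∀ x, Real.exp t * (2 * φ x + (2 - t)) + Real.exp t * ‖F x‖ ^ 2 ≤
      Real.exp (2 * φ x + ‖F x‖ ^ 2 + 1) := by
    intro x
    have h1 := Real.add_one_le_exp (2 * φ x + ‖F x‖ ^ 2 + 1 - t)
    have h2 : Real.exp (2 * φ x + ‖F x‖ ^ 2 + 1) =
        Real.exp t * Real.exp (2 * φ x + ‖F x‖ ^ 2 + 1 - t) := by
      rw [← Real.exp_add]; congr 1; ring
    rw [h2]
    have h3 := mul_le_mul_of_nonneg_left h1 (Real.exp_pos t).le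
    linarith
  have hw : ∀ S : Set M, SubS E (fun x => Real.exp t * (2 * φ x + (2 - t))) S := fun S =>
    (((hφ.subS S).const_mul zero_le_two).add (subS_const _ S)).const_mul (Real.exp_pos t).le
  have hF0 : ∀ x, FourGe (E := E) (fun x => ‖F x‖ ^ 2) x 0 := fun x =>
    fourGe_normsq_chart hF fun e he hx Y => by rw [zero_mul]; positivity
  rcases le_or_gt (μ * χ y - dist y x₀ ^ 2) 0 with hb | hb
  · refine ⟨univ, isOpen_univ, mem_univ _, fun x => Real.exp t * (2 * φ x + (2 - t)) +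
      Real.exp t * ‖F x‖ ^ 2, ?_, fun x _ => ?_, ?_⟩
    · rw [max_eq_right hb]
      simp only [ht]; ring
    · exact (htan x).trans (le_add_of_nonneg_right (le_max_right _ _))
    · refine (hw univ).add (subS_of_fourGe hK (by fun_prop) fun x _ => ⟨0, le_rfl, ?_⟩)
      have h1 := fourGe_smul (Real.exp_pos t) (hF0 x)
      rwa [mul_zero] at h1
  · set S : Set M := {x | 0 < χ x} ∩ {x | φ x < φ y + 1 / 2} with hS
    have hSo : IsOpen S := (isOpen_lt continuous_const hχc).inter (isOpen_lt hφc continuous_const)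
    have hyS : y ∈ S := by
      refine ⟨?_, by simp⟩
      show 0 < χ y
      by_contra hcon
      push Not at hcon
      have h1 := mul_nonpos_of_nonneg_of_nonpos hμ hcon
      have h2 := sq_nonneg (dist y x₀)
      linarith
    refine ⟨S, hSo, hyS, fun x => (Real.exp t * (2 * φ x + (2 - t)) + μ * χ x) +
      (Real.exp t * ‖F x‖ ^ 2 - 1 * dist x x₀ ^ 2 + 0), ?_, fun x _ => ?_, ?_⟩
    · rw [max_eq_left hb.le]
      simp only [ht]; ring
    · have h1 := htan x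
      have h2 := le_max_left (μ * χ x - dist x x₀ ^ 2) 0
      linarith
    · refine ((hw S).add ((hχ.subS S).const_mul hμ)).add
        (subS_of_fourGe hK (by fun_prop) fun x hx => ?_)
      have h1 : FourGe (E := E) (fun x => ‖F x‖ ^ 2) x (Real.exp (-(2 * φ x))) := by
        refine fourGe_normsq_chart hF fun e he hxe Y => ?_
        have h2 := mul_le_mul_of_nonneg_left (hdom x hx.1 e he hxe Y)
          (Real.exp_pos (-(2 * φ x))).le
        rwa [← mul_assoc, ← Real.exp_add, neg_add_cancel, Real.exp_zero, one_mul] at h2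
      refine ⟨_, ?_, fourGe_sub hK hnn h1 (Real.exp_pos t).le zero_le_one x₀⟩
      have hx' : φ x < φ y + 1 / 2 := hx.2
      rw [← Real.exp_add, sub_nonneg]
      apply Real.one_le_exp
      rw [ht]
      have := sq_nonneg ‖F y‖
      linarith

/-- **Local criterion.** The part of the hull of a compact set on which `χ ≥ ε` is bounded. -/
theorem hull_bdd_of_dom (hK : IsKahler E M) [ProperSpace M]
    (hnn : ∀ x : M, NonnegBisectionalAt E x) {φ χ : M → ℝ} (hφ : ContPsh E φ)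
    (hχ : ContPsh E χ) {H : Type*} [NormedAddCommGroup H] [InnerProductSpace ℂ H]
    [FiniteDimensional ℂ H] {F : M → H} (hF : MDifferentiable 𝓘(ℂ, E) 𝓘(ℂ, H) F)
    (hdom : ∀ x, 0 < χ x → ∀ e ∈ maximalAtlas 𝓘(ℂ, E) 1 M, x ∈ e.source → ∀ Y,
      chartG e (e x) Y Y ≤ Real.exp (2 * φ x) * ‖dF F e (e x) Y‖ ^ 2) {K : Set M}
    (hKc : IsCompact K) (p : M) {ε : ℝ} (hε : 0 < ε) :
    ∃ R : ℝ, ∀ x ∈ pshHull E K, ε ≤ χ x → dist p x ≤ R := by
  have hFc : Continuous F := hF.continuous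
  have hφc := hφ.1
  have hψc : Continuous fun x => Real.exp (2 * φ x + ‖F x‖ ^ 2 + 1) := by fun_prop
  obtain ⟨C₁, hC₁⟩ := (hKc.image hψc).bddAbove
  obtain ⟨C₂, hC₂⟩ := (hKc.image hχ.1).bddAbove
  obtain ⟨D, hD⟩ := (hKc.image (continuous_const.dist continuous_id :
    Continuous fun y => dist p y)).bddAbove
  have h1 : ∀ y ∈ K, Real.exp (2 * φ y + ‖F y‖ ^ 2 + 1) ≤ C₁ := fun y hy =>
    hC₁ (mem_image_of_mem _ hy)
  have h2 : ∀ y ∈ K, χ y ≤ max C₂ 0 := fun y hy =>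
    (hC₂ (mem_image_of_mem _ hy)).trans (le_max_left _ _)
  have h3 : ∀ y ∈ K, dist p y ≤ D := fun y hy => hD (mem_image_of_mem _ hy)
  set C := max C₂ 0 with hC
  have hC0 : 0 ≤ C := le_max_right _ _
  refine ⟨D + (C₁ * (C + 1) / ε + 1), fun x hx hxχ => ?_⟩
  set ρ := max (dist p x - D) 0 with hρ
  have hρ0 : 0 ≤ ρ := le_max_right _ _
  set μ := ρ ^ 2 / (C + 1) with hμ
  have hμ0 : 0 ≤ μ := by positivity
  have hθ := contPsh_theta hK hnn hφ hχ hF hdom x hμ0
  have h4 : ∀ y ∈ K, ρ ≤ dist y x := by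
    intro y hy
    refine max_le ?_ dist_nonneg
    have := dist_triangle p y x
    have := h3 y hy
    linarith
  have h5 := hx _ hθ C₁ fun y hy => by
    have e1 : μ * χ y - dist y x ^ 2 ≤ 0 := by
      have e2 : μ * χ y ≤ μ * C := mul_le_mul_of_nonneg_left (h2 y hy) hμ0
      have e3 : μ * C ≤ ρ ^ 2 := by
        have e4 : μ * C = ρ ^ 2 * (C / (C + 1)) := by rw [hμ]; ring
        have e5 : C / (C + 1) ≤ 1 := by
          rw [div_le_one (by positivity)]
          linarith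
        rw [e4]
        nlinarith [sq_nonneg ρ]
      have e6 : ρ ^ 2 ≤ dist y x ^ 2 := by
        have := h4 y hy
        gcongr
      linarith
    rw [max_eq_right e1, add_zero]
    exact h1 y hy
  rw [dist_self, zero_pow two_ne_zero, sub_zero] at h5
  have h6 := le_max_left (μ * χ x) 0
  have h7 := Real.exp_pos (2 * φ x + ‖F x‖ ^ 2 + 1)
  have h8 : μ * ε ≤ C₁ := by
    have e1 : μ * ε ≤ μ * χ x := mul_le_mul_of_nonneg_left hxχ hμ0
    linarith
  have h9 : ρ ^ 2 ≤ C₁ * (C + 1) / ε := by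
    rw [le_div_iff₀ hε]
    rw [hμ, div_mul_eq_mul_div, div_le_iff₀ (by positivity)] at h8
    exact h8
  have h10 : ρ ≤ ρ ^ 2 + 1 := by nlinarith [sq_nonneg (ρ - 1)]
  have h11 : dist p x - D ≤ ρ := le_max_left _ _
  linarith

end main

end Vale.Agent.P253.R2.H451
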