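import Vale.Agent.P253.R2.H451.Hull6

/-!
P253: the hull of a compact set and holomorphic maps with a lower bound of the differential.
-/

open scoped Manifold ContDiff Topology Bundle
open Set Metric Filter Bundle IsManifold Complex Asymptotics

set_option maxSynthPendingDepth 3
set_option linter.unusedSectionVars false
set_option linter.unusedVariables false

noncomputable section

namespace Vale.Agent.P253.R2.H451

open Vale.Agent.P253.Mfd Vale.Agent.P253.Mfd.LocalKahler Vale.Agent.P253.R2.H618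
  Vale.Agent.P253.R2.H922 Vale.Agent.P253.R2.H380.Stein

section lin

variable {E : Type*} [NormedAddCommGroup E] [NormedSpace ℂ E] [FiniteDimensional ℂ E]

/-- an injective linear map to `ℂ^k` composed with a partial isometry to `ℂ^n` -/
theorem exists_partial {k n : ℕ} (hn : Module.finrank ℂ E = n)
    (T : E →L[ℂ] EuclideanSpace ℂ (Fin k)) (hT : Function.Injective T) :
    ∃ B : EuclideanSpace ℂ (Fin k) →L[ℂ] EuclideanSpace ℂ (Fin n),
      ‖B‖ ≤ 1 ∧ ∀ v, ‖B (T v)‖ = ‖T v‖ := by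
  set R : Submodule ℂ (EuclideanSpace ℂ (Fin k)) :=
    LinearMap.range (T : E →ₗ[ℂ] EuclideanSpace ℂ (Fin k)) with hR
  have hfr : Module.finrank ℂ R = n := by
    rw [hR, LinearMap.finrank_range_of_inj hT, hn]
  set b := (stdOrthonormalBasis ℂ R).reindex (finCongr hfr) with hb
  set B : EuclideanSpace ℂ (Fin k) →L[ℂ] EuclideanSpace ℂ (Fin n) :=
    ((b.repr.toContinuousLinearEquiv : R ≃L[ℂ] EuclideanSpace ℂ (Fin n)) :
      R →L[ℂ] EuclideanSpace ℂ (Fin n)).comp R.orthogonalProjectionOnto with hB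
  have hBn : ∀ y, ‖B y‖ = ‖R.orthogonalProjectionOnto y‖ := fun y =>
    b.repr.norm_map (R.orthogonalProjectionOnto y)
  refine ⟨B, ContinuousLinearMap.opNorm_le_bound _ zero_le_one fun y => ?_, fun v => ?_⟩
  · rw [hBn, one_mul]
    exact R.norm_orthogonalProjectionOnto_apply_le y
  · rw [hBn]
    have h1 : T v ∈ R := ⟨v, rfl⟩
    have h2 := R.orthogonalProjectionOnto_mem_subspace_eq_self ⟨T v, h1⟩
    have h3 : R.orthogonalProjectionOnto (T v) = ⟨T v, h1⟩ := h2
    rw [h3]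
    rfl

end lin

section main

variable {E : Type*} [NormedAddCommGroup E] [NormedSpace ℂ E] [FiniteDimensional ℂ E]
  [Nontrivial E] {M : Type*} [MetricSpace M] [ChartedSpace E M]
  [IsManifold 𝓘(ℂ, E) 1 M] [IsManifold 𝓘(ℝ, E) ∞ M]
  [RiemannianBundle (fun x : M => TangentSpace 𝓘(ℝ, E) x)]

variable (E) in
/-- `|v| ≤ |dF(v)|` at `x` -/
def NonDeg {H : Type*} [NormedAddCommGroup H] [NormedSpace ℂ H] (F : M → H) (x : M) : Prop :=
  ∀ Y, chartG (chartAt E x) (chartAt E x x) Y Y ≤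
    ‖dF F (chartAt E x) (chartAt E x x) Y‖ ^ 2

variable [IsContMDiffRiemannianBundle 𝓘(ℝ, E) ∞ E (fun x : M => TangentSpace 𝓘(ℝ, E) x)]
  [IsRiemannianManifold 𝓘(ℝ, E) M]

theorem hull_bdd_n (hK : IsKahler E M) [ProperSpace M]
    (hnn : ∀ x : M, NonnegBisectionalAt E x) {n : ℕ} (hn : Module.finrank ℂ E = n)
    {F : M → EuclideanSpace ℂ (Fin n)}
    (hF : MDifferentiable 𝓘(ℂ, E) 𝓘(ℂ, EuclideanSpace ℂ (Fin n)) F) {K : Set M}
    (hKc : IsCompact K) (p : M) :
    ∃ R : ℝ, ∀ x ∈ pshHull E K, NonDeg E F x → dist p x ≤ R := by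
  have hn0 : 0 < n := by
    rw [← hn]
    exact Module.finrank_pos
  set a : ℝ := 2 * (n * n.factorial) with ha
  have ha0 : 0 < a := by
    have := Nat.factorial_pos n
    positivity
  set φ : M → ℝ := fun x => Real.log a + n * Real.log (max (Sn E Q1 F x) 1) with hφ
  set χ : M → ℝ := fun x => Real.log (max (Sn E (Qd n) F x) (1 / 2)) + -Real.log (1 / 2) with hχ
  have hφp : ContPsh E φ := SubS.contPsh ((subS_const _ _).add
    (((contPsh_Sn hK hnn homQ_Q1 hF one_pos).subS univ).const_mul (Nat.cast_nonneg n)))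
  have hχp : ContPsh E χ := SubS.contPsh
    (((contPsh_Sn hK hnn (homQ_Qd n) hF (show (0:ℝ) < 1 / 2 by norm_num)).subS univ).add
      (subS_const _ _))
  have hdom : ∀ x, 0 < χ x → ∀ e ∈ maximalAtlas 𝓘(ℂ, E) 1 M, x ∈ e.source → ∀ Y,
      chartG e (e x) Y Y ≤ Real.exp (2 * φ x) * ‖dF F e (e x) Y‖ ^ 2 := by
    intro x hx e he hxe Y
    have hx1 : 1 / 2 < Sn E (Qd n) F x := by
      by_contra hcon
      push Not at hcon
      have h1 : χ x = 0 := by
        simp only [hχ]
        rw [max_eq_right hcon]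
        ring
      rw [h1] at hx
      exact lt_irrefl _ hx
    have hLK := localKahler_chartG hK he
    have hz := e.map_source hxe
    have h1 := sqrt_mul_Sq_le hLK hz hn (dF F e (e x)) Y
    rw [← Sn_eq (homQ_Qd n) hF he hxe, ← Sn_eq homQ_Q1 hF he hxe] at h1
    set P := max (Sn E Q1 F x) 1 with hP
    have hP1 : 1 ≤ P := le_max_right _ _
    have hP0 : 0 < P := one_pos.trans_le hP1
    have hG0 : 0 ≤ chartG e (e x) Y Y := G_nonneg hLK hz Y
    have h2 : √(chartG e (e x) Y Y) ≤ a * P ^ n * ‖dF F e (e x) Y‖ := by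
      have h3 : √(chartG e (e x) Y Y) * (1 / 2) ≤
          √(chartG e (e x) Y Y) * Sn E (Qd n) F x := by gcongr
      have h4 : a * P ^ n * ‖dF F e (e x) Y‖ =
          2 * (n * n.factorial * P ^ n * ‖dF F e (e x) Y‖) := by rw [ha]; ring
      rw [h4]
      linarith
    have h3 : Real.exp (2 * φ x) = (a * P ^ n) ^ 2 := by
      have e1 : φ x = Real.log (a * P ^ n) := by
        rw [Real.log_mul ha0.ne' (pow_pos hP0 n).ne', Real.log_pow]
      rw [e1, two_mul, Real.exp_add, Real.exp_log (by positivity)]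
      ring
    rw [h3, ← mul_pow]
    calc chartG e (e x) Y Y = √(chartG e (e x) Y Y) ^ 2 := (Real.sq_sqrt hG0).symm
      _ ≤ (a * P ^ n * ‖dF F e (e x) Y‖) ^ 2 := by gcongr
  obtain ⟨R, hR⟩ := hull_bdd_of_dom hK hnn hφp hχp hF hdom hKc p
    (ε := Real.log 2) (Real.log_pos one_lt_two)
  refine ⟨R, fun x hx hx' => hR x hx ?_⟩
  have he : chartAt E x ∈ maximalAtlas 𝓘(ℂ, E) 1 M := chart_mem_maximalAtlas x
  have hxc : x ∈ (chartAt E x).source := mem_chart_source E x
  have h1 : 1 ≤ Sn E (Qd n) F x :=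
    one_le_Sq (localKahler_chartG hK he) ((chartAt E x).map_source hxc) hn hx'
  have h2 : (0:ℝ) ≤ Real.log (max (Sn E (Qd n) F x) (1 / 2)) :=
    Real.log_nonneg (h1.trans (le_max_left _ _))
  have h3 : -Real.log (1 / 2) = Real.log 2 := by
    rw [one_div, Real.log_inv, neg_neg]
  show Real.log 2 ≤ Real.log (max (Sn E (Qd n) F x) (1 / 2)) + -Real.log (1 / 2)
  rw [h3]
  linarith

/-- **The hull theorem.** The points of the hull of a compact set at which `|v| ≤ |dF(v)|` form a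
bounded set. -/
theorem hull_bdd (hK : IsKahler E M) [ProperSpace M]
    (hnn : ∀ x : M, NonnegBisectionalAt E x) {k : ℕ} {F : M → EuclideanSpace ℂ (Fin k)}
    (hF : MDifferentiable 𝓘(ℂ, E) 𝓘(ℂ, EuclideanSpace ℂ (Fin k)) F) {K : Set M}
    (hKc : IsCompact K) (p : M) :
    ∃ R : ℝ, ∀ x ∈ pshHull E K, NonDeg E F x → dist p x ≤ R := by
  obtain ⟨n, hn⟩ : ∃ n, Module.finrank ℂ E = n := ⟨_, rfl⟩
  have hprop : ProperSpace (EuclideanSpace ℂ (Fin k) →L[ℂ] EuclideanSpace ℂ (Fin n)) :=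
    FiniteDimensional.proper ℂ _
  obtain ⟨t, -, ht⟩ := (isCompact_closedBall
    (0 : EuclideanSpace ℂ (Fin k) →L[ℂ] EuclideanSpace ℂ (Fin n)) 1).elim_nhds_subcover
    (fun B => ball B (1 / 2)) fun B _ => ball_mem_nhds B (by norm_num)
  have hFB : ∀ B : EuclideanSpace ℂ (Fin k) →L[ℂ] EuclideanSpace ℂ (Fin n),
      MDifferentiable 𝓘(ℂ, E) 𝓘(ℂ, EuclideanSpace ℂ (Fin n)) (fun x => ((2:ℂ) • B) (F x)) :=
    fun B x => (((2:ℂ) • B).differentiableAt.mdifferentiableAt).comp x (hF x)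
  choose R hR using fun B : EuclideanSpace ℂ (Fin k) →L[ℂ] EuclideanSpace ℂ (Fin n) =>
    hull_bdd_n hK hnn hn (hFB B) hKc p
  refine ⟨∑ B ∈ t, |R B|, fun x hx hx' => ?_⟩
  have he : chartAt E x ∈ maximalAtlas 𝓘(ℂ, E) 1 M := chart_mem_maximalAtlas x
  have hxc : x ∈ (chartAt E x).source := mem_chart_source E x
  have hz := (chartAt E x).map_source hxc
  have hLK := localKahler_chartG hK he
  set T := dF F (chartAt E x) (chartAt E x x) with hT
  have hinj : Function.Injective T := by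
    have : Function.Injective (T : E →ₗ[ℂ] EuclideanSpace ℂ (Fin k)) := by
      rw [injective_iff_map_eq_zero]
      intro v hv
      by_contra hne
      have h1 := hLK.pos _ hz v hne
      have h2 := hx' v
      have h3 : T v = 0 := hv
      rw [h3, norm_zero] at h2
      norm_num at h2
      linarith
    exact this
  obtain ⟨B₀, hB₀, hB₀'⟩ := exists_partial hn T hinj
  have h1 : B₀ ∈ ⋃ B ∈ t, ball B (1 / 2) := ht (by simpa using hB₀)
  obtain ⟨B, hB, hBB⟩ := mem_iUnion₂.1 h1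
  have h2 : NonDeg E (fun x => ((2:ℂ) • B) (F x)) x := by
    intro Y
    have h3 : dF (fun x => ((2:ℂ) • B) (F x)) (chartAt E x) (chartAt E x x) =
        ((2:ℂ) • B).comp T := by
      have h4 : HasFDerivAt (fun w => F ((chartAt E x).symm w)) T (chartAt E x x) :=
        ((differentiableOn_F hF he).differentiableAt
          ((chartAt E x).open_target.mem_nhds hz)).hasFDerivAt
      exact (((2:ℂ) • B).hasFDerivAt.comp (chartAt E x x) h4).fderiv
    rw [h3]
    refine (hx' Y).trans ?_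
    have h4 : ‖T Y‖ ≤ ‖(((2:ℂ) • B).comp T) Y‖ := by
      have e1 : (((2:ℂ) • B).comp T) Y = (2:ℂ) • B (T Y) := rfl
      rw [e1, norm_smul]
      have e2 : ‖(2:ℂ)‖ = 2 := by norm_num
      rw [e2]
      have h5 : ‖(B₀ - B) (T Y)‖ ≤ 1 / 2 * ‖T Y‖ := by
        refine ((B₀ - B).le_opNorm _).trans ?_
        have h6 : ‖B₀ - B‖ < 1 / 2 := by
          rw [← dist_eq_norm]
          exact hBB
        gcongr
      have h6 : ‖B₀ (T Y)‖ ≤ ‖(B₀ - B) (T Y)‖ + ‖B (T Y)‖ := by
        have e3 : B₀ (T Y) = (B₀ - B) (T Y) + B (T Y) := by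
          rw [sub_apply, sub_add_cancel]
        rw [e3]
        exact norm_add_le _ _
      rw [hB₀'] at h6
      linarith
    gcongr
  refine (hR B x hx h2).trans ((le_abs_self _).trans ?_)
  exact Finset.single_le_sum (f := fun B => |R B|) (fun B _ => abs_nonneg _) hB

end main

end Vale.Agent.P253.R2.H451
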