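import Vale.Agent.P253.R2.H451.Hull7
import Vale.Agent.P253.R2.H618.Bus

/-!
P253: compact hulls and strictly plurisubharmonic exhaustion functions.
-/

open scoped Manifold ContDiff Topology Bundle
open Set Metric Filter Bundle IsManifold Complex Asymptotics

set_option maxSynthPendingDepth 3
set_option linter.unusedSectionVars false
set_option linter.unusedVariables false

noncomputable section

namespace Vale.Agent.P253.R2.H451

open Vale.Agent.P253.Mfd Vale.Agent.P253.Mfd.LocalKahler Vale.Agent.P253.R2.H618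
  Vale.Agent.P253.R2.H922 Vale.Agent.P253.R2.H380.Stein

section sub

variable {E : Type*} [NormedAddCommGroup E] [NormedSpace ℂ E]
  {M : Type*} [MetricSpace M] [ChartedSpace E M]

theorem SubS.sup {u w : M → ℝ} {S : Set M} (hu : SubS E u S) (hw : SubS E w S) :
    SubS E (fun x => max (u x) (w x)) S := by
  refine ⟨hu.1.max hw.1, fun f c r hr hf hf' hS => ?_⟩
  have hc : Continuous fun x => max (u x) (w x) := hu.1.max hw.1
  have hi : CircleIntegrable (fun z => max (u (f z)) (w (f z))) c r :=
    ((hc.comp_continuousOn hf).mono sphere_subset_closedBall).circleIntegrable hr.le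
  refine max_le ((hu.2 f c r hr hf hf' hS).trans ?_) ((hw.2 f c r hr hf hf' hS).trans ?_)
  · exact Real.circleAverage_mono (hu.circleIntegrable hr hf) hi fun z _ => le_max_left _ _
  · exact Real.circleAverage_mono (hw.circleIntegrable hr hf) hi fun z _ => le_max_right _ _

theorem SubS.sum {ι : Type*} {u : ι → M → ℝ} {S : Set M} (s : Finset ι)
    (hu : ∀ i ∈ s, SubS E (u i) S) : SubS E (fun x => ∑ i ∈ s, u i x) S := by
  classical
  induction s using Finset.induction_on with
  | empty => simpa using subS_const (E := E) (0:ℝ) S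
  | insert i s hi ih =>
    simp only [Finset.sum_insert hi]
    exact (hu i (Finset.mem_insert_self i s)).add (ih fun j hj => hu j (Finset.mem_insert_of_mem hj))

/-- a function that vanishes on `K` and is large on the compact set `C` -/
theorem exists_sep {K C : Set M} (hC : IsCompact C) (hd : ∀ x ∈ C, x ∉ pshHull E K) (A : ℝ) :
    ∃ w : M → ℝ, ContPsh E w ∧ (∀ x, 0 ≤ w x) ∧ (∀ x ∈ K, w x = 0) ∧ ∀ x ∈ C, A ≤ w x := by
  -- the local functions
  have h1 : ∀ x ∈ C, ∃ w : M → ℝ, ContPsh E w ∧ (∀ x, 0 ≤ w x) ∧ (∀ x ∈ K, w x = 0) ∧ 0 < w x := by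
    intro x hx
    have h2 := hd x hx
    simp only [pshHull, mem_ofPred_eq, not_forall, not_le] at h2
    obtain ⟨u, hu, t, ht, hux⟩ := h2
    refine ⟨fun y => max (u y + -t) 0, ?_, fun y => le_max_right _ _, fun y hy => ?_, ?_⟩
    · exact SubS.contPsh (((hu.subS univ).add (subS_const _ _)).sup (subS_const _ _))
    · have := ht y hy
      exact max_eq_right (by linarith)
    · exact lt_max_of_lt_left (by linarith)
  choose! w hw using h1
  obtain ⟨t, htC, ht⟩ := hC.elim_nhds_subcover (fun x => {y | 0 < w x y}) fun x hx =>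
    (isOpen_lt continuous_const (hw x hx).1.1).mem_nhds (hw x hx).2.2.2
  set W : M → ℝ := fun y => ∑ x ∈ t, w x y with hW
  have hWp : SubS E W univ := SubS.sum t fun x hx => (hw x (htC x hx)).1.subS univ
  have hW0 : ∀ y, 0 ≤ W y := fun y => Finset.sum_nonneg fun x hx => (hw x (htC x hx)).2.1 y
  have hWK : ∀ y ∈ K, W y = 0 := fun y hy =>
    Finset.sum_eq_zero fun x hx => (hw x (htC x hx)).2.2.1 y hy
  have hWC : ∀ y ∈ C, 0 < W y := by
    intro y hy
    obtain ⟨x, hx, hxy⟩ := mem_iUnion₂.1 (ht hy)
    exact lt_of_lt_of_le hxy (Finset.single_le_sum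
      (fun x hx => (hw x (htC x hx)).2.1 y) hx)
  rcases C.eq_empty_or_nonempty with hCe | hCne
  · exact ⟨W, hWp.contPsh, hW0, hWK, fun x hx => by rw [hCe] at hx; exact hx.elim⟩
  obtain ⟨y₀, hy₀, hmin⟩ := hC.exists_isMinOn hCne hWp.1.continuousOn
  have hδ : 0 < W y₀ := hWC y₀ hy₀
  refine ⟨fun x => |A| / W y₀ * W x, (hWp.const_mul (by positivity)).contPsh, fun x => ?_,
    fun x hx => ?_, fun x hx => ?_⟩
  · exact mul_nonneg (by positivity) (hW0 x)
  · show |A| / W y₀ * W x = 0
    rw [hWK x hx, mul_zero]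
  · have h2 : W y₀ ≤ W x := hmin hx
    calc A ≤ |A| := le_abs_self A
      _ = |A| / W y₀ * W y₀ := by field_simp
      _ ≤ |A| / W y₀ * W x := by gcongr

end sub

section main

variable {E : Type*} [NormedAddCommGroup E] [NormedSpace ℂ E] [FiniteDimensional ℂ E]
  {M : Type*} [MetricSpace M] [ChartedSpace E M] [ProperSpace M]

/-- **Compact hulls give strictly plurisubharmonic exhaustion functions.** -/
theorem exhaustion_of_hull (p : M) (hh : ∀ K : Set M, IsCompact K → ∃ R : ℝ, ∀ x ∈ pshHull E K,
      dist p x ≤ R) {b : M → ℝ} (hb : ContPsh E b)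
    (hstr : ∀ y : M, ∃ e ∈ maximalAtlas 𝓘(ℂ, E) 1 M, y ∈ e.source ∧
      ∃ (n : ℕ) (L : E ≃L[ℂ] EuclideanSpace ℂ (Fin n)) (ε : ℝ), 0 < ε ∧
        ∀ (f : ℂ → M) (c : ℂ) (r : ℝ), 0 < r → ContinuousOn f (closedBall c r) →
          MDifferentiableOn 𝓘(ℂ, ℂ) 𝓘(ℂ, E) f (ball c r) →
          (∀ z ∈ closedBall c r, f z ∈ e.source) →
          b (f c) - ε * ‖L (e (f c))‖ ^ 2 ≤
            Real.circleAverage (fun z => b (f z) - ε * ‖L (e (f z))‖ ^ 2) c r) :
    HasSpshExhaustion E M := by
  choose R hR using fun ρ : ℝ => hh (closedBall p ρ) (isCompact_closedBall p ρ)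
  -- the radii
  set ρ : ℕ → ℝ := fun j => Nat.rec (0:ℝ) (fun _ s => max (R s) s + 1) j with hρ
  have hρs : ∀ j, ρ (j + 1) = max (R (ρ j)) (ρ j) + 1 := fun j => rfl
  have hρ1 : ∀ j, ρ j + 1 ≤ ρ (j + 1) := fun j => by
    rw [hρs]
    have := le_max_right (R (ρ j)) (ρ j)
    linarith
  have hρR : ∀ j, R (ρ j) < ρ (j + 1) := fun j => by
    rw [hρs]
    have := le_max_left (R (ρ j)) (ρ j)
    linarith
  have hρn : ∀ j : ℕ, (j : ℝ) ≤ ρ j := by
    intro j
    induction j with
    | zero => simp [hρ]
    | succ j ih =>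
      have := hρ1 j
      push_cast
      linarith
  have hρm : Monotone ρ := monotone_nat_of_le_succ fun j => by
    have := hρ1 j
    linarith
  -- the shells
  set C : ℕ → Set M := fun j => {x | ρ (j + 1) ≤ dist p x ∧ dist p x ≤ ρ (j + 2)} with hC
  have hCc : ∀ j, IsCompact (C j) := by
    intro j
    refine (isCompact_closedBall p (ρ (j + 2))).of_isClosed_subset ?_ fun x hx => ?_
    · have hd : Continuous fun x => dist p x := continuous_const.dist continuous_id
      exact (isClosed_le continuous_const hd).inter (isClosed_le hd continuous_const)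
    · rw [mem_closedBall']
      exact hx.2
  have hCh : ∀ j, ∀ x ∈ C j, x ∉ pshHull E (closedBall p (ρ j)) := by
    intro j x hx hx'
    have h1 := hR (ρ j) x hx'
    have h2 := hρR j
    have h3 := hx.1
    linarith
  have hB : ∀ j, ∃ B : ℝ, ∀ x ∈ C j, -b x ≤ B := by
    intro j
    obtain ⟨B, hB⟩ := ((hCc j).image (hb.1.neg)).bddAbove
    exact ⟨B, fun x hx => hB (mem_image_of_mem _ hx)⟩
  choose B hB using hB
  choose w hwp hw0 hwK hwC using fun j => exists_sep (hCc j) (hCh j) (j + B j)
  -- the sum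
  set V : M → ℝ := fun x => ∑' i, w i x with hV
  have hVeq : ∀ j, ∀ x ∈ closedBall p (ρ j), V x = ∑ i ∈ Finset.range j, w i x := by
    intro j x hx
    refine tsum_eq_sum fun i hi => ?_
    rw [Finset.mem_range, not_lt] at hi
    exact hwK i x (closedBall_subset_closedBall (hρm hi) hx)
  have hVc : Continuous V := by
    rw [continuous_iff_continuousAt]
    intro x
    obtain ⟨j, hj⟩ := exists_nat_gt (dist x p)
    have h1 : Continuous fun x => ∑ i ∈ Finset.range j, w i x :=
      continuous_finsetSum _ fun i _ => (hwp i).1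
    refine h1.continuousAt.congr ?_
    have h2 : x ∈ ball p (j : ℝ) := hj
    filter_upwards [isOpen_ball.mem_nhds h2] with y hy
    refine (hVeq j y ?_).symm
    have : dist y p < j := hy
    rw [mem_closedBall]
    linarith [hρn j]
  have hVs : ∀ (f : ℂ → M) (c : ℂ) (r : ℝ), 0 < r → ContinuousOn f (closedBall c r) →
      MDifferentiableOn 𝓘(ℂ, ℂ) 𝓘(ℂ, E) f (ball c r) →
      V (f c) ≤ Real.circleAverage (fun z => V (f z)) c r := by
    intro f c r hr hf hf'
    have h1 : IsCompact (f '' closedBall c r) := (isCompact_closedBall c r).image_of_continuousOn hf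
    obtain ⟨D, hD⟩ := (h1.image (by fun_prop : Continuous fun y => dist y p)).bddAbove
    obtain ⟨j, hj⟩ := exists_nat_gt D
    have h2 : ∀ z ∈ closedBall c r, f z ∈ closedBall p (ρ j) := by
      intro z hz
      have h3 : dist (f z) p ≤ D := hD ⟨f z, mem_image_of_mem f hz, rfl⟩
      rw [mem_closedBall]
      linarith [hρn j]
    have h3 : SubS E (fun x => ∑ i ∈ Finset.range j, w i x) univ :=
      SubS.sum _ fun i _ => (hwp i).subS univ
    have h4 := h3.2 f c r hr hf hf' fun _ _ => mem_univ _
    rw [hVeq j (f c) (h2 c (mem_closedBall_self hr.le))]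
    refine h4.trans (le_of_eq ?_)
    refine Real.circleAverage_congr_sphere fun z hz => ?_
    have hz' : z ∈ sphere c r := by rwa [abs_of_pos hr] at hz
    exact (hVeq j (f z) (h2 z (sphere_subset_closedBall hz'))).symm
  have hcont : Continuous fun x => b x + V x := hb.1.add hVc
  have hV0 : ∀ i x, w i x ≤ V x := by
    intro i x
    obtain ⟨j, hj⟩ := exists_nat_gt (max (dist x p) i)
    have hx : x ∈ closedBall p (ρ j) := by
      rw [mem_closedBall]
      have := le_max_left (dist x p) (i:ℝ)
      linarith [hρn j]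
    rw [hVeq j x hx]
    refine Finset.single_le_sum (fun k _ => hw0 k x) (Finset.mem_range.2 ?_)
    have := le_max_right (dist x p) (i:ℝ)
    exact_mod_cast lt_of_le_of_lt this hj
  refine ⟨fun x => b x + V x, hcont, fun t => ?_, fun x₀ => ?_⟩
  · -- compact sublevel sets
    obtain ⟨j, hj⟩ := exists_nat_gt t
    refine (isCompact_closedBall p (ρ (j + 1))).of_isClosed_subset
      (isClosed_le hcont continuous_const) fun x hx => ?_
    rw [mem_closedBall']
    by_contra hcon
    push Not at hcon
    -- the shell of `x`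
    have h1 : ∃ i, dist p x ≤ ρ (i + 2) := by
      obtain ⟨i, hi⟩ := exists_nat_gt (dist p x)
      refine ⟨i, ?_⟩
      have h2 := hρn i
      have h3 := hρm (show i ≤ i + 2 by omega)
      linarith
    classical
    set i := Nat.find h1 with hi
    have h2 : dist p x ≤ ρ (i + 2) := Nat.find_spec h1
    have h3 : j ≤ i := by
      by_contra h4
      push Not at h4
      have h5 := hρm (show i + 2 ≤ j + 1 by omega)
      linarith
    have h4 : ρ (i + 1) ≤ dist p x := by
      rcases Nat.eq_zero_or_pos i with h0 | h0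
      · have h5 : j = 0 := by omega
        rw [h0]
        rw [h5] at hcon
        exact hcon.le
      · have h5 := Nat.find_min h1 (m := i - 1) (by omega)
        push Not at h5
        have h6 : i - 1 + 2 = i + 1 := by omega
        rw [h6] at h5
        exact h5.le
    have h5 := hwC i x ⟨h4, h2⟩
    have h6 := hB i x ⟨h4, h2⟩
    have h7 := hV0 i x
    have h8 : b x + V x ≤ t := hx
    have h9 : (j : ℝ) ≤ i := by exact_mod_cast h3
    linarith
  · obtain ⟨e, he, hx, n, L, ε, hε, hs⟩ := hstr x₀
    refine ⟨e, he, hx, n, L, ε, hε, fun f c r hr hf hf' hfe => ?_⟩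
    have h1 := hs f c r hr hf hf' hfe
    have h2 := hVs f c r hr hf hf'
    have hef : ContinuousOn (fun z => e (f z)) (closedBall c r) :=
      e.continuousOn.comp hf (fun z hz => hfe z hz)
    have hsph : sphere c r ⊆ closedBall c r := sphere_subset_closedBall
    have i1 : CircleIntegrable (fun z => b (f z) - ε * ‖L (e (f z))‖ ^ 2) c r :=
      (((hb.1.comp_continuousOn hf).sub (continuousOn_const.mul
        ((L.continuous.comp_continuousOn hef).norm.pow 2))).mono hsph).circleIntegrable hr.le
    have i2 : CircleIntegrable (fun z => V (f z)) c r :=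
      ((hVc.comp_continuousOn hf).mono hsph).circleIntegrable hr.le
    have h3 := add_le_add h1 h2
    rw [← Real.circleAverage_fun_add i1 i2] at h3
    have e1 : (fun z => b (f z) + V (f z) - ε * ‖L (e (f z))‖ ^ 2) = fun z =>
        b (f z) - ε * ‖L (e (f z))‖ ^ 2 + V (f z) := by
      funext z; ring
    show b (f c) + V (f c) - ε * ‖L (e (f c))‖ ^ 2 ≤
      Real.circleAverage (fun z => b (f z) + V (f z) - ε * ‖L (e (f z))‖ ^ 2) c r
    rw [e1]
    linarith

end main

end Vale.Agent.P253.R2.H451
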