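import Vale.Agent.P253.R2.H451.Hull8

/-!
P253: either `M` is Stein or all holomorphic maps to complex Euclidean spaces degenerate along a
sequence in the hull of a compact set.
-/

open scoped Manifold ContDiff Topology Bundle
open Set Metric Filter Bundle IsManifold Complex Asymptotics

set_option maxSynthPendingDepth 3
set_option linter.unusedSectionVars false
set_option linter.unusedVariables false

noncomputable section

namespace Vale.Agent.P253.R2.H451

open Vale.Agent.P253.Mfd Vale.Agent.P253.Mfd.LocalKahler Vale.Agent.P253.R2.H618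
  Vale.Agent.P253.R2.H922 Vale.Agent.P253.R2.H380.Stein

variable {E : Type*} [NormedAddCommGroup E] [NormedSpace ℂ E] [FiniteDimensional ℂ E]
  {M : Type*} [MetricSpace M] [ChartedSpace E M]

theorem nontrivial_model (E : Type*) [NormedAddCommGroup E] [NormedSpace ℂ E]
    (M : Type*) [MetricSpace M] [ChartedSpace E M] [ConnectedSpace M] [NoncompactSpace M] :
    Nontrivial E := by
  by_contra hcon
  rw [not_nontrivial_iff_subsingleton] at hcon
  have h1 : DiscreteTopology M := by
    rw [discreteTopology_iff_isOpen_singleton]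
    intro x
    have h2 : ({x} : Set M) = (chartAt E x).source := by
      refine Subset.antisymm (singleton_subset_iff.2 (mem_chart_source E x)) fun y hy => ?_
      exact (chartAt E x).injOn hy (mem_chart_source E x) (Subsingleton.elim _ _)
    rw [h2]
    exact (chartAt E x).open_source
  have h2 : Subsingleton M := PreconnectedSpace.trivial_of_discrete
  have h3 : Finite M := inferInstance
  exact noncompact_univ M isCompact_univ

variable [IsManifold 𝓘(ℂ, E) 1 M] [IsManifold 𝓘(ℝ, E) ∞ M]
  [RiemannianBundle (fun x : M => TangentSpace 𝓘(ℝ, E) x)]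
  [IsContMDiffRiemannianBundle 𝓘(ℝ, E) ∞ E (fun x : M => TangentSpace 𝓘(ℝ, E) x)]
  [IsRiemannianManifold 𝓘(ℝ, E) M]

/-- **The hull theorem.** -/
theorem hull_isBounded (hK : IsKahler E M) [CompleteSpace M] [ConnectedSpace M]
    [NoncompactSpace M] (hnn : ∀ x : M, NonnegBisectionalAt E x) {K : Set M} (hKc : IsCompact K)
    {k : ℕ} {F : M → EuclideanSpace ℂ (Fin k)}
    (hF : MDifferentiable 𝓘(ℂ, E) 𝓘(ℂ, EuclideanSpace ℂ (Fin k)) F) {ε : ℝ} (hε : 0 < ε) :
    Bornology.IsBounded {x : M | x ∈ pshHull E K ∧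
      ∀ v : TangentSpace 𝓘(ℝ, E) x, ε * inner ℝ v v ≤ ‖realDiff E F x v‖ ^ 2} := by
  have hprop : ProperSpace M := properSpace_riemannian E M
  have hnt : Nontrivial E := nontrivial_model E M
  obtain ⟨p⟩ := (inferInstance : Nonempty M)
  set c : ℂ := (((√ε)⁻¹ : ℝ) : ℂ) with hc
  have hs : 0 < √ε := Real.sqrt_pos.2 hε
  have hcn : ‖c‖ ^ 2 = ε⁻¹ := by
    rw [hc, Complex.norm_real, Real.norm_of_nonneg (by positivity), inv_pow, Real.sq_sqrt hε.le]
  have hF' : MDifferentiable 𝓘(ℂ, E) 𝓘(ℂ, EuclideanSpace ℂ (Fin k)) (fun x => c • F x) :=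
    fun x => ((c • ContinuousLinearMap.id ℂ
      (EuclideanSpace ℂ (Fin k))).differentiableAt.mdifferentiableAt).comp x (hF x)
  obtain ⟨R, hR⟩ := hull_bdd hK hnn hF' hKc p
  refine (isBounded_closedBall (x := p) (r := R)).subset fun x hx => ?_
  rw [mem_closedBall']
  refine hR x hx.1 fun Y => ?_
  have he : chartAt E x ∈ maximalAtlas 𝓘(ℂ, E) 1 M := chart_mem_maximalAtlas x
  have hxc : x ∈ (chartAt E x).source := mem_chart_source E x
  have hz := (chartAt E x).map_source hxc
  have h1 := chart_of_realDiff hF hx.2 he hxc Y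
  have h3 : dF (fun x => c • F x) (chartAt E x) (chartAt E x x) Y =
      c • dF F (chartAt E x) (chartAt E x x) Y := by
    have h4 : HasFDerivAt (fun w => F ((chartAt E x).symm w))
        (dF F (chartAt E x) (chartAt E x x)) (chartAt E x x) :=
      ((differentiableOn_F hF he).differentiableAt
        ((chartAt E x).open_target.mem_nhds hz)).hasFDerivAt
    have h5 := (h4.const_smul c).fderiv
    exact congrArg (fun T : E →L[ℂ] EuclideanSpace ℂ (Fin k) => T Y) h5
  rw [h3, norm_smul, mul_pow, hcn]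
  have h4 := mul_le_mul_of_nonneg_left h1 (inv_pos.2 hε).le
  rwa [← mul_assoc, inv_mul_cancel₀ hε.ne', one_mul] at h4

/-- **Dichotomy.** -/
theorem stein_or_degenerate (hK : IsKahler E M) [CompleteSpace M] [ConnectedSpace M]
    [NoncompactSpace M] (hnn : ∀ x : M, NonnegBisectionalAt E x)
    (hpos : ∀ x : M, PosBisectionalAt E x) :
    HasSpshExhaustion E M ∨ ∃ (K : Set M) (x : ℕ → M), IsCompact K ∧
      (∀ j, x j ∈ pshHull E K) ∧ Tendsto x atTop (cocompact M) ∧
      ∀ (k : ℕ) (F : M → EuclideanSpace ℂ (Fin k)),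
        MDifferentiable 𝓘(ℂ, E) 𝓘(ℂ, EuclideanSpace ℂ (Fin k)) F → ∀ ε : ℝ, 0 < ε →
        ∀ᶠ j in atTop, ∃ v : TangentSpace 𝓘(ℝ, E) (x j),
          ‖realDiff E F (x j) v‖ ^ 2 < ε * inner ℝ v v := by
  have hprop : ProperSpace M := properSpace_riemannian E M
  obtain ⟨p⟩ := (inferInstance : Nonempty M)
  by_cases hh : ∀ K : Set M, IsCompact K → ∃ R : ℝ, ∀ x ∈ pshHull E K, dist p x ≤ R
  · left
    obtain ⟨b, hb, hb'⟩ := exists_busemann hK hnn
    exact exhaustion_of_hull p hh hb fun y => hb' y (hpos y)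
  · right
    push Not at hh
    obtain ⟨K, hKc, hKu⟩ := hh
    choose x hx hxd using fun j : ℕ => hKu j
    have hlim : Tendsto x atTop (cocompact M) := by
      refine tendsto_cocompact_of_tendsto_dist_comp_atTop p ?_
      refine tendsto_atTop_mono (fun j => ?_) tendsto_natCast_atTop_atTop
      rw [dist_comm]
      exact (hxd j).le
    refine ⟨K, x, hKc, hx, hlim, fun k F hF ε hε => ?_⟩
    have h1 := hull_isBounded hK hnn hKc hF hε
    have h2 : ∀ᶠ j in atTop, x j ∈ (closure {x : M | x ∈ pshHull E K ∧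
      ∀ v : TangentSpace 𝓘(ℝ, E) x, ε * inner ℝ v v ≤ ‖realDiff E F x v‖ ^ 2})ᶜ :=
      hlim.eventually (h1.isCompact_closure.compl_mem_cocompact)
    filter_upwards [h2] with j hj
    by_contra hcon
    push Not at hcon
    exact hj (subset_closure ⟨hx j, hcon⟩)

end Vale.Agent.P253.R2.H451
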