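import Vale.Agent.P253.R2.H618.Exh5
import Vale.Agent.P253.R2.H618.Exh6
import Vale.Agent.P253.R2.H451.WeakDefs

/-!
P253: the weak form of `i∂∂̄ψ ≥ ω` and the criteria for strictly plurisubharmonic exhaustion
functions.
-/

open scoped Manifold ContDiff Topology Bundle
open Set Metric Filter Bundle IsManifold Complex Asymptotics

set_option maxSynthPendingDepth 3
set_option linter.unusedSectionVars false
set_option linter.unusedVariables false

noncomputable section

namespace Vale.Agent.P253.R2.H451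

open Vale.Agent.P253.Mfd Vale.Agent.P253.Mfd.LocalKahler Vale.Agent.P253.R2.H618
  Vale.Agent.P253.R2.H922 Vale.Agent.P253.R2.H380.Stein

section quad

variable {E : Type*} [NormedAddCommGroup E] [NormedSpace ℝ E]

theorem fderiv_quad (B : E →L[ℝ] E →L[ℝ] ℝ) (hB : ∀ v w, B v w = B w v) (z₀ z : E) :
    HasFDerivAt (fun z => B (z - z₀) (z - z₀)) ((2:ℝ) • B (z - z₀)) z := by
  have h1 : HasFDerivAt (fun z : E => z - z₀) (ContinuousLinearMap.id ℝ E) z :=
    (hasFDerivAt_id z).sub_const z₀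
  have h2 := B.hasFDerivAt_of_bilinear h1 h1
  refine h2.congr_fderiv ?_
  ext v
  change B (z - z₀) v + B v (z - z₀) = 2 * B (z - z₀) v
  rw [hB v (z - z₀)]
  ring

theorem fderiv2_quad (B : E →L[ℝ] E →L[ℝ] ℝ) (hB : ∀ v w, B v w = B w v) (z₀ z v w : E) :
    fderiv ℝ (fderiv ℝ (fun z => B (z - z₀) (z - z₀))) z v w = 2 * B v w := by
  have h1 : fderiv ℝ (fun z => B (z - z₀) (z - z₀)) = fun z => (2:ℝ) • B (z - z₀) := by
    funext z
    exact (fderiv_quad B hB z₀ z).fderiv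
  rw [h1]
  have h2 : HasFDerivAt (fun z => (2:ℝ) • B (z - z₀)) ((2:ℝ) • B) z := by
    have h3 : HasFDerivAt (fun z : E => z - z₀) (ContinuousLinearMap.id ℝ E) z :=
      (hasFDerivAt_id z).sub_const z₀
    have h4 := (B.hasFDerivAt.comp z h3).const_smul (2:ℝ)
    convert! h4 using 1
  rw [h2.fderiv]
  simp

theorem contDiff_quad (B : E →L[ℝ] E →L[ℝ] ℝ) (z₀ : E) :
    ContDiff ℝ 2 (fun z => B (z - z₀) (z - z₀)) :=
  B.isBoundedBilinearMap.contDiff.comp ((contDiff_id.sub contDiff_const).prodMk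
    (contDiff_id.sub contDiff_const))

end quad

variable {E : Type*} [NormedAddCommGroup E] [NormedSpace ℂ E] [FiniteDimensional ℂ E]
  {M : Type*} [MetricSpace M] [ChartedSpace E M]
  [IsManifold 𝓘(ℂ, E) 1 M] [IsManifold 𝓘(ℝ, E) ∞ M]
  [RiemannianBundle (fun x : M => TangentSpace 𝓘(ℝ, E) x)]

variable [IsContMDiffRiemannianBundle 𝓘(ℝ, E) ∞ E (fun x : M => TangentSpace 𝓘(ℝ, E) x)]
  [IsRiemannianManifold 𝓘(ℝ, E) M]

/-- sums of a function with bounds for the four point sums and of a function of class `C²` -/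
theorem submean_four_add {s : M → ℝ} {e : OpenPartialHomeomorph M E}
    (he : e ∈ maximalAtlas 𝓘(ℂ, E) 1 M) {W : Set E} (hW : IsOpen W) (hWt : W ⊆ e.target)
    {q : E → ℝ} (hq : ContDiffOn ℝ 2 q W) {c₀ : M → ℝ}
    {f : ℂ → M} {c : ℂ} {r : ℝ} (hr : 0 < r) (hf : ContinuousOn f (closedBall c r))
    (hf' : MDifferentiableOn 𝓘(ℂ, ℂ) 𝓘(ℂ, E) f (ball c r))
    (hm : ∀ z ∈ closedBall c r, f z ∈ e.source ∧ e (f z) ∈ W)
    (hs : ContinuousOn (fun z => s (f z)) (closedBall c r))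
    (hs4 : ∀ z ∈ ball c r, FourGe (E := E) s (f z) (c₀ (f z)))
    (hpos : ∀ z ∈ ball c r, ∀ v : E,
      0 ≤ 4 * c₀ (f z) * chartG e (e (f z)) v v + levi2 q (e (f z)) v) :
    s (f c) + q (e (f c)) ≤ Real.circleAverage (fun z => s (f z) + q (e (f z))) c r := by
  have hcont : ContinuousOn (fun z => s (f z) + q (e (f z))) (closedBall c r) := by
    have h1 : ContinuousOn (fun z => e (f z)) (closedBall c r) :=
      e.continuousOn.comp hf (fun z hz => (hm z hz).1)
    exact hs.add (hq.continuousOn.comp h1 fun z hz => (hm z hz).2)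
  refine four_submean (u := fun z => s (f z) + q (e (f z))) hr hcont fun z₀ hz₀ η hη => ?_
  obtain ⟨hfs, hfW⟩ := hm z₀ (ball_subset_closedBall hz₀)
  set x := f z₀ with hx
  have hH := harmW_disc isOpen_ball hf' hz₀ he hfs
  set Y := fderiv ℝ (fun z => e (f z)) z₀ 1 with hY
  have h5 := hs4 z₀ hz₀ e he hfs Y _ hH (η / 2) (by positivity)
  set ξ : ℝ → Fin 4 → E := fun r k => e (f (z₀ + r • (I ^ (k:ℕ)))) - e x
    - r • (I ^ (k:ℕ) • ((1:ℂ) • Y)) with hξ
  have hξs : IsSmall ξ := hH.2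
  have h3 := (four_taylor hW hq hfW Y hξs).def (half_pos hη)
  filter_upwards [h5, h3] with t ht1 ht2
  rw [Real.norm_of_nonneg (show 0 ≤ t ^ 2 by positivity)] at ht2
  have h4 := (abs_le.1 (by rwa [Real.norm_eq_abs] at ht2)).1
  have h6 : ∀ k : Fin 4, q (e x + (t • (I ^ (k:ℕ) • Y) + ξ t k)) =
      q (e (f (z₀ + t • (I ^ (k:ℕ))))) := by
    intro k
    congr 1
    simp only [hξ, one_smul]
    abel
  simp only [h6] at h4
  rw [Finset.sum_add_distrib]
  have h7 := hpos z₀ hz₀ Y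
  unfold levi2 at h7
  have h8 := mul_nonneg (sq_nonneg t) h7
  have e1 : t ^ 2 * (4 * c₀ x * chartG e (e x) Y Y - η / 2) =
      t ^ 2 * (4 * c₀ x * chartG e (e x) Y Y) - t ^ 2 * (η / 2) := by ring
  rw [e1] at ht1
  have e2 : t ^ 2 * (4 * c₀ x * chartG e (e x) Y Y + (fderiv ℝ (fderiv ℝ q) (e x) Y Y
      + fderiv ℝ (fderiv ℝ q) (e x) (I • Y) (I • Y))) = t ^ 2 * (4 * c₀ x * chartG e (e x) Y Y) +
      t ^ 2 * (fderiv ℝ (fderiv ℝ q) (e x) Y Y
      + fderiv ℝ (fderiv ℝ q) (e x) (I • Y) (I • Y)) := by ring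
  rw [e2] at h8
  linarith

/-- local strictness -/
theorem strict_of_weak (hK : IsKahler E M) {ψ s : M → ℝ} (hψ : WeakLeviGe E ψ) (hs : Continuous s)
    {Q : ℝ} (hQ0 : 0 ≤ Q) (hQ1 : Q < 1) (hs4 : ∀ x, FourGe (E := E) s x (-Q)) (x₀ : M) :
    ∃ e ∈ maximalAtlas 𝓘(ℂ, E) 1 M, x₀ ∈ e.source ∧
      ∃ (n : ℕ) (L : E ≃L[ℂ] EuclideanSpace ℂ (Fin n)) (ε : ℝ), 0 < ε ∧
        ∀ (f : ℂ → M) (c : ℂ) (r : ℝ), 0 < r → ContinuousOn f (closedBall c r) →
          MDifferentiableOn 𝓘(ℂ, ℂ) 𝓘(ℂ, E) f (ball c r) →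
          (∀ z ∈ closedBall c r, f z ∈ e.source) →
          ψ (f c) + s (f c) - ε * ‖L (e (f c))‖ ^ 2 ≤
            Real.circleAverage (fun z => ψ (f z) + s (f z) - ε * ‖L (e (f z))‖ ^ 2) c r := by
  have he : chartAt E x₀ ∈ maximalAtlas 𝓘(ℂ, E) 1 M := chart_mem_maximalAtlas _
  have hx₀ : x₀ ∈ (chartAt E x₀).source := mem_chart_source E _
  set e := chartAt E x₀ with hedef
  have hLK := localKahler_chartG hK he
  set z₀ := e x₀ with hz₀
  have hz₀t : z₀ ∈ e.target := e.map_source hx₀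
  set B := chartG e z₀ with hB
  obtain ⟨m, hm, hlow⟩ := hLK.exists_lower (isCompact_singleton (x := z₀))
    (singleton_subset_iff.2 hz₀t)
  have hlow' : ∀ v, m * ‖v‖ ^ 2 ≤ B v v := fun v => hlow z₀ rfl v
  obtain ⟨n, L, -⟩ := H380.Stein.exists_coord E
  set C : ℝ := ‖(L : E →L[ℂ] EuclideanSpace ℂ (Fin n))‖ + 1 with hC
  have hC0 : 0 < C := by positivity
  have hLC : ∀ w : E, ‖L w‖ ^ 2 ≤ C ^ 2 * ‖w‖ ^ 2 := by
    intro w
    have h1 := (L : E →L[ℂ] EuclideanSpace ℂ (Fin n)).le_opNorm w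
    rw [← mul_pow]
    have h2 : ‖L w‖ ≤ C * ‖w‖ := by
      refine h1.trans ?_
      gcongr
      rw [hC]; linarith
    gcongr
  set τ := (1 + Q) / 2 with hτ
  have hτ1 : τ < 1 := by rw [hτ]; linarith
  have hτQ : Q < τ := by rw [hτ]; linarith
  set θ := (1 - τ) * m / 2 with hθ
  have hθ0 : 0 < θ := by
    have : 0 < 1 - τ := by linarith
    positivity
  set ε := (τ - Q) * m / (2 * C ^ 2) with hε
  have hε0 : 0 < ε := by
    have : 0 < τ - Q := by linarith
    positivity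
  -- the neighbourhood
  have hnb : ∀ᶠ z in 𝓝 z₀, ‖chartG e z - B‖ < θ := by
    have h1 : ContinuousAt (chartG e) z₀ :=
      (hLK.smooth.continuousOn).continuousAt (e.open_target.mem_nhds hz₀t)
    have h2 := Metric.tendsto_nhds.1 h1 θ hθ0
    filter_upwards [h2] with z hz
    rwa [dist_eq_norm] at hz
  obtain ⟨W, hWsub, hWo, hzW⟩ := _root_.mem_nhds_iff.1 (inter_mem hnb (e.open_target.mem_nhds hz₀t))
  have hWt : W ⊆ e.target := fun z hz => (hWsub hz).2
  have hcomp : ∀ z ∈ W, ∀ v, |chartG e z v v - B v v| ≤ θ * ‖v‖ ^ 2 := by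
    intro z hz v
    have h1 : ‖chartG e z - B‖ < θ := (hWsub hz).1
    have h2 : chartG e z v v - B v v = (chartG e z - B) v v := rfl
    rw [h2, ← Real.norm_eq_abs]
    calc ‖(chartG e z - B) v v‖ ≤ ‖(chartG e z - B) v‖ * ‖v‖ := ContinuousLinearMap.le_opNorm _ _
      _ ≤ (‖chartG e z - B‖ * ‖v‖) * ‖v‖ := by
          gcongr
          exact ContinuousLinearMap.le_opNorm _ _
      _ ≤ (θ * ‖v‖) * ‖v‖ := by gcongr
      _ = θ * ‖v‖ ^ 2 := by ring
  -- the quadratic forms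
  have hBsym : ∀ v w, B v w = B w v := fun v w => hLK.symm z₀ hz₀t v w
  have hBI : ∀ v, B (I • v) (I • v) = B v v := fun v => hLK.herm z₀ hz₀t v v
  set BL : E →L[ℝ] E →L[ℝ] ℝ := ContinuousLinearMap.bilinearComp
    (innerSL ℝ (E := EuclideanSpace ℂ (Fin n)))
    ((L : E →L[ℂ] EuclideanSpace ℂ (Fin n)).restrictScalars ℝ)
    ((L : E →L[ℂ] EuclideanSpace ℂ (Fin n)).restrictScalars ℝ) with hBL
  have hBLa : ∀ v w, BL v w = inner ℝ (L v) (L w) := fun v w => rfl
  have hBLn : ∀ v, BL v v = ‖L v‖ ^ 2 := fun v => by rw [hBLa, real_inner_self_eq_norm_sq]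
  have hBLsym : ∀ v w, BL v w = BL w v := fun v w => by
    rw [hBLa, hBLa, real_inner_comm]
  have hBLI : ∀ v, BL (I • v) (I • v) = BL v v := fun v => by
    rw [hBLn, hBLn, map_smul, norm_smul, norm_I, one_mul]
  set N₁ : E → ℝ := fun z => (τ • B) (z - z₀) (z - z₀) with hN₁
  set N₂ : E → ℝ := fun z => (ε • BL) (z - 0) (z - 0) with hN₂
  have hN₂a : ∀ z, N₂ z = ε * ‖L z‖ ^ 2 := fun z => by
    simp only [hN₂, sub_zero, smul_apply, smul_eq_mul, hBLn]
  have hsm1 : ∀ v w, (τ • B) v w = (τ • B) w v := fun v w => by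
    simp only [smul_apply, smul_eq_mul, hBsym v w]
  have hsm2 : ∀ v w, (ε • BL) v w = (ε • BL) w v := fun v w => by
    simp only [smul_apply, smul_eq_mul, hBLsym v w]
  have hC1 : ContDiff ℝ 2 N₁ := contDiff_quad (τ • B) z₀
  have hC2 : ContDiff ℝ 2 N₂ := contDiff_quad (ε • BL) 0
  have hl1 : ∀ z v, levi2 N₁ z v = 4 * (τ * B v v) := by
    intro z v
    unfold levi2
    rw [hN₁, fderiv2_quad _ hsm1, fderiv2_quad _ hsm1]
    simp only [smul_apply, smul_eq_mul, hBI]
    ring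
  have hl2 : ∀ z v, levi2 N₂ z v = 4 * (ε * ‖L v‖ ^ 2) := by
    intro z v
    unfold levi2
    rw [hN₂, fderiv2_quad _ hsm2, fderiv2_quad _ hsm2]
    simp only [smul_apply, smul_eq_mul, hBLI, hBLn]
    ring
  have hl3 : ∀ z v, levi2 (fun z => N₁ z - N₂ z) z v = 4 * (τ * B v v) - 4 * (ε * ‖L v‖ ^ 2) := by
    intro z v
    rw [← hl1 z v, ← hl2 z v]
    have e1 : fderiv ℝ (fun z => N₁ z - N₂ z) = fun z => fderiv ℝ N₁ z - fderiv ℝ N₂ z := by
      funext z
      exact fderiv_fun_sub ((hC1.differentiable (by simp)).differentiableAt)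
        ((hC2.differentiable (by simp)).differentiableAt)
    have e2 : fderiv ℝ (fderiv ℝ (fun z => N₁ z - N₂ z)) z = fderiv ℝ (fderiv ℝ N₁) z
        - fderiv ℝ (fderiv ℝ N₂) z := by
      rw [e1]
      exact fderiv_fun_sub
        (((hC1.fderiv_right (m := 1) (by norm_num)).differentiable (by simp)).differentiableAt)
        (((hC2.fderiv_right (m := 1) (by norm_num)).differentiable (by simp)).differentiableAt)
    unfold levi2
    rw [e2]
    simp only [sub_apply]
    ring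
  set S : Set M := e.source ∩ e ⁻¹' W with hS
  have hSo : IsOpen S := e.continuousOn.isOpen_inter_preimage e.open_source hWo
  have hxS : x₀ ∈ S := ⟨hx₀, hzW⟩
  refine ⟨e.restr S, restr_mem_maximalAtlas _ he hSo, ?_, n, L, ε, hε0, ?_⟩
  · rw [e.restr_source' S hSo]
    exact ⟨hx₀, hxS⟩
  intro f c R hR hf hf' hfe
  have hfe' : ∀ z ∈ closedBall c R, f z ∈ e.source ∧ e (f z) ∈ W := by
    intro z hz
    have := hfe z hz
    rw [e.restr_source' S hSo] at this
    exact this.2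
  have hre : ∀ x, (e.restr S) x = e x := fun x => rfl
  simp only [hre]
  have k1 := hψ.2 e he W N₁ hWo hWt hC1.contDiffOn (fun z hz v => by
    rw [hl1, ← chartG_apply]
    have h1 := (abs_le.1 (hcomp z hz v)).1
    have h2 := hlow' v
    have h3 : 0 < 1 - τ := by linarith
    rw [hθ] at h1
    nlinarith) f c R hR hf hf' hfe'
  have k2 := submean_four_add (s := s) he hWo hWt (q := fun z => N₁ z - N₂ z)
    (hC1.sub hC2).contDiffOn (c₀ := fun _ => -Q) hR hf hf' hfe' (hs.comp_continuousOn hf)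
    (fun z _ => hs4 (f z)) (fun z hz v => by
    rw [hl3]
    have hxW := (hfe' z (ball_subset_closedBall hz)).2
    have h1 := (abs_le.1 (hcomp (e (f z)) hxW v)).2
    have h2 := hlow' v
    have h4 : ε * ‖L v‖ ^ 2 ≤ (τ - Q) * m / 2 * ‖v‖ ^ 2 := by
      have h5 := mul_le_mul_of_nonneg_left (hLC v) hε0.le
      have h6 : ε * (C ^ 2 * ‖v‖ ^ 2) = (τ - Q) * m / 2 * ‖v‖ ^ 2 := by
        rw [hε]; field_simp
      linarith
    have h7 : Q * chartG e (e (f z)) v v ≤ Q * (B v v + θ * ‖v‖ ^ 2) :=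
      mul_le_mul_of_nonneg_left (by linarith) hQ0
    have h8 : Q * θ ≤ θ := by nlinarith
    have h9 : Q * θ * ‖v‖ ^ 2 ≤ θ * ‖v‖ ^ 2 := mul_le_mul_of_nonneg_right h8 (sq_nonneg _)
    have h10 : θ * ‖v‖ ^ 2 = (τ - Q) * m / 2 * ‖v‖ ^ 2 := by
      rw [hθ, hτ]; ring
    have h11 : (τ - Q) * (m * ‖v‖ ^ 2) ≤ (τ - Q) * B v v :=
      mul_le_mul_of_nonneg_left h2 (by linarith)
    nlinarith)
  have hef : ContinuousOn (fun z => e (f z)) (closedBall c R) :=
    e.continuousOn.comp hf (fun z hz => (hfe' z hz).1)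
  have hsph : sphere c R ⊆ closedBall c R := sphere_subset_closedBall
  have i1 : CircleIntegrable (fun z => ψ (f z) - N₁ (e (f z))) c R :=
    (((hψ.1.comp_continuousOn hf).sub (hC1.continuous.comp_continuousOn hef)).mono
      hsph).circleIntegrable hR.le
  have i2 : CircleIntegrable (fun z => s (f z) + (N₁ (e (f z)) - N₂ (e (f z)))) c R :=
    (((hs.comp_continuousOn hf).add ((hC1.sub hC2).continuous.comp_continuousOn hef)).mono
      hsph).circleIntegrable hR.le
  have k3 := add_le_add k1 k2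
  rw [← Real.circleAverage_fun_add i1 i2] at k3
  have e3 : (fun z => ψ (f z) + s (f z) - ε * ‖L (e (f z))‖ ^ 2) = fun z =>
      ψ (f z) - N₁ (e (f z)) + (s (f z) + (N₁ (e (f z)) - N₂ (e (f z)))) := by
    funext z
    rw [hN₂a]
    ring
  rw [e3]
  refine le_trans (le_of_eq ?_) k3
  rw [← hN₂a]
  ring

/-- **Criterion.** `i∂∂̄ψ ≥ ω` in the weak sense and `ψ ≥ -C - a d(p, x)²` with `a < 1`. -/
theorem exhaustion_of_weak (hK : IsKahler E M) [ProperSpace M]
    (hnn : ∀ x : M, NonnegBisectionalAt E x) (p : M) {ψ : M → ℝ} (hψ : WeakLeviGe E ψ)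
    {a C : ℝ} (ha : a < 1) (hlow : ∀ x, -C - a * dist p x ^ 2 ≤ ψ x) :
    HasSpshExhaustion E M := by
  set a' := max a 0 with ha'
  have ha'1 : a' < 1 := max_lt ha one_pos
  have ha'0 : 0 ≤ a' := le_max_right _ _
  set b := a' + (1 - a') / 3 with hb
  set Q := a' + 2 * (1 - a') / 3 with hQ
  have hbQ : 0 < Q - b := by rw [hb, hQ]; linarith
  have hb1 : b < 1 := by rw [hb]; linarith
  have hQ1 : Q < 1 := by rw [hQ]; linarith
  have hQ0 : 0 ≤ Q := by rw [hQ]; linarith
  have hb0 : 0 < b := by rw [hb]; linarith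
  set P : M → ℝ := fun _ => Q with hP
  set N : M → ℝ := fun x => b * dist p x ^ 2 with hN
  set ρ : M → ℝ := fun x => 4 / (Q - b) * (1 + dist p x) with hρ
  have hPc : Continuous P := continuous_const
  have hNc : Continuous N := by rw [hN]; fun_prop
  have hρc : Continuous ρ := by rw [hρ]; fun_prop
  have hρ0 : ∀ x, 0 < ρ x := fun x => by simp only [hρ]; positivity
  have h2 : ∀ x y, ρ x / 2 ≤ dist x y → dist x y ≤ ρ x → N y - P y * dist x y ^ 2 ≤ N x := by
    intro x y h1 _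
    simp only [hN, hP, hρ] at h1 ⊢
    have h2 : dist p y ≤ dist p x + dist x y := dist_triangle _ _ _
    have h3 : 2 * (1 + dist p x) ≤ (Q - b) * dist x y := by
      have h4 : 4 / (Q - b) * (1 + dist p x) / 2 = 2 * (1 + dist p x) / (Q - b) := by ring
      rw [h4, div_le_iff₀ hbQ] at h1
      linarith
    have hd : 0 ≤ dist x y := dist_nonneg
    have hpx : 0 ≤ dist p x := dist_nonneg
    have hpy : 0 ≤ dist p y := dist_nonneg
    have h5 : dist p y ^ 2 ≤ (dist p x + dist x y) ^ 2 := by gcongr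
    have h6 : b * dist p y ^ 2 ≤ b * (dist p x + dist x y) ^ 2 := by gcongr
    have h7 : 2 * (1 + dist p x) * dist x y ≤ (Q - b) * dist x y * dist x y := by gcongr
    have h8 : 2 * b * (dist p x * dist x y) ≤ 2 * 1 * (dist p x * dist x y) := by gcongr
    nlinarith
  have hsc : Continuous (sc P N ρ) := continuous_sc hPc hNc hρc hρ0 h2
  have hzero : ∀ x, FourGe (E := E) (fun _ : M => (0:ℝ)) x 0 := by
    intro x e he hx Y a ha η hη
    filter_upwards with r
    simp only [Finset.sum_const_zero, mul_zero, zero_mul, zero_add, zero_sub]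
    have : 0 ≤ r ^ 2 * η := by positivity
    linarith
  have hs4 : ∀ x, FourGe (E := E) (sc P N ρ) x (-Q) := by
    intro x
    have h3 := fourGe_sc hK hnn (ψ := fun _ => (0:ℝ)) (c := fun _ => 0) (μ := fun _ => -Q) hzero
      hPc hNc hρc hρ0 (fun _ => hQ0) (fun x y _ => by simp only [hP]; linarith) h2 x
    simpa only [zero_add] using h3
  have hcont : Continuous fun x => ψ x + sc P N ρ x := hψ.1.add hsc
  refine ⟨fun x => ψ x + sc P N ρ x, hcont, isCompact_sublevel hcont ?_, fun x₀ =>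
    strict_of_weak hK hψ hsc hQ0 hQ1 hs4 x₀⟩
  have h1 : Tendsto (fun x => -C + (b - a') * dist p x ^ 2) (cocompact M) atTop := by
    have h2 : Tendsto (fun x => dist p x) (cocompact M) atTop := by
      simpa only [dist_comm p] using tendsto_dist_right_cocompact_atTop p
    have h3 : Tendsto (fun x => dist p x ^ 2) (cocompact M) atTop :=
      (tendsto_pow_atTop two_ne_zero).comp h2
    exact tendsto_atTop_add_const_left _ _ (h3.const_mul_atTop (by rw [hb]; linarith))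
  refine tendsto_atTop_mono (fun x => ?_) h1
  have h4 := hlow x
  have h3 : a * dist p x ^ 2 ≤ a' * dist p x ^ 2 := by
    gcongr
    exact le_max_left _ _
  have h5 := N_le_sc (P := P) (N := N) (ρ := ρ) hPc hNc hρ0 x
  simp only [hN] at h5
  linarith

/-- functions of class `C²` -/
theorem weak_of_levi {ψ : M → ℝ} (h : LeviGe E ψ (fun _ => 1)) : WeakLeviGe E ψ := by
  refine ⟨h.continuous, fun e he W N hW hWt hN hl f c r hr hf hf' hm => ?_⟩
  have h1 := submean_four_add (s := ψ) he hW hWt (q := fun z => -N z) hN.neg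
    (c₀ := fun _ => 1) hr hf hf' hm (h.continuous.comp_continuousOn hf) (fun z _ => h.fourGe _)
    (fun z hz v => by
      have h2 := hl _ (hm z (ball_subset_closedBall hz)).2 v
      rw [← chartG_apply] at h2
      have h3 : levi2 (fun z => -N z) (e (f z)) v = -levi2 N (e (f z)) v := by
        unfold levi2
        have e1 : fderiv ℝ (fun z => -N z) = fun z => -fderiv ℝ N z := by
          funext z; exact fderiv_fun_neg
        rw [e1, fderiv_fun_neg]
        simp only [neg_apply]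
        ring
      rw [h3]
      linarith)
  simpa only [sub_eq_add_neg] using h1

end Vale.Agent.P253.R2.H451
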