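import Vale.Agent.P253.R2.H451.Imm

/-!
P253: the weak form of `i∂∂̄ψ ≥ ω`: tangent functions, holomorphic maps with a lower bound of the
differential, strictly plurisubharmonic exhaustion functions.
-/

open scoped Manifold ContDiff Topology Bundle
open Set Metric Filter Bundle IsManifold Complex Asymptotics

set_option maxSynthPendingDepth 3
set_option linter.unusedSectionVars false
set_option linter.unusedVariables false

noncomputable section

namespace Vale.Agent.P253.R2.H451

open Vale.Agent.P253.Mfd Vale.Agent.P253.Mfd.LocalKahler Vale.Agent.P253.R2.H618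
  Vale.Agent.P253.R2.H922 Vale.Agent.P253.R2.H380.Stein

variable {E : Type*} [NormedAddCommGroup E] [NormedSpace ℂ E] [FiniteDimensional ℂ E]
  {M : Type*} [MetricSpace M] [ChartedSpace E M]
  [IsManifold 𝓘(ℂ, E) 1 M] [IsManifold 𝓘(ℝ, E) ∞ M]
  [RiemannianBundle (fun x : M => TangentSpace 𝓘(ℝ, E) x)]

variable (E) in
/-- `u - N` is plurisubharmonic on `S` for all functions `N` of class `C²` with `i∂∂̄N ≤ ω` -/
def SubOn (u : M → ℝ) (S : Set M) : Prop :=
  ∀ e ∈ maximalAtlas 𝓘(ℂ, E) 1 M, ∀ (W : Set E) (N : E → ℝ), IsOpen W →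
    W ⊆ e.target → ContDiffOn ℝ 2 N W →
    (∀ z ∈ W, ∀ v : E, levi2 N z v ≤ 4 * chartMetric e z v v) →
    ∀ (f : ℂ → M) (c : ℂ) (r : ℝ), 0 < r → ContinuousOn f (closedBall c r) →
      MDifferentiableOn 𝓘(ℂ, ℂ) 𝓘(ℂ, E) f (ball c r) →
      (∀ z ∈ closedBall c r, f z ∈ e.source ∧ e (f z) ∈ W) → (∀ z ∈ closedBall c r, f z ∈ S) →
      u (f c) - N (e (f c)) ≤ Real.circleAverage (fun z => u (f z) - N (e (f z))) c r

variable [IsContMDiffRiemannianBundle 𝓘(ℝ, E) ∞ E (fun x : M => TangentSpace 𝓘(ℝ, E) x)]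
  [IsRiemannianManifold 𝓘(ℝ, E) M]

/-- functions which are touched from below at every point -/
theorem weak_of_tangent {ψ : M → ℝ} (hψ : Continuous ψ)
    (h : ∀ y : M, ∃ S : Set M, IsOpen S ∧ y ∈ S ∧ ∃ u : M → ℝ, Continuous u ∧ u y = ψ y ∧
      (∀ x ∈ S, u x ≤ ψ x) ∧ SubOn E u S) : WeakLeviGe E ψ := by
  refine ⟨hψ, fun e he W N hW hWt hN hl f c r hr hf hf' hm => ?_⟩
  have hef : ContinuousOn (fun z => e (f z)) (closedBall c r) :=
    e.continuousOn.comp hf (fun z hz => (hm z hz).1)
  have hNf : ContinuousOn (fun z => N (e (f z))) (closedBall c r) :=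
    hN.continuousOn.comp hef (fun z hz => (hm z hz).2)
  refine submean_of_local (u := fun z => ψ (f z) - N (e (f z))) hr
    ((hψ.comp_continuousOn hf).sub hNf) fun z₀ hz₀ => ?_
  obtain ⟨S, hS, hyS, u, hu, huy, hule, hsub⟩ := h (f z₀)
  have hfc : ContinuousAt f z₀ := hf.continuousAt (closedBall_mem_nhds_of_mem hz₀)
  have h1 : ∀ᶠ z in 𝓝 z₀, f z ∈ S ∧ z ∈ ball c r :=
    (hfc.eventually (hS.mem_nhds hyS)).and (isOpen_ball.mem_nhds hz₀)
  obtain ⟨ρ₀, hρ₀, hball⟩ := Metric.eventually_nhds_iff_ball.1 h1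
  have h2 : ∀ᶠ ρ in 𝓝[>] (0:ℝ), ρ < ρ₀ ∧ 0 < ρ :=
    ((eventually_lt_nhds hρ₀).filter_mono nhdsWithin_le_nhds).and self_mem_nhdsWithin
  filter_upwards [h2] with ρ hρ
  have hsubs : ∀ z ∈ closedBall z₀ ρ, f z ∈ S ∧ z ∈ ball c r := fun z hz =>
    hball z (lt_of_le_of_lt hz hρ.1)
  have hcb : closedBall z₀ ρ ⊆ closedBall c r := fun z hz => ball_subset_closedBall (hsubs z hz).2
  have h3 := hsub e he W N hW hWt hN hl f z₀ ρ hρ.2 (hf.mono hcb)
    (hf'.mono fun z hz => (hsubs z (ball_subset_closedBall hz)).2) (fun z hz => hm z (hcb hz))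
    (fun z hz => (hsubs z hz).1)
  rw [huy] at h3
  refine h3.trans ?_
  have hsph : sphere z₀ ρ ⊆ closedBall z₀ ρ := sphere_subset_closedBall
  refine Real.circleAverage_mono ?_ ?_ fun z hz => ?_
  · exact (((hu.comp_continuousOn hf).sub hNf).mono (hsph.trans hcb)).circleIntegrable hρ.2.le
  · exact (((hψ.comp_continuousOn hf).sub hNf).mono (hsph.trans hcb)).circleIntegrable hρ.2.le
  · have hz' : z ∈ sphere z₀ ρ := by rwa [abs_of_pos hρ.2] at hz
    have := hule (f z) (hsubs z (hsph hz')).1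
    linarith

theorem fourGe_smul {s : M → ℝ} {x : M} {c a : ℝ} (ha : 0 < a) (h : FourGe (E := E) s x c) :
    FourGe (E := E) (fun y => a * s y) x (a * c) := by
  intro e he hx Y b hb η hη
  filter_upwards [h e he hx Y b hb (η / a) (by positivity)] with r hr
  have h1 := mul_le_mul_of_nonneg_left hr ha.le
  rw [← Finset.mul_sum]
  refine le_trans (le_of_eq ?_) h1
  field_simp

theorem levi2_neg (N : E → ℝ) (z v : E) : levi2 (fun z => -N z) z v = -levi2 N z v := by
  unfold levi2
  have e1 : fderiv ℝ (fun z => -N z) = fun z => -fderiv ℝ N z := by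
    funext z; exact fderiv_fun_neg
  rw [e1, fderiv_fun_neg]
  simp only [neg_apply]
  ring

/-- sums of a plurisubharmonic function and a function with large four point sums -/
theorem subOn_add {w s : M → ℝ} {S : Set M} {c₀ : M → ℝ} (hw : Continuous w)
    (hws : ∀ (f : ℂ → M) (c : ℂ) (r : ℝ), 0 < r → ContinuousOn f (closedBall c r) →
      MDifferentiableOn 𝓘(ℂ, ℂ) 𝓘(ℂ, E) f (ball c r) → (∀ z ∈ closedBall c r, f z ∈ S) →
      w (f c) ≤ Real.circleAverage (fun z => w (f z)) c r)
    (hs : ContinuousOn s S) (hs4 : ∀ x ∈ S, FourGe (E := E) s x (c₀ x)) (hc : ∀ x ∈ S, 1 ≤ c₀ x) :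
    SubOn E (fun x => w x + s x) S := by
  intro e he W N hW hWt hN hl f c r hr hf hf' hm hS
  have hef : ContinuousOn (fun z => e (f z)) (closedBall c r) :=
    e.continuousOn.comp hf (fun z hz => (hm z hz).1)
  have hNf : ContinuousOn (fun z => N (e (f z))) (closedBall c r) :=
    hN.continuousOn.comp hef (fun z hz => (hm z hz).2)
  have hsf : ContinuousOn (fun z => s (f z)) (closedBall c r) := hs.comp hf hS
  have k1 := hws f c r hr hf hf' hS
  have k2 := submean_four_add (s := s) he hW hWt (q := fun z => -N z) hN.neg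
    (c₀ := c₀) hr hf hf' hm hsf (fun z hz => hs4 _ (hS z (ball_subset_closedBall hz)))
    (fun z hz v => by
      have hz' := ball_subset_closedBall hz
      have h2 := hl _ (hm z hz').2 v
      rw [← chartG_apply] at h2
      rw [levi2_neg]
      have hG : 0 ≤ chartG e (e (f z)) v v := by
        have her := mem_maximalAtlas_real he
        rcases eq_or_ne v 0 with rfl | hv
        · simp
        · exact (chartG_pos her (e.map_source (hm z hz').1) v hv).le
      have h3 := mul_le_mul_of_nonneg_right (hc _ (hS z hz')) hG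
      linarith)
  have hsph : sphere c r ⊆ closedBall c r := sphere_subset_closedBall
  have i1 : CircleIntegrable (fun z => w (f z)) c r :=
    ((hw.comp_continuousOn hf).mono hsph).circleIntegrable hr.le
  have i2 : CircleIntegrable (fun z => s (f z) + -N (e (f z))) c r :=
    ((hsf.add hNf.neg).mono hsph).circleIntegrable hr.le
  have k3 := add_le_add k1 k2
  rw [← Real.circleAverage_fun_add i1 i2] at k3
  have e3 : (fun z => w (f z) + s (f z) - N (e (f z))) = fun z =>
      w (f z) + (s (f z) + -N (e (f z))) := by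
    funext z; ring
  show w (f c) + s (f c) - N (e (f c)) ≤ Real.circleAverage
    (fun z => w (f z) + s (f z) - N (e (f z))) c r
  rw [e3]
  linarith

/-- **Holomorphic maps with a lower bound of the differential.** -/
theorem weak_of_immersion {φ : M → ℝ} (hφ : IsContPsh E φ) {H : Type*} [NormedAddCommGroup H]
    [InnerProductSpace ℂ H] [FiniteDimensional ℂ H] {F : M → H}
    (hF : MDifferentiable 𝓘(ℂ, E) 𝓘(ℂ, H) F)
    (hb : ∀ x (v : TangentSpace 𝓘(ℝ, E) x),
      inner ℝ v v ≤ Real.exp (2 * φ x) * ‖realDiff E F x v‖ ^ 2) :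
    WeakLeviGe E (fun x => Real.exp (2 * φ x + ‖F x‖ ^ 2 + 1)) := by
  have hFc : Continuous F := hF.continuous
  have hφc := hφ.1
  refine weak_of_tangent (by fun_prop) fun y => ?_
  set t := 2 * φ y + ‖F y‖ ^ 2 + 1 with ht
  set S : Set M := {x | φ x < φ y + 1 / 2} with hS
  refine ⟨S, isOpen_lt hφc continuous_const, by simp [hS], fun x =>
    (Real.exp t * (2 * φ x + 2 - t)) + Real.exp t * ‖F x‖ ^ 2, by fun_prop, ?_, fun x hx => ?_, ?_⟩
  · simp only [ht]; ring
  · have h1 := Real.add_one_le_exp (2 * φ x + ‖F x‖ ^ 2 + 1 - t)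
    have h2 : Real.exp (2 * φ x + ‖F x‖ ^ 2 + 1) =
        Real.exp t * Real.exp (2 * φ x + ‖F x‖ ^ 2 + 1 - t) := by
      rw [← Real.exp_add]; congr 1; ring
    rw [h2]
    have h3 := mul_le_mul_of_nonneg_left h1 (Real.exp_pos t).le
    linarith
  · refine subOn_add (w := fun x => Real.exp t * (2 * φ x + 2 - t))
      (s := fun x => Real.exp t * ‖F x‖ ^ 2)
      (c₀ := fun x => Real.exp t * Real.exp (-(2 * φ x))) (by fun_prop) ?_ ?_ ?_ ?_
    · intro f c r hr hf hf' _
      have h1 := hφ.2 f c r hr hf hf'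
      have i1 : CircleIntegrable (fun z => φ (f z)) c r :=
        ((hφc.comp_continuousOn hf).mono sphere_subset_closedBall).circleIntegrable hr.le
      have e1 : (fun z => Real.exp t * (2 * φ (f z) + 2 - t)) =
          fun z => (2 * Real.exp t) • φ (f z) + Real.exp t * (2 - t) := by
        funext z; simp only [smul_eq_mul]; ring
      rw [e1, Real.circleAverage_fun_add (i1.const_fun_smul) (circleIntegrable_const _ _ _),
        Real.circleAverage_const, Real.circleAverage_fun_smul]
      have h2 := mul_le_mul_of_nonneg_left h1 (show 0 ≤ 2 * Real.exp t by positivity)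
      simp only [smul_eq_mul]
      linarith
    · exact (continuous_const.mul (hFc.norm.pow 2)).continuousOn
    · intro x hx
      refine fourGe_smul (Real.exp_pos t) ?_
      refine fourGe_normsq hF (c := fun x => Real.exp (-(2 * φ x))) (fun x v => ?_) x
      have h1 := mul_le_mul_of_nonneg_left (hb x v) (Real.exp_pos (-(2 * φ x))).le
      rw [← mul_assoc, ← Real.exp_add, neg_add_cancel, Real.exp_zero, one_mul] at h1
      exact h1
    · intro x hx
      have hx' : φ x < φ y + 1 / 2 := hx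
      rw [← Real.exp_add]
      apply Real.one_le_exp
      rw [ht]
      have := sq_nonneg ‖F y‖
      linarith

end Vale.Agent.P253.R2.H451
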