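import Mathlib.Analysis.InnerProductSpace.Adjoint
import Mathlib.Analysis.Calculus.FDeriv.Mul
import Mathlib.Analysis.Calculus.ContDiff.Operations
import Mathlib.Analysis.Complex.Basic
import Mathlib.Tactic

/-!
P253 M8 (c): first and second derivatives of the inverse of an operator valued function.
-/

open Set Filter
open scoped Topology ContDiff

noncomputable section

namespace Vale.Agent.P253.R2.H451

variable {X : Type*} [NormedAddCommGroup X] [NormedSpace ℝ X]
  {A : Type*} [NormedRing A] [NormedAlgebra ℝ A] [CompleteSpace A]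

theorem eventually_isUnit {k : X → A} {z : X} (hk : ContinuousAt k z) (hu : IsUnit (k z)) :
    ∀ᶠ y in 𝓝 z, IsUnit (k y) :=
  hk.eventually (Units.isOpen.mem_nhds hu)

theorem hasFDerivAt_inv {k : X → A} {z : X} (hk : DifferentiableAt ℝ k z) (hu : IsUnit (k z)) :
    DifferentiableAt ℝ (fun y => Ring.inverse (k y)) z ∧
    ∀ u, fderiv ℝ (fun y => Ring.inverse (k y)) z u =
      -(Ring.inverse (k z) * fderiv ℝ k z u * Ring.inverse (k z)) := by
  obtain ⟨v, hv⟩ := hu
  have h1 := hasFDerivAt_ringInverse (𝕜 := ℝ) v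
  rw [hv] at h1
  have h2 := h1.comp z hk.hasFDerivAt
  refine ⟨h2.differentiableAt, fun u => ?_⟩
  have h3 : fderiv ℝ (fun y => Ring.inverse (k y)) z = _ := h2.fderiv
  rw [h3]
  have h4 : Ring.inverse (k z) = (↑v⁻¹ : A) := by rw [← hv, Ring.inverse_unit]
  rw [h4]
  simp

theorem contDiffAt_inv {k : X → A} {z : X} {n : WithTop ℕ∞} (hk : ContDiffAt ℝ n k z)
    (hu : IsUnit (k z)) : ContDiffAt ℝ n (fun y => Ring.inverse (k y)) z := by
  obtain ⟨v, hv⟩ := hu
  have h1 := contDiffAt_ringInverse (𝕜 := ℝ) (n := n) v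
  rw [hv] at h1
  exact h1.comp z hk

theorem inv_second {k : X → A} {z : X} (hk : ContDiffAt ℝ 2 k z) (hu : IsUnit (k z)) (u : X) :
    fderiv ℝ (fun y => fderiv ℝ (fun x => Ring.inverse (k x)) y u) z u =
      2 • (Ring.inverse (k z) * fderiv ℝ k z u * Ring.inverse (k z) * fderiv ℝ k z u *
        Ring.inverse (k z)) -
      Ring.inverse (k z) * fderiv ℝ (fun y => fderiv ℝ k y u) z u * Ring.inverse (k z) := by
  have hev : (fun y => fderiv ℝ (fun x => Ring.inverse (k x)) y u) =ᶠ[𝓝 z]
      fun y => -(Ring.inverse (k y) * fderiv ℝ k y u * Ring.inverse (k y)) := by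
    have h1 : ∀ᶠ y in 𝓝 z, DifferentiableAt ℝ k y :=
      (hk.eventually (by simp)).mono fun y hy => hy.differentiableAt (by norm_num)
    filter_upwards [h1, eventually_isUnit hk.continuousAt hu] with y hy hy'
    exact (hasFDerivAt_inv hy hy').2 u
  rw [hev.fderiv_eq]
  have hd : DifferentiableAt ℝ k z := hk.differentiableAt (by norm_num)
  obtain ⟨hG, hG'⟩ := hasFDerivAt_inv hd hu
  have hk' : DifferentiableAt ℝ (fun y => fderiv ℝ k y u) z := by
    have : ContDiffAt ℝ 1 (fderiv ℝ k) z := hk.fderiv_right (by norm_num)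
    exact (this.differentiableAt (by norm_num)).clm_apply (differentiableAt_const u)
  rw [fderiv_fun_neg, neg_apply]
  have e1 : fderiv ℝ (fun y => Ring.inverse (k y) * fderiv ℝ k y u * Ring.inverse (k y)) z u =
      Ring.inverse (k z) * fderiv ℝ k z u * fderiv ℝ (fun y => Ring.inverse (k y)) z u +
      (Ring.inverse (k z) * fderiv ℝ (fun y => fderiv ℝ k y u) z u +
        fderiv ℝ (fun y => Ring.inverse (k y)) z u * fderiv ℝ k z u) * Ring.inverse (k z) := by
    have h5 := ((hG.hasFDerivAt.mul' hk'.hasFDerivAt).mul' hG.hasFDerivAt).fderiv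
    have h6 : fderiv ℝ (fun y => Ring.inverse (k y) * fderiv ℝ k y u * Ring.inverse (k y)) z = _ :=
      h5
    rw [h6]
    simp [mul_add, add_mul]
  rw [e1, hG' u]
  simp only [two_smul]
  noncomm_ring

end Vale.Agent.P253.R2.H451
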