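import Vale.Agent.P253.R2.H451.KP

/-!
P253 SC1: in a complete Kähler manifold of nonnegative bisectional curvature the limit disc of a
Hartogs family of discs has a limit point along a radius.
-/

open scoped Manifold ContDiff Topology Bundle ENNReal InnerProductSpace
open Set Metric Complex Filter Bundle IsManifold MeasureTheory

set_option maxSynthPendingDepth 3

noncomputable section

namespace Vale.Agent.P253.R2.H451

open Mfd Mfd.LocalKahler Vale.Agent.P253.R2.H384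

variable {E : Type*} [NormedAddCommGroup E] [NormedSpace ℂ E] [FiniteDimensional ℂ E]
  {M : Type*} [MetricSpace M] [ChartedSpace E M]
  [IsManifold 𝓘(ℂ, E) 1 M] [IsManifold 𝓘(ℝ, E) ∞ M]
  [RiemannianBundle (fun x : M => TangentSpace 𝓘(ℝ, E) x)]
  [IsContMDiffRiemannianBundle 𝓘(ℝ, E) ∞ E (fun x : M => TangentSpace 𝓘(ℝ, E) x)]
  [IsRiemannianManifold 𝓘(ℝ, E) M]

/-- the limit disc converges along a radius, discs centred at `0` -/
theorem exists_limit_zero [CompleteSpace M] (hK : IsKahler E M)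
    (hnn : ∀ x : M, NonnegBisectionalAt E x)
    {G : Set E} {Φ : E → M} {c0 c1 : ℂ → E} {U : Set ℂ} {r : ℝ} (hΦ : IsEtale E Φ G)
    (hr : 0 < r) (hU : IsOpen U)
    (hUr : closedBall 0 r ⊆ U) (hc0 : DifferentiableOn ℂ c0 U) (hc1 : DifferentiableOn ℂ c1 U)
    (hin : ∀ s ∈ Icc (0:ℝ) 1, ∀ z ∈ closedBall (0:ℂ) r, (s, z) ≠ (0, 0) →
      c0 z + (s : ℂ) • c1 z ∈ G) :
    ∃ u : ℂ, ‖u‖ = 1 ∧ ∃ y : M, Tendsto (fun t : ℝ => Φ (c0 (t * u))) (𝓝[>] 0) (𝓝 y) := by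
  have hk := localKahler_pullG (M := M) hK hΦ
  have hR : ∀ z ∈ G, ∀ X a, 0 ≤ Rc (pullG (E := E) Φ) z X a := fun z hz X a =>
    Rc_nonneg_pullG hK hΦ hz (hnn _) X a
  have hkm := kmetric_of_local hk hR
  set V := EuclideanSpace ℂ (Fin (Module.finrank ℂ E))
  let A : V ≃L[ℂ] E := ContinuousLinearEquiv.ofFinrankEq (by simp [V])
  obtain ⟨θ, ρ, hρ, hρr, hfin⟩ := exists_finite_radius A (strongOpenness V) hkm hk.isOpen hU hr
    hUr hc0 hc1 hin
  set u : ℂ := Real.cos θ + Real.sin θ * Complex.I with hu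
  have hnu : ‖u‖ = 1 := by
    have := Complex.norm_polarCoord_symm (1, θ)
    rw [Complex.polarCoord_symm_apply] at this
    simpa [hu] using this
  have hnorm : ∀ t : ℝ, 0 < t → ‖(t : ℂ) * u‖ = t := by
    intro t ht
    rw [norm_mul, hnu, mul_one, Complex.norm_real, Real.norm_eq_abs, abs_of_pos ht]
  have hball : ∀ t ∈ Ioc (0 : ℝ) (ρ / 2), (t : ℂ) * u ∈ closedBall (0 : ℂ) r := by
    intro t ht
    rw [mem_closedBall_zero_iff, hnorm t ht.1]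
    linarith [ht.2]
  have hne : ∀ t ∈ Ioc (0 : ℝ) (ρ / 2), (t : ℂ) * u ≠ 0 := by
    intro t ht h0
    have := hnorm t ht.1
    rw [h0, norm_zero] at this
    exact ht.1.ne this
  have hG : ∀ t ∈ Ioc (0 : ℝ) (ρ / 2), c0 (t * u) ∈ G := by
    intro t ht
    have := hin 0 ⟨le_rfl, zero_le_one⟩ _ (hball t ht) fun h0 => hne t ht (Prod.ext_iff.1 h0).2
    simpa using this
  have hUt : ∀ t ∈ Ioc (0 : ℝ) (ρ / 2), (t : ℂ) * u ∈ U := fun t ht => hUr (hball t ht)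
  set γ : ℝ → M := fun t => Φ (ray c0 u t) with hγ
  have hsm : ContMDiffOn 𝓘(ℝ, ℝ) 𝓘(ℝ, E) 1 γ (Ioc 0 (ρ / 2)) := by
    intro t ht
    have h1 : ContMDiffAt 𝓘(ℝ, E) 𝓘(ℝ, E) 1 Φ (ray c0 u t) :=
      (contMDiffAt_real hΦ (x := ray c0 u t) (hG t ht)).of_le (by simp)
    have h2 : ContMDiffAt 𝓘(ℝ, ℝ) 𝓘(ℝ, E) 1 (ray c0 u) t :=
      (contDiffAt_ray hU hc0 (hUt t ht)).contMDiffAt
    exact (h1.comp t h2).contMDiffWithinAt
  have hlen : ∫⁻ t in Ioo 0 (ρ / 2),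
      ‖(mfderiv 𝓘(ℝ, ℝ) 𝓘(ℝ, E) γ t 1 : TangentSpace 𝓘(ℝ, E) (γ t))‖ₑ ≠ ⊤ := by
    refine ne_top_of_le_ne_top hfin ?_
    refine le_trans (le_of_eq ?_) (lintegral_mono_set (Ioo_subset_Ioo_right
      (by linarith : ρ / 2 ≤ ρ)))
    refine setLIntegral_congr_fun measurableSet_Ioo fun t ht => ?_
    have ht' : t ∈ Ioc (0 : ℝ) (ρ / 2) := ⟨ht.1, ht.2.le⟩
    exact enorm_mfderiv_ray hΦ hk hU hc0 hnu (hUt t ht') (hG t ht')
  obtain ⟨q, hq⟩ := exists_tendsto_of_finite_length (by positivity) hsm hlen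
  exact ⟨u, hnu, q, hq⟩

/-- the limit disc converges along a radius -/
theorem exists_limit [CompleteSpace M] (hK : IsKahler E M)
    (hnn : ∀ x : M, NonnegBisectionalAt E x)
    {G : Set E} {Φ : E → M} {c0 c1 : ℂ → E} {U : Set ℂ} {z₀ : ℂ} {r : ℝ} (hΦ : IsEtale E Φ G)
    (hr : 0 < r) (hU : IsOpen U)
    (hUr : closedBall z₀ r ⊆ U) (hc0 : DifferentiableOn ℂ c0 U) (hc1 : DifferentiableOn ℂ c1 U)
    (hin : ∀ s ∈ Icc (0:ℝ) 1, ∀ z ∈ closedBall z₀ r, (s, z) ≠ (0, z₀) →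
      c0 z + (s : ℂ) • c1 z ∈ G) :
    ∃ u : ℂ, ‖u‖ = 1 ∧ ∃ y : M, Tendsto (fun t : ℝ => Φ (c0 (t * u + z₀))) (𝓝[>] 0) (𝓝 y) := by
  set τ : ℂ → ℂ := fun z => z + z₀ with hτ
  have hmap : ∀ z ∈ closedBall (0 : ℂ) r, z + z₀ ∈ closedBall z₀ r := fun z hz => by
    rw [mem_closedBall_zero_iff] at hz
    rw [mem_closedBall, dist_eq_norm, add_sub_cancel_right]
    exact hz
  have hcont : Continuous τ := by fun_prop
  have hd : Differentiable ℂ τ := by fun_prop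
  refine exists_limit_zero (M := M) hK hnn (c0 := fun z => c0 (z + z₀)) (c1 := fun z => c1 (z + z₀))
    (U := τ ⁻¹' U) hΦ hr (hU.preimage hcont) (fun z hz => hUr (hmap z hz))
    (hc0.comp hd.differentiableOn fun z hz => hz) (hc1.comp hd.differentiableOn fun z hz => hz)
    ?_
  intro s hs z hz hne
  exact hin s hs (z + z₀) (hmap z hz) fun h0 => hne (by
    have h3 := Prod.ext_iff.1 h0
    simp only at h3
    refine Prod.ext_iff.2 ⟨h3.1, ?_⟩
    simpa using h3.2)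

end Vale.Agent.P253.R2.H451
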