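import Vale.Agent.P253.R2.H922.Disc
import Vale.Agent.P253.R2.H451.Limit

/-!
P253 SC1: a Hartogs family of discs over a holomorphic map `h : M → E` which converges along a
radius to a point `y`, isolated in its fibre of `h`, converges to `y`, and `h` is a local
biholomorphism at `y`.
-/

open scoped Manifold ContDiff Topology
open Set Metric Filter IsManifold

noncomputable section

set_option linter.unusedSectionVars false

namespace Vale.Agent.P253.R2.H451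

section top

variable {E F M T : Type*} [NormedAddCommGroup E] [NormedSpace ℝ E] [ProperSpace E]
  [NormedAddCommGroup F] [TopologicalSpace M] [T2Space M] [TopologicalSpace T]

/-- the sphere trick -/
theorem stays_near {e : OpenPartialHomeomorph M E} {h : M → F} {y : M} {ε : ℝ}
    (hh : ContinuousOn h e.source) (hε : closedBall (e y) ε ⊆ e.target)
    (hiso : ∀ w ∈ sphere (e y) ε, h (e.symm w) ≠ h y) :
    ∃ δ > 0, ∀ (S : Set T) (f : T → M), IsPreconnected S → ContinuousOn f S →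
      (∀ t ∈ S, ‖h (f t) - h y‖ < δ) → (∃ t ∈ S, f t ∈ e.source ∧ e (f t) ∈ ball (e y) ε) →
      ∀ t ∈ S, f t ∈ e.source ∧ e (f t) ∈ ball (e y) ε := by
  have hsub : sphere (e y) ε ⊆ e.target := sphere_subset_closedBall.trans hε
  have hc : ContinuousOn (fun w => ‖h (e.symm w) - h y‖) (sphere (e y) ε) := by
    refine ContinuousOn.norm (ContinuousOn.sub ?_ continuousOn_const)
    exact hh.comp (e.continuousOn_symm.mono hsub) fun w hw => e.map_target (hsub hw)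
  obtain ⟨δ, hδ, hδ'⟩ := (isCompact_sphere (e y) ε).exists_forall_le' hc (a := 0)
    fun w hw => norm_pos_iff.2 (sub_ne_zero.2 (hiso w hw))
  refine ⟨δ, hδ, fun S f hS hf hlt hex => ?_⟩
  set B : Set M := e.source ∩ e ⁻¹' ball (e y) ε with hB
  set K : Set M := e.symm '' closedBall (e y) ε with hK
  have hBo : IsOpen B := e.isOpen_inter_preimage isOpen_ball
  have hKc : IsCompact K := (isCompact_closedBall (e y) ε).image_of_continuousOn
    (e.continuousOn_symm.mono hε)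
  have hKo : IsOpen Kᶜ := hKc.isClosed.isOpen_compl
  have hBK : B ⊆ K := fun x hx => ⟨e x, ball_subset_closedBall hx.2, e.left_inv hx.1⟩
  have hcov : f '' S ⊆ B ∪ Kᶜ := by
    rintro _ ⟨t, ht, rfl⟩
    by_cases hk : f t ∈ K
    · left
      obtain ⟨w, hw, hwt⟩ := hk
      rcases (mem_closedBall.1 hw).lt_or_eq with h1 | h1
      · rw [← hwt]
        exact ⟨e.map_target (hε hw), by rw [mem_preimage, e.right_inv (hε hw)]; exact h1⟩
      · exfalso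
        have h2 := hδ' w h1
        have h3 := hlt t ht
        rw [← hwt] at h3
        linarith
    · right; exact hk
  have hpre : IsPreconnected (f '' S) := hS.image f hf
  obtain ⟨t₀, ht₀, h₀⟩ := hex
  have := hpre.subset_left_of_subset_union hBo hKo
    (disjoint_left.2 fun x hx hx' => hx' (hBK hx)) hcov ⟨f t₀, ⟨t₀, ht₀, rfl⟩, h₀⟩
  exact fun t ht => this ⟨t, ht, rfl⟩

/-- the domain of the family is connected -/
theorem isPreconnected_family {σ ρ : ℝ} (hσ : 0 < σ) (hρ : 0 < ρ) (z₀ : ℂ) :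
    IsPreconnected ((Icc (0:ℝ) σ ×ˢ closedBall z₀ ρ) \ {((0:ℝ), z₀)}) := by
  have hx₀ : ((σ, z₀) : ℝ × ℂ) ∈ (Icc (0:ℝ) σ ×ˢ closedBall z₀ ρ) \ {((0:ℝ), z₀)} :=
    ⟨⟨⟨hσ.le, le_rfl⟩, mem_closedBall_self hρ.le⟩, fun h => hσ.ne' (Prod.ext_iff.1 h).1⟩
  have hstar : StarConvex ℝ ((σ, z₀) : ℝ × ℂ)
      ((Icc (0:ℝ) σ ×ˢ closedBall z₀ ρ) \ {((0:ℝ), z₀)}) := by
    intro x hx a b ha hb hab
    have hconv : Convex ℝ (Icc (0:ℝ) σ ×ˢ closedBall z₀ ρ) :=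
      (convex_Icc _ _).prod (convex_closedBall _ _)
    refine ⟨hconv hx₀.1 hx.1 ha hb hab, fun h => ?_⟩
    have h1 := (Prod.ext_iff.1 h).1
    have h2 := (Prod.ext_iff.1 h).2
    simp only [Prod.fst_add, Prod.smul_fst, smul_eq_mul, Prod.snd_add, Prod.smul_snd] at h1 h2
    have hx1 : 0 ≤ x.1 := hx.1.1.1
    have ha0 : a = 0 := by
      rcases ha.eq_or_lt with h3 | h3
      · exact h3.symm
      · nlinarith [mul_pos h3 hσ, mul_nonneg hb hx1]
    have hb1 : b = 1 := by linarith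
    rw [ha0, hb1] at h1 h2
    simp only [zero_mul, one_mul, zero_add, zero_smul, one_smul] at h1 h2
    exact hx.2 (Prod.ext h1 h2)
  exact (hstar.isPathConnected hx₀).isConnected.isPreconnected

end top

section disc

variable {F : Type*} [NormedAddCommGroup F] [NormedSpace ℂ F]

/-- a Hartogs family of functions converges at the singular point -/
theorem tendsto_family {φ : ℝ × ℂ → F} {σ ρ : ℝ} (hσ : 0 < σ) (hρ : 0 < ρ) {z₀ : ℂ}
    (hc : ContinuousOn φ ((Icc (0:ℝ) σ ×ˢ closedBall z₀ ρ) \ {((0:ℝ), z₀)}))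
    (hd : ∀ s ∈ Ioc (0:ℝ) σ, DifferentiableOn ℂ (fun z => φ (s, z)) (ball z₀ ρ))
    {u : ℂ} (hu : ‖u‖ = 1) {p : F}
    (hp : Tendsto (fun t : ℝ => φ (0, t * u + z₀)) (𝓝[>] 0) (𝓝 p)) :
    Tendsto φ (𝓝[(Icc (0:ℝ) σ ×ˢ closedBall z₀ ρ) \ {((0:ℝ), z₀)}] (0, z₀)) (𝓝 p) := by
  set W : Set (ℝ × ℂ) := (Icc (0:ℝ) σ ×ˢ closedBall z₀ ρ) \ {((0:ℝ), z₀)} with hW
  have hsph : Icc (0:ℝ) σ ×ˢ sphere z₀ ρ ⊆ W := by
    rintro ⟨s, z⟩ ⟨hs, hz⟩
    refine ⟨⟨hs, sphere_subset_closedBall hz⟩, fun h => ?_⟩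
    have h1 := (Prod.ext_iff.1 h).2
    simp only at h1
    rw [h1, mem_sphere, dist_self] at hz
    exact hρ.ne hz
  have hWs : ∀ s ∈ Ioc (0:ℝ) σ, ∀ z ∈ closedBall z₀ ρ, (s, z) ∈ W := fun s hs z hz =>
    ⟨⟨⟨hs.1.le, hs.2⟩, hz⟩, fun h => hs.1.ne' (Prod.ext_iff.1 h).1⟩
  have hW0 : ∀ z ∈ closedBall z₀ ρ, z ≠ z₀ → ((0:ℝ), z) ∈ W := fun z hz hne =>
    ⟨⟨⟨le_rfl, hσ.le⟩, hz⟩, fun h => hne (Prod.ext_iff.1 h).2⟩
  have huc : UniformContinuousOn φ (Icc (0:ℝ) σ ×ˢ sphere z₀ ρ) :=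
    (isCompact_Icc.prod (isCompact_sphere z₀ ρ)).uniformContinuousOn_of_continuous (hc.mono hsph)
  rw [Metric.tendsto_nhds]
  intro ε hε
  obtain ⟨η, hη, hηε⟩ := Metric.uniformContinuousOn_iff.1 huc (ε / 8) (by positivity)
  set s₀ : ℝ := min (η / 2) σ with hs₀
  have hs₀0 : 0 < s₀ := by positivity
  have hs₀σ : s₀ ≤ σ := min_le_right _ _
  have hs₀η : s₀ < η := lt_of_le_of_lt (min_le_left _ _) (by linarith)
  -- the discs are uniformly close
  have h1 : ∀ s ∈ Ioc (0:ℝ) s₀, ∀ s' ∈ Ioc (0:ℝ) s₀, ∀ z ∈ closedBall z₀ ρ,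
      ‖φ (s, z) - φ (s', z)‖ ≤ ε / 8 := by
    intro s hs s' hs' z hz
    have hsσ : s ∈ Ioc (0:ℝ) σ := ⟨hs.1, hs.2.trans hs₀σ⟩
    have hsσ' : s' ∈ Ioc (0:ℝ) σ := ⟨hs'.1, hs'.2.trans hs₀σ⟩
    have hcs : ∀ s ∈ Ioc (0:ℝ) σ, ContinuousOn (fun z => φ (s, z)) (closedBall z₀ ρ) := by
      intro s hs
      exact hc.comp (by fun_prop) fun z hz => hWs s hs z hz
    have hdc : DiffContOnCl ℂ (fun z => φ (s, z) - φ (s', z)) (ball z₀ ρ) := by
      refine ⟨(hd s hsσ).sub (hd s' hsσ'), ?_⟩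
      rw [closure_ball z₀ hρ.ne']
      exact (hcs s hsσ).sub (hcs s' hsσ')
    refine Complex.norm_le_of_forall_mem_frontier_norm_le isBounded_ball hdc (fun w hw => ?_)
      (by rwa [closure_ball z₀ hρ.ne'])
    rw [frontier_ball z₀ hρ.ne'] at hw
    have h2 := hηε (s, w) ⟨⟨hs.1.le, hsσ.2⟩, hw⟩ (s', w) ⟨⟨hs'.1.le, hsσ'.2⟩, hw⟩ (by
      rw [Prod.dist_eq, dist_self, max_eq_left dist_nonneg, Real.dist_eq, abs_lt]
      constructor
      · linarith [hs.1, hs'.2]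
      · linarith [hs.2, hs'.1])
    rw [dist_eq_norm] at h2
    exact h2.le
  have hs₀m : s₀ ∈ Ioc (0:ℝ) s₀ := ⟨hs₀0, le_rfl⟩
  have h2 : ∀ s ∈ Icc (0:ℝ) s₀, ∀ z ∈ closedBall z₀ ρ, (s, z) ∈ W →
      ‖φ (s, z) - φ (s₀, z)‖ ≤ ε / 8 := by
    intro s hs z hz hsz
    rcases hs.1.eq_or_lt with h0 | h0
    · subst h0
      have hne : z ≠ z₀ := fun h => hsz.2 (by rw [h]; rfl)
      have h3 : Tendsto (fun s : ℝ => ‖φ (s, z) - φ (s₀, z)‖) (𝓝[>] 0)
          (𝓝 ‖φ (0, z) - φ (s₀, z)‖) := by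
        refine (Tendsto.sub ?_ tendsto_const_nhds).norm
        refine (hc _ hsz).tendsto.comp ?_
        rw [tendsto_nhdsWithin_iff]
        refine ⟨?_, ?_⟩
        · have : Continuous fun s : ℝ => (s, z) := by fun_prop
          exact (this.tendsto 0).mono_left nhdsWithin_le_nhds
        · filter_upwards [Ioo_mem_nhdsGT hσ] with s hs using hWs s ⟨hs.1, hs.2.le⟩ z hz
      refine le_of_tendsto h3 ?_
      filter_upwards [Ioo_mem_nhdsGT hs₀0] with s hs using h1 s ⟨hs.1, hs.2.le⟩ s₀ hs₀m z hz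
    · exact h1 s ⟨h0, hs.2⟩ s₀ hs₀m z hz
  -- the disc `s₀` is continuous at `z₀`
  have h3 : ∀ᶠ z in 𝓝 z₀, ‖φ (s₀, z) - φ (s₀, z₀)‖ < ε / 8 := by
    have h4 : ContinuousOn (fun z => φ (s₀, z)) (closedBall z₀ ρ) :=
      hc.comp (by fun_prop) fun z hz => hWs s₀ ⟨hs₀0, hs₀σ⟩ z hz
    have h5 : ContinuousAt (fun z => φ (s₀, z)) z₀ := h4.continuousAt (closedBall_mem_nhds z₀ hρ)
    filter_upwards [Metric.tendsto_nhds.1 h5.tendsto (ε / 8) (by positivity)] with z hz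
    rwa [← dist_eq_norm]
  have h4 : ∀ᶠ x in 𝓝[W] ((0:ℝ), z₀), ‖φ x - φ (s₀, z₀)‖ < ε / 4 := by
    have h5 : ∀ᶠ x : ℝ × ℂ in 𝓝 ((0:ℝ), z₀), x.1 < s₀ ∧ ‖φ (s₀, x.2) - φ (s₀, z₀)‖ < ε / 8 := by
      have h6 : ∀ᶠ x : ℝ × ℂ in 𝓝 ((0:ℝ), z₀), x.1 < s₀ :=
        (continuous_fst.tendsto ((0:ℝ), z₀)).eventually (gt_mem_nhds hs₀0)
      exact h6.and ((continuous_snd.tendsto ((0:ℝ), z₀)).eventually h3)
    filter_upwards [self_mem_nhdsWithin, nhdsWithin_le_nhds h5] with x hx hx5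
    obtain ⟨s, z⟩ := x
    have h6 := h2 s ⟨hx.1.1.1, hx5.1.le⟩ z hx.1.2 hx
    calc ‖φ (s, z) - φ (s₀, z₀)‖ = ‖(φ (s, z) - φ (s₀, z)) + (φ (s₀, z) - φ (s₀, z₀))‖ := by
          congr 1; abel
      _ ≤ ‖φ (s, z) - φ (s₀, z)‖ + ‖φ (s₀, z) - φ (s₀, z₀)‖ := norm_add_le _ _
      _ < ε / 4 := by linarith [hx5.2]
  -- the radius
  have h5 : Tendsto (fun t : ℝ => ((0:ℝ), (t : ℂ) * u + z₀)) (𝓝[>] 0) (𝓝[W] ((0:ℝ), z₀)) := by
    rw [tendsto_nhdsWithin_iff]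
    refine ⟨?_, ?_⟩
    · have : Continuous fun t : ℝ => ((0:ℝ), (t : ℂ) * u + z₀) := by fun_prop
      have h6 := this.tendsto 0
      simp only [Complex.ofReal_zero, zero_mul, zero_add] at h6
      exact h6.mono_left nhdsWithin_le_nhds
    · filter_upwards [Ioo_mem_nhdsGT hρ] with t ht
      refine hW0 _ ?_ ?_
      · rw [mem_closedBall, dist_eq_norm, add_sub_cancel_right, norm_mul, hu, mul_one,
          Complex.norm_real, Real.norm_of_nonneg ht.1.le]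
        exact ht.2.le
      · intro h
        have h6 : (t : ℂ) * u = 0 := by simpa using h
        rcases mul_eq_zero.1 h6 with h7 | h7
        · exact ht.1.ne' (by exact_mod_cast h7)
        · rw [h7, norm_zero] at hu
          exact zero_ne_one hu
  have h6 : ‖p - φ (s₀, z₀)‖ ≤ ε / 4 := by
    refine le_of_tendsto (hp.sub tendsto_const_nhds).norm ?_
    filter_upwards [h5.eventually h4] with t ht using ht.le
  filter_upwards [h4] with x hx
  rw [dist_eq_norm]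
  calc ‖φ x - p‖ = ‖(φ x - φ (s₀, z₀)) - (p - φ (s₀, z₀))‖ := by congr 1; abel
    _ ≤ ‖φ x - φ (s₀, z₀)‖ + ‖p - φ (s₀, z₀)‖ := norm_sub_le _ _
    _ < ε := by linarith

end disc

end Vale.Agent.P253.R2.H451
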