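import Vale.Agent.P253.R2.H451.Isolated

/-!
P253 SC1: the core lemma.
-/

open scoped Manifold ContDiff Topology
open Set Metric Filter IsManifold

noncomputable section

set_option linter.unusedSectionVars false

namespace Vale.Agent.P253.R2.H451

open Mfd

variable {E : Type*} [NormedAddCommGroup E] [NormedSpace ℂ E] [FiniteDimensional ℂ E]
  {M : Type*} [TopologicalSpace M] [T2Space M] [ChartedSpace E M] [IsManifold 𝓘(ℂ, E) 1 M]
  {N : Type*} [NormedAddCommGroup N] [NormedSpace ℂ N]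

/-- a Hartogs family of discs which converges along a radius to a point `y`, isolated in a fibre
of a holomorphic map `g`, cannot be lifted from the base by `h` unless `h` is a local
biholomorphism at `y` -/
theorem injective_of_limit {h : M → E} (hh : MDifferentiable 𝓘(ℂ, E) 𝓘(ℂ, E) h)
    {g : M → N} (hg : MDifferentiable 𝓘(ℂ, E) 𝓘(ℂ, N) g)
    {G : Set E} (hG : IsOpen G) {Φ : E → M} (hΦ : ∀ x ∈ G, MDifferentiableAt 𝓘(ℂ, E) 𝓘(ℂ, E) Φ x)
    (hsec : ∀ x ∈ G, h (Φ x) = x)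
    {c0 c1 : ℂ → E} {U : Set ℂ} {z₀ : ℂ} {r : ℝ} (hr : 0 < r) (hU : IsOpen U)
    (hUr : closedBall z₀ r ⊆ U) (hc0 : DifferentiableOn ℂ c0 U) (hc1 : DifferentiableOn ℂ c1 U)
    (hin : ∀ s ∈ Icc (0:ℝ) 1, ∀ z ∈ closedBall z₀ r, (s, z) ≠ (0, z₀) →
      c0 z + (s : ℂ) • c1 z ∈ G)
    {u : ℂ} (hu : ‖u‖ = 1) {y : M}
    (hy : Tendsto (fun t : ℝ => Φ (c0 (t * u + z₀))) (𝓝[>] 0) (𝓝 y))
    (hiso : ∀ᶠ x in 𝓝[≠] y, g x ≠ g y) :
    Function.Injective (mfderiv 𝓘(ℂ, E) 𝓘(ℂ, E) h y) := by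
  have hprop : ProperSpace E := FiniteDimensional.proper ℂ E
  have hCE : CompleteSpace E := FiniteDimensional.complete ℂ E
  -- the chart
  set e := chartAt E y with he
  have heM : e ∈ maximalAtlas 𝓘(ℂ, E) 1 M := chart_mem_maximalAtlas y
  have hye : y ∈ e.source := mem_chart_source E y
  have heyt : e y ∈ e.target := e.map_source hye
  obtain ⟨ε, hε, hεt, hεiso⟩ : ∃ ε > 0, closedBall (e y) ε ⊆ e.target ∧
      ∀ w ∈ closedBall (e y) ε, w ≠ e y → g (e.symm w) ≠ g y := by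
    have h1 : ∀ᶠ w in 𝓝 (e y), w ∈ e.target := e.open_target.mem_nhds heyt
    have h2 : ∀ᶠ x in 𝓝 y, x ≠ y → g x ≠ g y := by
      rw [eventually_nhdsWithin_iff] at hiso
      filter_upwards [hiso] with x hx hne using hx hne
    have h3 : Tendsto e.symm (𝓝 (e y)) (𝓝 y) := by
      have := e.continuousAt_symm heyt
      rw [ContinuousAt, e.left_inv hye] at this
      exact this
    obtain ⟨ε, hε, h⟩ := Metric.nhds_basis_closedBall.eventually_iff.1 (h1.and (h3.eventually h2))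
    refine ⟨ε, hε, fun w hw => (h hw).1, fun w hw hne => (h hw).2 fun h0 => hne ?_⟩
    rw [← h0, e.right_inv (h hw).1]
  obtain ⟨δ, hδ, hstay⟩ := stays_near (T := ℝ × ℂ) (e := e) (h := g) (y := y)
    hg.continuous.continuousOn hεt
    fun w hw => hεiso w (sphere_subset_closedBall hw) fun h0 => by
      rw [h0, mem_sphere, dist_self] at hw
      exact hε.ne hw
  -- the family
  set c : ℝ × ℂ → E := fun x => c0 x.2 + (x.1 : ℂ) • c1 x.2 with hc
  have hcc : ContinuousOn c (univ ×ˢ U) := by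
    have h0 : ContinuousOn (fun x : ℝ × ℂ => c0 x.2) (univ ×ˢ U) :=
      hc0.continuousOn.comp continuousOn_snd fun x hx => hx.2
    have h1 : ContinuousOn (fun x : ℝ × ℂ => c1 x.2) (univ ×ˢ U) :=
      hc1.continuousOn.comp continuousOn_snd fun x hx => hx.2
    have h2 : ContinuousOn (fun x : ℝ × ℂ => (x.1 : ℂ)) (univ ×ˢ U) :=
      (Complex.continuous_ofReal.comp continuous_fst).continuousOn
    exact h0.add (h2.smul h1)
  have hcd : ∀ s : ℝ, DifferentiableOn ℂ (fun z => c (s, z)) (closedBall z₀ r) := fun s =>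
    (hc0.add (hc1.const_smul (s : ℂ))).mono hUr
  set W : Set (ℝ × ℂ) := (Icc (0:ℝ) 1 ×ˢ closedBall z₀ r) \ {((0:ℝ), z₀)} with hW
  have hcW : ∀ x ∈ W, c x ∈ G := fun x hx => hin x.1 hx.1.1 x.2 hx.1.2 fun h0 => hx.2 h0
  have hWU : W ⊆ univ ×ˢ U := fun x hx => ⟨mem_univ _, hUr hx.1.2⟩
  set f : ℝ × ℂ → M := fun x => Φ (c x) with hf
  have hfc : ContinuousOn f W := fun x hx =>
    ((hΦ _ (hcW x hx)).continuousAt.comp_continuousWithinAt ((hcc.mono hWU) x hx))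
  have hWs : ∀ s ∈ Ioc (0:ℝ) 1, ∀ z ∈ closedBall z₀ r, (s, z) ∈ W := fun s hs z hz =>
    ⟨⟨⟨hs.1.le, hs.2⟩, hz⟩, fun h => hs.1.ne' (Prod.ext_iff.1 h).1⟩
  have hlim : Tendsto (fun x => g (f x)) (𝓝[W] ((0:ℝ), z₀)) (𝓝 (g y)) := by
    refine tendsto_family (φ := fun x => g (f x)) one_pos hr
      (hg.continuous.comp_continuousOn hfc) ?_ hu ?_
    · intro s hs z hz
      have hz' : z ∈ closedBall z₀ r := ball_subset_closedBall hz
      have h1 : MDifferentiableAt 𝓘(ℂ, E) 𝓘(ℂ, N) (fun x => g (Φ x)) (c (s, z)) :=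
        (hg _).comp _ (hΦ _ (hcW _ (hWs s hs z hz')))
      have h2 : DifferentiableAt ℂ (fun x => g (Φ x)) (c (s, z)) := h1.differentiableAt
      have h3 : DifferentiableAt ℂ (fun z => c (s, z)) z :=
        (hcd s).differentiableAt (mem_of_superset (isOpen_ball.mem_nhds hz) ball_subset_closedBall)
      exact (h2.comp z h3).differentiableWithinAt
    · have h1 := (hg.continuous.tendsto y).comp hy
      refine h1.congr fun t => ?_
      simp [hf, hc]
  -- a small part of the family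
  obtain ⟨σ, ρ, hσ, hρ, hσ1, hρr, hsmall⟩ : ∃ σ ρ : ℝ, 0 < σ ∧ 0 < ρ ∧ σ ≤ 1 ∧ ρ ≤ r ∧
      ∀ x ∈ (Icc (0:ℝ) σ ×ˢ closedBall z₀ ρ) \ {((0:ℝ), z₀)}, ‖g (f x) - g y‖ < δ := by
    have h1 : ∀ᶠ x in 𝓝[W] ((0:ℝ), z₀), ‖g (f x) - g y‖ < δ := by
      filter_upwards [Metric.tendsto_nhds.1 hlim δ hδ] with x hx
      rwa [← dist_eq_norm]
    rw [eventually_nhdsWithin_iff, nhds_prod_eq] at h1
    obtain ⟨p1, hp1, p2, hp2, h2⟩ := eventually_prod_iff.1 h1
    obtain ⟨σ, hσ, hσ'⟩ := Metric.nhds_basis_closedBall.eventually_iff.1 hp1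
    obtain ⟨ρ, hρ, hρ'⟩ := Metric.nhds_basis_closedBall.eventually_iff.1 hp2
    refine ⟨min σ 1, min ρ r, by positivity, by positivity, min_le_right _ _, min_le_right _ _,
      fun x hx => ?_⟩
    have hx1 : x.1 ∈ Icc (0:ℝ) (min σ 1) := hx.1.1
    have hx2 : x.2 ∈ closedBall z₀ (min ρ r) := hx.1.2
    refine h2 (x := x.1) (hσ' ?_) (y := x.2) (hρ' ?_) ?_
    · rw [mem_closedBall, Real.dist_eq, sub_zero, abs_of_nonneg hx1.1]
      exact hx1.2.trans (min_le_left _ _)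
    · exact closedBall_subset_closedBall (min_le_left _ _) hx2
    · exact ⟨⟨⟨hx1.1, hx1.2.trans (min_le_right _ _)⟩,
        closedBall_subset_closedBall (min_le_right _ _) hx2⟩, hx.2⟩
  set S : Set (ℝ × ℂ) := (Icc (0:ℝ) σ ×ˢ closedBall z₀ ρ) \ {((0:ℝ), z₀)} with hS
  have hSW : S ⊆ W := fun x hx => ⟨⟨⟨hx.1.1.1, hx.1.1.2.trans hσ1⟩,
    closedBall_subset_closedBall hρr hx.1.2⟩, hx.2⟩
  have hmem : ∀ x ∈ S, f x ∈ e.source ∧ e (f x) ∈ ball (e y) ε := by
    refine hstay S f (isPreconnected_family hσ hρ z₀) (hfc.mono hSW) hsmall ?_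
    have h1 : ∀ᶠ x in 𝓝 y, x ∈ e.source ∧ e x ∈ ball (e y) ε :=
      (e.isOpen_inter_preimage isOpen_ball).mem_nhds ⟨hye, mem_ball_self hε⟩
    obtain ⟨t, ht1, ht2⟩ := ((hy.eventually h1).and (Ioo_mem_nhdsGT hρ)).exists
    refine ⟨(0, t * u + z₀), ⟨⟨⟨le_rfl, hσ.le⟩, ?_⟩, fun h0 => ?_⟩, ?_⟩
    · rw [mem_closedBall, dist_eq_norm, add_sub_cancel_right, norm_mul, hu, mul_one,
        Complex.norm_real, Real.norm_of_nonneg ht2.1.le]
      exact ht2.2.le
    · have h6 : (t : ℂ) * u = 0 := by simpa using (Prod.ext_iff.1 h0).2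
      rcases mul_eq_zero.1 h6 with h7 | h7
      · exact ht2.1.ne' (by exact_mod_cast h7)
      · rw [h7, norm_zero] at hu
        exact zero_ne_one hu
    · simpa [hf, hc] using ht1
  -- the map in the chart
  set G' : Set E := G ∩ Φ ⁻¹' e.source with hG'
  have hG'o : IsOpen G' := ContinuousOn.isOpen_inter_preimage
    (fun x hx => (hΦ x hx).continuousAt.continuousWithinAt) hG e.open_source
  set Ψ : E → E := fun x => e (Φ x) with hΨ
  have hΨd : DifferentiableOn ℂ Ψ G' := by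
    intro x hx
    have h1 : MDifferentiableAt 𝓘(ℂ, E) 𝓘(ℂ, E) e (Φ x) :=
      ((contMDiffOn_of_mem_maximalAtlas heM).contMDiffAt
        (e.open_source.mem_nhds hx.2)).mdifferentiableAt (by simp)
    exact ((h1.comp x (hΦ x hx.1)).differentiableAt).differentiableWithinAt
  have hDΨ : DifferentiableOn ℂ (fderiv ℂ Ψ) G' :=
    ((contDiffOn_of_differentiableOn_complex hG'o hΨd).fderiv_of_isOpen hG'o
      (m := ∞) (by simp)).differentiableOn (by simp)
  set H : E → E := fun w => h (e.symm w) with hH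
  have hHd : DifferentiableOn ℂ H e.target := by
    intro w hw
    have h1 : MDifferentiableAt 𝓘(ℂ, E) 𝓘(ℂ, E) e.symm w :=
      ((contMDiffOn_symm_of_mem_maximalAtlas heM).contMDiffAt
        (e.open_target.mem_nhds hw)).mdifferentiableAt (by simp)
    exact (((hh _).comp w h1).differentiableAt).differentiableWithinAt
  have hDH : DifferentiableOn ℂ (fderiv ℂ H) e.target :=
    ((contDiffOn_of_differentiableOn_complex e.open_target hHd).fderiv_of_isOpen e.open_target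
      (m := ∞) (by simp)).differentiableOn (by simp)
  have hcS : ∀ x ∈ S, c x ∈ G' := fun x hx => ⟨hcW x (hSW hx), (hmem x hx).1⟩
  -- the bound on the boundary
  obtain ⟨C, hC⟩ : ∃ C, ∀ x ∈ Icc (0:ℝ) σ ×ˢ sphere z₀ ρ, ‖fderiv ℂ Ψ (c x)‖ ≤ C := by
    have hsub : Icc (0:ℝ) σ ×ˢ sphere z₀ ρ ⊆ S := by
      rintro ⟨s, z⟩ ⟨hs, hz⟩
      refine ⟨⟨hs, sphere_subset_closedBall hz⟩, fun h => ?_⟩
      have h1 := (Prod.ext_iff.1 h).2
      simp only at h1
      rw [h1, mem_sphere, dist_self] at hz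
      exact hρ.ne hz
    refine (isCompact_Icc.prod (isCompact_sphere z₀ ρ)).exists_bound_of_continuousOn ?_
    exact hDΨ.continuousOn.comp ((hcc.mono hWU).mono (hsub.trans hSW)) fun x hx => hcS x (hsub hx)
  have hSs : ∀ s ∈ Ioc (0:ℝ) σ, ∀ z ∈ closedBall z₀ ρ, (s, z) ∈ S := fun s hs z hz =>
    ⟨⟨⟨hs.1.le, hs.2⟩, hz⟩, fun h => hs.1.ne' (Prod.ext_iff.1 h).1⟩
  have hbound : ∀ s ∈ Ioc (0:ℝ) σ, ‖fderiv ℂ Ψ (c (s, z₀))‖ ≤ C := by
    intro s hs
    have h1 : DifferentiableOn ℂ (fun z => fderiv ℂ Ψ (c (s, z))) (closedBall z₀ ρ) :=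
      hDΨ.comp ((hcd s).mono (closedBall_subset_closedBall hρr)) fun z hz => hcS _ (hSs s hs z hz)
    have h2 : DiffContOnCl ℂ (fun z => fderiv ℂ Ψ (c (s, z))) (ball z₀ ρ) := by
      apply DifferentiableOn.diffContOnCl
      rwa [closure_ball z₀ hρ.ne']
    refine Complex.norm_le_of_forall_mem_frontier_norm_le isBounded_ball h2 (fun w hw => ?_)
      (z := z₀) (by rw [closure_ball z₀ hρ.ne']; exact mem_closedBall_self hρ.le)
    rw [frontier_ball z₀ hρ.ne'] at hw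
    exact hC (s, w) ⟨⟨hs.1.le, hs.2⟩, hw⟩
  have hC0 : 0 ≤ C := (norm_nonneg _).trans (hbound σ ⟨hσ, le_rfl⟩)
  -- the inverse of the derivative
  have hinv : ∀ x ∈ G', ∀ v, ‖v‖ ≤ ‖fderiv ℂ Ψ x‖ * ‖fderiv ℂ H (Ψ x) v‖ := by
    intro x hx v
    have h1 : HasFDerivAt Ψ (fderiv ℂ Ψ x) x :=
      (hΨd.differentiableAt (hG'o.mem_nhds hx)).hasFDerivAt
    have h2 : HasFDerivAt H (fderiv ℂ H (Ψ x)) (Ψ x) :=
      (hHd.differentiableAt (e.open_target.mem_nhds (e.map_source hx.2))).hasFDerivAt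
    have h3 := h2.comp x h1
    have h4 : (H ∘ Ψ) =ᶠ[𝓝 x] id := by
      filter_upwards [hG'o.mem_nhds hx] with y hy
      simp only [Function.comp, hH, hΨ, id]
      rw [e.left_inv hy.2, hsec y hy.1]
    have h5 : (fderiv ℂ H (Ψ x)).comp (fderiv ℂ Ψ x) = ContinuousLinearMap.id ℂ E :=
      h3.unique ((hasFDerivAt_id x).congr_of_eventuallyEq h4)
    have h6 : ∀ w, fderiv ℂ H (Ψ x) (fderiv ℂ Ψ x w) = w := fun w =>
      congrArg (fun T : E →L[ℂ] E => T w) h5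
    have h7 : Function.Injective (fderiv ℂ H (Ψ x) : E →ₗ[ℂ] E) :=
      LinearMap.injective_iff_surjective.2 fun w => ⟨fderiv ℂ Ψ x w, h6 w⟩
    have h8 : fderiv ℂ Ψ x (fderiv ℂ H (Ψ x) v) = v := h7 (h6 _)
    calc ‖v‖ = ‖fderiv ℂ Ψ x (fderiv ℂ H (Ψ x) v)‖ := by rw [h8]
      _ ≤ _ := (fderiv ℂ Ψ x).le_opNorm _
  -- the centres converge
  have hcen : Tendsto (fun s : ℝ => Ψ (c (s, z₀))) (𝓝[>] 0) (𝓝 (e y)) := by
    have hev : ∀ᶠ s in 𝓝[>] (0:ℝ), s ∈ Ioc (0:ℝ) σ := by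
      filter_upwards [Ioo_mem_nhdsGT hσ] with s hs using ⟨hs.1, hs.2.le⟩
    have hz₀ : z₀ ∈ closedBall z₀ ρ := mem_closedBall_self hρ.le
    refine (isCompact_closedBall (e y) ε).tendsto_nhds_of_unique_mapClusterPt ?_ ?_
    · filter_upwards [hev] with s hs
      exact ball_subset_closedBall (hmem _ (hSs s hs z₀ hz₀)).2
    · intro w hw hcl
      by_contra hne
      refine hεiso w hw hne ?_
      have h1 : ContinuousAt (fun w => g (e.symm w)) w :=
        (hg.continuous.continuousAt).comp (e.continuousAt_symm (hεt hw))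
      have h2 := hcl.continuousAt_comp h1
      have h3 : Tendsto ((fun w => g (e.symm w)) ∘ fun s : ℝ => Ψ (c (s, z₀))) (𝓝[>] 0)
          (𝓝 (g y)) := by
        have h4 : Tendsto (fun s : ℝ => ((s : ℝ), z₀)) (𝓝[>] 0) (𝓝[W] ((0:ℝ), z₀)) := by
          rw [tendsto_nhdsWithin_iff]
          refine ⟨?_, ?_⟩
          · have : Continuous fun s : ℝ => (s, z₀) := by fun_prop
            exact (this.tendsto 0).mono_left nhdsWithin_le_nhds
          · filter_upwards [hev] with s hs using hSW (hSs s hs z₀ hz₀)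
        refine (hlim.comp h4).congr' ?_
        filter_upwards [hev] with s hs
        simp only [Function.comp, hΨ]
        rw [e.left_inv (hmem _ (hSs s hs z₀ hz₀)).1]
      have h5 : (𝓝 (g (e.symm w)) ⊓ 𝓝 (g y)).NeBot := NeBot.mono h2 (inf_le_inf_left _ h3)
      exact eq_of_nhds_neBot h5
  -- conclusion
  have hfin : ∀ v, ‖v‖ ≤ C * ‖fderiv ℂ H (e y) v‖ := by
    intro v
    have h1 : Tendsto (fun s : ℝ => C * ‖fderiv ℂ H (Ψ (c (s, z₀))) v‖) (𝓝[>] 0)
        (𝓝 (C * ‖fderiv ℂ H (e y) v‖)) := by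
      have h2 : ContinuousAt (fderiv ℂ H) (e y) :=
        (hDH.differentiableAt (e.open_target.mem_nhds heyt)).continuousAt
      have h3 := h2.tendsto.comp hcen
      have h4 : Tendsto (fun s : ℝ => fderiv ℂ H (Ψ (c (s, z₀))) v) (𝓝[>] 0)
          (𝓝 (fderiv ℂ H (e y) v)) :=
        ((ContinuousLinearMap.apply ℂ E v).continuous.tendsto _).comp h3
      exact h4.norm.const_mul C
    refine ge_of_tendsto h1 ?_
    filter_upwards [Ioo_mem_nhdsGT hσ] with s hs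
    have hs' : s ∈ Ioc (0:ℝ) σ := ⟨hs.1, hs.2.le⟩
    have h4 : c (s, z₀) ∈ G' := hcS _ (hSs s hs' z₀ (mem_closedBall_self hρ.le))
    exact (hinv _ h4 v).trans (mul_le_mul_of_nonneg_right (hbound s hs') (norm_nonneg _))
  have hinj : Function.Injective (fderiv ℂ H (e y)) := by
    rw [injective_iff_map_eq_zero]
    intro v hv
    have h1 := hfin v
    rw [hv, norm_zero, mul_zero] at h1
    exact norm_le_zero_iff.1 h1
  have hmf : (mfderiv 𝓘(ℂ, E) 𝓘(ℂ, E) h y : E → E) = fderiv ℂ H (e y) := by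
    have h0 : (mfderiv 𝓘(ℂ, E) 𝓘(ℂ, E) h y : E →L[ℂ] E) =
        fderivWithin ℂ (writtenInExtChartAt 𝓘(ℂ, E) 𝓘(ℂ, E) y h) (range 𝓘(ℂ, E))
          (extChartAt 𝓘(ℂ, E) y y) := (hh y).mfderiv
    have h1 : (mfderiv 𝓘(ℂ, E) 𝓘(ℂ, E) h y : E →L[ℂ] E) = fderiv ℂ H (e y) := by
      rw [h0]
      simp only [writtenInExtChartAt, extChartAt, mfld_simps, fderivWithin_univ]
      rfl
    exact congrArg (fun T : E →L[ℂ] E => (T : E → E)) h1
  rw [hmf]
  exact hinj

end Vale.Agent.P253.R2.H451
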