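import Vale.Agent.P253.R2.H451.Block

/-!
P253 M8: Kähler metrics of nonnegative bisectional curvature on an open subset of `ℂ^n`, in real
form (`KMetric`), and their operator form.
-/

open Set Filter Complex
open scoped Topology ContDiff InnerProductSpace ComplexConjugate

noncomputable section

namespace Vale.Agent.P253.R2.H451

open Vale.Agent.P253.R2.H66

variable {E : Type*} [NormedAddCommGroup E] [NormedSpace ℂ E]

/-- `g` is a Kähler metric on the open set `S ⊆ E = ℂ^n` with nonnegative bisectional curvature -/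
structure KMetric (S : Set E) (g : E → E → E → ℝ) : Prop where
  smooth : ∀ v w, ContDiffOn ℝ 2 (fun x => g x v w) S
  symm : ∀ x ∈ S, ∀ v w, g x v w = g x w v
  add : ∀ x ∈ S, ∀ u v w, g x u (v + w) = g x u v + g x u w
  smul : ∀ x ∈ S, ∀ (t : ℝ) u v, g x u (t • v) = t * g x u v
  pos : ∀ x ∈ S, ∀ v, v ≠ 0 → 0 < g x v v
  herm : ∀ x ∈ S, ∀ v w, g x (I • v) (I • w) = g x v w
  closed : ∀ x ∈ S, ∀ u v w, fderiv ℝ (fun y => g y (I • v) w) x u +
    fderiv ℝ (fun y => g y (I • w) u) x v + fderiv ℝ (fun y => g y (I • u) v) x w = 0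
  curv : ∀ x ∈ S, ∀ v a, ∃ Γ : E, fderiv ℝ (fun y => fderiv ℝ (fun x => g x a a) y v) x v +
    fderiv ℝ (fun y => fderiv ℝ (fun x => g x a a) y (I • v)) x (I • v) ≤ 4 * g x Γ Γ ∧
    ∀ w, g x w Γ = (fderiv ℝ (fun y => g y w a) x v +
      fderiv ℝ (fun y => g y (I • w) a) x (I • v)) / 2

variable {S : Set E} {g : E → E → E → ℝ}

/-- the hermitian form -/
def herm (g : E → E → E → ℝ) (x v w : E) : ℂ := (g x v w : ℂ) + I * (g x (I • v) w : ℂ)

namespace KMetric

variable (h : KMetric S g)
include h

theorem add_left {x : E} (hx : x ∈ S) (u v w : E) : g x (u + v) w = g x u w + g x v w := by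
  rw [h.symm x hx, h.add x hx, h.symm x hx w u, h.symm x hx w v]

theorem smul_left {x : E} (hx : x ∈ S) (t : ℝ) (u v : E) : g x (t • u) v = t * g x u v := by
  rw [h.symm x hx, h.smul x hx, h.symm x hx v u]

theorem neg_left {x : E} (hx : x ∈ S) (u v : E) : g x (-u) v = - g x u v := by
  rw [← neg_one_smul ℝ u, h.smul_left hx]; ring

theorem neg_right {x : E} (hx : x ∈ S) (u v : E) : g x u (-v) = - g x u v := by
  rw [← neg_one_smul ℝ v, h.smul x hx]; ring

theorem I_left {x : E} (hx : x ∈ S) (u v : E) : g x (I • u) v = - g x u (I • v) := by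
  rw [← h.herm x hx (I • u) v, smul_smul, I_mul_I, neg_one_smul, h.neg_left hx]

theorem csmul {x : E} (hx : x ∈ S) (c : ℂ) (u v : E) :
    g x u (c • v) = c.re * g x u v + c.im * g x u (I • v) := by
  have : c • v = (c.re : ℝ) • v + (c.im : ℝ) • (I • v) := by
    conv_lhs => rw [← Complex.re_add_im c]
    rw [add_smul, mul_smul, Complex.coe_smul, Complex.coe_smul]
  rw [this, h.add x hx, h.smul x hx, h.smul x hx]

theorem csmul_left {x : E} (hx : x ∈ S) (c : ℂ) (u v : E) :
    g x (c • u) v = c.re * g x u v + c.im * g x (I • u) v := by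
  rw [h.symm x hx, h.csmul hx, h.symm x hx v u, h.symm x hx v (I • u)]

theorem herm_add_right {x : E} (hx : x ∈ S) (u v w : E) :
    Vale.Agent.P253.R2.H451.herm g x u (v + w) =
      Vale.Agent.P253.R2.H451.herm g x u v + Vale.Agent.P253.R2.H451.herm g x u w := by
  simp only [Vale.Agent.P253.R2.H451.herm, h.add x hx]
  push_cast; ring

theorem herm_add_left {x : E} (hx : x ∈ S) (u v w : E) :
    Vale.Agent.P253.R2.H451.herm g x (u + v) w =
      Vale.Agent.P253.R2.H451.herm g x u w + Vale.Agent.P253.R2.H451.herm g x v w := by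
  simp only [Vale.Agent.P253.R2.H451.herm, smul_add, h.add_left hx]
  push_cast; ring

theorem herm_smul_right {x : E} (hx : x ∈ S) (c : ℂ) (u v : E) :
    Vale.Agent.P253.R2.H451.herm g x u (c • v) = c * Vale.Agent.P253.R2.H451.herm g x u v := by
  have e1 : g x (I • u) (I • v) = g x u v := h.herm x hx u v
  have e2 : g x u (I • v) = - g x (I • u) v := by rw [h.I_left hx]; ring
  apply Complex.ext
  · simp only [Vale.Agent.P253.R2.H451.herm, h.csmul hx c, e1, e2, Complex.add_re, Complex.mul_re,
      Complex.ofReal_re, Complex.I_re, Complex.I_im, Complex.ofReal_im, Complex.add_im,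
      Complex.mul_im]
    ring
  · simp only [Vale.Agent.P253.R2.H451.herm, h.csmul hx c, e1, e2, Complex.add_re, Complex.mul_re,
      Complex.ofReal_re, Complex.I_re, Complex.I_im, Complex.ofReal_im, Complex.add_im,
      Complex.mul_im]
    ring

theorem herm_smul_left {x : E} (hx : x ∈ S) (c : ℂ) (u v : E) :
    Vale.Agent.P253.R2.H451.herm g x (c • u) v =
      conj c * Vale.Agent.P253.R2.H451.herm g x u v := by
  have e1 : g x (I • (c • u)) v = c.re * g x (I • u) v - c.im * g x u v := by
    rw [smul_comm, h.csmul_left hx, smul_smul I I, I_mul_I, neg_one_smul, h.neg_left hx]; ring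
  apply Complex.ext
  · simp only [Vale.Agent.P253.R2.H451.herm, h.csmul_left hx c u, e1, Complex.add_re,
      Complex.mul_re, Complex.ofReal_re, Complex.I_re, Complex.I_im, Complex.ofReal_im,
      Complex.add_im, Complex.mul_im, Complex.conj_re, Complex.conj_im]
    ring
  · simp only [Vale.Agent.P253.R2.H451.herm, h.csmul_left hx c u, e1, Complex.add_re,
      Complex.mul_re, Complex.ofReal_re, Complex.I_re, Complex.I_im, Complex.ofReal_im,
      Complex.add_im, Complex.mul_im, Complex.conj_re, Complex.conj_im]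
    ring

theorem herm_conj {x : E} (hx : x ∈ S) (u v : E) :
    conj (Vale.Agent.P253.R2.H451.herm g x u v) = Vale.Agent.P253.R2.H451.herm g x v u := by
  have e1 : g x (I • u) v = - g x (I • v) u := by
    rw [h.I_left hx, h.symm x hx u (I • v)]
  apply Complex.ext
  · simp only [Vale.Agent.P253.R2.H451.herm, Complex.add_re, e1, h.symm x hx v u,
      Complex.mul_re, Complex.ofReal_re, Complex.I_re, Complex.I_im, Complex.ofReal_im,
      Complex.add_im, Complex.mul_im, Complex.conj_re]
    ring
  · simp only [Vale.Agent.P253.R2.H451.herm, Complex.add_re, e1, h.symm x hx v u,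
      Complex.mul_re, Complex.ofReal_re, Complex.I_re, Complex.I_im, Complex.ofReal_im,
      Complex.add_im, Complex.mul_im, Complex.conj_im]
    ring

end KMetric

end Vale.Agent.P253.R2.H451
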