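import Mathlib.Analysis.SpecialFunctions.PolarCoord
import Mathlib.Analysis.SpecialFunctions.Integrability.Basic
import Mathlib.MeasureTheory.Integral.MeanInequalities
import Mathlib.Tactic

/-!
P253 M8, part (b): if `∫ N² |z|^{-ε} < ∞` near `0` in `ℂ`, then `N` is integrable along some radius
(in fact along almost every one).
-/

open Set MeasureTheory Filter
open scoped ENNReal Topology Real

noncomputable section

namespace Vale.Agent.P253.R2.H451

theorem lintegral_rpow_Ioo_ne_top {ε R : ℝ} (hε : 0 < ε) (hR : 0 < R) :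
    ∫⁻ r in Ioo 0 R, ENNReal.ofReal (r ^ (ε - 1)) ≠ ⊤ := by
  have h := (intervalIntegral.intervalIntegrable_rpow' (a := 0) (b := R) (r := ε - 1)
    (by linarith))
  rw [intervalIntegrable_iff_integrableOn_Ioo_of_le hR.le] at h
  have h2 := h.2
  rw [hasFiniteIntegral_iff_ofReal] at h2
  · exact h2.ne
  · filter_upwards [ae_restrict_mem measurableSet_Ioo] with r hr
    exact Real.rpow_nonneg hr.1.le _

/-- if `∫_{|z|<R} N² |z|^{-ε} < ∞` then `∫_0^R N (r e^{iθ}) dr < ∞` for some `θ` -/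
theorem exists_radius {N : ℂ → ℝ≥0∞} (hN : Measurable N) {ε R : ℝ} (hε : 0 < ε) (hR : 0 < R)
    (hfin : ∫⁻ z in Metric.ball (0 : ℂ) R, N z ^ 2 * ENNReal.ofReal (‖z‖ ^ (-ε)) ≠ ⊤) :
    ∃ θ : ℝ, ∫⁻ r in Ioo 0 R, N (r * (Real.cos θ + Real.sin θ * Complex.I)) ≠ ⊤ := by
  set P : ℝ × ℝ → ℂ := fun p => p.1 * (Real.cos p.2 + Real.sin p.2 * Complex.I) with hP
  have hPm : Measurable P := by fun_prop
  set S : Set (ℝ × ℝ) := Ioo 0 R ×ˢ Ioo (-π) π with hS
  have hSm : MeasurableSet S := measurableSet_Ioo.prod measurableSet_Ioo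
  have h1 : ∫⁻ p in S, N (P p) ^ 2 * ENNReal.ofReal (p.1 ^ (1 - ε)) ≤
      ∫⁻ z in Metric.ball (0 : ℂ) R, N z ^ 2 * ENNReal.ofReal (‖z‖ ^ (-ε)) := by
    rw [← lintegral_indicator Metric.isOpen_ball.measurableSet,
      ← Complex.lintegral_comp_polarCoord_symm]
    have hsub : S ⊆ polarCoord.target := by
      rintro ⟨r, θ⟩ ⟨h1, h2⟩
      rw [polarCoord_target]
      exact ⟨h1.1, h2⟩
    refine le_trans (le_of_eq ?_) (lintegral_mono_set hsub)
    refine setLIntegral_congr_fun hSm ?_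
    rintro ⟨r, θ⟩ ⟨h1, h2⟩
    simp only [smul_eq_mul, Complex.polarCoord_symm_apply]
    have hn : ‖P (r, θ)‖ = r := by
      have := Complex.norm_polarCoord_symm (r, θ)
      rw [Complex.polarCoord_symm_apply] at this
      rw [abs_of_pos h1.1] at this
      exact this
    rw [indicator_of_mem (by rw [Metric.mem_ball, dist_zero_right]; exact (hn.le.trans_lt h1.2))]
    change _ = ENNReal.ofReal r * (N (P (r, θ)) ^ 2 * ENNReal.ofReal (‖P (r, θ)‖ ^ (-ε)))
    rw [hn, mul_left_comm, ← ENNReal.ofReal_mul h1.1.le]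
    congr 2
    rw [sub_eq_add_neg, Real.rpow_add h1.1, Real.rpow_one]
  have h2 : ∫⁻ p in S, ENNReal.ofReal (p.1 ^ (ε - 1)) ≠ ⊤ := by
    rw [hS, Measure.volume_eq_prod, ← Measure.prod_restrict, lintegral_prod]
    · simp only [lintegral_const, Measure.restrict_apply MeasurableSet.univ, univ_inter,
        Real.volume_Ioo]
      rw [lintegral_mul_const' _ _ ENNReal.ofReal_ne_top]
      exact ENNReal.mul_ne_top (lintegral_rpow_Ioo_ne_top hε hR) ENNReal.ofReal_ne_top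
    · exact (Measurable.ennreal_ofReal (by fun_prop)).aemeasurable
  have h3 : ∫⁻ p in S, N (P p) ≠ ⊤ := by
    have hcs := ENNReal.lintegral_mul_le_Lp_mul_Lq (volume.restrict S)
      (p := 2) (q := 2) Real.HolderConjugate.two_two
      (f := fun p : ℝ × ℝ => N (P p) * ENNReal.ofReal (p.1 ^ ((1 - ε) / 2)))
      (g := fun p : ℝ × ℝ => ENNReal.ofReal (p.1 ^ ((ε - 1) / 2)))
      (by
        refine ((hN.comp hPm).mul (Measurable.ennreal_ofReal ?_)).aemeasurable
        fun_prop)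
      (Measurable.ennreal_ofReal (by fun_prop)).aemeasurable
    have e1 : ∫⁻ p in S, ((fun p : ℝ × ℝ => N (P p) * ENNReal.ofReal (p.1 ^ ((1 - ε) / 2))) *
        fun p : ℝ × ℝ => ENNReal.ofReal (p.1 ^ ((ε - 1) / 2))) p = ∫⁻ p in S, N (P p) := by
      refine setLIntegral_congr_fun hSm ?_
      rintro ⟨r, θ⟩ ⟨h1, h2⟩
      simp only [Pi.mul_apply]
      rw [mul_assoc, ← ENNReal.ofReal_mul (Real.rpow_nonneg h1.1.le _), ← Real.rpow_add h1.1]
      rw [show (1 - ε) / 2 + (ε - 1) / 2 = 0 by ring, Real.rpow_zero, ENNReal.ofReal_one, mul_one]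
    have e2 : ∫⁻ p in S, (N (P p) * ENNReal.ofReal (p.1 ^ ((1 - ε) / 2))) ^ (2 : ℝ) =
        ∫⁻ p in S, N (P p) ^ 2 * ENNReal.ofReal (p.1 ^ (1 - ε)) := by
      refine setLIntegral_congr_fun hSm ?_
      rintro ⟨r, θ⟩ ⟨h1, h2⟩
      simp only
      rw [ENNReal.mul_rpow_of_nonneg _ _ (by norm_num), ENNReal.rpow_two, ENNReal.rpow_two,
        ← ENNReal.ofReal_pow (Real.rpow_nonneg h1.1.le _), ← Real.rpow_natCast,
        ← Real.rpow_mul h1.1.le]
      congr 3
      push_cast; ring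
    have e3 : ∫⁻ p in S, (ENNReal.ofReal (p.1 ^ ((ε - 1) / 2))) ^ (2 : ℝ) =
        ∫⁻ p in S, ENNReal.ofReal (p.1 ^ (ε - 1)) := by
      refine setLIntegral_congr_fun hSm ?_
      rintro ⟨r, θ⟩ ⟨h1, h2⟩
      simp only
      rw [ENNReal.rpow_two,
        ← ENNReal.ofReal_pow (Real.rpow_nonneg h1.1.le _), ← Real.rpow_natCast,
        ← Real.rpow_mul h1.1.le]
      congr 2
      push_cast; ring
    rw [e1, e2, e3] at hcs
    refine ne_top_of_le_ne_top ?_ hcs
    refine ENNReal.mul_ne_top (ENNReal.rpow_ne_top_of_nonneg (by norm_num)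
      (ne_top_of_le_ne_top hfin h1)) (ENNReal.rpow_ne_top_of_nonneg (by norm_num) h2)
  have h4 : ∫⁻ θ in Ioo (-π) π, ∫⁻ r in Ioo 0 R, N (P (r, θ)) ≠ ⊤ := by
    rw [hS, Measure.volume_eq_prod, ← Measure.prod_restrict, lintegral_prod_symm] at h3
    · exact h3
    · exact (hN.comp hPm).aemeasurable
  have h5 : ∀ᵐ θ ∂(volume.restrict (Ioo (-π) π)), ∫⁻ r in Ioo 0 R, N (P (r, θ)) < ⊤ := by
    refine ae_lt_top' ?_ h4
    exact ((hN.comp hPm).lintegral_prod_left').aemeasurable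
  have hne : (ae (volume.restrict (Ioo (-π) π))).NeBot := by
    rw [ae_neBot, Ne, Measure.restrict_eq_zero, Real.volume_Ioo]
    simp [Real.pi_pos]
  obtain ⟨θ, hθ⟩ := h5.exists
  exact ⟨θ, hθ.ne⟩

end Vale.Agent.P253.R2.H451
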