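import Vale.Agent.P253.R2.H451.Area
import Vale.Agent.P253.R2.H451.Polar

/-!
P253 M8: from strong openness to a radius of finite length.
-/

open Set Filter Complex Metric MeasureTheory
open scoped Topology ContDiff InnerProductSpace ComplexConjugate ENNReal

noncomputable section

namespace Vale.Agent.P253.R2.H451

open Vale.Agent.P253.R2.H66 Vale.Agent.P253.R2.H380

/-- strong openness (M4), as a proposition -/
def StrongOpenness (V : Type*) [NormedAddCommGroup V] [InnerProductSpace ℂ V]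
    [FiniteDimensional ℂ V] : Prop :=
  ∀ (R : ℝ) (G g : ℂ → V →L[ℂ] V), 0 < R → ContDiffOn ℝ 2 G (ball 0 R \ {0}) →
    (∀ z ∈ ball (0 : ℂ) R \ {0}, 0 ≤ G z) → ContinuousOn g (ball 0 R \ {0}) →
    (∀ z ∈ ball (0 : ℂ) R \ {0}, ∀ v, G z (g z v) = v) →
    (∀ z ∈ ball (0 : ℂ) R \ {0}, ∀ v, g z (G z v) = v) →
    (∀ z ∈ ball (0 : ℂ) R \ {0}, CurvGE G (fun _ => 0) z) →
    (∃ C : ℝ, ∀ z ∈ ball (0 : ℂ) R \ {0}, ‖G z‖ ≤ C) →
    ∀ v : ℂ → V, DifferentiableOn ℂ v (ball 0 R) →
      IntegrableOn (fun z => (⟪v z, g z (v z)⟫_ℂ).re) (ball 0 R \ {0}) →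
      ∃ ε > (0 : ℝ), ∃ ρ > (0 : ℝ), ρ < R ∧
        IntegrableOn (fun z => (⟪v z, g z (v z)⟫_ℂ).re * ‖z‖ ^ (-ε)) (ball 0 ρ \ {0})

variable {E : Type*} [NormedAddCommGroup E] [NormedSpace ℂ E] [FiniteDimensional ℂ E]
  {V : Type*} [NormedAddCommGroup V] [InnerProductSpace ℂ V] [FiniteDimensional ℂ V]
  {S : Set E} {g : E → E → E → ℝ}

/-- measurability, radius -/
theorem radius_of_integrable {q : ℂ → ℝ} {ε ρ : ℝ} (hε : 0 < ε) (hρ : 0 < ρ)
    (hq : ContinuousOn q (ball 0 ρ \ {0})) (hq0 : ∀ z ∈ ball (0 : ℂ) ρ \ {0}, 0 ≤ q z)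
    (hint : IntegrableOn (fun z => q z * ‖z‖ ^ (-ε)) (ball 0 ρ \ {0})) :
    ∃ θ : ℝ, ∫⁻ r in Ioo 0 ρ,
      ENNReal.ofReal (√(q (r * (Real.cos θ + Real.sin θ * Complex.I)))) ≠ ⊤ := by
  set P : Set ℂ := ball 0 ρ \ {0} with hP
  have hPm : MeasurableSet P := isOpen_ball.measurableSet.diff (measurableSet_singleton _)
  set f : ℂ → ℝ≥0∞ := fun z => ENNReal.ofReal (√(q z)) with hf
  have hfc : ContinuousOn f P :=
    ENNReal.continuous_ofReal.comp_continuousOn (Real.continuous_sqrt.comp_continuousOn hq)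
  classical
  set N : ℂ → ℝ≥0∞ := P.indicator f with hN
  have hNm : Measurable N := by
    rw [hN, ← piecewise_eq_indicator]
    exact hfc.measurable_piecewise continuousOn_const hPm
  have hfin : ∫⁻ z in ball (0 : ℂ) ρ, N z ^ 2 * ENNReal.ofReal (‖z‖ ^ (-ε)) ≠ ⊤ := by
    have e1 : ∀ z, N z ^ 2 * ENNReal.ofReal (‖z‖ ^ (-ε)) =
        P.indicator (fun z => ENNReal.ofReal (q z * ‖z‖ ^ (-ε))) z := by
      intro z
      by_cases hz : z ∈ P
      · rw [hN, indicator_of_mem hz, indicator_of_mem hz, hf]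
        simp only
        rw [← ENNReal.ofReal_pow (Real.sqrt_nonneg _), Real.sq_sqrt (hq0 z hz),
          ← ENNReal.ofReal_mul (hq0 z hz)]
      · rw [hN, indicator_of_notMem hz, indicator_of_notMem hz]
        simp
    simp only [e1]
    rw [lintegral_indicator hPm, Measure.restrict_restrict hPm,
      inter_eq_left.2 (show P ⊆ ball 0 ρ from sdiff_subset)]
    have h1 := hint.2
    rw [hasFiniteIntegral_iff_ofReal] at h1
    · exact h1.ne
    · filter_upwards [ae_restrict_mem hPm] with z hz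
      exact mul_nonneg (hq0 z hz) (Real.rpow_nonneg (norm_nonneg _) _)
  obtain ⟨θ, hθ⟩ := exists_radius hNm hε hρ hfin
  refine ⟨θ, ?_⟩
  have : ∫⁻ r in Ioo 0 ρ, ENNReal.ofReal (√(q (r * (Real.cos θ + Real.sin θ * Complex.I)))) =
      ∫⁻ r in Ioo 0 ρ, N (r * (Real.cos θ + Real.sin θ * Complex.I)) := by
    refine setLIntegral_congr_fun measurableSet_Ioo fun r hr => ?_
    have hn : ‖(r : ℂ) * (Real.cos θ + Real.sin θ * Complex.I)‖ = r := by
      have := Complex.norm_polarCoord_symm (r, θ)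
      rw [Complex.polarCoord_symm_apply, abs_of_pos hr.1] at this
      exact this
    have hmem : (r : ℂ) * (Real.cos θ + Real.sin θ * Complex.I) ∈ P := by
      refine ⟨?_, ?_⟩
      · rw [mem_ball_zero_iff, hn]; exact hr.2
      · intro h0
        rw [mem_singleton_iff] at h0
        rw [h0, norm_zero] at hn
        exact hr.1.ne hn
    rw [hN, indicator_of_mem hmem]
  rw [this]
  exact hθ

variable (A : V ≃L[ℂ] E)

include A in
/-- **the analytic core of KP'**: the limit disc has a radius of finite length -/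
theorem exists_finite_radius (hSO : StrongOpenness V) {c0 c1 : ℂ → E} {U : Set ℂ} {r : ℝ}
    (h : KMetric S g) (hS : IsOpen S) (hU : IsOpen U) (hr : 0 < r)
    (hUr : closedBall (0 : ℂ) r ⊆ U) (hc0 : DifferentiableOn ℂ c0 U)
    (hc1 : DifferentiableOn ℂ c1 U)
    (hin : ∀ s ∈ Icc (0 : ℝ) 1, ∀ z ∈ closedBall (0 : ℂ) r, (s, z) ≠ (0, 0) →
      c0 z + (s : ℂ) • c1 z ∈ S) :
    ∃ θ : ℝ, ∃ ρ > (0 : ℝ), ρ < r ∧ ∫⁻ t in Ioo 0 ρ, ENNReal.ofReal (√(g
      (c0 (t * (Real.cos θ + Real.sin θ * Complex.I)))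
      (deriv c0 (t * (Real.cos θ + Real.sin θ * Complex.I)))
      (deriv c0 (t * (Real.cos θ + Real.sin θ * Complex.I))))) ≠ ⊤ := by
  set R : ℝ := r / 2 with hR
  have hR0 : 0 < R := by positivity
  have hRr : ball (0 : ℂ) R ⊆ closedBall 0 r :=
    (ball_subset_ball (by rw [hR]; linarith)).trans ball_subset_closedBall
  set P : Set ℂ := ball 0 R \ {0} with hP
  have hPm : MeasurableSet P := isOpen_ball.measurableSet.diff (measurableSet_singleton _)
  have hPU : P ⊆ U := sdiff_subset.trans (hRr.trans hUr)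
  have hPS : ∀ z ∈ P, c0 z ∈ S := by
    intro z hz
    have := hin 0 ⟨le_rfl, zero_le_one⟩ z (hRr hz.1) fun h0 => hz.2 (Prod.ext_iff.1 h0).2
    simpa using this
  have hc02 : ContDiffOn ℝ 2 c0 P := fun z hz =>
    (((hc0.analyticAt (hU.mem_nhds (hPU hz))).contDiffAt
      (n := 2)).restrict_scalars ℝ).contDiffWithinAt
  have hmaps : MapsTo c0 P S := hPS
  have hv : DifferentiableOn ℂ (fun z => A.symm (deriv c0 z)) (ball 0 R) :=
    A.symm.differentiable.comp_differentiableOn ((hc0.deriv hU).mono (hRr.trans hUr))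
  set q : ℂ → ℝ := fun z => (⟪A.symm (deriv c0 z), gop A g (c0 z)
    (A.symm (deriv c0 z))⟫_ℂ).re with hq
  have hqg : ∀ z ∈ P, q z = g (c0 z) (deriv c0 z) (deriv c0 z) := by
    intro z hz
    simp only [hq]
    rw [re_inner_gop A h (hPS z hz)]
    simp
  have hq0 : ∀ z ∈ P, 0 ≤ q z := fun z hz => by rw [hqg z hz]; exact h.nonneg (hPS z hz) _
  have hgc : ContinuousOn (fun z => gop A g (c0 z)) P :=
    (gop_contDiffOn A h).continuousOn.comp hc02.continuousOn hmaps
  have hqc : ContinuousOn q P := by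
    have hv' : ContinuousOn (fun z => A.symm (deriv c0 z)) P := hv.continuousOn.mono sdiff_subset
    exact Complex.continuous_re.comp_continuousOn (hv'.inner (hgc.clm_apply hv'))
  have hint : IntegrableOn q P := by
    refine ⟨hqc.aestronglyMeasurable hPm, ?_⟩
    rw [hasFiniteIntegral_iff_ofReal
      (by filter_upwards [ae_restrict_mem hPm] with z hz using hq0 z hz)]
    have harea := exists_area A h hS hU hr hUr hc0 hc1 (fun s hs z hz hne => hin s hs z hz hne)
    refine lt_of_le_of_lt (le_of_eq ?_) (lt_top_iff_ne_top.2 harea)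
    refine setLIntegral_congr_fun hPm fun z hz => ?_
    rw [hqg z hz]
  obtain ⟨C, -, hC⟩ := exists_inv_bound A h hS hU hr hUr hc0 hc1 hin
  obtain ⟨ε, hε, ρ, hρ, hρR, hI⟩ := hSO R (fun z => Ring.inverse (gop A g (c0 z)))
    (fun z => gop A g (c0 z)) hR0 ((inv_gop_contDiffOn A h hS).comp hc02 hmaps)
    (fun z hz => by
      rw [ContinuousLinearMap.nonneg_iff_isPositive, ContinuousLinearMap.isPositive_def]
      refine ⟨(ContinuousLinearMap.isSelfAdjoint_iff_isSymmetric).1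
        (inv_gop_selfAdjoint A h (hPS z hz)), fun b => ?_⟩
      rw [ContinuousLinearMap.reApplyInnerSelf_apply]
      have h1 := inv_gop_nonneg A h (hPS z hz) b
      rw [inner_selfAdjoint (inv_gop_selfAdjoint A h (hPS z hz))]
      exact h1)
    hgc (fun z hz v => inv_gop_apply' A h (hPS z hz) v)
    (fun z hz v => inv_gop_apply A h (hPS z hz) v)
    (fun z hz => curvGE_disc A h hS (hc0.analyticAt (hU.mem_nhds (hPU hz))) (hPS z hz))
    ⟨C, fun z hz => hC z (hRr hz.1) hz.2⟩ (fun z => A.symm (deriv c0 z)) hv hint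
  have hsub : ball (0 : ℂ) ρ \ {0} ⊆ P := sdiff_subset_sdiff_left (ball_subset_ball hρR.le)
  obtain ⟨θ, hθ⟩ := radius_of_integrable hε hρ (hqc.mono hsub) (fun z hz => hq0 z (hsub hz)) hI
  refine ⟨θ, ρ, hρ, by linarith, ?_⟩
  refine ne_top_of_le_ne_top hθ (le_of_eq ?_)
  refine setLIntegral_congr_fun measurableSet_Ioo fun t ht => ?_
  have hn : ‖(t : ℂ) * (Real.cos θ + Real.sin θ * Complex.I)‖ = t := by
    have := Complex.norm_polarCoord_symm (t, θ)
    rw [Complex.polarCoord_symm_apply, abs_of_pos ht.1] at this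
    exact this
  have hmem : (t : ℂ) * (Real.cos θ + Real.sin θ * Complex.I) ∈ P := by
    refine ⟨?_, ?_⟩
    · rw [mem_ball_zero_iff, hn]; exact ht.2.trans hρR
    · intro h0
      rw [mem_singleton_iff] at h0
      rw [h0, norm_zero] at hn
      exact ht.1.ne hn
  rw [hqg _ hmem]

end Vale.Agent.P253.R2.H451
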