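import Vale.Agent.P253.R2.H451.FromLocal
import Vale.Agent.P253.R2.H451.Radius
import Vale.Agent.P253.R2.H451.Conv
import Vale.Agent.P253.R2.H380.StrongOpen

/-!
P253 M8: **KP'**. In a complete Kähler manifold of nonnegative bisectional curvature a family of
discs (in an étale chart) cannot escape to infinity at an interior point.
-/

open scoped Manifold ContDiff Topology Bundle ENNReal InnerProductSpace
open Set Metric Complex Filter Bundle IsManifold MeasureTheory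

set_option maxSynthPendingDepth 3

noncomputable section

namespace Vale.Agent.P253.R2.H451

open Mfd Mfd.LocalKahler Vale.Agent.P253.R2.H384

theorem strongOpenness (V : Type*) [NormedAddCommGroup V] [InnerProductSpace ℂ V]
    [FiniteDimensional ℂ V] : StrongOpenness V := by
  intro R G g hR hG hpos hg hGg hgG hcurv hC v hv hint
  obtain ⟨C, hC⟩ := hC
  obtain ⟨ε, hε, ρ, hρ, hρR, hI⟩ :=
    H380.strong_openness hR hG hpos hg hGg hgG hcurv hC hv hint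
  exact ⟨ε, hε, ρ, hρ, hρR, hI⟩

variable {E : Type*} [NormedAddCommGroup E] [NormedSpace ℂ E] [FiniteDimensional ℂ E]
  {M : Type*} [MetricSpace M] [ChartedSpace E M]
  [IsManifold 𝓘(ℂ, E) 1 M] [IsManifold 𝓘(ℝ, E) ∞ M]
  [RiemannianBundle (fun x : M => TangentSpace 𝓘(ℝ, E) x)]
  [IsContMDiffRiemannianBundle 𝓘(ℝ, E) ∞ E (fun x : M => TangentSpace 𝓘(ℝ, E) x)]
  [IsRiemannianManifold 𝓘(ℝ, E) M]

omit [IsContMDiffRiemannianBundle 𝓘(ℝ, E) ∞ E (fun x : M => TangentSpace 𝓘(ℝ, E) x)]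
  [IsRiemannianManifold 𝓘(ℝ, E) M] in
/-- an étale map is smooth over `ℝ` -/
theorem contMDiffAt_real {Φ : E → M} {G : Set E} (hΦ : IsEtale E Φ G) {x : E} (hx : x ∈ G) :
    ContMDiffAt 𝓘(ℝ, E) 𝓘(ℝ, E) ∞ Φ x := by
  obtain ⟨e, he, L, W, hWo, hzW, hWG, hWt, hWΦ⟩ := hΦ.exists_chart hx
  have her := mem_maximalAtlas_real he
  have h1 : ContMDiffAt 𝓘(ℝ, E) 𝓘(ℝ, E) ∞ e.symm (L x) :=
    (contMDiffOn_symm_of_mem_maximalAtlas her).contMDiffAt
      (e.open_target.mem_nhds (hWt x hzW))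
  have h2 : ContMDiffAt 𝓘(ℝ, E) 𝓘(ℝ, E) ∞ L x := (contDiff_L L).contDiffAt.contMDiffAt
  refine (h1.comp x h2).congr_of_eventuallyEq ?_
  filter_upwards [hWo.mem_nhds hzW] with y hy using hWΦ y hy

/-- the ray -/
def ray (c0 : ℂ → E) (u : ℂ) (t : ℝ) : E := c0 (t * u)

theorem hasDerivAt_ray {c0 : ℂ → E} {U : Set ℂ} (hU : IsOpen U) (hc0 : DifferentiableOn ℂ c0 U)
    {u : ℂ} {t : ℝ} (ht : (t : ℂ) * u ∈ U) :
    HasDerivAt (ray c0 u) (u • deriv c0 (t * u)) t := by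
  have h1 : HasDerivAt (fun t : ℝ => (t : ℂ) * u) u t := by
    simpa using (Complex.ofRealCLM.hasDerivAt (x := t)).mul_const u
  have h2 : HasDerivAt c0 (deriv c0 (t * u)) (t * u) :=
    (hc0.differentiableAt (hU.mem_nhds ht)).hasDerivAt
  exact h2.scomp t h1

theorem contDiffAt_ray {c0 : ℂ → E} {U : Set ℂ} (hU : IsOpen U) (hc0 : DifferentiableOn ℂ c0 U)
    {u : ℂ} {t : ℝ} (ht : (t : ℂ) * u ∈ U) : ContDiffAt ℝ 1 (ray c0 u) t := by
  have h1 : ContDiffAt ℝ 1 (fun t : ℝ => (t : ℂ) * u) t :=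
    (Complex.ofRealCLM.contDiff.contDiffAt).mul contDiffAt_const
  have h2 : ContDiffAt ℝ 1 c0 (t * u) :=
    ((hc0.analyticAt (hU.mem_nhds ht)).contDiffAt (n := 1)).restrict_scalars ℝ
  exact h2.comp t h1

/-- length element along the ray -/
theorem enorm_mfderiv_ray {Φ : E → M} {G : Set E} (hΦ : IsEtale E Φ G)
    (hk : LocalKahler (pullG (E := E) Φ) G) {c0 : ℂ → E} {U : Set ℂ} (hU : IsOpen U)
    (hc0 : DifferentiableOn ℂ c0 U) {u : ℂ} (hu : ‖u‖ = 1) {t : ℝ} (ht : (t : ℂ) * u ∈ U)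
    (htG : c0 (t * u) ∈ G) :
    ‖(mfderiv 𝓘(ℝ, ℝ) 𝓘(ℝ, E) (fun t => Φ (ray c0 u t)) t 1 :
      TangentSpace 𝓘(ℝ, E) (Φ (ray c0 u t)))‖ₑ =
      ENNReal.ofReal (√(pullG (E := E) Φ (c0 (t * u)) (deriv c0 (t * u)) (deriv c0 (t * u)))) := by
  have h1 : HasMFDerivAt 𝓘(ℝ, E) 𝓘(ℝ, E) Φ (ray c0 u t) (mfderiv 𝓘(ℝ, E) 𝓘(ℝ, E) Φ (ray c0 u t)) :=
    ((contMDiffAt_real hΦ (x := ray c0 u t) htG).mdifferentiableAt (by simp)).hasMFDerivAt
  have h2 : HasMFDerivAt 𝓘(ℝ, ℝ) 𝓘(ℝ, E) (ray c0 u) t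
      (ContinuousLinearMap.toSpanSingleton ℝ (u • deriv c0 (t * u))) :=
    (hasDerivAt_ray hU hc0 ht).hasFDerivAt.hasMFDerivAt
  have h3 := (h1.comp t h2).mfderiv
  have h4 : (mfderiv 𝓘(ℝ, ℝ) 𝓘(ℝ, E) (fun t => Φ (ray c0 u t)) t 1 :
      TangentSpace 𝓘(ℝ, E) (Φ (ray c0 u t))) =
      (mfderiv 𝓘(ℝ, E) 𝓘(ℝ, E) Φ (ray c0 u t) (u • deriv c0 (t * u)) :
        TangentSpace 𝓘(ℝ, E) (Φ (ray c0 u t))) := by
    have h5 := congrArg (fun T : ℝ →L[ℝ] E => T 1) h3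
    refine Eq.trans h5 ?_
    change mfderiv 𝓘(ℝ, E) 𝓘(ℝ, E) Φ (ray c0 u t) ((1 : ℝ) • (u • deriv c0 (t * u))) = _
    rw [one_smul]
  rw [h4]
  have h6 : ‖(mfderiv 𝓘(ℝ, E) 𝓘(ℝ, E) Φ (ray c0 u t) (u • deriv c0 (t * u)) :
        TangentSpace 𝓘(ℝ, E) (Φ (ray c0 u t)))‖ ^ 2 =
      pullG (E := E) Φ (c0 (t * u)) (u • deriv c0 (t * u)) (u • deriv c0 (t * u)) := by
    rw [pullG_apply]
    exact (real_inner_self_eq_norm_sq _).symm
  have h7 : pullG (E := E) Φ (c0 (t * u)) (u • deriv c0 (t * u)) (u • deriv c0 (t * u)) =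
      pullG (E := E) Φ (c0 (t * u)) (deriv c0 (t * u)) (deriv c0 (t * u)) := by
    set w := deriv c0 (t * u)
    have e0 : u • w = u.re • w + u.im • (I • w) := by
      conv_lhs => rw [← Complex.re_add_im u]
      rw [add_smul, mul_smul, Complex.coe_smul, Complex.coe_smul]
    have e1 := hk.herm _ htG w w
    have e2 : pullG (E := E) Φ (c0 (t * u)) (I • w) w = 0 := by
      have := hk.herm _ htG (I • w) w
      rw [smul_smul, I_mul_I, neg_one_smul, map_neg, neg_apply, hk.symm _ htG w (I • w)] at this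
      linarith
    have e3 : pullG (E := E) Φ (c0 (t * u)) w (I • w) = 0 := by
      rw [hk.symm _ htG]; exact e2
    have e4 : u.re * u.re + u.im * u.im = 1 := by
      have := Complex.normSq_eq_norm_sq u
      rw [hu, Complex.normSq_apply] at this
      linarith
    rw [e0]
    simp only [map_add, map_smul, add_apply, smul_apply, smul_eq_mul, e1, e2, e3]
    linear_combination (pullG (E := E) Φ (c0 (t * u)) w w) * e4
  rw [h7] at h6
  rw [← ofReal_norm]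
  congr 1
  rw [← h6, Real.sqrt_sq (norm_nonneg _)]

/-- **KP'** for discs centred at `0` -/
theorem kp_zero [CompleteSpace M] (hK : IsKahler E M) (hnn : ∀ x : M, NonnegBisectionalAt E x)
    {G : Set E} {Φ : E → M} {c0 c1 : ℂ → E} {U : Set ℂ} {r : ℝ} (hΦ : IsEtale E Φ G)
    (hr : 0 < r) (hU : IsOpen U)
    (hUr : closedBall 0 r ⊆ U) (hc0 : DifferentiableOn ℂ c0 U) (hc1 : DifferentiableOn ℂ c1 U)
    (hin : ∀ s ∈ Icc (0:ℝ) 1, ∀ z ∈ closedBall (0:ℂ) r, (s, z) ≠ (0, 0) →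
      c0 z + (s : ℂ) • c1 z ∈ G)
    (hesc : Tendsto Φ (𝓝[G] (c0 0)) (cocompact M)) : False := by
  have hk := localKahler_pullG (M := M) hK hΦ
  have hR : ∀ z ∈ G, ∀ X a, 0 ≤ Rc (pullG (E := E) Φ) z X a := fun z hz X a =>
    Rc_nonneg_pullG hK hΦ hz (hnn _) X a
  have hkm := kmetric_of_local hk hR
  set V := EuclideanSpace ℂ (Fin (Module.finrank ℂ E))
  let A : V ≃L[ℂ] E := ContinuousLinearEquiv.ofFinrankEq (by simp [V])
  obtain ⟨θ, ρ, hρ, hρr, hfin⟩ := exists_finite_radius A (strongOpenness V) hkm hk.isOpen hU hr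
    hUr hc0 hc1 hin
  set u : ℂ := Real.cos θ + Real.sin θ * Complex.I with hu
  have hnu : ‖u‖ = 1 := by
    have := Complex.norm_polarCoord_symm (1, θ)
    rw [Complex.polarCoord_symm_apply] at this
    simpa [hu] using this
  have hnorm : ∀ t : ℝ, 0 < t → ‖(t : ℂ) * u‖ = t := by
    intro t ht
    rw [norm_mul, hnu, mul_one, Complex.norm_real, Real.norm_eq_abs, abs_of_pos ht]
  have hball : ∀ t ∈ Ioc (0 : ℝ) (ρ / 2), (t : ℂ) * u ∈ closedBall (0 : ℂ) r := by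
    intro t ht
    rw [mem_closedBall_zero_iff, hnorm t ht.1]
    linarith [ht.2]
  have hne : ∀ t ∈ Ioc (0 : ℝ) (ρ / 2), (t : ℂ) * u ≠ 0 := by
    intro t ht h0
    have := hnorm t ht.1
    rw [h0, norm_zero] at this
    exact ht.1.ne this
  have hG : ∀ t ∈ Ioc (0 : ℝ) (ρ / 2), c0 (t * u) ∈ G := by
    intro t ht
    have := hin 0 ⟨le_rfl, zero_le_one⟩ _ (hball t ht) fun h0 => hne t ht (Prod.ext_iff.1 h0).2
    simpa using this
  have hUt : ∀ t ∈ Ioc (0 : ℝ) (ρ / 2), (t : ℂ) * u ∈ U := fun t ht => hUr (hball t ht)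
  set γ : ℝ → M := fun t => Φ (ray c0 u t) with hγ
  have hsm : ContMDiffOn 𝓘(ℝ, ℝ) 𝓘(ℝ, E) 1 γ (Ioc 0 (ρ / 2)) := by
    intro t ht
    have h1 : ContMDiffAt 𝓘(ℝ, E) 𝓘(ℝ, E) 1 Φ (ray c0 u t) :=
      (contMDiffAt_real hΦ (x := ray c0 u t) (hG t ht)).of_le (by simp)
    have h2 : ContMDiffAt 𝓘(ℝ, ℝ) 𝓘(ℝ, E) 1 (ray c0 u) t :=
      (contDiffAt_ray hU hc0 (hUt t ht)).contMDiffAt
    exact (h1.comp t h2).contMDiffWithinAt
  have hlen : ∫⁻ t in Ioo 0 (ρ / 2),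
      ‖(mfderiv 𝓘(ℝ, ℝ) 𝓘(ℝ, E) γ t 1 : TangentSpace 𝓘(ℝ, E) (γ t))‖ₑ ≠ ⊤ := by
    refine ne_top_of_le_ne_top hfin ?_
    refine le_trans (le_of_eq ?_) (lintegral_mono_set (Ioo_subset_Ioo_right
      (by linarith : ρ / 2 ≤ ρ)))
    refine setLIntegral_congr_fun measurableSet_Ioo fun t ht => ?_
    have ht' : t ∈ Ioc (0 : ℝ) (ρ / 2) := ⟨ht.1, ht.2.le⟩
    exact enorm_mfderiv_ray hΦ hk hU hc0 hnu (hUt t ht') (hG t ht')
  obtain ⟨q, hq⟩ := exists_tendsto_of_finite_length (by positivity) hsm hlen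
  -- the curve escapes
  have hray : Tendsto (ray c0 u) (𝓝[>] 0) (𝓝[G] (c0 0)) := by
    refine tendsto_nhdsWithin_iff.2 ⟨?_, ?_⟩
    · have h1 : ContinuousAt c0 0 :=
        (hc0.differentiableAt (hU.mem_nhds (hUr (mem_closedBall_self hr.le)))).continuousAt
      have h2 : Tendsto (fun t : ℝ => (t : ℂ) * u) (𝓝 0) (𝓝 0) := by
        have : Continuous fun t : ℝ => (t : ℂ) * u := by fun_prop
        simpa using this.tendsto 0
      exact (h1.tendsto.comp h2).mono_left nhdsWithin_le_nhds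
    · filter_upwards [Ioc_mem_nhdsGT (show (0 : ℝ) < ρ / 2 by positivity)] with t ht
      exact hG t ht
  have hesc' : Tendsto γ (𝓝[>] 0) (cocompact M) := hesc.comp hray
  have : LocallyCompactSpace M := by
    have : FiniteDimensional ℝ E := FiniteDimensional.complexToReal E
    exact Manifold.locallyCompact_of_finiteDimensional 𝓘(ℝ, E)
  exact hq.not_tendsto (disjoint_nhds_cocompact q) hesc'

/-- **KP'**: in a complete Kähler manifold of nonnegative bisectional curvature a family of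
holomorphic discs (in an étale chart `Φ`) which stays in the domain of `Φ` for `(s, z) ≠ (0, z₀)`
cannot escape to infinity at `(0, z₀)`. -/
theorem kp [CompleteSpace M] (hK : IsKahler E M) (hnn : ∀ x : M, NonnegBisectionalAt E x)
    {G : Set E} (hG : IsOpen G) {Φ : E → M} {c0 c1 : ℂ → E} {U : Set ℂ} {z₀ : ℂ} {r : ℝ}
    (h1 : MDifferentiableOn 𝓘(ℂ, E) 𝓘(ℂ, E) Φ G)
    (h2 : ∀ x ∈ G, Function.Injective (mfderiv 𝓘(ℂ, E) 𝓘(ℂ, E) Φ x))
    (hr : 0 < r) (hU : IsOpen U)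
    (hUr : closedBall z₀ r ⊆ U) (hc0 : DifferentiableOn ℂ c0 U) (hc1 : DifferentiableOn ℂ c1 U)
    (hin : ∀ s ∈ Icc (0:ℝ) 1, ∀ z ∈ closedBall z₀ r, (s, z) ≠ (0, z₀) →
      c0 z + s • c1 z ∈ G)
    (hesc : Tendsto Φ (𝓝[G] (c0 z₀)) (cocompact M)) : False := by
  have hΦ : IsEtale E Φ G := by
    refine ⟨hG, fun z hz => (h1 z hz).mdifferentiableAt (hG.mem_nhds hz), fun z hz => ?_⟩
    refine ⟨h2 z hz, ?_⟩
    let T : E →L[ℂ] E := mfderiv 𝓘(ℂ, E) 𝓘(ℂ, E) Φ z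
    have h3 : Function.Injective (T : E →ₗ[ℂ] E) := h2 z hz
    exact (LinearMap.injective_iff_surjective (f := (T : E →ₗ[ℂ] E))).1 h3
  set τ : ℂ → ℂ := fun z => z + z₀ with hτ
  have hmap : ∀ z ∈ closedBall (0 : ℂ) r, z + z₀ ∈ closedBall z₀ r := fun z hz => by
    rw [mem_closedBall_zero_iff] at hz
    rw [mem_closedBall, dist_eq_norm, add_sub_cancel_right]
    exact hz
  have hcont : Continuous τ := by fun_prop
  have hd : Differentiable ℂ τ := by fun_prop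
  refine kp_zero (M := M) hK hnn (c0 := fun z => c0 (z + z₀)) (c1 := fun z => c1 (z + z₀))
    (U := τ ⁻¹' U) hΦ hr (hU.preimage hcont) (fun z hz => hUr (hmap z hz))
    (hc0.comp hd.differentiableOn fun z hz => hz) (hc1.comp hd.differentiableOn fun z hz => hz)
    ?_ ?_
  · intro s hs z hz hne
    have := hin s hs (z + z₀) (hmap z hz) fun h0 => hne (by
      have h3 := Prod.ext_iff.1 h0
      simp only at h3
      refine Prod.ext_iff.2 ⟨h3.1, ?_⟩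
      simpa using h3.2)
    rwa [Complex.coe_smul]
  · simpa using hesc

end Vale.Agent.P253.R2.H451
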