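import Vale.Agent.P253.R2.H451.KMetric

/-!
P253 M8: the operator form `gop` of a `KMetric`, and the curvature inequality along holomorphic
discs.
-/

open Set Filter Complex
open scoped Topology ContDiff InnerProductSpace ComplexConjugate

noncomputable section

namespace Vale.Agent.P253.R2.H451

open Vale.Agent.P253.R2.H66

variable {E : Type*} [NormedAddCommGroup E] [NormedSpace ℂ E]
  {V : Type*} [NormedAddCommGroup V] [InnerProductSpace ℂ V] [FiniteDimensional ℂ V]
  {S : Set E} {g : E → E → E → ℝ}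

/-- the operator of the hermitian form `herm g x (A ·) (A ·)` -/
def gop (A : V ≃L[ℂ] E) (g : E → E → E → ℝ) (x : E) : V →L[ℂ] V :=
  ∑ i, ∑ j, herm g x (A (stdOrthonormalBasis ℂ V i)) (A (stdOrthonormalBasis ℂ V j)) •
    ((innerSL ℂ (stdOrthonormalBasis ℂ V j)).smulRight (stdOrthonormalBasis ℂ V i))

theorem gop_contDiffOn (A : V ≃L[ℂ] E) (h : KMetric S g) : ContDiffOn ℝ 2 (gop A g) S := by
  unfold gop
  refine ContDiffOn.sum fun i _ => ContDiffOn.sum fun j _ => ?_
  set T : V →L[ℂ] V :=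
    (innerSL ℂ (stdOrthonormalBasis ℂ V j)).smulRight (stdOrthonormalBasis ℂ V i)
  have h1 : ContDiffOn ℝ 2 (fun x => herm g x (A (stdOrthonormalBasis ℂ V i))
      (A (stdOrthonormalBasis ℂ V j))) S := by
    unfold herm
    refine ContDiffOn.add ?_ (contDiffOn_const.mul ?_)
    · exact Complex.ofRealCLM.contDiff.comp_contDiffOn (h.smooth _ _)
    · exact Complex.ofRealCLM.contDiff.comp_contDiffOn (h.smooth _ _)
  exact (((ContinuousLinearMap.id ℂ ℂ).smulRight T).restrictScalars
    ℝ).contDiff.comp_contDiffOn h1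

theorem inner_gop (A : V ≃L[ℂ] E) (h : KMetric S g) {x : E} (hx : x ∈ S) (v w : V) :
    ⟪v, gop A g x w⟫_ℂ = herm g x (A v) (A w) := by
  set b := stdOrthonormalBasis ℂ V
  have h1 : herm g x (A v) (A w) = ∑ i, ∑ j, conj (⟪b i, v⟫_ℂ) * (⟪b j, w⟫_ℂ *
      herm g x (A (b i)) (A (b j))) := by
    let L : E → E →ₗ[ℂ] ℂ := fun u =>
      { toFun := fun w => herm g x u w
        map_add' := fun a c => h.herm_add_right hx u a c
        map_smul' := fun c a => h.herm_smul_right hx c u a }
    let R : E → E →ₗ⋆[ℂ] ℂ := fun w =>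
      { toFun := fun u => herm g x u w
        map_add' := fun a c => h.herm_add_left hx a c w
        map_smul' := fun c a => h.herm_smul_left hx c a w }
    have hv : A v = ∑ i, ⟪b i, v⟫_ℂ • A (b i) := by
      conv_lhs => rw [← b.sum_repr' v]
      simp
    have hw : A w = ∑ i, ⟪b i, w⟫_ℂ • A (b i) := by
      conv_lhs => rw [← b.sum_repr' w]
      simp
    have e1 : herm g x (A v) (A w) = ∑ i, conj (⟪b i, v⟫_ℂ) * herm g x (A (b i)) (A w) := by
      change R (A w) (A v) = _
      rw [hv, map_sum]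
      refine Finset.sum_congr rfl fun i _ => ?_
      rw [map_smulₛₗ]
      rfl
    rw [e1]
    refine Finset.sum_congr rfl fun i _ => ?_
    rw [← Finset.mul_sum]
    congr 1
    change L (A (b i)) (A w) = _
    rw [hw, map_sum]
    refine Finset.sum_congr rfl fun j _ => ?_
    rw [map_smul]
    rfl
  rw [h1, gop]
  simp only [sum_apply, smul_apply, ContinuousLinearMap.smulRight_apply, inner_sum,
    inner_smul_right, innerSL_apply_apply]
  refine Finset.sum_congr rfl fun i _ => Finset.sum_congr rfl fun j _ => ?_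
  have : conj (⟪b i, v⟫_ℂ) = ⟪v, b i⟫_ℂ := inner_conj_symm _ _
  rw [this]
  ring

theorem re_inner_gop (A : V ≃L[ℂ] E) (h : KMetric S g) {x : E} (hx : x ∈ S) (v w : V) :
    (⟪v, gop A g x w⟫_ℂ).re = g x (A v) (A w) := by
  rw [inner_gop A h hx, herm]
  simp

theorem gop_selfAdjoint (A : V ≃L[ℂ] E) (h : KMetric S g) {x : E} (hx : x ∈ S) :
    IsSelfAdjoint (gop A g x) := by
  rw [ContinuousLinearMap.isSelfAdjoint_iff_isSymmetric]
  intro v w
  change ⟪gop A g x v, w⟫_ℂ = ⟪v, gop A g x w⟫_ℂ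
  rw [inner_gop A h hx, ← inner_conj_symm, inner_gop A h hx, h.herm_conj hx]

theorem gop_isUnit (A : V ≃L[ℂ] E) (h : KMetric S g) {x : E} (hx : x ∈ S) :
    IsUnit (gop A g x) := by
  have hinj : Function.Injective (gop A g x) := by
    rw [injective_iff_map_eq_zero]
    intro v hv
    by_contra hne
    have h1 := re_inner_gop A h hx v v
    rw [hv] at h1
    simp only [inner_zero_right, Complex.zero_re] at h1
    have h2 := h.pos x hx (A v) (by simpa using hne)
    linarith
  rw [ContinuousLinearMap.isUnit_iff_bijective]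
  refine ⟨hinj, ?_⟩
  exact (LinearMap.injective_iff_surjective (f := (gop A g x : V →ₗ[ℂ] V))).1 hinj

/-- the real linear functional `T ↦ Re ⟪b, T a⟫` -/
def ell (b a : V) : (V →L[ℂ] V) →L[ℝ] ℝ :=
  Complex.reCLM.comp ((((innerSL ℂ b).comp
    (ContinuousLinearMap.apply ℂ V a)) : (V →L[ℂ] V) →L[ℂ] ℂ).restrictScalars ℝ)

omit [FiniteDimensional ℂ V] in
theorem ell_apply (b a : V) (T : V →L[ℂ] V) : ell b a T = (⟪b, T a⟫_ℂ).re := rfl

omit [FiniteDimensional ℂ V] in
theorem ell_fderiv {X : Type*} [NormedAddCommGroup X] [NormedSpace ℝ X] {F : X → V →L[ℂ] V}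
    {x : X} (hF : DifferentiableAt ℝ F x) (b a : V) (u : X) :
    fderiv ℝ (fun y => ell b a (F y)) x u = ell b a (fderiv ℝ F x u) := by
  have h1 := ((ell b a).hasFDerivAt.comp x hF.hasFDerivAt).fderiv
  have h2 : fderiv ℝ (fun y => ell b a (F y)) x = _ := h1
  rw [h2]; rfl

section curv

variable (A : V ≃L[ℂ] E) (h : KMetric S g) (hS : IsOpen S)
include h hS

theorem gop_contDiffAt {x : E} (hx : x ∈ S) : ContDiffAt ℝ 2 (gop A g) x :=
  (gop_contDiffOn A h).contDiffAt (hS.mem_nhds hx)

theorem ell_fderiv_gop {x : E} (hx : x ∈ S) (b a : V) (u : E) :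
    ell b a (fderiv ℝ (gop A g) x u) = fderiv ℝ (fun y => g y (A b) (A a)) x u := by
  rw [← ell_fderiv ((gop_contDiffAt A h hS hx).differentiableAt (by norm_num))]
  have : (fun y => ell b a (gop A g y)) =ᶠ[𝓝 x] fun y => g y (A b) (A a) := by
    filter_upwards [hS.mem_nhds hx] with y hy
    rw [ell_apply, re_inner_gop A h hy]
  rw [this.fderiv_eq]

theorem ell_second_gop {x : E} (hx : x ∈ S) (b a : V) (u : E) :
    ell b a (fderiv ℝ (fun y => fderiv ℝ (gop A g) y u) x u) =
      fderiv ℝ (fun y => fderiv ℝ (fun y => g y (A b) (A a)) y u) x u := by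
  have h1 : DifferentiableAt ℝ (fun y => fderiv ℝ (gop A g) y u) x :=
    (((gop_contDiffAt A h hS hx).fderiv_right (m := 1) (by norm_num)).differentiableAt
      (by norm_num)).clm_apply (differentiableAt_const _)
  rw [← ell_fderiv h1]
  have : (fun y => ell b a (fderiv ℝ (gop A g) y u)) =ᶠ[𝓝 x]
      fun y => fderiv ℝ (fun y => g y (A b) (A a)) y u := by
    filter_upwards [hS.mem_nhds hx] with y hy
    exact ell_fderiv_gop A h hS hy b a u
  rw [this.fderiv_eq]

variable [CompleteSpace E]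

theorem disc_curv {φ : ℂ → E} {z : ℂ} (hφ : AnalyticAt ℂ φ z) (hz : φ z ∈ S) (a : V) :
    (⟪a, lap (fun y => gop A g (φ y)) z a⟫_ℂ).re ≤
      4 * (⟪dz (fun y => gop A g (φ y)) z a, Ring.inverse (gop A g (φ z))
        (dz (fun y => gop A g (φ y)) z a)⟫_ℂ).re := by
  have hg2 := gop_contDiffAt A h hS hz
  have hgd : DifferentiableAt ℝ (gop A g) (φ z) := hg2.differentiableAt (by norm_num)
  obtain ⟨Γ, hΓ1, hΓ2⟩ := h.curv (φ z) hz (deriv φ z) (A a)
  have h1 : (⟪a, lap (fun y => gop A g (φ y)) z a⟫_ℂ).re =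
      fderiv ℝ (fun y => fderiv ℝ (fun x => g x (A a) (A a)) y (deriv φ z)) (φ z) (deriv φ z) +
      fderiv ℝ (fun y => fderiv ℝ (fun x => g x (A a) (A a)) y (I • deriv φ z)) (φ z)
        (I • deriv φ z) := by
    rw [lap_comp_hol hφ hg2, ← ell_apply, map_add, ell_second_gop A h hS hz,
      ell_second_gop A h hS hz]
  have h2 : dz (fun y => gop A g (φ y)) z a = gop A g (φ z) (A.symm Γ) := by
    refine ext_inner_left ℂ fun b => ?_
    have key : ∀ b : V, (⟪b, dz (fun y => gop A g (φ y)) z a⟫_ℂ).re =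
        (⟪b, gop A g (φ z) (A.symm Γ)⟫_ℂ).re := by
      intro b
      rw [re_inner_gop A h hz, ContinuousLinearEquiv.apply_symm_apply, hΓ2, dz,
        fderiv_comp_hol hφ.differentiableAt hgd, fderiv_comp_hol hφ.differentiableAt hgd,
        one_smul]
      have e1 := ell_fderiv_gop A h hS hz b a (deriv φ z)
      have e2 := ell_fderiv_gop A h hS hz (I • b) a (I • deriv φ z)
      rw [ell_apply] at e1 e2
      rw [show A (I • b) = I • A b from map_smul A I b] at e2
      rw [← e1, ← e2]
      simp only [smul_apply, sub_apply, inner_smul_right, inner_sub_right, inner_smul_left]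
      simp [Complex.mul_re]
      ring
    apply Complex.ext
    · exact key b
    · have h3 := key (I • b)
      simpa [inner_smul_left] using h3
  have hu := gop_isUnit A h hz
  have h3 : Ring.inverse (gop A g (φ z)) (gop A g (φ z) (A.symm Γ)) = A.symm Γ := by
    rw [← mul_apply_eq_comp, Ring.inverse_mul_cancel _ hu]; simp
  rw [h1, h2, h3, inner_selfAdjoint (gop_selfAdjoint A h hz), re_inner_gop A h hz]
  simpa using hΓ1

/-- **the curvature condition for the inverse metric along holomorphic discs** -/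
theorem curvGE_disc {φ : ℂ → E} {z : ℂ} (hφ : AnalyticAt ℂ φ z) (hz : φ z ∈ S) :
    CurvGE (fun y => Ring.inverse (gop A g (φ y))) (fun _ => 0) z := by
  have hφ2 : ContDiffAt ℝ 2 φ z := (hφ.contDiffAt (n := 2)).restrict_scalars ℝ
  refine curvGE_inv (k := fun y => gop A g (φ y)) ((gop_contDiffAt A h hS hz).comp z hφ2)
    (gop_isUnit A h hz) ?_ ?_ (disc_curv A h hS hφ hz)
  · filter_upwards [hφ.continuousAt (hS.mem_nhds hz)] with y hy
    exact gop_selfAdjoint A h hy
  · intro v
    rw [re_inner_gop A h hz]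
    by_cases hv : v = 0
    · subst hv
      have := h.smul (φ z) hz 0 (A 0) (A 0)
      simp at this
      simp [this]
    · exact (h.pos _ hz _ (by simpa using hv)).le

end curv

end Vale.Agent.P253.R2.H451
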