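import Vale.Agent.P253.R2.H451.Regular
import Vale.Agent.P253.R2.H922.Dom

/-!
P253 SC1: the regular set of a holomorphic map `h : M → ℂ^n` as an open submanifold.
-/

open scoped Manifold ContDiff Topology Bundle
open Set Metric Filter Bundle IsManifold

set_option maxSynthPendingDepth 3
set_option linter.unusedSectionVars false

noncomputable section

namespace Vale.Agent.P253.R2.H451

open Mfd TopologicalSpace

variable {E : Type*} [NormedAddCommGroup E] [NormedSpace ℂ E] [FiniteDimensional ℂ E]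

section inv

variable {M : Type*} [TopologicalSpace M] [ChartedSpace E M] [IsManifold 𝓘(ℂ, E) 1 M]

theorem mdifferentiable_subtype {h : M → E} (hh : MDifferentiable 𝓘(ℂ, E) 𝓘(ℂ, E) h)
    (U : Opens M) : MDifferentiable 𝓘(ℂ, E) 𝓘(ℂ, E) (fun x : U => h x) := fun x =>
  (hh x).comp x (contMDiff_subtype_val.mdifferentiable (n := 1) (by simp) x)

/-- the regular set of the restriction to an open submanifold -/
theorem mem_reg_subtype {h : M → E} (hh : MDifferentiable 𝓘(ℂ, E) 𝓘(ℂ, E) h)
    {U : Opens M} {x : U} (hx : (x : M) ∈ Reg h) : x ∈ Reg (fun x : U => h x) := by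
  have h1 := (mfderiv_eq_chart hh (chart_mem_maximalAtlas (x : M)) (mem_chart_source E (x : M))).1 hx
  refine (mfderiv_eq_chart (mdifferentiable_subtype hh U) (chart_mem_maximalAtlas x)
    (mem_chart_source E x)).2 ?_
  have h2 : (fun w => h ((chartAt E x).symm w)) =ᶠ[𝓝 (chartAt E x x)]
      fun w => h ((chartAt E (x : M)).symm w) := by
    filter_upwards [(chartAt E x).open_target.mem_nhds
      ((chartAt E x).map_source (mem_chart_source E x))] with w hw
    have h3 := (chartAt E (x : M)).subtypeRestr_symm_eqOn (U := U) ⟨x⟩ hw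
    exact congrArg h h3.symm
  rw [h2.fderiv_eq]
  exact h1

variable (h : M → E) (hh : MDifferentiable 𝓘(ℂ, E) 𝓘(ℂ, E) h)

/-- the regular set as an open submanifold -/
def RegO : Opens M := ⟨Reg h, isOpen_reg hh⟩

/-- the restriction of `h` to its regular set is locally biholomorphic -/
theorem isLocalDiffeomorph_regO :
    IsLocalDiffeomorph 𝓘(ℂ, E) 𝓘(ℂ, E) 1 (fun x : RegO h hh => h x) := fun x =>
  (isLocalDiffeomorphAt_of_mem_reg (mdifferentiable_subtype hh _) (mem_reg_subtype hh x.2)).1

end inv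

section main

variable {M : Type*} [MetricSpace M] [ChartedSpace E M]
  [IsManifold 𝓘(ℂ, E) 1 M] [IsManifold 𝓘(ℝ, E) ∞ M]
  [RiemannianBundle (fun x : M => TangentSpace 𝓘(ℝ, E) x)]
  [IsContMDiffRiemannianBundle 𝓘(ℝ, E) ∞ E (fun x : M => TangentSpace 𝓘(ℝ, E) x)]
  [IsRiemannianManifold 𝓘(ℝ, E) M]

/-- there is no Hartogs family over the regular set -/
theorem isEmpty_hartogs_regO [CompleteSpace M] (hK : IsKahler E M)
    (hnn : ∀ x : M, NonnegBisectionalAt E x) (hKc : KComplete E M)
    (h : M → E) (hh : MDifferentiable 𝓘(ℂ, E) 𝓘(ℂ, E) h) :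
    IsEmpty (H922.HartogsFamily (fun x : RegO h hh => h x)) :=
  isEmpty_hartogs hK hnn hKc hh (i := ((↑) : RegO h hh → M)) (RegO h hh).isOpenEmbedding'
    Subtype.range_coe

/-- pseudoconvexity of a Riemann domain over `ℂ^n` without Hartogs families -/
theorem psh_of_isEmpty {X : Type*} [TopologicalSpace X] [T2Space X] [ChartedSpace E X]
    [IsManifold 𝓘(ℂ, E) 1 X] {q : X → E} (hE : IsEmpty (H922.HartogsFamily q))
    (hq : IsLocalDiffeomorph 𝓘(ℂ, E) 𝓘(ℂ, E) 1 q) (hb : ∀ m, BddAbove (H922.radii q m)) :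
    H922.IsContPsh E (fun y => -Real.log (H922.bdist q y)) := by
  have hl := hq.isLocalHomeomorph
  refine ⟨?_, fun f c r hr hf hf' => ?_⟩
  · exact ((H922.continuous_bdist hl hb).log fun y => (H922.bdist_pos hl (hb y)).ne').neg
  · by_contra hcon
    push Not at hcon
    have hd : DifferentiableOn ℂ (fun z => q (f z)) (ball c r) := by
      have h1 : MDifferentiable 𝓘(ℂ, E) 𝓘(ℂ, E) q := hq.mdifferentiable (by simp)
      have h2 : MDifferentiableOn 𝓘(ℂ, ℂ) 𝓘(ℂ, E) (q ∘ f) (ball c r) :=
        h1.comp_mdifferentiableOn hf'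
      exact h2.differentiableOn
    obtain ⟨F, -⟩ := H922.exists_hartogs_of_lt hl hb hr hf hd hcon
    exact hE.false F

/-- **minus the logarithm of the distance to the boundary of the regular set of `h`**, measured in
the coordinates `h`, is continuous and plurisubharmonic -/
theorem psh_regO [CompleteSpace M] (hK : IsKahler E M)
    (hnn : ∀ x : M, NonnegBisectionalAt E x) (hKc : KComplete E M)
    (h : M → E) (hh : MDifferentiable 𝓘(ℂ, E) 𝓘(ℂ, E) h)
    (hb : ∀ m, BddAbove (H922.radii (fun x : RegO h hh => h x) m)) :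
    H922.IsContPsh E (fun y => -Real.log (H922.bdist (fun x : RegO h hh => h x) y)) :=
  psh_of_isEmpty (isEmpty_hartogs_regO hK hnn hKc h hh) (isLocalDiffeomorph_regO h hh) hb

end main

end Vale.Agent.P253.R2.H451
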