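import Vale.Agent.P253.R2.H922.Etale
import Vale.Agent.P253.R2.H451.Isolated2

/-!
P253 SC1: the inverse function theorem for holomorphic maps `h : M → E`; there is no Hartogs family
over the regular set of `h`.
-/

open scoped Manifold ContDiff Topology Bundle
open Set Metric Filter Bundle IsManifold

set_option maxSynthPendingDepth 3
set_option linter.unusedSectionVars false

noncomputable section

namespace Vale.Agent.P253.R2.H451

open Mfd

variable {E : Type*} [NormedAddCommGroup E] [NormedSpace ℂ E] [FiniteDimensional ℂ E]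

theorem exists_inverse_chart' {U : Set E} (hU : IsOpen U) {ψ : E → E}
    (hψ : DifferentiableOn ℂ ψ U) {z₀ : E} (hz₀ : z₀ ∈ U)
    (hd : Function.Injective (fderiv ℂ ψ z₀)) :
    ∃ Ψ : OpenPartialHomeomorph E E, z₀ ∈ Ψ.source ∧ Ψ.source ⊆ U ∧ (∀ z, Ψ z = ψ z) ∧
      (∀ z ∈ Ψ.source, Function.Injective (fderiv ℂ ψ z)) ∧
      ∀ w ∈ Ψ.target, ContDiffAt ℂ ∞ Ψ.symm w := by
  have hCE : CompleteSpace E := FiniteDimensional.complete ℂ E
  have hsm := contDiffOn_of_differentiableOn_complex hU hψ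
  have hbij : Function.Bijective (fderiv ℂ ψ z₀ : E →ₗ[ℂ] E) :=
    ⟨hd, LinearMap.injective_iff_surjective.1 hd⟩
  set A : E ≃L[ℂ] E := (LinearEquiv.ofBijective (fderiv ℂ ψ z₀ : E →ₗ[ℂ] E)
    hbij).toContinuousLinearEquiv with hA
  have hAe : (A : E →L[ℂ] E) = fderiv ℂ ψ z₀ := by
    ext v; rfl
  have hd' : HasFDerivAt ψ (A : E →L[ℂ] E) z₀ := by
    rw [hAe]
    exact (hψ.differentiableAt (hU.mem_nhds hz₀)).hasFDerivAt
  have h0 : ContDiffAt ℂ ∞ ψ z₀ := hsm.contDiffAt (hU.mem_nhds hz₀)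
  set Ψ₀ := h0.toOpenPartialHomeomorph ψ hd' (by simp) with hΨ₀
  have hcont : ContinuousOn (fderiv ℂ ψ) U :=
    (hsm.fderiv_of_isOpen hU (m := ∞) (by simp)).continuousOn
  have hV₁ : IsOpen (U ∩ fderiv ℂ ψ ⁻¹' range ((↑) : (E ≃L[ℂ] E) → E →L[ℂ] E)) :=
    hcont.isOpen_inter_preimage hU ContinuousLinearEquiv.isOpen
  set V₁ := U ∩ fderiv ℂ ψ ⁻¹' range ((↑) : (E ≃L[ℂ] E) → E →L[ℂ] E) with hV₁def
  have hz₁ : z₀ ∈ V₁ := ⟨hz₀, ⟨A, hAe⟩⟩
  refine ⟨Ψ₀.restrOpen V₁ hV₁, ?_, ?_, fun z => rfl, ?_, ?_⟩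
  · rw [OpenPartialHomeomorph.restrOpen_source]
    exact ⟨ContDiffAt.mem_toOpenPartialHomeomorph_source h0 hd' (by simp), hz₁⟩
  · rw [OpenPartialHomeomorph.restrOpen_source]
    exact fun z hz => hz.2.1
  · rw [OpenPartialHomeomorph.restrOpen_source]
    intro z hz
    obtain ⟨T, hT⟩ := hz.2.2
    rw [← hT]
    exact T.injective
  · intro w hw
    have h1 := (Ψ₀.restrOpen V₁ hV₁).map_target hw
    rw [OpenPartialHomeomorph.restrOpen_source] at h1
    obtain ⟨T, hT⟩ := h1.2.2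
    refine OpenPartialHomeomorph.contDiffAt_symm (Ψ₀.restrOpen V₁ hV₁) (f₀' := T) hw ?_ ?_
    · rw [hT]
      exact (hψ.differentiableAt (hU.mem_nhds h1.2.1)).hasFDerivAt
    · exact hsm.contDiffAt (hU.mem_nhds h1.2.1)

section inv

variable {M : Type*} [TopologicalSpace M] [ChartedSpace E M] [IsManifold 𝓘(ℂ, E) 1 M]

/-- the points at which the differential of `h` is injective -/
def Reg (h : M → E) : Set M := {x | Function.Injective (mfderiv 𝓘(ℂ, E) 𝓘(ℂ, E) h x)}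

/-- the derivative in a chart -/
theorem mfderiv_eq_chart {h : M → E} (hh : MDifferentiable 𝓘(ℂ, E) 𝓘(ℂ, E) h)
    {e : OpenPartialHomeomorph M E} (he : e ∈ maximalAtlas 𝓘(ℂ, E) 1 M) {x : M} (hx : x ∈ e.source) :
    x ∈ Reg h ↔ Function.Injective (fderiv ℂ (fun w => h (e.symm w)) (e x)) := by
  have h1 : MDifferentiableAt 𝓘(ℂ, E) 𝓘(ℂ, E) e x :=
    ((contMDiffOn_of_mem_maximalAtlas he).contMDiffAt
      (e.open_source.mem_nhds hx)).mdifferentiableAt (by simp)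
  have h2 : MDifferentiableAt 𝓘(ℂ, E) 𝓘(ℂ, E) e.symm (e x) :=
    ((contMDiffOn_symm_of_mem_maximalAtlas he).contMDiffAt
      (e.open_target.mem_nhds (e.map_source hx))).mdifferentiableAt (by simp)
  let A : E →L[ℂ] E := mfderiv 𝓘(ℂ, E) 𝓘(ℂ, E) e x
  let B : E →L[ℂ] E := mfderiv 𝓘(ℂ, E) 𝓘(ℂ, E) e.symm (e x)
  let H : E →L[ℂ] E := fderiv ℂ (fun w => h (e.symm w)) (e x)
  let D : E →L[ℂ] E := mfderiv 𝓘(ℂ, E) 𝓘(ℂ, E) h x
  have k1 : H = D.comp B := by
    have h3 : HasMFDerivAt 𝓘(ℂ, E) 𝓘(ℂ, E) h (e.symm (e x)) D := by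
      rw [e.left_inv hx]; exact (hh _).hasMFDerivAt
    have h4 : HasMFDerivAt 𝓘(ℂ, E) 𝓘(ℂ, E) (fun w => h (e.symm w)) (e x) (D.comp B) :=
      h3.comp (e x) h2.hasMFDerivAt
    have h5 := h4.mfderiv
    rw [mfderiv_eq_fderiv] at h5
    exact h5
  have k2 : A.comp B = ContinuousLinearMap.id ℂ E := by
    have h1' : HasMFDerivAt 𝓘(ℂ, E) 𝓘(ℂ, E) e (e.symm (e x)) (mfderiv 𝓘(ℂ, E) 𝓘(ℂ, E) e x) := by
      rw [e.left_inv hx]; exact h1.hasMFDerivAt
    have h3 := h1'.comp (e x) h2.hasMFDerivAt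
    have h4 : (e ∘ e.symm) =ᶠ[𝓝 (e x)] id := by
      filter_upwards [e.open_target.mem_nhds (e.map_source hx)] with y hy using e.right_inv hy
    have h5 : HasMFDerivAt 𝓘(ℂ, E) 𝓘(ℂ, E) (e ∘ e.symm) (e x) (ContinuousLinearMap.id ℂ E) :=
      (hasMFDerivAt_id (e x)).congr_of_eventuallyEq h4
    exact hasMFDerivAt_unique h3 h5
  have k3 : Function.Injective B := by
    intro v w hvw
    have e1 : A (B v) = v := congrArg (fun T : E →L[ℂ] E => T v) k2
    have e2 : A (B w) = w := congrArg (fun T : E →L[ℂ] E => T w) k2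
    exact (e1.symm.trans (congrArg A hvw)).trans e2
  have k4 : Function.Surjective B :=
    (LinearMap.injective_iff_surjective (f := (B : E →ₗ[ℂ] E))).1 k3
  have k5 : ∀ v, H v = D (B v) := fun v => congrArg (fun T : E →L[ℂ] E => T v) k1
  change Function.Injective D ↔ Function.Injective H
  constructor
  · intro hD v w hvw
    rw [k5, k5] at hvw
    exact k3 (hD hvw)
  · intro hH v w hvw
    obtain ⟨v', rfl⟩ := k4 v
    obtain ⟨w', rfl⟩ := k4 w
    rw [← k5, ← k5] at hvw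
    rw [hH hvw]

theorem differentiableOn_chart {h : M → E} (hh : MDifferentiable 𝓘(ℂ, E) 𝓘(ℂ, E) h)
    {e : OpenPartialHomeomorph M E} (he : e ∈ maximalAtlas 𝓘(ℂ, E) 1 M) :
    DifferentiableOn ℂ (fun w => h (e.symm w)) e.target := by
  intro w hw
  have h1 : MDifferentiableAt 𝓘(ℂ, E) 𝓘(ℂ, E) e.symm w :=
    ((contMDiffOn_symm_of_mem_maximalAtlas he).contMDiffAt
      (e.open_target.mem_nhds hw)).mdifferentiableAt (by simp)
  exact (((hh _).comp w h1).differentiableAt).differentiableWithinAt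

/-- **inverse function theorem** -/
theorem isLocalDiffeomorphAt_of_mem_reg {h : M → E} (hh : MDifferentiable 𝓘(ℂ, E) 𝓘(ℂ, E) h)
    {x : M} (hx : x ∈ Reg h) : IsLocalDiffeomorphAt 𝓘(ℂ, E) 𝓘(ℂ, E) 1 h x ∧
      Reg h ∈ 𝓝 x := by
  set e := chartAt E x with he
  have heM : e ∈ maximalAtlas 𝓘(ℂ, E) 1 M := chart_mem_maximalAtlas x
  have hxe : x ∈ e.source := mem_chart_source E x
  have hd := differentiableOn_chart hh heM
  have hinj := (mfderiv_eq_chart hh heM hxe).1 hx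
  obtain ⟨Ψ, h1, h2, h3, h4, h5⟩ := exists_inverse_chart' e.open_target hd (e.map_source hxe) hinj
  have hsrc : ∀ y, y ∈ (e.trans Ψ).source ↔ y ∈ e.source ∧ e y ∈ Ψ.source := fun y => by
    rw [OpenPartialHomeomorph.trans_source]; rfl
  have heq : ∀ y ∈ (e.trans Ψ).source, h y = (e.trans Ψ) y := by
    intro y hy
    rw [OpenPartialHomeomorph.coe_trans, Function.comp, h3, e.left_inv ((hsrc y).1 hy).1]
  have hhC : ContMDiffOn 𝓘(ℂ, E) 𝓘(ℂ, E) 1 h (e.trans Ψ).source := by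
    intro y hy
    obtain ⟨hy1, hy2⟩ := (hsrc y).1 hy
    have k1 : ContMDiffAt 𝓘(ℂ, E) 𝓘(ℂ, E) 1 e y :=
      (contMDiffOn_of_mem_maximalAtlas heM).contMDiffAt (e.open_source.mem_nhds hy1)
    have k2 : ContDiffAt ℂ 1 (fun w => h (e.symm w)) (e y) :=
      ((contDiffOn_of_differentiableOn_complex e.open_target hd).contDiffAt
        (e.open_target.mem_nhds (e.map_source hy1))).of_le (by simp)
    have k3 : ContMDiffAt 𝓘(ℂ, E) 𝓘(ℂ, E) 1 ((fun w => h (e.symm w)) ∘ e) y :=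
      k2.contMDiffAt.comp y k1
    refine (k3.congr_of_eventuallyEq ?_).contMDiffWithinAt
    filter_upwards [e.open_source.mem_nhds hy1] with z hz
    simp only [Function.comp, e.left_inv hz]
  refine ⟨⟨⟨(e.trans Ψ).toPartialEquiv, (e.trans Ψ).open_source, (e.trans Ψ).open_target, ?_, ?_⟩,
    ?_, ?_⟩, ?_⟩
  · exact hhC.congr fun y hy => (heq y hy).symm
  · intro w hw
    have hw' : w ∈ Ψ.target ∧ Ψ.symm w ∈ e.target := by
      have := hw
      change w ∈ (e.trans Ψ).target at this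
      rw [OpenPartialHomeomorph.trans_target] at this
      exact this
    have k1 : ContMDiffAt 𝓘(ℂ, E) 𝓘(ℂ, E) 1 e.symm (Ψ.symm w) :=
      (contMDiffOn_symm_of_mem_maximalAtlas heM).contMDiffAt (e.open_target.mem_nhds hw'.2)
    have k2 : ContMDiffAt 𝓘(ℂ, E) 𝓘(ℂ, E) 1 Ψ.symm w :=
      ((h5 w hw'.1).of_le (by simp : (1:WithTop ℕ∞) ≤ ∞)).contMDiffAt
    exact (k1.comp w k2).contMDiffWithinAt
  · exact (hsrc x).2 ⟨hxe, h1⟩
  · exact fun y hy => heq y hy
  · filter_upwards [(e.trans Ψ).open_source.mem_nhds ((hsrc x).2 ⟨hxe, h1⟩)] with y hy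
    obtain ⟨hy1, hy2⟩ := (hsrc y).1 hy
    exact (mfderiv_eq_chart hh heM hy1).2 (h4 _ hy2)

theorem isOpen_reg {h : M → E} (hh : MDifferentiable 𝓘(ℂ, E) 𝓘(ℂ, E) h) : IsOpen (Reg h) :=
  isOpen_iff_mem_nhds.2 fun _ hx => (isLocalDiffeomorphAt_of_mem_reg hh hx).2

end inv

section main

variable {M : Type*} [MetricSpace M] [ChartedSpace E M]
  [IsManifold 𝓘(ℂ, E) 1 M] [IsManifold 𝓘(ℝ, E) ∞ M]
  [RiemannianBundle (fun x : M => TangentSpace 𝓘(ℝ, E) x)]
  [IsContMDiffRiemannianBundle 𝓘(ℝ, E) ∞ E (fun x : M => TangentSpace 𝓘(ℝ, E) x)]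
  [IsRiemannianManifold 𝓘(ℝ, E) M]

variable (E M) in
/-- every point is isolated in a fibre of a holomorphic map `M → ℂ^n` -/
def KComplete : Prop :=
  ∀ y : M, ∃ (n : ℕ) (g : M → EuclideanSpace ℂ (Fin n)),
    MDifferentiable 𝓘(ℂ, E) 𝓘(ℂ, EuclideanSpace ℂ (Fin n)) g ∧ ∀ᶠ x in 𝓝[≠] y, g x ≠ g y

/-- **there is no Hartogs family over the regular set of a holomorphic map `h : M → ℂ^n`**,
`n = dim M`, if `M` is a `K`-complete complete Kähler manifold of nonnegative bisectional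
curvature -/
theorem isEmpty_hartogs [CompleteSpace M] (hK : IsKahler E M)
    (hnn : ∀ x : M, NonnegBisectionalAt E x) (hKc : KComplete E M)
    {h : M → E} (hh : MDifferentiable 𝓘(ℂ, E) 𝓘(ℂ, E) h)
    {X : Type*} [TopologicalSpace X] {i : X → M} (hi : Topology.IsOpenEmbedding i)
    (hX : range i = Reg h) : IsEmpty (H922.HartogsFamily (fun x => h (i x))) := by
  refine ⟨fun F => ?_⟩
  have hreg : ∀ x, i x ∈ Reg h := fun x => hX ▸ mem_range_self x
  set Φ : E → M := fun x => i (F.Φ x) with hΦ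
  have hΦc : ContinuousOn Φ F.G := hi.continuous.comp_continuousOn F.sec.1
  have hsec : H922.SecOn h F.G Φ := ⟨hΦc, F.sec.2⟩
  have hchart : ∀ x ∈ F.G, MDifferentiableAt 𝓘(ℂ, E) 𝓘(ℂ, E) Φ x ∧
      Function.Bijective (mfderiv 𝓘(ℂ, E) 𝓘(ℂ, E) Φ x) := by
    intro x hx
    obtain ⟨e, he, hxe, -, heq⟩ := H922.exists_chart_of_sec
      (isLocalDiffeomorphAt_of_mem_reg hh (hreg (F.Φ x))).1 F.isOpen_G hsec hx
    have hev : Φ =ᶠ[𝓝 x] e.symm := by
      filter_upwards [e.open_target.mem_nhds hxe] with y hy using heq hy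
    have h1 : MDifferentiableAt 𝓘(ℂ, E) 𝓘(ℂ, E) e.symm x :=
      ((contMDiffOn_symm_of_mem_maximalAtlas he).contMDiffAt
        (e.open_target.mem_nhds hxe)).mdifferentiableAt (by simp)
    have h2 : MDifferentiableAt 𝓘(ℂ, E) 𝓘(ℂ, E) Φ x := h1.congr_of_eventuallyEq hev
    refine ⟨h2, ?_⟩
    let A : E →L[ℂ] E := mfderiv 𝓘(ℂ, E) 𝓘(ℂ, E) h (Φ x)
    let B : E →L[ℂ] E := mfderiv 𝓘(ℂ, E) 𝓘(ℂ, E) Φ x
    have h3 := ((hh (Φ x)).hasMFDerivAt).comp x h2.hasMFDerivAt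
    have h4 : (h ∘ Φ) =ᶠ[𝓝 x] id := by
      filter_upwards [F.isOpen_G.mem_nhds hx] with y hy using hsec.2 y hy
    have h5 : HasMFDerivAt 𝓘(ℂ, E) 𝓘(ℂ, E) (h ∘ Φ) x (ContinuousLinearMap.id ℂ E) :=
      (hasMFDerivAt_id x).congr_of_eventuallyEq h4
    have h7 : A.comp B = ContinuousLinearMap.id ℂ E := hasMFDerivAt_unique h3 h5
    have h8 : Function.Injective (B : E →ₗ[ℂ] E) := by
      intro v w hvw
      have e1 : A (B v) = v := congrArg (fun T : E →L[ℂ] E => T v) h7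
      have e2 : A (B w) = w := congrArg (fun T : E →L[ℂ] E => T w) h7
      exact (e1.symm.trans (congrArg A hvw)).trans e2
    exact ⟨h8, (LinearMap.injective_iff_surjective (f := (B : E →ₗ[ℂ] E))).1 h8⟩
  have het : Vale.Agent.P253.R2.H384.IsEtale E Φ F.G :=
    ⟨F.isOpen_G, fun x hx => (hchart x hx).1, fun x hx => (hchart x hx).2⟩
  obtain ⟨u, hu, y, hy⟩ := exists_limit hK hnn het F.r_pos F.isOpen_U F.closedBall_subset
    F.diff0 F.diff1 F.mem
  obtain ⟨n, g, hg, hiso⟩ := hKc y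
  have hyreg : y ∈ Reg h := injective_of_limit hh hg F.isOpen_G (fun x hx => (hchart x hx).1)
    hsec.2 F.r_pos F.isOpen_U F.closedBall_subset F.diff0 F.diff1 F.mem hu hy hiso
  rw [← hX] at hyreg
  obtain ⟨y', rfl⟩ := hyreg
  -- the family stays in the regular set
  have hray : Tendsto (fun t : ℝ => F.c0 (t * u + F.z0)) (𝓝[>] 0) (𝓝[F.G] (F.c0 F.z0)) := by
    refine tendsto_nhdsWithin_iff.2 ⟨?_, ?_⟩
    · have h1 : ContinuousAt F.c0 F.z0 := (F.diff0.differentiableAt (F.isOpen_U.mem_nhds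
        (F.closedBall_subset (mem_closedBall_self F.r_pos.le)))).continuousAt
      have h2 : Tendsto (fun t : ℝ => (t : ℂ) * u + F.z0) (𝓝 0) (𝓝 F.z0) := by
        have : Continuous fun t : ℝ => (t : ℂ) * u + F.z0 := by fun_prop
        simpa using this.tendsto 0
      exact (h1.tendsto.comp h2).mono_left nhdsWithin_le_nhds
    · filter_upwards [Ioo_mem_nhdsGT F.r_pos] with t ht
      have h1 : (t : ℂ) * u + F.z0 ∈ closedBall F.z0 F.r := by
        rw [mem_closedBall, dist_eq_norm, add_sub_cancel_right, norm_mul, hu, mul_one,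
          Complex.norm_real, Real.norm_of_nonneg ht.1.le]
        exact ht.2.le
      have h2 := F.mem 0 ⟨le_rfl, zero_le_one⟩ _ h1 fun h0 => by
        have h6 : (t : ℂ) * u = 0 := by simpa using (Prod.ext_iff.1 h0).2
        rcases mul_eq_zero.1 h6 with h7 | h7
        · exact ht.1.ne' (by exact_mod_cast h7)
        · rw [h7, norm_zero] at hu
          exact zero_ne_one hu
      simpa using h2
  have hesc : Tendsto (fun t : ℝ => F.Φ (F.c0 (t * u + F.z0))) (𝓝[>] 0) (cocompact X) :=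
    F.escape.comp hray
  have hlim : Tendsto (fun t : ℝ => F.Φ (F.c0 (t * u + F.z0))) (𝓝[>] 0) (𝓝 y') := by
    rw [hi.tendsto_nhds_iff]
    exact hy
  have : LocallyCompactSpace M := by
    have : ProperSpace E := FiniteDimensional.proper ℂ E
    exact ChartedSpace.locallyCompactSpace E M
  have : LocallyCompactSpace X := hi.locallyCompactSpace
  exact hlim.not_tendsto (disjoint_nhds_cocompact y') hesc

end main

end Vale.Agent.P253.R2.H451
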